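/-
P162 (Thorp shuffle), Theta(log n) project, module Core (helper22): shared definitions.
Plan: notes/P162_logn_plan.md.  Namespace P162L.
-/
import Mathlib

namespace P162L

open scoped BigOperators

/-! ### positions and switches -/

/-- positions: bit strings of length `d` -/
abbrev Pos (d : ℕ) := Fin d → Bool

/-- flip bit `j` (identity when `j ≥ d`) -/
def flipBit {d : ℕ} (j : ℕ) (z : Pos d) : Pos d := fun i => if (i : ℕ) = j then !z i else z i

/-- clear bit `j`: name of the switch (column) of direction `j` through `z` -/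
def clr {d : ℕ} (j : ℕ) (z : Pos d) : Pos d := fun i => if (i : ℕ) = j then false else z i

theorem flipBit_flipBit {d : ℕ} (j : ℕ) (z : Pos d) : flipBit j (flipBit j z) = z := by
  funext i
  unfold flipBit
  by_cases h : (i : ℕ) = j <;> simp [h]

theorem clr_flipBit {d : ℕ} (j : ℕ) (z : Pos d) : clr j (flipBit j z) = clr j z := by
  funext i
  unfold flipBit clr
  by_cases h : (i : ℕ) = j <;> simp [h]

theorem lay_aux {d : ℕ} (j : ℕ) (ω : Pos d → Bool) (z : Pos d) :
    (if ω (clr j (if ω (clr j z) then flipBit j z else z)) then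
      flipBit j (if ω (clr j z) then flipBit j z else z)
      else (if ω (clr j z) then flipBit j z else z)) = z := by
  by_cases h : ω (clr j z) = true
  · simp only [h, if_true, clr_flipBit, flipBit_flipBit]
  · simp only [h, Bool.false_eq_true, if_false]

/-- layer `j` of switches with coins `ω` (only the coins `ω (clr j z)` matter) -/
def lay {d : ℕ} (j : ℕ) (ω : Pos d → Bool) : Equiv.Perm (Pos d) where
  toFun z := if ω (clr j z) then flipBit j z else z
  invFun z := if ω (clr j z) then flipBit j z else z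
  left_inv := lay_aux j ω
  right_inv := lay_aux j ω

theorem lay_apply {d : ℕ} (j : ℕ) (ω : Pos d → Bool) (z : Pos d) :
    lay j ω z = if ω (clr j z) then flipBit j z else z := rfl

theorem lay_mul_self {d : ℕ} (j : ℕ) (ω : Pos d → Bool) : lay j ω * lay j ω = 1 := by
  apply Equiv.ext
  intro z
  exact lay_aux j ω z

theorem clr_lay {d : ℕ} (j : ℕ) (ω : Pos d → Bool) (z : Pos d) : clr j (lay j ω z) = clr j z := by
  rw [lay_apply]
  split
  · exact clr_flipBit j z
  · rfl

/-! ### layer operators on functions on a set acted on by `Perm (Pos d)` -/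

/-- average over all coin configurations of layer `j` -/
noncomputable def Lay (d : ℕ) (X : Type*) [MulAction (Equiv.Perm (Pos d)) X] (j : ℕ) :
    (X → ℝ) →ₗ[ℝ] (X → ℝ) where
  toFun Φ := fun x =>
    (1 / (2 : ℝ) ^ Fintype.card (Pos d)) * ∑ ω : Pos d → Bool, Φ (lay j ω • x)
  map_add' Φ Ψ := by
    funext x
    simp only [Pi.add_apply, Finset.sum_add_distrib, mul_add]
  map_smul' c Φ := by
    funext x
    simp only [Pi.smul_apply, smul_eq_mul, ← Finset.mul_sum, RingHom.id_apply]
    ring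

theorem Lay_apply (d : ℕ) (X : Type*) [MulAction (Equiv.Perm (Pos d)) X] (j : ℕ)
    (Φ : X → ℝ) (x : X) : Lay d X j Φ x =
    (1 / (2 : ℝ) ^ Fintype.card (Pos d)) * ∑ ω : Pos d → Bool, Φ (lay j ω • x) := rfl

/-- `TT i = Lay (i-1) ∘ ... ∘ Lay 0 ∘ Lay 0 ∘ ... ∘ Lay (i-1)` (palindromic) -/
noncomputable def TT (d : ℕ) (X : Type*) [MulAction (Equiv.Perm (Pos d)) X] :
    ℕ → ((X → ℝ) →ₗ[ℝ] (X → ℝ))
  | 0 => LinearMap.id
  | (i + 1) => (Lay d X i).comp ((TT d X i).comp (Lay d X i))

/-- `RR i = Lay 0 ∘ Lay 1 ∘ ... ∘ Lay (i-1)` (one sweep) -/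
noncomputable def RR (d : ℕ) (X : Type*) [MulAction (Equiv.Perm (Pos d)) X] :
    ℕ → ((X → ℝ) →ₗ[ℝ] (X → ℝ))
  | 0 => LinearMap.id
  | (i + 1) => (RR d X i).comp (Lay d X i)

/-! ### markings (cards `C`, injective positions `C ↪ Pos d`) -/

section conf

variable {d : ℕ} {C : Type*}

/-- same columns in direction `j` -/
def rel (j : ℕ) (x y : C ↪ Pos d) : Prop := ∀ c (i : Fin d), (i : ℕ) ≠ j → x c i = y c i

/-- agreement on all bits `≥ i` -/
def agr (i : ℕ) (a b : C ↪ Pos d) : Prop := ∀ c (k : Fin d), i ≤ (k : ℕ) → a c k = b c k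

/-- the card in the same column of direction `j` (or the card itself) -/
noncomputable def ptn (j : ℕ) (x : C ↪ Pos d) (c : C) : C :=
  open Classical in if h : ∃ c', x c' = flipBit j (x c) then h.choose else c

theorem ptn_spec (j : ℕ) (x : C ↪ Pos d) (c c' : C) (h : x c' = flipBit j (x c)) :
    ptn j x c = c' := by
  have h1 : ∃ c', x c' = flipBit j (x c) := ⟨c', h⟩
  unfold ptn
  rw [dif_pos h1]
  exact x.injective (h1.choose_spec.trans h.symm)

theorem ptn_none (j : ℕ) (x : C ↪ Pos d) (c : C) (h : ¬ ∃ c', x c' = flipBit j (x c)) :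
    ptn j x c = c := by
  unfold ptn
  rw [dif_neg h]

theorem ptn_ptn (j : ℕ) (x : C ↪ Pos d) (c : C) : ptn j x (ptn j x c) = c := by
  by_cases h : ∃ c', x c' = flipBit j (x c)
  · obtain ⟨c', hc⟩ := h
    rw [ptn_spec j x c c' hc]
    apply ptn_spec
    rw [hc, flipBit_flipBit]
  · rw [ptn_none j x c h, ptn_none j x c h]

/-- `ptn` as an involutive permutation of the cards -/
noncomputable def ptnE (j : ℕ) (x : C ↪ Pos d) : Equiv.Perm C :=
  ⟨ptn j x, ptn j x, ptn_ptn j x, ptn_ptn j x⟩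

theorem ptnE_apply (j : ℕ) (x : C ↪ Pos d) (c : C) : ptnE j x c = ptn j x c := rfl

end conf

/-! ### orbits of two involutions and the number of free orbits (cycles) -/

section orb

variable {C : Type*} [Fintype C] [DecidableEq C]

/-- orbit of `c` under the group generated by the involutions `σ`, `τ` -/
noncomputable def orbF (σ τ : Equiv.Perm C) (c : C) : Finset C :=
  open Classical in
  Finset.univ.filter fun c' => Relation.ReflTransGen (fun a b => b = σ a ∨ b = τ a) c c'

/-- the free orbits: orbits without fixed points of `σ` or `τ` -/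
noncomputable def freeOrb (σ τ : Equiv.Perm C) : Finset (Finset C) :=
  open Classical in
  (Finset.univ.image (orbF σ τ)).filter fun O => ∀ c ∈ O, σ c ≠ c ∧ τ c ≠ c

/-- number of free orbits = number of cycles in the union of two matchings -/
noncomputable def cyc (σ τ : Equiv.Perm C) : ℕ := (freeOrb σ τ).card

end orb

/-! ### kernels -/

section kern

variable {d : ℕ} {C : Type*} [Fintype C] [DecidableEq C]

/-- class of `x` in direction `j` -/
noncomputable def cls (j : ℕ) (x : C ↪ Pos d) : Finset (C ↪ Pos d) :=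
  open Classical in Finset.univ.filter fun y => rel j x y

/-- kernel of `TT i` -/
noncomputable def Tk (i : ℕ) (x y : C ↪ Pos d) : ℝ :=
  TT d (C ↪ Pos d) i (Pi.single y 1) x

/-- pairs `(a,b)` above `(x,y)` in direction `i` agreeing on the bits `≥ i` -/
noncomputable def Kset (i : ℕ) (x y : C ↪ Pos d) : Finset ((C ↪ Pos d) × (C ↪ Pos d)) :=
  open Classical in ((cls i x) ×ˢ (cls i y)).filter fun p => agr i p.1 p.2

/-- the weight `2^(number of cycles)` -/
noncomputable def ww (i : ℕ) (x y : C ↪ Pos d) : ℝ :=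
  ((Kset i x y).card : ℝ) * 2 ^ Fintype.card C / (((cls i x).card : ℝ) * ((cls i y).card : ℝ))

/-- the majorising kernel -/
noncomputable def Gk (ι : ℝ) : ℕ → (C ↪ Pos d) → (C ↪ Pos d) → ℝ
  | 0, x, y => if x = y then 1 else 0
  | (i + 1), x, y => 1 / (((cls i x).card : ℝ) * ((cls i y).card : ℝ)) * (ww i x y) ^ ι *
      ∑ a ∈ cls i x, ∑ b ∈ cls i y, Gk ι i a b

end kern

/-! ### path expectations -/

section path

variable {X : Type*}

/-- upward path expectation: `n` steps from time `i`, `F` a functional of the path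
(`μ j` = state at time `j`, constant outside `[i, i+n]`) -/
noncomputable def ER (P : ℕ → (X → ℝ) →ₗ[ℝ] (X → ℝ)) : ℕ → ℕ → ((ℕ → X) → ℝ) → X → ℝ
  | 0, _, F, z => F fun _ => z
  | (n + 1), i, F, z =>
    P i (fun y => ER P n (i + 1) (fun μ => F fun j => if j ≤ i then z else μ j) y) z

/-- downward path expectation: from time `n` down to time `0` through `P (n-1), ..., P 0` -/
noncomputable def EL (P : ℕ → (X → ℝ) →ₗ[ℝ] (X → ℝ)) : ℕ → ((ℕ → X) → ℝ) → X → ℝ
  | 0, F, x => F fun _ => x
  | (n + 1), F, x =>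
    P n (fun a => EL P n (fun lam => F fun j => if j ≤ n then lam j else x) a) x

/-- `Up n i Φ z = E[Φ(state at time i+n) | state z at time i]` -/
noncomputable def Up (P : ℕ → (X → ℝ) →ₗ[ℝ] (X → ℝ)) : ℕ → ℕ → (X → ℝ) → (X → ℝ)
  | 0, _, Φ => Φ
  | (n + 1), i, Φ => P i (Up P n (i + 1) Φ)

/-- `Dn i n Φ x = E[Φ(state at time i) | state x at time i+n]` (downward) -/
noncomputable def Dn (P : ℕ → (X → ℝ) →ₗ[ℝ] (X → ℝ)) (i : ℕ) : ℕ → (X → ℝ) → (X → ℝ)
  | 0, Φ => Φ
  | (n + 1), Φ => P (i + n) (Dn P i n Φ)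

/-- Markov operator -/
structure IsMk (P : (X → ℝ) →ₗ[ℝ] (X → ℝ)) : Prop where
  mono : ∀ Φ Ψ : X → ℝ, (∀ x, Φ x ≤ Ψ x) → ∀ x, P Φ x ≤ P Ψ x
  one : P (fun _ => 1) = fun _ => 1

theorem isMk_Lay (d : ℕ) (X : Type*) [MulAction (Equiv.Perm (Pos d)) X] (j : ℕ) :
    IsMk (Lay d X j) where
  mono Φ Ψ h x := by
    rw [Lay_apply, Lay_apply]
    apply mul_le_mul_of_nonneg_left _ (by positivity)
    exact Finset.sum_le_sum fun ω _ => h _
  one := by
    funext x
    have hc : (Fintype.card (Pos d → Bool) : ℝ) = 2 ^ Fintype.card (Pos d) := by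
      rw [Fintype.card_fun, Fintype.card_bool, Nat.cast_pow, Nat.cast_ofNat]
    rw [Lay_apply, Finset.sum_const, Finset.card_univ, nsmul_eq_mul, mul_one, hc, one_div,
      inv_mul_cancel₀ (by positivity)]

end path

/-- number of blocks (bits `≥ j0`) occupied by the cards -/
def high {d : ℕ} (j0 : ℕ) (z : Pos d) : Pos d := fun i => if (i : ℕ) < j0 then false else z i

noncomputable def nblk {d : ℕ} {C : Type*} [Fintype C] (j0 : ℕ) (x : C ↪ Pos d) : ℕ :=
  open Classical in (Finset.univ.image fun c => high j0 (x c)).card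

/-! ### levels in `L²(Perm Ω)` -/

/-- functions on `Perm Ω` that are sums of functions of at most `m` cards -/
def UU (Ω : Type*) (m : ℕ) : Submodule ℝ (Equiv.Perm Ω → ℝ) :=
  Submodule.span ℝ {f | ∃ J : Finset Ω, J.card ≤ m ∧
    ∀ π π' : Equiv.Perm Ω, (∀ c ∈ J, π c = π' c) → f π = f π'}

/-- pure functions on `l`-tuples: all one-coordinate sums vanish -/
def Pure {l : ℕ} {Ω : Type*} [Fintype Ω] [DecidableEq Ω] (φ : (Fin l ↪ Ω) → ℝ) : Prop :=
  ∀ (i : Fin l) (y : Fin l ↪ Ω),
    ∑ y' ∈ Finset.univ.filter (fun y' : Fin l ↪ Ω => ∀ k, k ≠ i → y' k = y k), φ y' = 0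

end P162L
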