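/-
P162 (Thorp shuffle), Theta(log n) project, module Window (helper22): definitions for the
window lemma (coins, paths, selected cards, free switches) and the statements W1-W6.
-/
import Vale.Agent.P162.Log.Core

namespace P162L

open scoped BigOperators

/-- coins of `n` layers -/
abbrev Coins (n d : ℕ) := Fin n → Pos d → Bool

/-- position after the first `s` layers (layers `i, i+1, ..., i+s-1`) -/
def wpos {n d : ℕ} (i : ℕ) (ω : Coins n d) : ℕ → Pos d → Pos d
  | 0, z => z
  | (s + 1), z => if h : s < n then lay (i + s) (ω ⟨s, h⟩) (wpos i ω s z) else wpos i ω s z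

theorem wpos_injective {n d : ℕ} (i : ℕ) (ω : Coins n d) (s : ℕ) :
    Function.Injective (wpos i ω s) := by
  induction s with
  | zero => exact fun _ _ h => h
  | succ s ih =>
    intro a b h
    unfold wpos at h
    split at h
    · exact ih ((lay (i + s) _).injective h)
    · exact ih h

/-- the switch used at step `s` -/
def site {n d : ℕ} (i : ℕ) (ω : Coins n d) (z : Pos d) (s : Fin n) : Fin n × Pos d :=
  (s, clr (i + (s : ℕ)) (wpos i ω (s : ℕ) z))

/-- the set of switches used by the card starting at `z` (it has exactly `n` elements) -/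
def pathS {n d : ℕ} (i : ℕ) (ω : Coins n d) (z : Pos d) : Finset (Fin n × Pos d) :=
  Finset.univ.image (site i ω z)

/-- final positions -/
def wend {n d : ℕ} {C : Type*} (i : ℕ) (ω : Coins n d) (z : C ↪ Pos d) : C ↪ Pos d :=
  ⟨fun c => wpos i ω n (z c), fun _ _ h => z.injective (wpos_injective i ω n h)⟩

/-- [W1] the operator `Up` as an average over coins -/
def W1Statement : Prop := ∀ (n d : ℕ) (C : Type) [Fintype C] [DecidableEq C] (i : ℕ)
  (Φ : (C ↪ Pos d) → ℝ) (z : C ↪ Pos d),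
  Up (Lay d (C ↪ Pos d)) n i Φ z =
    (1 / (Fintype.card (Coins n d) : ℝ)) * ∑ ω : Coins n d, Φ (wend i ω z)

/-- [W2] Kraft: in every nonempty set of cards some card shares at most `log₂ |S|` switches with
the other cards of `S`. (Proof: `Σ_{c ∈ S} 2^{-m_c} ≥ 1` by induction on the number of layers,
splitting `S` after the first layer by the bit `i`.) -/
def W2Statement : Prop := ∀ (n d : ℕ) (C : Type) [Fintype C] [DecidableEq C] (i : ℕ)
  (_hi : i + n ≤ d) (ω : Coins n d) (z : C ↪ Pos d) (S : Finset C) (_hS : S.Nonempty),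
  ∃ c ∈ S, 2 ^ ((pathS i ω (z c)).filter
    (fun s => ∃ c' ∈ S, c' ≠ c ∧ s ∈ pathS i ω (z c'))).card ≤ S.card

/-- the alternating permutation `π = τ σ` with `τ` the partner map at the end of the window -/
noncomputable def altP {n d : ℕ} {C : Type*} (i j : ℕ) (σ : Equiv.Perm C) (z : C ↪ Pos d)
    (ω : Coins n d) : Equiv.Perm C := ptnE j (wend i ω z) * σ

/-- the cards of the cycles started at `X0`, with `2 r x` cards on the cycle of `x` -/
noncomputable def Sel {n d : ℕ} {C : Type*} [DecidableEq C] (i j : ℕ) (σ : Equiv.Perm C)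
    (z : C ↪ Pos d) (X0 : Finset C) (r : C → ℕ) (ω : Coins n d) : Finset C :=
  X0.biUnion fun x => (Finset.range (r x)).image (fun k => (altP i j σ z ω ^ k) x) ∪
    (Finset.range (r x)).image (fun k => σ ((altP i j σ z ω ^ k) x))

/-- the event that every `x ∈ X0` starts a cycle with `2 r x` cards, all cards other than the
starts being outside of `X0` -/
def Ev {n d : ℕ} {C : Type*} (i j : ℕ) (σ : Equiv.Perm C)
    (z : C ↪ Pos d) (X0 : Finset C) (r : C → ℕ) (ω : Coins n d) : Prop :=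
  ∀ x ∈ X0, 1 ≤ r x ∧ (altP i j σ z ω ^ (r x)) x = x ∧
    (∀ k, 1 ≤ k → k < r x → (altP i j σ z ω ^ k) x ∉ X0) ∧
    (∀ k, k < r x → σ ((altP i j σ z ω ^ k) x) ∉ X0) ∧
    (∀ k, k < r x → ptnE j (wend i ω z) (σ ((altP i j σ z ω ^ k) x)) ≠
      σ ((altP i j σ z ω ^ k) x))

/-- switches used by exactly one selected card, that card being a start -/
noncomputable def FF {n d : ℕ} {C : Type*} [DecidableEq C] (i j : ℕ) (σ : Equiv.Perm C)
    (z : C ↪ Pos d) (X0 : Finset C) (r : C → ℕ) (ω : Coins n d) : Finset (Fin n × Pos d) :=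
  open Classical in Finset.univ.filter fun s => ∃ x ∈ X0, s ∈ pathS i ω (z x) ∧
    ∀ c ∈ Sel i j σ z X0 r ω, c ≠ x → s ∉ pathS i ω (z c)

/-- [W3] unique path property: the end point determines the path and the coins on it -/
def W3Statement : Prop := ∀ (n d i : ℕ) (_hi : i + n ≤ d) (ω ω' : Coins n d) (z : Pos d)
  (_h : wpos i ω n z = wpos i ω' n z),
  (∀ s ≤ n, wpos i ω s z = wpos i ω' s z) ∧
  (∀ s : Fin n, ω s (clr (i + (s : ℕ)) (wpos i ω (s : ℕ) z)) =
    ω' s (clr (i + (s : ℕ)) (wpos i ω' (s : ℕ) z)))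

/-- [W4] compression: `Σ_{ω ∈ Ev} 2^{|FF ω|} ≤ #coins` (the sets of configurations
`ω' = ω off FF ω`, `ω ∈ Ev`, are pairwise disjoint). -/
def W4Statement : Prop := ∀ (n d : ℕ) (C : Type) [Fintype C] [DecidableEq C] (i j : ℕ)
  (_hi : i + n ≤ d) (σ : Equiv.Perm C) (_hσ : σ * σ = 1) (z : C ↪ Pos d)
  (X0 : Finset C) (r : C → ℕ) (E : Finset (Coins n d))
  (_hE : ∀ ω ∈ E, Ev i j σ z X0 r ω),
  ∑ ω ∈ E, 2 ^ (FF i j σ z X0 r ω).card ≤ Fintype.card (Coins n d)

/-- [W4] to be proved -/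
def W4AStatement : Prop := W3Statement → W4Statement

/-- [W5] selection lemma (average over all subsets `X0` of `St`). -/
def W5Statement : Prop := ∀ (C S : Type) [Fintype C] [DecidableEq C] [Fintype S] [DecidableEq S]
  (St : Finset C) (O : C → Finset C) (path : C → Finset S) (u : ℕ)
  (_h1 : ∀ x ∈ St, ∀ y ∈ St, x ≠ y → Disjoint (O x) (O y))
  (_h2 : ∀ s : S, (Finset.univ.filter fun c => s ∈ path c).card ≤ 2)
  (_h3 : ∀ x ∈ St, x ∈ O x)
  (_h4 : ∀ x ∈ St, u ≤ ((path x).filter fun s => ∀ c ∈ O x, c ≠ x → s ∉ path c).card),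
  ∃ X0 ⊆ St, u * St.card ≤ 4 * (Finset.univ.filter fun s : S => ∃ x ∈ X0, s ∈ path x ∧
    ∀ x' ∈ X0, ∀ c ∈ O x', c ≠ x → s ∉ path c).card

/-- [W6] the window lemma. -/
def WLStatement : Prop := ∀ (d : ℕ) (C : Type) [Fintype C] [DecidableEq C]
  (σ : Equiv.Perm C) (_hσ : σ * σ = 1) (b j : ℕ) (_hb : 1 ≤ b) (_hj : 16 * b ≤ j) (_hjd : j < d)
  (θ : ℝ) (_h1 : 1 ≤ θ) (_h2 : θ ≤ 2 ^ b) (z : C ↪ Pos d),
  Up (Lay d (C ↪ Pos d)) (16 * b) (j - 16 * b) (fun y => θ ^ (cyc σ (ptnE j y))) z ≤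
    Real.exp ((Fintype.card C : ℝ) * ((b : ℝ) + 2) / 2 ^ b)

/-- [W6] to be proved from W1-W5 -/
def W6Statement : Prop := W1Statement → W2Statement → W4Statement → W5Statement → WLStatement

end P162L
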