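/-
P162 (Thorp shuffle), Theta(log n) project, module Stmts (helper22): statements of all modules.
-/
import Vale.Agent.P162.Log.Core
import Vale.Agent.P162.Log.Window
import Vale.Agent.P162.Heat
import Vale.Agent.P162.Link

namespace P162L

open scoped BigOperators

/-! ### kernels on markings -/

/-- [QC] the layer operator averages over the class -/
def QCStatement : Prop := ∀ (d : ℕ) (C : Type) [Fintype C] [DecidableEq C] (j : ℕ)
  (Φ : (C ↪ Pos d) → ℝ) (x : C ↪ Pos d),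
  Lay d (C ↪ Pos d) j Φ x = (1 / ((cls j x).card : ℝ)) * ∑ y ∈ cls j x, Φ y

/-- [KI] the kernel inequality (Hölder, induction on `i`) -/
def KIStatement : Prop := ∀ (d : ℕ) (C : Type) [Fintype C] [DecidableEq C] (ι : ℝ) (_h : 0 ≤ ι)
  (i : ℕ) (x y : C ↪ Pos d),
  ((2 : ℝ) ^ i) ^ (ι * (Fintype.card C : ℝ)) * (Tk i x y) ^ (1 + ι) ≤ Gk ι i x y

/-- [KA] to be proved -/
def KAStatement : Prop := QCStatement → KIStatement

/-- [UR] the row sums of the majorising kernel as a path expectation -/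
def URStatement : Prop := ∀ (d : ℕ) (C : Type) [Fintype C] [DecidableEq C] (ι : ℝ)
  (n : ℕ) (x : C ↪ Pos d),
  ∑ y, Gk ι n x y = EL (Lay d (C ↪ Pos d)) n (fun lam =>
    ER (Lay d (C ↪ Pos d)) n 0 (fun μ => ∏ j ∈ Finset.range n, (ww j (lam j) (μ j)) ^ ι)
      (lam 0)) x

/-- [UA] to be proved -/
def UAStatement : Prop := QCStatement → URStatement

/-- [WC] the weight is at most `2 ^ (number of cycles)` -/
def WCStatement : Prop := ∀ (d : ℕ) (C : Type) [Fintype C] [DecidableEq C] (j : ℕ)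
  (_hj : j < d) (x y : C ↪ Pos d), ww j x y ≤ 2 ^ (cyc (ptnE j x) (ptnE j y))

/-- [WB] trivial bound of the weight at low levels -/
def WBStatement : Prop := ∀ (d : ℕ) (C : Type) [Fintype C] [DecidableEq C] (j j0 : ℕ)
  (_hj : j < d) (_h : j < j0) (x y : C ↪ Pos d), ww j x y ≤ 2 ^ (Fintype.card C - nblk j0 x)

/-- [SS] small scales -/
def SSStatement : Prop := ∀ (d : ℕ) (C : Type) [Fintype C] [DecidableEq C] (j0 : ℕ)
  (_hj : j0 ≤ d) (θ a : ℝ) (_h1 : 1 ≤ θ) (_h2 : θ ≤ a)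
  (_h3 : a * (Fintype.card C : ℝ) ≤ 2 ^ (d - j0)) (x : C ↪ Pos d),
  Dn (Lay d (C ↪ Pos d)) j0 (d - j0) (fun y => θ ^ (Fintype.card C - nblk j0 y)) x ≤
    Real.exp (2 * θ * (Fintype.card C : ℝ) / a)

/-- [EV] properties of the downward path expectation -/
def EVStatement : Prop := ∀ (d : ℕ) (C : Type) [Fintype C] [DecidableEq C] (n : ℕ)
  (x : C ↪ Pos d),
  (∀ F F' : (ℕ → (C ↪ Pos d)) → ℝ,
    (∀ lam : ℕ → (C ↪ Pos d), lam n = x → (∀ j < n, rel j (lam (j + 1)) (lam j)) →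
      F lam ≤ F' lam) →
    EL (Lay d (C ↪ Pos d)) n F x ≤ EL (Lay d (C ↪ Pos d)) n F' x) ∧
  (∀ (k : ℕ) (Φ : (C ↪ Pos d) → ℝ), k ≤ n →
    EL (Lay d (C ↪ Pos d)) n (fun lam => Φ (lam k)) x = Dn (Lay d (C ↪ Pos d)) k (n - k) Φ x)

/-- [CB] combination of windows (abstract Markov chain) -/
def CBStatement : Prop := ∀ (X : Type) (P : ℕ → (X → ℝ) →ₗ[ℝ] (X → ℝ)) (_hP : ∀ i, IsMk (P i))
  (d k0 : ℕ) (_hk0 : 1 ≤ k0) (g : ℕ → X → ℝ) (_hg : ∀ j x, 1 ≤ g j x) (B : ℕ → ℝ)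
  (_hB : ∀ k, 1 ≤ B k)
  (_hw : ∀ k, k0 ≤ k → ∀ j, 2 ^ k ≤ j → j < 2 ^ (k + 1) → j < d → ∀ z,
    Up P (2 ^ (k - 1)) (j - 2 ^ (k - 1)) (fun y => (g j y) ^ (2 ^ (k + 1))) z ≤ B k) (z : X),
  ER P d 0 (fun μ => ∏ j ∈ Finset.Ico (2 ^ k0) d, g j (μ j)) z ≤ ∏ k ∈ Finset.Ico k0 d, B k

/-- [GA] the bound of the row sums of the majorising kernel -/
def GAStatement : Prop := ∃ K : ℝ, 0 ≤ K ∧ ∀ (d : ℕ) (C : Type) [Fintype C] [DecidableEq C]
  (_hC : Fintype.card C ≤ 2 ^ d) (x : C ↪ Pos d),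
  ∑ y, Gk (1 / 65) d x y ≤
    Real.exp (K * (Fintype.card C : ℝ) *
      ((Fintype.card C : ℝ) / 2 ^ d) ^ ((1 : ℝ) / 256))

/-- [SB] to be proved -/
def SBStatement : Prop := URStatement → WCStatement → WBStatement → SSStatement → EVStatement →
  CBStatement → WLStatement → GAStatement

/-- [TR] Young for kernels by AM-GM over closed paths -/
def TRStatement : Prop := ∀ (X : Type) [Fintype X] [DecidableEq X] (K : Matrix X X ℝ)
  (_hs : K.transpose = K) (_h0 : ∀ x y, 0 ≤ K x y) (p : ℕ) (_hp : 1 ≤ p) (D : ℝ)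
  (_hD : ∀ x, ∑ y, (K x y) ^ (((p : ℝ) + 1) / p) ≤ D),
  Matrix.trace (K ^ (p + 1)) ≤ (Fintype.card X : ℝ) * D ^ p

/-- [PS] basic properties of the layer, sweep and palindromic operators -/
def PSStatement : Prop := ∀ (d : ℕ) (X : Type) [Fintype X] [MulAction (Equiv.Perm (Pos d)) X],
  -- symmetric
  (∀ (j : ℕ) (f g : X → ℝ), ∑ x, Lay d X j f x * g x = ∑ x, f x * Lay d X j g x) ∧
  (∀ (i : ℕ) (f g : X → ℝ), ∑ x, TT d X i f x * g x = ∑ x, f x * TT d X i g x) ∧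
  -- factorisation
  (∀ (i : ℕ) (f g : X → ℝ), ∑ x, TT d X i f x * g x = ∑ x, RR d X i f x * RR d X i g x) ∧
  -- equivariance under pull back
  (∀ (Y : Type) [MulAction (Equiv.Perm (Pos d)) Y] (e : X → Y)
    (_he : ∀ (g : Equiv.Perm (Pos d)) x, e (g • x) = g • e x) (i : ℕ) (f : Y → ℝ),
    TT d X i (f ∘ e) = (TT d Y i f) ∘ e) ∧
  -- equivariance under push forward
  (∀ (Y : Type) [Fintype Y] [DecidableEq Y] [MulAction (Equiv.Perm (Pos d)) Y] (e : X → Y)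
    (_he : ∀ (g : Equiv.Perm (Pos d)) x, e (g • x) = g • e x) (i : ℕ) (f : X → ℝ),
    TT d Y i (fun y => ∑ x ∈ Finset.univ.filter (fun x => e x = y), f x) =
      fun y => ∑ x ∈ Finset.univ.filter (fun x => e x = y), TT d X i f x)

/-- [TS] trace bound on markings -/
def TSStatement : Prop := ∃ K : ℝ, 0 ≤ K ∧ ∀ (d : ℕ) (C : Type) [Fintype C] [DecidableEq C]
  (_hC : Fintype.card C ≤ 2 ^ d),
  LinearMap.trace ℝ ((C ↪ Pos d) → ℝ) ((TT d (C ↪ Pos d) d) ^ 66) ≤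
    Real.exp (K * (Fintype.card C : ℝ) *
      ((Fintype.card C : ℝ) / 2 ^ d) ^ ((1 : ℝ) / 256))

/-- [TA] to be proved -/
def TAStatement : Prop := KIStatement → GAStatement → TRStatement → PSStatement → TSStatement

/-- [G1] correlation of two copies of a pure function (general finite `Ω`), `D` = set of
coordinates where the two choices differ -/
def G1Statement : Prop := ∀ (Ω : Type) [Fintype Ω] [DecidableEq Ω] (l s : ℕ)
  (φ : (Fin l ↪ Ω) → ℝ) (_hp : Pure φ) (J J' : Fin l → Fin s),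
  |∑ x : (Fin l × Fin s) ↪ Ω,
      φ ⟨fun i => x (i, J i), fun _ _ h => congrArg Prod.fst (x.injective h)⟩ *
      φ ⟨fun i => x (i, J' i), fun _ _ h => congrArg Prod.fst (x.injective h)⟩| *
    ((Fintype.card Ω - l).descFactorial (Finset.univ.filter fun i => J i ≠ J' i).card : ℝ) ≤
  ((Finset.univ.filter fun i => J i ≠ J' i).card.factorial : ℝ) *
    ∑ x : (Fin l × Fin s) ↪ Ω,
      φ ⟨fun i => x (i, J i), fun _ _ h => congrArg Prod.fst (x.injective h)⟩ ^ 2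

/-- [GR] multiplicity of the eigenvalues of pure eigenfunctions -/
def GRStatement : Prop := ∀ (d l s : ℕ) (_hl : 1 ≤ l) (_hs : 1 ≤ s) (_hq : 5 * (l * s) ≤ 2 ^ d)
  (φ : (Fin l ↪ Pos d) → ℝ) (_hφ : φ ≠ 0) (_hp : Pure φ) (β : ℝ)
  (_hβ : TT d (Fin l ↪ Pos d) d φ = β • φ) (p : ℕ),
  (s : ℝ) ^ l * β ^ p ≤
    2 * LinearMap.trace ℝ ((Fin l × Fin s ↪ Pos d) → ℝ) ((TT d (Fin l × Fin s ↪ Pos d) d) ^ p)

/-- [G2] to be proved -/
def G2Statement : Prop := G1Statement → PSStatement → GRStatement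

/-- [LO] killed by all products of `k+1` disjoint `1 - (a b)` implies level `≤ 2k` -/
def LOStatement : Prop := ∀ (Ω : Type) [Fintype Ω] [DecidableEq Ω] (k : ℕ)
  (f : EuclideanSpace ℝ (Equiv.Perm Ω))
  (_h : ∀ l : List (Ω × Ω), P162.DisjPairs l → l.length = k + 1 →
    P162.altOp (P162.regRep Ω) l f = 0),
  (fun π => f π) ∈ UU Ω (2 * k)

/-- [FL] trace along a flag of invariant subspaces -/
def FLStatement : Prop := ∀ (V : Type) [NormedAddCommGroup V] [InnerProductSpace ℝ V]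
  [FiniteDimensional ℝ V] (T : V →ₗ[ℝ] V) (_hT : T.IsSymmetric)
  (_hpos : ∀ v, 0 ≤ inner ℝ v (T v)) (L : ℕ) (U : ℕ → Submodule ℝ V) (_hmono : Monotone U)
  (hinv : ∀ l, ∀ v ∈ U l, T v ∈ U l) (b τ : ℕ → ℝ) (binf τinf : ℝ) (p m : ℕ) (_hpm : p ≤ m)
  (_hb0 : ∀ l, 0 ≤ b l) (_hbi0 : 0 ≤ binf)
  (_h0 : Module.finrank ℝ (U 0) ≤ 1) (_h0' : ∀ v ∈ U 0, T v = v)
  (_hb : ∀ l, 1 ≤ l → l ≤ L → ∀ v ∈ U l, (∀ u ∈ U (l - 1), inner ℝ u v = (0 : ℝ)) → v ≠ 0 →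
    ∀ β : ℝ, T v = β • v → β ≤ b l)
  (_hbinf : ∀ v, (∀ u ∈ U L, inner ℝ u v = (0 : ℝ)) → v ≠ 0 → ∀ β : ℝ, T v = β • v → β ≤ binf)
  (_hτ : ∀ l, 1 ≤ l → l ≤ L →
    LinearMap.trace ℝ (U l) ((T.restrict (hinv l)) ^ p) ≤ τ l)
  (_hτinf : LinearMap.trace ℝ V (T ^ p) ≤ τinf),
  LinearMap.trace ℝ V (T ^ m) ≤
    1 + ∑ l ∈ Finset.Icc 1 L, (b l) ^ (m - p) * τ l + binf ^ (m - p) * τinf

/-- [TU] trace on the level spaces -/
def TUStatement : Prop := ∀ (d l p : ℕ),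
  ∃ h : ∀ f ∈ UU (Pos d) l, TT d (Equiv.Perm (Pos d)) d f ∈ UU (Pos d) l,
  (l ≤ 2 ^ d → LinearMap.trace ℝ (UU (Pos d) l) (((TT d (Equiv.Perm (Pos d)) d).restrict h) ^ p) ≤
    ((2 ^ d).choose l : ℝ) *
      LinearMap.trace ℝ ((Fin l ↪ Pos d) → ℝ) ((TT d (Fin l ↪ Pos d) d) ^ p))

/-- [LR] reduction of eigenfunctions of exact level `l` to pure eigenfunctions -/
def LRStatement : Prop := ∀ (d l : ℕ) (_hl : 1 ≤ l) (f : Equiv.Perm (Pos d) → ℝ) (_hf : f ≠ 0)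
  (_h1 : f ∈ UU (Pos d) l) (_h2 : ∀ g ∈ UU (Pos d) (l - 1), ∑ π, f π * g π = 0) (β : ℝ)
  (_hβ : TT d (Equiv.Perm (Pos d)) d f = β • f),
  ∃ φ : (Fin l ↪ Pos d) → ℝ, φ ≠ 0 ∧ Pure φ ∧ TT d (Fin l ↪ Pos d) d φ = β • φ

/-- [LK] the sweep on `Perm (Pos d)` is the operator `Rop` of the representation -/
def LKStatement : Prop := ∀ (d : ℕ), ∃ e : P162.Cube d ≃ Pos d,
  ∀ f : EuclideanSpace ℝ (Equiv.Perm (Pos d)),
  (fun π => (P162.Rop d ((P162.regRep (Pos d)).comp (e.permCongrHom).toMonoidHom) f) π) =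
    RR d (Equiv.Perm (Pos d)) d (fun π => f π)

/-- [HI] the top part -/
def HIStatement : Prop := ∀ (d k : ℕ) (v : Equiv.Perm (Pos d) → ℝ) (_hv : v ≠ 0)
  (_h : ∀ g ∈ UU (Pos d) (2 * k), ∑ π, v π * g π = 0) (β : ℝ)
  (_hβ : TT d (Equiv.Perm (Pos d)) d v = β • v), β ≤ Real.exp (-((k : ℝ) + 1) / 1400)

/-- [HA] to be proved -/
def HAStatement : Prop := LOStatement → LKStatement → PSStatement → HIStatement

/-- [WY] trace inequality for powers of two -/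
def WYStatement : Prop := ∀ (X : Type) [Fintype X] [DecidableEq X] (A : Matrix X X ℝ) (k : ℕ),
  Matrix.trace ((A ^ (2 ^ k)).transpose * A ^ (2 ^ k)) ≤
    Matrix.trace ((A.transpose * A) ^ (2 ^ k))

/-- [NO] the norm after `2^k` sweeps in terms of the trace -/
def NOStatement : Prop := ∀ (d k : ℕ),
  ‖(P162.Top (2 ^ d) (P162.regRep (Fin (2 * 2 ^ d))) ^ ((d + 1) * 2 ^ k))
      (P162.delta0 (Fin (2 * 2 ^ d)))‖ ^ 2 ≤
    (LinearMap.trace ℝ (Equiv.Perm (Pos (d + 1)) → ℝ)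
      ((TT (d + 1) (Equiv.Perm (Pos (d + 1))) (d + 1)) ^ (2 ^ k)) - 1) /
      (Fintype.card (Equiv.Perm (Fin (2 * 2 ^ d))) : ℝ)

/-- [NA] to be proved -/
def NAStatement : Prop := LKStatement → WYStatement → PSStatement → NOStatement

/-- [BE] numerical bound of the level norms -/
def BEStatement : Prop := ∃ K : ℝ, 1 ≤ K ∧ ∀ (d l : ℕ) (_hl : 1 ≤ l)
  (_hld : K * (l : ℝ) ≤ 2 ^ d)
  (φ : (Fin l ↪ Pos d) → ℝ) (_hφ : φ ≠ 0) (_hp : Pure φ) (β : ℝ)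
  (_hβ : TT d (Fin l ↪ Pos d) d φ = β • φ),
  β ^ 66 ≤ (K * ((l : ℝ) / 2 ^ d) ^ ((1 : ℝ) / 257)) ^ l

/-- [BN] to be proved -/
def BNStatement : Prop := GRStatement → TSStatement → BEStatement

/-- [TB] final trace bound: `2^k` sweeps, `d` large -/
def TBStatement : Prop := ∃ k d0 : ℕ, ∀ d, d0 ≤ d →
  LinearMap.trace ℝ (Equiv.Perm (Pos d) → ℝ) ((TT d (Equiv.Perm (Pos d)) d) ^ (2 ^ k)) - 1 ≤ 1 / 4

/-- [TF] to be proved -/
def TFStatement : Prop := TSStatement → BEStatement → FLStatement → TUStatement → LRStatement →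
  HIStatement → PSStatement → TBStatement

/-- [FI] final theorem -/
def FIStatement : Prop := NOStatement → TBStatement →
  ∃ C : ℕ, ∀ d t : ℕ, C * (d + 1) ≤ t →
    P162.tvUnif (P162.convPow (P162.thorpLaw (2 ^ d)) t) ≤ 1 / 4

end P162L
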