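/-
P162 (Thorp shuffle), Theta(log n) project, module Assembly (helper22): everything from the modules.
-/
import Vale.Agent.P162.Log.Stmts

namespace P162L

theorem assembly (qc : QCStatement) (ka : KAStatement) (ua : UAStatement) (wc : WCStatement)
    (wb : WBStatement) (ss : SSStatement) (ev : EVStatement) (cb : CBStatement)
    (w1 : W1Statement) (w2 : W2Statement) (w3 : W3Statement) (w4 : W4AStatement)
    (w5 : W5Statement) (w6 : W6Statement) (sb : SBStatement) (tr : TRStatement)
    (ps : PSStatement) (ta : TAStatement) (g1 : G1Statement) (g2 : G2Statement)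
    (lo : LOStatement) (fl : FLStatement) (tu : TUStatement) (lr : LRStatement)
    (lk : LKStatement) (ha : HAStatement) (wy : WYStatement) (na : NAStatement)
    (bn : BNStatement) (tf : TFStatement) (fi : FIStatement) :
    ∃ C : ℕ, ∀ d t : ℕ, C * (d + 1) ≤ t →
      P162.tvUnif (P162.convPow (P162.thorpLaw (2 ^ d)) t) ≤ 1 / 4 := by
  have wl : WLStatement := w6 w1 w2 (w4 w3) w5
  have ga : GAStatement := sb (ua qc) wc wb ss ev cb wl
  have ts : TSStatement := ta (ka qc) ga tr ps
  have be : BEStatement := bn (g2 g1 ps) ts
  have hi : HIStatement := ha lo lk ps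
  have tb : TBStatement := tf ts be fl tu lr hi ps
  exact fi (na lk wy ps) tb

end P162L
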