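/-
P162 (Thorp shuffle), Theta(log n) project, module BN (helper19): numerical bound of the
level norms.
-/
import Vale.Agent.P162.Log.Stmts

namespace P162L
namespace BNx

open scoped BigOperators

theorem main (gr : GRStatement) (ts : TSStatement) : BEStatement := by
  obtain ⟨K2, hK2, hts⟩ := ts
  have hE1 : (1 : ℝ) ≤ Real.exp K2 := Real.one_le_exp hK2
  refine ⟨25 * Real.exp K2, by linarith, ?_⟩
  intro d l hl hld φ hφ hp β hβ
  have hlp : (0 : ℝ) < l := by exact_mod_cast hl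
  set x : ℝ := (2 : ℝ) ^ d / l with hx
  have hx25 : 25 ≤ x := by
    rw [hx, le_div_iff₀ hlp]
    have h1 : (25 : ℝ) * l ≤ 25 * Real.exp K2 * l := by
      apply mul_le_mul_of_nonneg_right _ hlp.le
      linarith
    linarith
  have hx0 : 0 < x := by linarith
  set y : ℝ := x ^ ((1 : ℝ) / 257) with hy
  have hy1 : 1 ≤ y := Real.one_le_rpow (by linarith) (by norm_num)
  have hy0 : 0 < y := by linarith
  have hyx : y ^ 257 = x := by
    rw [hy, ← Real.rpow_natCast, ← Real.rpow_mul hx0.le]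
    norm_num
  have hy5 : 5 * y ≤ x := by
    rcases le_or_gt y 5 with h | h
    · linarith
    · have h1 : y ^ 2 ≤ y ^ 257 := pow_le_pow_right₀ hy1 (by norm_num)
      rw [hyx] at h1
      nlinarith
  set s : ℕ := ⌊y⌋₊ with hs
  have hs1 : 1 ≤ s := by
    rw [hs, Nat.one_le_floor_iff]
    exact hy1
  have hs1R : (1 : ℝ) ≤ s := by exact_mod_cast hs1
  have hsy : (s : ℝ) ≤ y := Nat.floor_le hy0.le
  have hys : y ≤ 2 * s := by
    have h1 : y < s + 1 := Nat.lt_floor_add_one y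
    linarith
  have hlx : (l : ℝ) * x = 2 ^ d := by
    rw [hx]
    field_simp
  have hq : 5 * (l * s) ≤ 2 ^ d := by
    have h1 : ((5 * (l * s) : ℕ) : ℝ) ≤ ((2 ^ d : ℕ) : ℝ) := by
      push_cast
      rw [← hlx]
      have h2 : (l : ℝ) * (s : ℝ) ≤ l * y := mul_le_mul_of_nonneg_left hsy hlp.le
      have h3 : (l : ℝ) * (5 * y) ≤ l * x := mul_le_mul_of_nonneg_left hy5 hlp.le
      linarith
    exact_mod_cast h1
  have hgr := gr d l s hl hs1 hq φ hφ hp β hβ 66
  have hcard : Fintype.card (Fin l × Fin s) = l * s := by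
    rw [Fintype.card_prod, Fintype.card_fin, Fintype.card_fin]
  have htr := hts d (Fin l × Fin s) (by rw [hcard]; omega)
  rw [hcard] at htr
  -- the exponent is at most `K2 l`
  have hexp : K2 * ((l * s : ℕ) : ℝ) * (((l * s : ℕ) : ℝ) / 2 ^ d) ^ ((1 : ℝ) / 256) ≤
      K2 * l := by
    have h1 : (((l * s : ℕ) : ℝ) / 2 ^ d) ^ ((1 : ℝ) / 256) ≤ y⁻¹ := by
      have h2 : ((l * s : ℕ) : ℝ) / 2 ^ d ≤ (y⁻¹) ^ 256 := by
        rw [← hlx]
        push_cast
        rw [mul_div_mul_left _ _ hlp.ne']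
        have h3 : (y⁻¹) ^ 256 = y / x := by
          rw [← hyx, inv_pow, pow_succ y 256]
          field_simp
        rw [h3]
        exact div_le_div_of_nonneg_right hsy hx0.le
      calc (((l * s : ℕ) : ℝ) / 2 ^ d) ^ ((1 : ℝ) / 256)
          ≤ ((y⁻¹) ^ 256) ^ ((1 : ℝ) / 256) :=
            Real.rpow_le_rpow (by positivity) h2 (by norm_num)
        _ = y⁻¹ := by
            rw [← Real.rpow_natCast, ← Real.rpow_mul (by positivity)]
            norm_num
    calc K2 * ((l * s : ℕ) : ℝ) * (((l * s : ℕ) : ℝ) / 2 ^ d) ^ ((1 : ℝ) / 256)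
        ≤ K2 * ((l * s : ℕ) : ℝ) * y⁻¹ := mul_le_mul_of_nonneg_left h1 (by positivity)
      _ = (K2 * l) * (s * y⁻¹) := by
          push_cast
          ring
      _ ≤ (K2 * l) * 1 := by
          apply mul_le_mul_of_nonneg_left _ (by positivity)
          rw [← div_eq_mul_inv, div_le_one hy0]
          exact hsy
      _ = K2 * l := mul_one _
  have htr2 := htr.trans (Real.exp_le_exp.2 hexp)
  have h8 : Real.exp (K2 * l) = (Real.exp K2) ^ l := by
    rw [← Real.exp_nat_mul, mul_comm]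
  rw [h8] at htr2
  have h9 : (s : ℝ) ^ l * β ^ 66 ≤ 2 * (Real.exp K2) ^ l := by linarith
  have h10 : ((l : ℝ) / 2 ^ d) ^ ((1 : ℝ) / 257) = y⁻¹ := by
    rw [hy, ← Real.inv_rpow hx0.le, hx, inv_div]
  rw [h10]
  have h11 : β ^ 66 ≤ 2 * (Real.exp K2) ^ l / (s : ℝ) ^ l := by
    rw [le_div_iff₀ (by positivity)]
    linarith
  refine h11.trans ?_
  have h12 : 2 * (Real.exp K2) ^ l / (s : ℝ) ^ l ≤ (4 * (Real.exp K2) * y⁻¹) ^ l := by
    have h13 : (2 : ℝ) ≤ 2 ^ l := by
      calc (2 : ℝ) = 2 ^ 1 := (pow_one _).symm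
        _ ≤ 2 ^ l := pow_le_pow_right₀ (by norm_num) hl
    calc 2 * (Real.exp K2) ^ l / (s : ℝ) ^ l ≤ 2 ^ l * (Real.exp K2) ^ l / (s : ℝ) ^ l := by
          apply div_le_div_of_nonneg_right _ (by positivity)
          exact mul_le_mul_of_nonneg_right h13 (by positivity)
      _ = (2 * Real.exp K2 * (s : ℝ)⁻¹) ^ l := by
          rw [mul_pow, mul_pow, inv_pow, div_eq_mul_inv]
      _ ≤ (4 * (Real.exp K2) * y⁻¹) ^ l := by
          apply pow_le_pow_left₀ (by positivity)
          have h14 : (s : ℝ)⁻¹ ≤ 2 * y⁻¹ := by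
            rw [← div_eq_mul_inv, le_div_iff₀ hy0, inv_mul_le_iff₀ (by positivity)]
            linarith
          calc 2 * Real.exp K2 * (s : ℝ)⁻¹ ≤ 2 * Real.exp K2 * (2 * y⁻¹) :=
                mul_le_mul_of_nonneg_left h14 (by positivity)
            _ = 4 * (Real.exp K2) * y⁻¹ := by ring
  refine h12.trans ?_
  apply pow_le_pow_left₀ (by positivity)
  apply mul_le_mul_of_nonneg_right _ (by positivity)
  have := Real.exp_pos K2
  linarith

end BNx

/-- [BN] -/
theorem bn_main : BNStatement := BNx.main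

end P162L
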