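/-
P162 (Thorp shuffle), Theta(log n) project, module CB (helper9): combination of windows.
-/
import Vale.Agent.P162.Log.Stmts

namespace P162L

open scoped BigOperators

section cb

variable {X : Type} {P : ℕ → (X → ℝ) →ₗ[ℝ] (X → ℝ)}

/-! ### basic properties of `ER` -/

theorem cb_congr (i : ℕ) (Φ Ψ : X → ℝ) (h : ∀ y, Φ y = Ψ y) (z : X) :
    P i Φ z = P i Ψ z := by
  rw [funext h]

theorem cb_const_one (hP : ∀ i, IsMk (P i)) (i : ℕ) (c : ℝ) (z : X) : P i (fun _ => c) z = c := by
  have h1 : (fun _ : X => c) = c • (fun _ : X => (1 : ℝ)) := by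
    funext x
    simp
  rw [h1, map_smul, (hP i).one]
  simp

theorem cb_er_mono (hP : ∀ i, IsMk (P i)) (n : ℕ) : ∀ (i : ℕ) (F F' : (ℕ → X) → ℝ)
    (_h : ∀ μ, F μ ≤ F' μ) (z : X), ER P n i F z ≤ ER P n i F' z := by
  induction n with
  | zero =>
    intro i F F' h z
    exact h _
  | succ n ih =>
    intro i F F' h z
    unfold ER
    apply (hP i).mono
    intro y
    apply ih
    intro μ
    exact h _

theorem cb_er_add (n : ℕ) : ∀ (i : ℕ) (F F' : (ℕ → X) → ℝ) (z : X),
    ER P n i (fun μ => F μ + F' μ) z = ER P n i F z + ER P n i F' z := by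
  induction n with
  | zero =>
    intro i F F' z
    rfl
  | succ n ih =>
    intro i F F' z
    unfold ER
    rw [← Pi.add_apply, ← map_add]
    apply cb_congr
    intro y
    rw [ih, Pi.add_apply]

theorem cb_er_smul (n : ℕ) : ∀ (i : ℕ) (c : ℝ) (F : (ℕ → X) → ℝ) (z : X),
    ER P n i (fun μ => c * F μ) z = c * ER P n i F z := by
  induction n with
  | zero =>
    intro i c F z
    rfl
  | succ n ih =>
    intro i c F z
    unfold ER
    rw [← smul_eq_mul, ← Pi.smul_apply, ← map_smul]
    apply cb_congr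
    intro y
    rw [ih, Pi.smul_apply, smul_eq_mul]

theorem cb_er_zero (n i : ℕ) (z : X) : ER P n i (fun _ => 0) z = 0 := by
  have h := cb_er_smul (P := P) n i 0 (fun _ => (0 : ℝ)) z
  simpa using h

theorem cb_er_sum {ι : Type*} (s : Finset ι) (n i : ℕ) (F : ι → (ℕ → X) → ℝ) (z : X) :
    ER P n i (fun μ => ∑ a ∈ s, F a μ) z = ∑ a ∈ s, ER P n i (F a) z := by
  classical
  induction s using Finset.induction_on with
  | empty =>
    simp only [Finset.sum_empty]
    exact cb_er_zero n i z
  | insert a s ha ih =>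
    simp only [Finset.sum_insert ha]
    rw [cb_er_add, ih]

theorem cb_er_const (hP : ∀ i, IsMk (P i)) (n : ℕ) : ∀ (i : ℕ) (c : ℝ) (z : X),
    ER P n i (fun _ => c) z = c := by
  induction n with
  | zero =>
    intro i c z
    rfl
  | succ n ih =>
    intro i c z
    unfold ER
    have h1 : (fun y => ER P n (i + 1) (fun _ : ℕ → X => c) y) = fun _ => c := by
      funext y
      exact ih (i + 1) c y
    rw [h1]
    exact cb_const_one hP i c z

theorem cb_er_up (hP : ∀ i, IsMk (P i)) (Φ : X → ℝ) (w : ℕ) : ∀ (n i : ℕ) (_h : w ≤ n) (z : X),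
    ER P n i (fun μ => Φ (μ (i + w))) z = Up P w i Φ z := by
  induction w with
  | zero =>
    intro n i _ z
    cases n with
    | zero => rfl
    | succ n =>
      unfold ER Up
      simp only [add_zero, le_refl, if_true]
      have h1 : (fun y => ER P n (i + 1) (fun _ : ℕ → X => Φ z) y) = fun _ => Φ z := by
        funext y
        exact cb_er_const hP n (i + 1) _ y
      rw [h1]
      exact cb_const_one hP i _ z
  | succ w ih =>
    intro n i h z
    obtain ⟨m, rfl⟩ : ∃ m, n = m + 1 := ⟨n - 1, by omega⟩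
    unfold ER Up
    apply cb_congr
    intro y
    rw [← ih m (i + 1) (by omega) y]
    apply congrArg (fun F => ER P m (i + 1) F y)
    funext μ
    simp only
    rw [if_neg (by omega), show i + (w + 1) = i + 1 + w by ring]

/-! ### the Markov property -/

theorem cb_markov (hP : ∀ i, IsMk (P i)) (Φ : X → ℝ) (m w : ℕ) (B : ℝ)
    (hB : ∀ z, Up P w m Φ z ≤ B) (n : ℕ) : ∀ (i : ℕ) (_hi : i ≤ m) (_hn : m + w ≤ i + n)
    (A : (ℕ → X) → ℝ) (_hA : ∀ μ, 0 ≤ A μ)
    (_hA' : ∀ μ μ' : ℕ → X, (∀ j ≤ m, μ j = μ' j) → A μ = A μ') (z : X),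
    ER P n i (fun μ => A μ * Φ (μ (m + w))) z ≤ B * ER P n i A z := by
  induction n with
  | zero =>
    intro i hi hn A hA hA' z
    have hw : w = 0 := by omega
    subst hw
    unfold ER
    have h1 := hB z
    unfold Up at h1
    have h2 := mul_le_mul_of_nonneg_left h1 (hA (fun _ => z))
    rw [mul_comm B]
    exact h2
  | succ n ih =>
    intro i hi hn A hA hA' z
    rcases Nat.lt_or_ge i m with h | h
    · rw [← cb_er_smul]
      unfold ER
      apply (hP i).mono
      intro y
      rw [cb_er_smul]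
      have h2 := ih (i + 1) (by omega) (by omega) (fun μ => A fun j => if j ≤ i then z else μ j)
        (fun μ => hA _) (by
          intro μ μ' hμ
          apply hA'
          intro j hj
          by_cases hji : j ≤ i
          · simp only [if_pos hji]
          · simp only [if_neg hji]
            exact hμ j hj) y
      refine le_trans (le_of_eq ?_) h2
      apply congrArg (fun F => ER P n (i + 1) F y)
      funext μ
      simp only
      rw [if_neg (by omega)]
    · have him : i = m := le_antisymm hi h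
      subst him
      have h3 : ER P (n + 1) i (fun μ => A μ * Φ (μ (i + w))) z =
          ER P (n + 1) i (fun μ => A (fun _ => z) * Φ (μ (i + w))) z := by
        unfold ER
        apply cb_congr
        intro y
        apply congrArg (fun F => ER P n (i + 1) F y)
        funext μ
        simp only
        apply congrArg (fun t => t * Φ _)
        apply hA'
        intro j hj
        rw [if_pos hj]
      have h4 : ER P (n + 1) i A z = ER P (n + 1) i (fun _ => A (fun _ => z)) z := by
        unfold ER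
        apply cb_congr
        intro y
        apply congrArg (fun F => ER P n (i + 1) F y)
        funext μ
        simp only
        apply hA'
        intro j hj
        rw [if_pos hj]
      rw [h3, h4, cb_er_smul, cb_er_const hP, cb_er_up hP Φ w (n + 1) i (by omega), mul_comm]
      exact mul_le_mul_of_nonneg_right (hB z) (hA _)

end cb

/-! ### AM-GM -/

theorem cb_amgm (K : ℕ) (h : ℕ → ℝ) (hh : ∀ j, 1 ≤ h j) :
    (∏ j ∈ Finset.Ico (2 ^ K) (2 ^ (K + 1)), h j) ^ 2 ≤
      ∑ j ∈ Finset.Ico (2 ^ K) (2 ^ (K + 1)), (1 / (2 : ℝ) ^ K) * (h j) ^ (2 ^ (K + 1)) := by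
  have hcard : (Finset.Ico (2 ^ K) (2 ^ (K + 1))).card = 2 ^ K := by
    rw [Nat.card_Ico, pow_succ]
    omega
  have h1 := Real.geom_mean_le_arith_mean_weighted (Finset.Ico (2 ^ K) (2 ^ (K + 1)))
    (fun _ => 1 / (2 : ℝ) ^ K) (fun j => (h j) ^ (2 ^ (K + 1)))
    (fun _ _ => by positivity) (by
      rw [Finset.sum_const, hcard, nsmul_eq_mul, Nat.cast_pow, Nat.cast_ofNat]
      field_simp)
    (fun j _ => pow_nonneg (le_trans zero_le_one (hh j)) _)
  refine le_trans (le_of_eq ?_) h1
  rw [← Finset.prod_pow]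
  apply Finset.prod_congr rfl
  intro j _
  have h0 : 0 ≤ h j := le_trans zero_le_one (hh j)
  rw [← Real.rpow_natCast (h j) (2 ^ (K + 1)), ← Real.rpow_mul h0, ← Real.rpow_natCast (h j) 2]
  congr 1
  push_cast
  rw [pow_succ]
  field_simp

/-! ### the combination -/

theorem cb_split (k0 : ℕ) (h : ℕ → ℝ) (K : ℕ) (hK : k0 ≤ K) :
    ∏ j ∈ Finset.Ico (2 ^ k0) (2 ^ K), h j =
      ∏ k ∈ Finset.Ico k0 K, ∏ j ∈ Finset.Ico (2 ^ k) (2 ^ (k + 1)), h j := by
  induction K, hK using Nat.le_induction with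
  | base => simp
  | succ K hK ih =>
    rw [Finset.prod_Ico_succ_top hK, ← ih]
    exact (Finset.prod_Ico_consecutive h (Nat.pow_le_pow_right (by norm_num) hK)
      (Nat.pow_le_pow_right (by norm_num) (Nat.le_succ K))).symm

/-- the product over one parity class -/
noncomputable def cbU {X : Type} (k0 e : ℕ) (h : ℕ → X → ℝ) (K : ℕ) (μ : ℕ → X) : ℝ :=
  ∏ k ∈ Finset.Ico k0 K, if k % 2 = e then
    ∏ j ∈ Finset.Ico (2 ^ k) (2 ^ (k + 1)), h j (μ j) else 1

theorem cb_parity {X : Type} {P : ℕ → (X → ℝ) →ₗ[ℝ] (X → ℝ)} (hP : ∀ i, IsMk (P i))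
    (d k0 : ℕ) (hk0 : 1 ≤ k0) (h : ℕ → X → ℝ) (hh : ∀ j x, 1 ≤ h j x)
    (hd : ∀ j, d ≤ j → ∀ x, h j x = 1) (B : ℕ → ℝ) (hB : ∀ k, 1 ≤ B k)
    (hw : ∀ k, k0 ≤ k → ∀ j, 2 ^ k ≤ j → j < 2 ^ (k + 1) → j < d → ∀ z,
      Up P (2 ^ (k - 1)) (j - 2 ^ (k - 1)) (fun y => (h j y) ^ (2 ^ (k + 1))) z ≤ B k)
    (e : ℕ) (z : X) (K : ℕ) (hK : k0 ≤ K) :
    ER P d 0 (fun μ => (cbU k0 e h K μ) ^ 2) z ≤ ∏ k ∈ Finset.Ico k0 K, B k := by
  induction K, hK using Nat.le_induction with
  | base =>
    unfold cbU
    simp only [Finset.Ico_self, Finset.prod_empty, one_pow]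
    rw [cb_er_const hP]
  | succ K hK ih =>
    rw [Finset.prod_Ico_succ_top hK]
    have hpB : 0 ≤ ∏ k ∈ Finset.Ico k0 K, B k :=
      Finset.prod_nonneg fun k _ => le_trans zero_le_one (hB k)
    by_cases hKe : K % 2 = e
    · have hstep : ∀ μ : ℕ → X, (cbU k0 e h (K + 1) μ) ^ 2 ≤
          ∑ j ∈ Finset.Ico (2 ^ K) (2 ^ (K + 1)), (1 / (2 : ℝ) ^ K) *
            ((cbU k0 e h K μ) ^ 2 * (h j (μ j)) ^ (2 ^ (K + 1))) := by
        intro μ
        have h1 : cbU k0 e h (K + 1) μ = cbU k0 e h K μ *
            ∏ j ∈ Finset.Ico (2 ^ K) (2 ^ (K + 1)), h j (μ j) := by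
          unfold cbU
          rw [Finset.prod_Ico_succ_top hK, if_pos hKe]
        rw [h1, mul_pow]
        have h2 := cb_amgm K (fun j => h j (μ j)) (fun j => hh j _)
        have h3 := mul_le_mul_of_nonneg_left h2 (sq_nonneg (cbU k0 e h K μ))
        refine le_trans h3 (le_of_eq ?_)
        rw [Finset.mul_sum]
        apply Finset.sum_congr rfl
        intro j _
        ring
      refine le_trans (cb_er_mono hP d 0 _ _ hstep z) ?_
      rw [cb_er_sum]
      have hterm : ∀ j ∈ Finset.Ico (2 ^ K) (2 ^ (K + 1)),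
          ER P d 0 (fun μ => (1 / (2 : ℝ) ^ K) *
            ((cbU k0 e h K μ) ^ 2 * (h j (μ j)) ^ (2 ^ (K + 1)))) z ≤
          (1 / (2 : ℝ) ^ K) * (B K * ER P d 0 (fun μ => (cbU k0 e h K μ) ^ 2) z) := by
        intro j hj
        rw [Finset.mem_Ico] at hj
        rw [cb_er_smul]
        apply mul_le_mul_of_nonneg_left _ (by positivity)
        by_cases hjd : j < d
        · have hpow : 2 ^ (K - 1) + 2 ^ (K - 1) = 2 ^ K := by
            obtain ⟨L, rfl⟩ : ∃ L, K = L + 1 := ⟨K - 1, by omega⟩
            rw [Nat.add_sub_cancel, pow_succ]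
            ring
          have hj2 : j - 2 ^ (K - 1) + 2 ^ (K - 1) = j := by omega
          have h4 := cb_markov hP (fun y => (h j y) ^ (2 ^ (K + 1))) (j - 2 ^ (K - 1))
            (2 ^ (K - 1)) (B K) (hw K hK j hj.1 hj.2 hjd) d 0 (Nat.zero_le _) (by omega)
            (fun μ => (cbU k0 e h K μ) ^ 2) (fun μ => sq_nonneg _) (by
              intro μ μ' hμ
              apply congrArg (fun t : ℝ => t ^ 2)
              unfold cbU
              apply Finset.prod_congr rfl
              intro k hk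
              rw [Finset.mem_Ico] at hk
              by_cases hke : k % 2 = e
              · rw [if_pos hke, if_pos hke]
                apply Finset.prod_congr rfl
                intro i hi
                rw [Finset.mem_Ico] at hi
                rw [hμ i]
                have hkK : k + 1 ≤ K - 1 := by omega
                have h5 : 2 ^ (k + 1) ≤ 2 ^ (K - 1) := Nat.pow_le_pow_right (by norm_num) hkK
                omega
              · rw [if_neg hke, if_neg hke]) z
          rw [hj2] at h4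
          exact h4
        · have h5 : (fun μ : ℕ → X => (cbU k0 e h K μ) ^ 2 * (h j (μ j)) ^ (2 ^ (K + 1))) =
              fun μ => (cbU k0 e h K μ) ^ 2 := by
            funext μ
            rw [hd j (by omega), one_pow, mul_one]
          rw [h5]
          have h6 : 0 ≤ ER P d 0 (fun μ => (cbU k0 e h K μ) ^ 2) z := by
            rw [← cb_er_zero (P := P) d 0 z]
            exact cb_er_mono hP d 0 _ _ (fun μ => sq_nonneg _) z
          nlinarith [hB K]
      refine le_trans (Finset.sum_le_sum hterm) ?_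
      have hcard : (Finset.Ico (2 ^ K) (2 ^ (K + 1))).card = 2 ^ K := by
        rw [Nat.card_Ico, pow_succ]
        omega
      rw [Finset.sum_const, hcard, nsmul_eq_mul, Nat.cast_pow, Nat.cast_ofNat]
      have h7 : (2 : ℝ) ^ K * (1 / (2 : ℝ) ^ K *
          (B K * ER P d 0 (fun μ => (cbU k0 e h K μ) ^ 2) z)) =
          B K * ER P d 0 (fun μ => (cbU k0 e h K μ) ^ 2) z := by
        field_simp
      rw [h7, mul_comm]
      exact mul_le_mul_of_nonneg_right ih (le_trans zero_le_one (hB K))
    · have h1 : (fun μ : ℕ → X => (cbU k0 e h (K + 1) μ) ^ 2) =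
          fun μ => (cbU k0 e h K μ) ^ 2 := by
        funext μ
        unfold cbU
        rw [Finset.prod_Ico_succ_top hK, if_neg hKe, mul_one]
      rw [h1]
      refine le_trans ih ?_
      exact le_mul_of_one_le_right hpB (hB K)

theorem cb_main : CBStatement := by
  intro X P hP d k0 hk0 g hg B hB hw z
  have hh : ∀ j x, 1 ≤ (fun (j : ℕ) (x : X) => if j < d then g j x else 1) j x := by
    intro j x
    by_cases hj : j < d
    · simp only [if_pos hj]
      exact hg j x
    · simp only [if_neg hj]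
      exact le_refl 1
  rcases Nat.lt_or_ge d k0 with hdk | hdk
  · have h0 : Finset.Ico (2 ^ k0) d = ∅ := by
      apply Finset.Ico_eq_empty
      have : k0 < 2 ^ k0 := Nat.lt_two_pow_self
      omega
    have h1 : Finset.Ico k0 d = ∅ := Finset.Ico_eq_empty (by omega)
    rw [h0, h1]
    simp only [Finset.prod_empty]
    rw [cb_er_const hP]
  have hmain : ∀ e : ℕ, ER P d 0 (fun μ =>
      (cbU k0 e (fun (j : ℕ) (x : X) => if j < d then g j x else 1) d μ) ^ 2) z ≤
      ∏ k ∈ Finset.Ico k0 d, B k := by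
    intro e
    apply cb_parity hP d k0 hk0 _ hh _ B hB _ e z d hdk
    · intro j hj x
      simp only [if_neg (not_lt.mpr hj)]
    · intro k hk j h1 h2 h3 z
      simp only [if_pos h3]
      exact hw k hk j h1 h2 h3 z
  have hpt : ∀ μ : ℕ → X, ∏ j ∈ Finset.Ico (2 ^ k0) d, g j (μ j) ≤
      (1 / 2) * (cbU k0 0 (fun (j : ℕ) (x : X) => if j < d then g j x else 1) d μ) ^ 2 +
      (1 / 2) * (cbU k0 1 (fun (j : ℕ) (x : X) => if j < d then g j x else 1) d μ) ^ 2 := by
    intro μ
    have h1 : ∏ j ∈ Finset.Ico (2 ^ k0) d, g j (μ j) =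
        ∏ j ∈ Finset.Ico (2 ^ k0) (2 ^ d), (if j < d then g j (μ j) else 1) := by
      have hsub : Finset.Ico (2 ^ k0) d ⊆ Finset.Ico (2 ^ k0) (2 ^ d) :=
        Finset.Ico_subset_Ico (le_refl _) (le_of_lt Nat.lt_two_pow_self)
      rw [← Finset.prod_subset hsub]
      · apply Finset.prod_congr rfl
        intro j hj
        rw [Finset.mem_Ico] at hj
        rw [if_pos hj.2]
      · intro j hj hj'
        rw [Finset.mem_Ico] at hj hj'
        rw [if_neg (by omega)]
    rw [h1, cb_split k0 _ d hdk]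
    have h2 : ∏ k ∈ Finset.Ico k0 d, ∏ j ∈ Finset.Ico (2 ^ k) (2 ^ (k + 1)),
        (if j < d then g j (μ j) else 1) =
        cbU k0 0 (fun (j : ℕ) (x : X) => if j < d then g j x else 1) d μ *
        cbU k0 1 (fun (j : ℕ) (x : X) => if j < d then g j x else 1) d μ := by
      unfold cbU
      rw [← Finset.prod_mul_distrib]
      apply Finset.prod_congr rfl
      intro k _
      rcases Nat.mod_two_eq_zero_or_one k with h | h
      · simp [h]
      · simp [h]
    rw [h2]
    nlinarith [sq_nonneg (cbU k0 0 (fun (j : ℕ) (x : X) => if j < d then g j x else 1) d μ -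
      cbU k0 1 (fun (j : ℕ) (x : X) => if j < d then g j x else 1) d μ)]
  refine le_trans (cb_er_mono hP d 0 _ _ hpt z) ?_
  rw [cb_er_add, cb_er_smul, cb_er_smul]
  have h0 := hmain 0
  have h1 := hmain 1
  linarith

end P162L
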