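/-
P162 (Thorp shuffle), Theta(log n) project, module FI (helper22): final assembly.
-/
import Vale.Agent.P162.Log.Stmts
import Vale.Agent.P162.Main

namespace P162L

open scoped BigOperators

theorem fi_main : FIStatement := by
  intro no tb
  obtain ⟨k, d0, h0⟩ := tb
  refine ⟨7000 * (d0 + 1) + 2 ^ k, fun d t ht => ?_⟩
  by_cases hd : d < d0
  · apply P162.thorp_mix d t
    refine le_trans ?_ ht
    calc 7000 * (d + 1) ^ 2 = 7000 * (d + 1) * (d + 1) := by ring
      _ ≤ (7000 * (d0 + 1) + 2 ^ k) * (d + 1) := by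
        apply Nat.mul_le_mul_right
        have h1 : 7000 * (d + 1) ≤ 7000 * (d0 + 1) := Nat.mul_le_mul_left _ (by omega)
        exact h1.trans (Nat.le_add_right _ _)
  · have hd' : d0 ≤ d + 1 := by omega
    have htr := h0 (d + 1) hd'
    have hno := no d k
    set n1 : ℝ := (Fintype.card (Equiv.Perm (Fin (2 * 2 ^ d))) : ℝ) with hn1
    have hn1pos : 0 < n1 := by
      rw [hn1]
      exact_mod_cast Fintype.card_pos
    have htm : (d + 1) * 2 ^ k ≤ t := by
      refine le_trans ?_ ht
      rw [mul_comm]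
      apply Nat.mul_le_mul_right
      omega
    have hnorm : ‖(P162.Top (2 ^ d) (P162.regRep (Fin (2 * 2 ^ d))) ^ t)
        (P162.delta0 (Fin (2 * 2 ^ d)))‖ ^ 2 ≤ 1 / (4 * n1) := by
      have h1 := pow_le_pow_left₀ (norm_nonneg _)
        (P162.norm_Top_pow_anti _ _ (P162.regRep_isOrth _) (P162.delta0 (Fin (2 * 2 ^ d)))
          _ _ htm) 2
      have h2 := div_le_div_of_nonneg_right htr hn1pos.le
      have h3 : (1 / 4 : ℝ) / n1 = 1 / (4 * n1) := by rw [div_div]
      exact (h1.trans hno).trans (h2.trans h3.le)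
    refine (P162.tv_le _ _).trans ?_
    have h7 : Real.sqrt n1 *
        ‖(P162.Top (2 ^ d) (P162.regRep (Fin (2 * 2 ^ d))) ^ t)
          (P162.delta0 (Fin (2 * 2 ^ d)))‖ ≤ 1 / 2 := by
      apply le_of_sq_le_sq _ (by norm_num)
      rw [mul_pow, Real.sq_sqrt hn1pos.le]
      refine (mul_le_mul_of_nonneg_left hnorm hn1pos.le).trans (le_of_eq ?_)
      field_simp
      norm_num
    linarith

end P162L
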