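/-
P162 (Thorp shuffle), Theta(log n) project, module FL (helper16): trace of powers of a symmetric
nonnegative operator along a flag of invariant subspaces.
-/
import Vale.Agent.P162.Log.Stmts

namespace P162L
namespace FL

open scoped BigOperators InnerProductSpace

/-- eigenbasis and traces of powers -/
theorem eig {E : Type} [NormedAddCommGroup E] [InnerProductSpace ℝ E] [FiniteDimensional ℝ E]
    (S : E →ₗ[ℝ] E) (hS : S.IsSymmetric) :
    ∃ (n : ℕ) (e : OrthonormalBasis (Fin n) ℝ E) (β : Fin n → ℝ), (∀ i, S (e i) = β i • e i) ∧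
      ∀ k : ℕ, LinearMap.trace ℝ E (S ^ k) = ∑ i, β i ^ k := by
  refine ⟨Module.finrank ℝ E, hS.eigenvectorBasis rfl, hS.eigenvalues rfl, ?_, ?_⟩
  · intro i
    exact hS.apply_eigenvectorBasis rfl i
  · intro k
    rw [LinearMap.trace_eq_sum_inner _ (hS.eigenvectorBasis rfl)]
    apply Finset.sum_congr rfl
    intro i _
    have h1 : ∀ k : ℕ, (S ^ k) (hS.eigenvectorBasis rfl i) =
        (hS.eigenvalues rfl i) ^ k • hS.eigenvectorBasis rfl i := by
      intro k
      induction k with
      | zero => simp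
      | succ k ih =>
        rw [pow_succ', Module.End.mul_apply, ih, map_smul, hS.apply_eigenvectorBasis rfl i,
          smul_smul, pow_succ]
        rfl
    rw [h1, inner_smul_right, real_inner_self_eq_norm_sq, (hS.eigenvectorBasis rfl).norm_eq_one]
    norm_num

theorem trace_pow_nonneg {E : Type} [NormedAddCommGroup E] [InnerProductSpace ℝ E]
    [FiniteDimensional ℝ E] (S : E →ₗ[ℝ] E) (hS : S.IsSymmetric)
    (hpos : ∀ v, 0 ≤ ⟪v, S v⟫_ℝ) (k : ℕ) : 0 ≤ LinearMap.trace ℝ E (S ^ k) := by
  obtain ⟨n, e, β, h1, h2⟩ := eig S hS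
  rw [h2]
  apply Finset.sum_nonneg
  intro i _
  apply pow_nonneg
  have := hpos (e i)
  rw [h1, inner_smul_right, real_inner_self_eq_norm_sq, e.norm_eq_one] at this
  simpa using this

theorem coe_pow_restrict {V : Type} [AddCommGroup V] [Module ℝ V]
    (T : V →ₗ[ℝ] V) (W : Submodule ℝ V) (hW : ∀ v ∈ W, T v ∈ W) (k : ℕ) (w : W) :
    (((T.restrict hW) ^ k) w : V) = (T ^ k) w := by
  rw [Module.End.pow_restrict]
  rfl

theorem split_trace {V : Type} [NormedAddCommGroup V] [InnerProductSpace ℝ V]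
    [FiniteDimensional ℝ V] (T : V →ₗ[ℝ] V) (W : Submodule ℝ V)
    (hW : ∀ v ∈ W, T v ∈ W) (hW' : ∀ v ∈ Wᗮ, T v ∈ Wᗮ) (k : ℕ) :
    LinearMap.trace ℝ V (T ^ k) = LinearMap.trace ℝ W ((T.restrict hW) ^ k) +
      LinearMap.trace ℝ Wᗮ ((T.restrict hW') ^ k) := by
  classical
  let N : Bool → Submodule ℝ V := fun b => if b then W else Wᗮ
  have hint : DirectSum.IsInternal N := by
    rw [DirectSum.isInternal_submodule_iff_isCompl N (i := true) (j := false) (by decide)
      (by ext b; cases b <;> simp)]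
    exact Submodule.isCompl_orthogonal _
  have hmap : ∀ b, Set.MapsTo (T ^ k) (N b) (N b) := by
    intro b
    cases b
    · intro v hv
      exact Module.End.pow_apply_mem_of_forall_mem k hW' v hv
    · intro v hv
      exact Module.End.pow_apply_mem_of_forall_mem k hW v hv
  rw [LinearMap.trace_eq_sum_trace_restrict hint hmap, Fintype.sum_bool,
    Module.End.pow_restrict, Module.End.pow_restrict]
  rfl

theorem KL {V : Type} [NormedAddCommGroup V] [InnerProductSpace ℝ V]
    [FiniteDimensional ℝ V] (T : V →ₗ[ℝ] V) (hT : T.IsSymmetric)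
    (hpos : ∀ v, 0 ≤ ⟪v, T v⟫_ℝ) (W : Submodule ℝ V) (hW : ∀ v ∈ W, T v ∈ W)
    (b : ℝ) (p m : ℕ) (hpm : p ≤ m) (hb0 : 0 ≤ b)
    (hb : ∀ v, (∀ u ∈ W, ⟪u, v⟫_ℝ = 0) → v ≠ 0 → ∀ β : ℝ, T v = β • v → β ≤ b) :
    LinearMap.trace ℝ V (T ^ m) ≤ LinearMap.trace ℝ W ((T.restrict hW) ^ m) +
      b ^ (m - p) * LinearMap.trace ℝ V (T ^ p) := by
  have hW' : ∀ v ∈ Wᗮ, T v ∈ Wᗮ := by
    intro v hv
    rw [Submodule.mem_orthogonal] at hv ⊢
    intro u hu
    rw [← hT u v]
    exact hv _ (hW u hu)
  rw [split_trace T W hW hW' m, split_trace T W hW hW' p, mul_add]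
  have hs := hT.restrict_invariant hW
  have hs' := hT.restrict_invariant hW'
  have h0 : 0 ≤ LinearMap.trace ℝ W ((T.restrict hW) ^ p) :=
    trace_pow_nonneg _ hs (fun v => hpos v.1) p
  have h1 : 0 ≤ b ^ (m - p) * LinearMap.trace ℝ W ((T.restrict hW) ^ p) :=
    mul_nonneg (pow_nonneg hb0 _) h0
  have h2 : LinearMap.trace ℝ Wᗮ ((T.restrict hW') ^ m) ≤
      b ^ (m - p) * LinearMap.trace ℝ Wᗮ ((T.restrict hW') ^ p) := by
    obtain ⟨n, e, β, he, htr⟩ := eig _ hs'
    rw [htr, htr, Finset.mul_sum]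
    apply Finset.sum_le_sum
    intro i _
    have hβ0 : 0 ≤ β i := by
      have h3 := hpos (e i).1
      have h4 : T (e i).1 = β i • (e i).1 := congrArg Subtype.val (he i)
      rw [h4, inner_smul_right, real_inner_self_eq_norm_sq] at h3
      have h5 : ‖(e i).1‖ = 1 := e.norm_eq_one i
      rw [h5] at h3
      simpa using h3
    have hβ1 : β i ≤ b := by
      apply hb (e i).1
      · intro u hu
        exact (Submodule.mem_orthogonal W (e i).1).mp (e i).2 u hu
      · intro h3
        have h5 : ‖(e i).1‖ = 1 := e.norm_eq_one i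
        rw [h3, norm_zero] at h5
        exact zero_ne_one h5
      · exact congrArg Subtype.val (he i)
    calc β i ^ m = β i ^ (m - p) * β i ^ p := by
          rw [← pow_add, Nat.sub_add_cancel hpm]
      _ ≤ b ^ (m - p) * β i ^ p :=
          mul_le_mul_of_nonneg_right (pow_le_pow_left₀ hβ0 hβ1 _) (pow_nonneg hβ0 _)
  linarith

end FL

theorem fl_main : FLStatement := by
  intro V _ _ _ T hT hpos L U hmono hinv b τ binf τinf p m hpm hb0 hbi0 h0 h0' hb hbinf hτ hτinf
  have hstep : ∀ l, l ≤ L → LinearMap.trace ℝ (U l) ((T.restrict (hinv l)) ^ m) ≤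
      1 + ∑ k ∈ Finset.Icc 1 l, (b k) ^ (m - p) * τ k := by
    intro l
    induction l with
    | zero =>
      intro _
      have h1 : T.restrict (hinv 0) = LinearMap.id := by
        ext ⟨v, hv⟩
        exact h0' v hv
      rw [h1]
      have h2 : (LinearMap.id : U 0 →ₗ[ℝ] U 0) ^ m = LinearMap.id := one_pow m
      rw [h2, LinearMap.trace_id]
      simp only [Finset.Icc_eq_empty_of_lt (Nat.zero_lt_one), Finset.sum_empty, add_zero]
      exact_mod_cast h0
    | succ l ih =>
      intro hl
      have ih' := ih (by omega)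
      rw [Finset.sum_Icc_succ_top (by omega), ← add_assoc]
      have hle : U l ≤ U (l + 1) := hmono (Nat.le_succ l)
      let W : Submodule ℝ (U (l + 1)) := (U l).comap (U (l + 1)).subtype
      have hW : ∀ v ∈ W, (T.restrict (hinv (l + 1))) v ∈ W := by
        intro v hv
        exact hinv l v.1 hv
      have hk := FL.KL (T.restrict (hinv (l + 1))) (hT.restrict_invariant (hinv (l + 1)))
        (fun v => hpos v.1) W hW (b (l + 1)) p m hpm (hb0 _) (by
          intro v hv hne β hβ
          apply hb (l + 1) (by omega) hl v.1 v.2 _ (fun h => hne (Subtype.ext h)) β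
            (congrArg Subtype.val hβ)
          intro u hu
          rw [Nat.add_sub_cancel] at hu
          exact hv ⟨u, hle hu⟩ hu)
      have he : LinearMap.trace ℝ W (((T.restrict (hinv (l + 1))).restrict hW) ^ m) =
          LinearMap.trace ℝ (U l) ((T.restrict (hinv l)) ^ m) := by
        rw [← LinearMap.trace_conj' _ (Submodule.comapSubtypeEquivOfLe hle)]
        congr 1
        apply LinearMap.ext
        intro v
        apply Subtype.ext
        rw [FL.coe_pow_restrict]
        change ((((T.restrict (hinv (l + 1))).restrict hW) ^ m)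
          ((Submodule.comapSubtypeEquivOfLe hle).symm v)).1.1 = (T ^ m) v.1
        rw [FL.coe_pow_restrict, FL.coe_pow_restrict]
        rfl
      rw [he] at hk
      have hτ' := hτ (l + 1) (by omega) hl
      have h3 : b (l + 1) ^ (m - p) * LinearMap.trace ℝ (U (l + 1))
          ((T.restrict (hinv (l + 1))) ^ p) ≤ b (l + 1) ^ (m - p) * τ (l + 1) :=
        mul_le_mul_of_nonneg_left hτ' (pow_nonneg (hb0 _) _)
      linarith
  have hk := FL.KL T hT hpos (U L) (hinv L) binf p m hpm hbi0 hbinf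
  have h1 := hstep L (le_refl L)
  have h3 : binf ^ (m - p) * LinearMap.trace ℝ V (T ^ p) ≤ binf ^ (m - p) * τinf :=
    mul_le_mul_of_nonneg_left hτinf (pow_nonneg hbi0 _)
  linarith

end P162L
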