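/-
P162 (Thorp shuffle), Theta(log n) project, module G1 (helper16): correlation of two copies of a
pure function.
-/
import Vale.Agent.P162.Log.Stmts

namespace P162L
namespace G1

open scoped BigOperators
open Finset

/-- a pure function sums to zero over any set of tuples whose defining condition does not
depend on the coordinate `i` -/
theorem sum_zero_of_indep {l : ℕ} {Ω : Type} [Fintype Ω] [DecidableEq Ω]
    (φ : (Fin l ↪ Ω) → ℝ) (hp : Pure φ) (i : Fin l) (G : (Fin l ↪ Ω) → Prop) [DecidablePred G]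
    (hG : ∀ z z' : Fin l ↪ Ω, (∀ k, k ≠ i → z k = z' k) → G z → G z') :
    ∑ z ∈ univ.filter G, φ z = 0 := by
  classical
  have h := Finset.sum_fiberwise_of_maps_to (s := univ.filter G)
    (t := (univ : Finset ({k : Fin l // k ≠ i} → Ω)))
    (g := fun z k => z k.1) (fun z _ => mem_univ _) φ
  rw [← h]
  apply Finset.sum_eq_zero
  intro r _
  by_cases hr : ∃ y : Fin l ↪ Ω, G y ∧ (fun k : {k : Fin l // k ≠ i} => y k.1) = r
  · obtain ⟨y, hy, hyr⟩ := hr
    rw [← hp i y]
    apply Finset.sum_congr _ (fun _ _ => rfl)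
    ext z
    simp only [mem_filter, mem_univ, true_and]
    constructor
    · rintro ⟨_, h2⟩ k hk
      have := congrFun (h2.trans hyr.symm) ⟨k, hk⟩
      exact this
    · intro h3
      refine ⟨hG y z (fun k hk => (h3 k hk).symm) hy, ?_⟩
      rw [← hyr]
      funext k
      exact h3 k.1 k.2
  · apply Finset.sum_eq_zero
    intro z hz
    exfalso
    simp only [mem_filter, mem_univ, true_and] at hz
    exact hr ⟨z, hz.1, hz.2⟩

/-- hybrid sums -/
noncomputable def FS {l : ℕ} {Ω : Type} [Fintype Ω] [DecidableEq Ω] (φ : (Fin l ↪ Ω) → ℝ)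
    (D : Finset (Fin l)) (V : Finset Ω) (y : Fin l ↪ Ω) (S : Finset (Fin l)) : ℝ :=
  ∑ z ∈ univ.filter (fun z : Fin l ↪ Ω => (∀ k, k ∉ D → z k = y k) ∧ (∀ k ∈ S, z k ∈ V) ∧
    (∀ k ∈ D, k ∉ S → z k ∉ V)), φ z

theorem FS_insert {l : ℕ} {Ω : Type} [Fintype Ω] [DecidableEq Ω]
    (φ : (Fin l ↪ Ω) → ℝ) (hp : Pure φ) (D : Finset (Fin l)) (V : Finset Ω) (y : Fin l ↪ Ω)
    (S : Finset (Fin l)) (i : Fin l) (hiD : i ∈ D) (hiS : i ∉ S) :
    FS φ D V y (insert i S) = - FS φ D V y S := by
  classical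
  have h0 := sum_zero_of_indep φ hp i
    (fun z : Fin l ↪ Ω => (∀ k, k ∉ D → z k = y k) ∧ (∀ k ∈ S, z k ∈ V) ∧
      (∀ k ∈ D, k ∉ S → k ≠ i → z k ∉ V)) (by
      rintro z z' hzz ⟨h1, h2, h3⟩
      refine ⟨fun k hk => ?_, fun k hk => ?_, fun k hk hkS hki => ?_⟩
      · rw [← hzz k (fun h => hk (h ▸ hiD))]
        exact h1 k hk
      · rw [← hzz k (fun h => hiS (h ▸ hk))]
        exact h2 k hk
      · rw [← hzz k hki]
        exact h3 k hk hkS hki)
  rw [← Finset.sum_filter_add_sum_filter_not _ (fun z : Fin l ↪ Ω => z i ∈ V)] at h0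
  rw [eq_neg_iff_add_eq_zero, ← h0]
  unfold FS
  congr 1
  · apply Finset.sum_congr _ (fun _ _ => rfl)
    ext z
    simp only [mem_filter, mem_univ, true_and, mem_insert, forall_eq_or_imp, not_or]
    constructor
    · rintro ⟨h1, ⟨h2, h3⟩, h4⟩
      exact ⟨⟨h1, h3, fun k hk hkS hki => h4 k hk ⟨hki, hkS⟩⟩, h2⟩
    · rintro ⟨⟨h1, h3, h4⟩, h2⟩
      exact ⟨h1, ⟨h2, h3⟩, fun k hk h => h4 k hk h.2 h.1⟩
  · apply Finset.sum_congr _ (fun _ _ => rfl)
    ext z
    simp only [mem_filter, mem_univ, true_and]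
    constructor
    · rintro ⟨h1, h2, h3⟩
      exact ⟨⟨h1, h2, fun k hk hkS _ => h3 k hk hkS⟩, h3 i hiD hiS⟩
    · rintro ⟨⟨h1, h2, h3⟩, h4⟩
      refine ⟨h1, h2, fun k hk hkS => ?_⟩
      by_cases hki : k = i
      · rw [hki]
        exact h4
      · exact h3 k hk hkS hki

theorem FS_eq {l : ℕ} {Ω : Type} [Fintype Ω] [DecidableEq Ω]
    (φ : (Fin l ↪ Ω) → ℝ) (hp : Pure φ) (D : Finset (Fin l)) (V : Finset Ω) (y : Fin l ↪ Ω)
    (S : Finset (Fin l)) (hS : S ⊆ D) :
    FS φ D V y S = (-1) ^ S.card * FS φ D V y ∅ := by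
  classical
  induction S using Finset.induction_on with
  | empty => simp
  | insert i S hi ih =>
    rw [FS_insert φ hp D V y S i (hS (mem_insert_self i S)) hi,
      ih (fun k hk => hS (mem_insert_of_mem hk)), card_insert_of_notMem hi, pow_succ]
    ring

/-- the permutations fixing everything outside of `D` -/
def PD {l : ℕ} (D : Finset (Fin l)) : Finset (Equiv.Perm (Fin l)) :=
  univ.filter fun π => ∀ k, k ∉ D → π k = k

theorem card_PD {l : ℕ} (D : Finset (Fin l)) : (PD D).card = D.card.factorial := by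
  classical
  have e := Equiv.Perm.subtypeEquivSubtypePerm (fun k : Fin l => k ∈ D)
  have h1 := Fintype.card_congr e
  rw [Fintype.card_perm] at h1
  rw [Fintype.card_coe] at h1
  rw [h1]
  unfold PD
  rw [Fintype.card_subtype]

/-- the fully replaced hybrid sum is a sum over permutations -/
theorem FS_full {l : ℕ} {Ω : Type} [Fintype Ω] [DecidableEq Ω]
    (φ : (Fin l ↪ Ω) → ℝ) (D : Finset (Fin l)) (y : Fin l ↪ Ω) :
    FS φ D (D.image y) y D = ∑ π ∈ PD D, φ (π.toEmbedding.trans y) := by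
  classical
  unfold FS
  symm
  apply Finset.sum_bij (fun π _ => π.toEmbedding.trans y)
  · intro π hπ
    simp only [PD, mem_filter, mem_univ, true_and] at hπ
    simp only [mem_filter, mem_univ, true_and, Function.Embedding.trans_apply,
      Equiv.coe_toEmbedding]
    refine ⟨fun k hk => by rw [hπ k hk], fun k hk => ?_, fun k hk hk' => absurd hk hk'⟩
    apply mem_image_of_mem
    by_contra hc
    have h1 := hπ _ hc
    have h2 := π.injective h1
    rw [h2] at hc
    exact hc hk
  · intro π _ π' _ h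
    apply Equiv.ext
    intro k
    have := DFunLike.congr_fun h k
    simp only [Function.Embedding.trans_apply, Equiv.coe_toEmbedding] at this
    exact y.injective this
  · intro z hz
    simp only [mem_filter, mem_univ, true_and] at hz
    obtain ⟨h1, h2, -⟩ := hz
    have hex : ∀ k, ∃ m, y m = z k := by
      intro k
      by_cases hk : k ∈ D
      · obtain ⟨m, _, hm⟩ := mem_image.mp (h2 k hk)
        exact ⟨m, hm⟩
      · exact ⟨k, (h1 k hk).symm⟩
    choose f hf using hex
    have hinj : Function.Injective f := by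
      intro a b hab
      apply z.injective
      rw [← hf a, ← hf b, hab]
    let π : Equiv.Perm (Fin l) := Equiv.ofBijective f (Finite.injective_iff_bijective.mp hinj)
    refine ⟨π, ?_, ?_⟩
    · simp only [PD, mem_filter, mem_univ, true_and]
      intro k hk
      apply y.injective
      change y (f k) = y k
      rw [hf k, h1 k hk]
    · ext k
      change y (f k) = z k
      exact hf k
  · intro π _
    rfl

theorem abs_corr_le {l : ℕ} {Ω : Type} [Fintype Ω] [DecidableEq Ω]
    (φ : (Fin l ↪ Ω) → ℝ) (π : Equiv.Perm (Fin l)) :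
    |∑ y : Fin l ↪ Ω, φ y * φ (π.toEmbedding.trans y)| ≤ ∑ y : Fin l ↪ Ω, φ y ^ 2 := by
  classical
  have h1 : ∑ y : Fin l ↪ Ω, φ (π.toEmbedding.trans y) ^ 2 = ∑ y : Fin l ↪ Ω, φ y ^ 2 := by
    have := Equiv.sum_comp (Equiv.embeddingCongr π.symm (Equiv.refl Ω))
      (fun y : Fin l ↪ Ω => φ y ^ 2)
    rw [← this]
    apply Finset.sum_congr rfl
    intro y _
    congr 2
  calc |∑ y : Fin l ↪ Ω, φ y * φ (π.toEmbedding.trans y)|
      ≤ ∑ y : Fin l ↪ Ω, |φ y * φ (π.toEmbedding.trans y)| := Finset.abs_sum_le_sum_abs _ _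
    _ ≤ ∑ y : Fin l ↪ Ω, (φ y ^ 2 + φ (π.toEmbedding.trans y) ^ 2) / 2 := by
        apply Finset.sum_le_sum
        intro y _
        rw [abs_le]
        constructor
        · nlinarith [sq_nonneg (φ y + φ (π.toEmbedding.trans y))]
        · nlinarith [sq_nonneg (φ y - φ (π.toEmbedding.trans y))]
    _ = ∑ y : Fin l ↪ Ω, φ y ^ 2 := by
        rw [← Finset.sum_div, Finset.sum_add_distrib, h1]
        ring

theorem abs_main_le {l : ℕ} {Ω : Type} [Fintype Ω] [DecidableEq Ω]
    (φ : (Fin l ↪ Ω) → ℝ) (hp : Pure φ) (D : Finset (Fin l)) :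
    |∑ y : Fin l ↪ Ω, φ y * FS φ D (D.image y) y ∅| ≤
      (D.card.factorial : ℝ) * ∑ y : Fin l ↪ Ω, φ y ^ 2 := by
  classical
  have h1 : ∑ y : Fin l ↪ Ω, φ y * FS φ D (D.image y) y ∅ =
      (-1) ^ D.card * ∑ π ∈ PD D, ∑ y : Fin l ↪ Ω, φ y * φ (π.toEmbedding.trans y) := by
    rw [Finset.sum_comm, Finset.mul_sum]
    apply Finset.sum_congr rfl
    intro y _
    rw [← Finset.mul_sum, ← FS_full, FS_eq φ hp D _ y D (Finset.Subset.refl D)]
    have h2 : ((-1 : ℝ) ^ D.card) * (-1) ^ D.card = 1 := by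
      rw [← mul_pow]
      norm_num
    linear_combination (-(φ y * FS φ D (D.image y) y ∅)) * h2
  rw [h1, abs_mul, abs_pow, abs_neg, abs_one, one_pow, one_mul, ← card_PD, ← nsmul_eq_mul]
  calc |∑ π ∈ PD D, ∑ y : Fin l ↪ Ω, φ y * φ (π.toEmbedding.trans y)|
      ≤ ∑ π ∈ PD D, |∑ y : Fin l ↪ Ω, φ y * φ (π.toEmbedding.trans y)| :=
        Finset.abs_sum_le_sum_abs _ _
    _ ≤ ∑ _π ∈ PD D, ∑ y : Fin l ↪ Ω, φ y ^ 2 :=
        Finset.sum_le_sum fun π _ => abs_corr_le φ π
    _ = (PD D).card • ∑ y : Fin l ↪ Ω, φ y ^ 2 := by rw [Finset.sum_const]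

/-- counting extensions -/
theorem sum_ext {K0 K Ω : Type} [Fintype K0] [Fintype K] [Fintype Ω] [DecidableEq K0]
    [DecidableEq K] [DecidableEq Ω]
    (e : K0 ↪ K) (Φ : (K0 ↪ Ω) → ℝ) :
    ∑ x : K ↪ Ω, Φ (e.trans x) =
      ((Fintype.card Ω - Fintype.card K0).descFactorial (Fintype.card K - Fintype.card K0) : ℝ) *
        ∑ w : K0 ↪ Ω, Φ w := by
  classical
  let R := ((Set.range e)ᶜ : Set K)
  let g : K0 ⊕ R ≃ K := ((Equiv.ofInjective e e.injective).sumCongr (Equiv.refl _)).trans
    (Equiv.Set.sumCompl (Set.range e))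
  have hg : ∀ k, g (Sum.inl k) = e k := fun k => rfl
  let h : (Σ w : K0 ↪ Ω, (R ↪ ((Set.range w)ᶜ : Set Ω))) ≃ (K ↪ Ω) :=
    (Equiv.sumEmbeddingEquivSigmaEmbeddingRestricted).symm.trans
      (Equiv.embeddingCongr g (Equiv.refl Ω))
  have hh : ∀ w r, e.trans (h ⟨w, r⟩) = w := by
    intro w r
    ext k
    change h ⟨w, r⟩ (e k) = w k
    rw [← hg k]
    simp only [h, Equiv.trans_apply, Equiv.embeddingCongr_apply, Function.Embedding.congr]
    simp only [Function.Embedding.trans_apply, Equiv.coe_toEmbedding, Equiv.symm_apply_apply]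
    rfl
  rw [← Equiv.sum_comp h, Fintype.sum_sigma, Finset.mul_sum]
  apply Finset.sum_congr rfl
  intro w _
  rw [Finset.sum_congr rfl (fun r _ => by rw [hh w r]), Finset.sum_const, Finset.card_univ,
    nsmul_eq_mul, Fintype.card_embedding_eq]
  congr 3
  · rw [← Set.toFinset_card, Set.toFinset_compl, Finset.card_compl, Set.toFinset_card,
      Set.card_range_of_injective w.injective]
  · rw [← Set.toFinset_card, Set.toFinset_compl, Finset.card_compl, Set.toFinset_card,
      Set.card_range_of_injective e.injective]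

/-- the coordinates of the second tuple among the relevant cards -/
def qe {l : ℕ} (D : Finset (Fin l)) : Fin l ↪ Fin l ⊕ {i // i ∈ D} :=
  ⟨fun i => if h : i ∈ D then Sum.inr ⟨i, h⟩ else Sum.inl i, by
    intro a b hab
    by_cases ha : a ∈ D <;> by_cases hb : b ∈ D
    · simpa [ha, hb] using hab
    · simp [ha, hb] at hab
    · simp [ha, hb] at hab
    · simpa [ha, hb] using hab⟩

theorem qe_mem {l : ℕ} (D : Finset (Fin l)) (k : Fin l) (h : k ∈ D) :
    qe D k = Sum.inr ⟨k, h⟩ := by
  change (if h : k ∈ D then (Sum.inr ⟨k, h⟩ : Fin l ⊕ {i // i ∈ D}) else Sum.inl k) = _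
  rw [dif_pos h]

theorem qe_not_mem {l : ℕ} (D : Finset (Fin l)) (k : Fin l) (h : k ∉ D) :
    qe D k = Sum.inl k := by
  change (if h : k ∈ D then (Sum.inr ⟨k, h⟩ : Fin l ⊕ {i // i ∈ D}) else Sum.inl k) = _
  rw [dif_neg h]

theorem sum_fiber {l : ℕ} {Ω : Type} [Fintype Ω] [DecidableEq Ω]
    (φ : (Fin l ↪ Ω) → ℝ) (D : Finset (Fin l)) (y : Fin l ↪ Ω) :
    ∑ w ∈ univ.filter (fun w : Fin l ⊕ {i // i ∈ D} ↪ Ω =>
      Function.Embedding.inl.trans w = y), φ ((qe D).trans w) =
      FS φ D (D.image y) y ∅ := by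
  classical
  unfold FS
  apply Finset.sum_bij (fun w _ => (qe D).trans w)
  · intro w hw
    simp only [mem_filter, mem_univ, true_and] at hw ⊢
    have hw' : ∀ k, w (Sum.inl k) = y k := fun k => DFunLike.congr_fun hw k
    refine ⟨fun k hk => ?_, fun k hk => absurd hk (Finset.notMem_empty k), fun k hk _ => ?_⟩
    · rw [Function.Embedding.trans_apply, qe_not_mem D k hk, hw']
    · rw [Function.Embedding.trans_apply, qe_mem D k hk]
      intro hc
      obtain ⟨m, _, hm⟩ := mem_image.mp hc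
      rw [← hw'] at hm
      have := w.injective hm
      exact Sum.inl_ne_inr this
  · intro w hw w' hw' h
    simp only [mem_filter, mem_univ, true_and] at hw hw'
    have h1 : ∀ k, w (Sum.inl k) = w' (Sum.inl k) := fun k =>
      DFunLike.congr_fun (hw.trans hw'.symm) k
    ext k
    rcases k with k | ⟨k, hk⟩
    · exact h1 k
    · have := DFunLike.congr_fun h k
      simp only [Function.Embedding.trans_apply, qe_mem D k hk] at this
      exact this
  · intro z hz
    simp only [mem_filter, mem_univ, true_and] at hz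
    obtain ⟨h1, -, h3⟩ := hz
    refine ⟨⟨Sum.elim y (fun k => z k.1), ?_⟩, ?_, ?_⟩
    · have key : ∀ a b : Fin l, b ∈ D → y a ≠ z b := by
        intro a b hb hab
        by_cases ha : a ∈ D
        · apply h3 b hb (Finset.notMem_empty b)
          rw [← hab]
          exact mem_image_of_mem _ ha
        · rw [← h1 a ha] at hab
          have := z.injective hab
          rw [this] at ha
          exact ha hb
      rintro (a | ⟨a, ha⟩) (b | ⟨b, hb⟩) hab
      · simp only [Sum.elim_inl] at hab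
        rw [y.injective hab]
      · simp only [Sum.elim_inl, Sum.elim_inr] at hab
        exact absurd hab (key a b hb)
      · simp only [Sum.elim_inl, Sum.elim_inr] at hab
        exact absurd hab.symm (key b a ha)
      · simp only [Sum.elim_inr] at hab
        have := z.injective hab
        subst this
        rfl
    · simp only [mem_filter, mem_univ, true_and]
      ext k
      rfl
    · ext k
      rw [Function.Embedding.trans_apply]
      by_cases hk : k ∈ D
      · rw [qe_mem D k hk]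
        rfl
      · rw [qe_not_mem D k hk, h1 k hk]
        rfl
  · intro w _
    rfl

theorem sum_relevant {l : ℕ} {Ω : Type} [Fintype Ω] [DecidableEq Ω]
    (φ : (Fin l ↪ Ω) → ℝ) (D : Finset (Fin l)) :
    ∑ w : Fin l ⊕ {i // i ∈ D} ↪ Ω,
      φ (Function.Embedding.inl.trans w) * φ ((qe D).trans w) =
    ∑ y : Fin l ↪ Ω, φ y * FS φ D (D.image y) y ∅ := by
  classical
  rw [← Finset.sum_fiberwise_of_maps_to (s := univ)
    (t := (univ : Finset (Fin l ↪ Ω)))
    (g := fun w : Fin l ⊕ {i // i ∈ D} ↪ Ω => Function.Embedding.inl.trans w)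
    (fun z _ => mem_univ _)]
  apply Finset.sum_congr rfl
  intro y _
  rw [← sum_fiber φ D y, Finset.mul_sum]
  apply Finset.sum_congr rfl
  intro w hw
  rw [(mem_filter.mp hw).2]

end G1

theorem g1_main : G1Statement := by
  classical
  intro Ω _ _ l s φ hp J J'
  set D : Finset (Fin l) := Finset.univ.filter fun i => J i ≠ J' i with hD
  let e1 : Fin l ↪ Fin l × Fin s := ⟨fun i => (i, J i), fun _ _ h => congrArg Prod.fst h⟩
  let e : Fin l ⊕ {i // i ∈ D} ↪ Fin l × Fin s :=
    ⟨Sum.elim (fun i => (i, J i)) (fun i => (i.1, J' i.1)), by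
      rintro (a | ⟨a, ha⟩) (b | ⟨b, hb⟩) hab
      · simp only [Sum.elim_inl, Prod.mk.injEq] at hab
        rw [hab.1]
      · simp only [Sum.elim_inl, Sum.elim_inr, Prod.mk.injEq] at hab
        obtain ⟨h1, h2⟩ := hab
        subst h1
        exact absurd h2 (Finset.mem_filter.mp hb).2
      · simp only [Sum.elim_inl, Sum.elim_inr, Prod.mk.injEq] at hab
        obtain ⟨h1, h2⟩ := hab
        subst h1
        exact absurd h2.symm (Finset.mem_filter.mp ha).2
      · simp only [Sum.elim_inr, Prod.mk.injEq] at hab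
        obtain ⟨h1, h2⟩ := hab
        subst h1
        rfl⟩
  have hJ : ∀ x : (Fin l × Fin s) ↪ Ω,
      (⟨fun i => x (i, J i), fun _ _ h => congrArg Prod.fst (x.injective h)⟩ : Fin l ↪ Ω) =
        Function.Embedding.inl.trans (e.trans x) := by
    intro x
    ext k
    rfl
  have hJ' : ∀ x : (Fin l × Fin s) ↪ Ω,
      (⟨fun i => x (i, J' i), fun _ _ h => congrArg Prod.fst (x.injective h)⟩ : Fin l ↪ Ω) =
        (G1.qe D).trans (e.trans x) := by
    intro x
    ext k
    change x (k, J' k) = x (e (G1.qe D k))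
    by_cases hk : k ∈ D
    · rw [G1.qe_mem D k hk]
      rfl
    · rw [G1.qe_not_mem D k hk]
      change x (k, J' k) = x (k, J k)
      have : J k = J' k := by
        by_contra hne
        exact hk (Finset.mem_filter.mpr ⟨Finset.mem_univ _, hne⟩)
      rw [this]
  have hJ1 : ∀ x : (Fin l × Fin s) ↪ Ω,
      (⟨fun i => x (i, J i), fun _ _ h => congrArg Prod.fst (x.injective h)⟩ : Fin l ↪ Ω) =
        e1.trans x := by
    intro x
    ext k
    rfl
  have hA : ∑ x : (Fin l × Fin s) ↪ Ω,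
      φ ⟨fun i => x (i, J i), fun _ _ h => congrArg Prod.fst (x.injective h)⟩ *
      φ ⟨fun i => x (i, J' i), fun _ _ h => congrArg Prod.fst (x.injective h)⟩ =
      ((Fintype.card Ω - (l + D.card)).descFactorial (l * s - (l + D.card)) : ℝ) *
        ∑ y : Fin l ↪ Ω, φ y * G1.FS φ D (D.image y) y ∅ := by
    rw [← G1.sum_relevant]
    have := G1.sum_ext e (fun w : Fin l ⊕ {i // i ∈ D} ↪ Ω =>
      φ (Function.Embedding.inl.trans w) * φ ((G1.qe D).trans w))
    simp only [Fintype.card_sum, Fintype.card_fin, Fintype.card_prod, Fintype.card_coe] at this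
    rw [← this]
    apply Finset.sum_congr rfl
    intro x _
    rw [hJ x, hJ' x]
  have hB : ∑ x : (Fin l × Fin s) ↪ Ω,
      φ ⟨fun i => x (i, J i), fun _ _ h => congrArg Prod.fst (x.injective h)⟩ ^ 2 =
      ((Fintype.card Ω - l).descFactorial (l * s - l) : ℝ) * ∑ y : Fin l ↪ Ω, φ y ^ 2 := by
    have := G1.sum_ext e1 (fun w : Fin l ↪ Ω => φ w ^ 2)
    simp only [Fintype.card_fin, Fintype.card_prod] at this
    rw [← this]
    apply Finset.sum_congr rfl
    intro x _
    rw [hJ1 x]
  have hcard : l + D.card ≤ l * s := by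
    have := Fintype.card_le_of_embedding e
    simpa only [Fintype.card_sum, Fintype.card_fin, Fintype.card_prod, Fintype.card_coe] using this
  have hdf : ((Fintype.card Ω - (l + D.card)).descFactorial (l * s - (l + D.card)) : ℝ) *
      ((Fintype.card Ω - l).descFactorial D.card : ℝ) =
      ((Fintype.card Ω - l).descFactorial (l * s - l) : ℝ) := by
    have h1 := Nat.descFactorial_mul_descFactorial (k := D.card) (m := l * s - l)
      (n := Fintype.card Ω - l) (by omega)
    rw [Nat.sub_sub, Nat.sub_sub] at h1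
    exact_mod_cast h1
  rw [hA, hB, abs_mul, ← hdf, abs_of_nonneg (Nat.cast_nonneg _)]
  have hm := G1.abs_main_le φ hp D
  have h0 : (0 : ℝ) ≤ ((Fintype.card Ω - (l + D.card)).descFactorial
    (l * s - (l + D.card)) : ℝ) := Nat.cast_nonneg _
  have h0' : (0 : ℝ) ≤ ((Fintype.card Ω - l).descFactorial D.card : ℝ) := Nat.cast_nonneg _
  calc _ = ((Fintype.card Ω - (l + D.card)).descFactorial (l * s - (l + D.card)) : ℝ) *
        ((Fintype.card Ω - l).descFactorial D.card : ℝ) *
        |∑ y : Fin l ↪ Ω, φ y * G1.FS φ D (D.image y) y ∅| := by ring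
    _ ≤ ((Fintype.card Ω - (l + D.card)).descFactorial (l * s - (l + D.card)) : ℝ) *
        ((Fintype.card Ω - l).descFactorial D.card : ℝ) *
        ((D.card.factorial : ℝ) * ∑ y : Fin l ↪ Ω, φ y ^ 2) :=
        mul_le_mul_of_nonneg_left hm (mul_nonneg h0 h0')
    _ = _ := by ring

end P162L
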