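/-
P162 (Thorp shuffle), Theta(log n) project, module G2 (helper20): Gram / Bombieri inequality and
the multiplicity bound of the eigenvalues of pure eigenfunctions.
-/
import Vale.Agent.P162.Log.Stmts

namespace P162L

namespace G2

open scoped BigOperators

section general

variable {ι X : Type*} [Fintype ι] [Fintype X]

/-- Bombieri / Selberg inequality -/
theorem bombieri (v : ι → X → ℝ) (M : ℝ) (hM0 : 0 ≤ M)
    (hM : ∀ J, ∑ J', |∑ x, v J x * v J' x| ≤ M) (a : X → ℝ) :
    ∑ J, (∑ x, v J x * a x) ^ 2 ≤ M * ∑ x, a x ^ 2 := by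
  set c : ι → ℝ := fun J => ∑ x, v J x * a x with hc
  set S : ℝ := ∑ J, c J ^ 2 with hS
  set A : ℝ := ∑ x, a x ^ 2 with hA
  have hA0 : 0 ≤ A := Finset.sum_nonneg fun _ _ => sq_nonneg _
  have hS0 : 0 ≤ S := Finset.sum_nonneg fun _ _ => sq_nonneg _
  have h1 : S = ∑ x, (∑ J, c J * v J x) * a x := by
    rw [hS]
    calc ∑ J, c J ^ 2 = ∑ J, ∑ x, c J * v J x * a x := by
          refine Finset.sum_congr rfl fun J _ => ?_
          rw [pow_two]
          conv_lhs => rw [hc]
          simp only [Finset.mul_sum]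
          refine Finset.sum_congr rfl fun x _ => ?_
          ring
      _ = ∑ x, ∑ J, c J * v J x * a x := Finset.sum_comm
      _ = _ := by
          refine Finset.sum_congr rfl fun x _ => ?_
          rw [Finset.sum_mul]
  have h2 : S ^ 2 ≤ (∑ x, (∑ J, c J * v J x) ^ 2) * A := by
    rw [h1]
    exact Finset.sum_mul_sq_le_sq_mul_sq _ _ _
  have h3 : ∑ x, (∑ J, c J * v J x) ^ 2 ≤ M * S := by
    have h4 : ∑ x, (∑ J, c J * v J x) ^ 2 =
        ∑ J, ∑ J', c J * c J' * ∑ x, v J x * v J' x := by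
      calc ∑ x, (∑ J, c J * v J x) ^ 2
          = ∑ x, ∑ J, ∑ J', (c J * v J x) * (c J' * v J' x) := by
            refine Finset.sum_congr rfl fun x _ => ?_
            rw [pow_two, Finset.sum_mul_sum]
        _ = ∑ J, ∑ x, ∑ J', (c J * v J x) * (c J' * v J' x) := Finset.sum_comm
        _ = ∑ J, ∑ J', ∑ x, (c J * v J x) * (c J' * v J' x) := by
            refine Finset.sum_congr rfl fun J _ => Finset.sum_comm
        _ = _ := by
            refine Finset.sum_congr rfl fun J _ => Finset.sum_congr rfl fun J' _ => ?_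
            rw [Finset.mul_sum]
            refine Finset.sum_congr rfl fun x _ => ?_
            ring
    have hsymm : ∀ J J', |∑ x, v J x * v J' x| = |∑ x, v J' x * v J x| := by
      intro J J'
      congr 1
      exact Finset.sum_congr rfl fun x _ => mul_comm _ _
    rw [h4]
    calc ∑ J, ∑ J', c J * c J' * ∑ x, v J x * v J' x
        ≤ ∑ J, ∑ J', ((c J ^ 2 / 2) * |∑ x, v J x * v J' x| +
            (c J' ^ 2 / 2) * |∑ x, v J x * v J' x|) := by
          refine Finset.sum_le_sum fun J _ => Finset.sum_le_sum fun J' _ => ?_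
          have h5 : c J * c J' * ∑ x, v J x * v J' x ≤ |c J * c J'| * |∑ x, v J x * v J' x| := by
            rw [← abs_mul]
            exact le_abs_self _
          have h6 : |c J * c J'| ≤ c J ^ 2 / 2 + c J' ^ 2 / 2 := by
            rw [abs_le]
            constructor <;> nlinarith [sq_nonneg (c J - c J'), sq_nonneg (c J + c J')]
          have h7 := mul_le_mul_of_nonneg_right h6 (abs_nonneg (∑ x, v J x * v J' x))
          linarith
      _ = ∑ J, ∑ J', (c J ^ 2 / 2) * |∑ x, v J x * v J' x| +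
            ∑ J, ∑ J', (c J' ^ 2 / 2) * |∑ x, v J x * v J' x| := by
          simp only [Finset.sum_add_distrib]
      _ = ∑ J, ∑ J', (c J ^ 2 / 2) * |∑ x, v J x * v J' x| +
            ∑ J, ∑ J', (c J ^ 2 / 2) * |∑ x, v J x * v J' x| := by
          congr 1
          rw [Finset.sum_comm]
          refine Finset.sum_congr rfl fun J _ => Finset.sum_congr rfl fun J' _ => ?_
          rw [hsymm J' J]
      _ = ∑ J, c J ^ 2 * ∑ J', |∑ x, v J x * v J' x| := by
          rw [← Finset.sum_add_distrib]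
          refine Finset.sum_congr rfl fun J _ => ?_
          rw [← Finset.sum_add_distrib, Finset.mul_sum]
          refine Finset.sum_congr rfl fun J' _ => ?_
          ring
      _ ≤ ∑ J, c J ^ 2 * M :=
          Finset.sum_le_sum fun J _ => mul_le_mul_of_nonneg_left (hM J) (sq_nonneg _)
      _ = M * S := by rw [← Finset.sum_mul, mul_comm]
  have h8 : S ^ 2 ≤ M * S * A := h2.trans (mul_le_mul_of_nonneg_right h3 hA0)
  rcases hS0.eq_or_lt with h9 | h9
  · rw [← h9]
    positivity
  · have h10 : S * S ≤ (M * A) * S := by nlinarith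
    exact le_of_mul_le_mul_right h10 h9

variable [DecidableEq X]

/-- Hilbert-Schmidt form of the Bombieri inequality -/
theorem bombieri_op (v : ι → X → ℝ) (M : ℝ) (hM0 : 0 ≤ M)
    (hM : ∀ J, ∑ J', |∑ x, v J x * v J' x| ≤ M) (A : (X → ℝ) →ₗ[ℝ] (X → ℝ)) :
    ∑ J, ∑ y, (A (v J) y) ^ 2 ≤ M * ∑ x, ∑ y, (A (Pi.single x 1) y) ^ 2 := by
  have h1 : ∀ (f : X → ℝ) (y : X), A f y = ∑ x, f x * A (Pi.single x 1) y := by
    intro f y
    have h2 := LinearMap.pi_apply_eq_sum_univ A f
    rw [h2, Finset.sum_apply]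
    refine Finset.sum_congr rfl fun x _ => ?_
    rw [Pi.smul_apply, smul_eq_mul]
    have h3 : (fun j => if x = j then (1 : ℝ) else 0) = Pi.single x 1 := by
      funext j
      by_cases h : x = j
      · subst h; simp
      · simp [h, Ne.symm h]
    rw [h3]
  rw [Finset.sum_comm]
  calc ∑ y, ∑ J, (A (v J) y) ^ 2
      = ∑ y, ∑ J, (∑ x, v J x * A (Pi.single x 1) y) ^ 2 := by
        refine Finset.sum_congr rfl fun y _ => Finset.sum_congr rfl fun J _ => ?_
        rw [h1]
    _ ≤ ∑ y, M * ∑ x, (A (Pi.single x 1) y) ^ 2 :=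
        Finset.sum_le_sum fun y _ => bombieri v M hM0 hM _
    _ = _ := by rw [← Finset.mul_sum, Finset.sum_comm]

/-- the trace in the standard basis -/
theorem trace_eq (A : (X → ℝ) →ₗ[ℝ] (X → ℝ)) :
    LinearMap.trace ℝ (X → ℝ) A = ∑ x, A (Pi.single x 1) x := by
  rw [LinearMap.trace_eq_matrix_trace ℝ (Pi.basisFun ℝ X)]
  simp [Matrix.trace]

omit [DecidableEq X] in
/-- powers of a symmetric factorised operator are of the form `Aᵗ A` -/
theorem exists_sqrt (T R : (X → ℝ) →ₗ[ℝ] (X → ℝ))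
    (hs : ∀ f g : X → ℝ, ∑ x, T f x * g x = ∑ x, f x * T g x)
    (hf : ∀ f g : X → ℝ, ∑ x, T f x * g x = ∑ x, R f x * R g x) (p : ℕ) :
    ∃ A : (X → ℝ) →ₗ[ℝ] (X → ℝ), ∀ f g : X → ℝ,
      ∑ x, (T ^ p) f x * g x = ∑ x, A f x * A g x := by
  induction p using Nat.strong_induction_on with
  | _ p ih =>
    match p with
    | 0 => exact ⟨LinearMap.id, fun f g => by simp⟩
    | 1 => exact ⟨R, fun f g => by simpa using hf f g⟩
    | (q + 2) =>
      obtain ⟨A, hA⟩ := ih q (by omega)
      refine ⟨A ∘ₗ T, fun f g => ?_⟩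
      have h1 : (T ^ (q + 2)) f = T ((T ^ q) (T f)) := by
        rw [show q + 2 = (q + 1) + 1 from rfl, pow_succ' T (q + 1), pow_succ T q]
        rfl
      rw [h1, hs, hA]
      rfl

end general

section count

variable {l s : ℕ}

/-- the number of `J'` with prescribed difference set -/
theorem card_diff (J : Fin l → Fin s) (D : Finset (Fin l)) :
    (Finset.univ.filter fun J' : Fin l → Fin s =>
      (Finset.univ.filter fun i => J i ≠ J' i) = D).card = (s - 1) ^ D.card := by
  have h1 : (Finset.univ.filter fun J' : Fin l → Fin s =>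
      (Finset.univ.filter fun i => J i ≠ J' i) = D) =
      Fintype.piFinset fun i => if i ∈ D then Finset.univ.erase (J i) else {J i} := by
    ext J'
    simp only [Finset.mem_filter, Finset.mem_univ, true_and, Fintype.mem_piFinset]
    constructor
    · intro h i
      by_cases hi : i ∈ D
      · rw [if_pos hi]
        rw [← h] at hi
        simp only [Finset.mem_filter, Finset.mem_univ, true_and] at hi
        simp [Ne.symm hi]
      · rw [if_neg hi]
        rw [← h] at hi
        simp only [Finset.mem_filter, Finset.mem_univ, true_and, not_not] at hi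
        simp [hi]
    · intro h
      ext i
      simp only [Finset.mem_filter, Finset.mem_univ, true_and]
      have h2 := h i
      by_cases hi : i ∈ D
      · rw [if_pos hi] at h2
        simp only [Finset.mem_erase, Finset.mem_univ, and_true] at h2
        simp [hi, Ne.symm h2]
      · rw [if_neg hi] at h2
        simp only [Finset.mem_singleton] at h2
        simp [hi, h2]
  rw [h1, Fintype.card_piFinset]
  have h2 : ∀ i, (if i ∈ D then Finset.univ.erase (J i) else {J i} : Finset (Fin s)).card =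
      if i ∈ D then s - 1 else 1 := by
    intro i
    by_cases hi : i ∈ D
    · rw [if_pos hi, if_pos hi, Finset.card_erase_of_mem (Finset.mem_univ _), Finset.card_univ,
        Fintype.card_fin]
    · rw [if_neg hi, if_neg hi, Finset.card_singleton]
  simp only [h2]
  rw [Finset.prod_ite_mem, Finset.univ_inter, Finset.prod_const]

/-- sums over `J'` of functions of the number of differences -/
theorem sum_diff (J : Fin l → Fin s) (g : ℕ → ℝ) :
    ∑ J' : Fin l → Fin s, g (Finset.univ.filter fun i => J i ≠ J' i).card =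
      ∑ t ∈ Finset.range (l + 1), (l.choose t : ℝ) * (((s - 1 : ℕ) : ℝ) ^ t * g t) := by
  have h1 : ∑ J' : Fin l → Fin s, g (Finset.univ.filter fun i => J i ≠ J' i).card =
      ∑ D ∈ (Finset.univ : Finset (Fin l)).powerset, (((s - 1 : ℕ) : ℝ) ^ D.card * g D.card) := by
    have h2 := Finset.sum_fiberwise_of_maps_to (s := (Finset.univ : Finset (Fin l → Fin s)))
      (t := (Finset.univ : Finset (Fin l)).powerset)
      (g := fun J' => Finset.univ.filter fun i => J i ≠ J' i)
      (f := fun J' => g (Finset.univ.filter fun i => J i ≠ J' i).card)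
      (fun J' _ => by simp)
    rw [← h2]
    refine Finset.sum_congr rfl fun D _ => ?_
    have h3 : ∀ J' ∈ (Finset.univ.filter fun J' : Fin l → Fin s =>
        (Finset.univ.filter fun i => J i ≠ J' i) = D),
        g (Finset.univ.filter fun i => J i ≠ J' i).card = g D.card := by
      intro J' hJ'
      rw [(Finset.mem_filter.mp hJ').2]
    rw [Finset.sum_congr rfl h3, Finset.sum_const, card_diff, nsmul_eq_mul]
    push_cast
    ring
  rw [h1, Finset.sum_powerset_apply_card (fun t => ((s - 1 : ℕ) : ℝ) ^ t * g t)]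
  simp [nsmul_eq_mul]

/-- one term of the numerical bound -/
theorem term_le {n l s t : ℕ} (hs : 1 ≤ s) (hl : 1 ≤ l) (hn : 5 * (l * s) ≤ n) (ht : t ≤ l) :
    (l.choose t : ℝ) * (((s - 1 : ℕ) : ℝ) ^ t * ((t.factorial : ℝ) /
      ((n - l).descFactorial t : ℝ))) ≤ (1 / 3) ^ t := by
  have hls : l ≤ l * s := Nat.le_mul_of_pos_right l hs
  have h1 : (n - 2 * l) ^ t ≤ (n - l).descFactorial t := by
    refine le_trans ?_ (Nat.pow_sub_le_descFactorial (n - l) t)
    exact Nat.pow_le_pow_left (by omega) t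
  have h2 : 0 < n - 2 * l := by omega
  have h3 : (0 : ℝ) < ((n - 2 * l : ℕ) : ℝ) := by exact_mod_cast h2
  have h4 : (((n - 2 * l : ℕ) : ℝ)) ^ t ≤ ((n - l).descFactorial t : ℝ) := by exact_mod_cast h1
  have h5 : (l.choose t : ℝ) * (t.factorial : ℝ) ≤ (l : ℝ) ^ t := by
    have h6 : l.choose t * t.factorial = l.descFactorial t := by
      rw [Nat.descFactorial_eq_factorial_mul_choose, mul_comm]
    have h7 : l.choose t * t.factorial ≤ l ^ t := by
      rw [h6]
      exact Nat.descFactorial_le_pow l t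
    exact_mod_cast h7
  have h8 : ((s - 1 : ℕ) : ℝ) * (l : ℝ) ≤ (1 / 3) * ((n - 2 * l : ℕ) : ℝ) := by
    have h9 : 3 * ((s - 1) * l) ≤ n - 2 * l := by
      obtain ⟨s', rfl⟩ : ∃ s', s = s' + 1 := ⟨s - 1, by omega⟩
      simp only [Nat.add_sub_cancel]
      have h10 : l * (s' + 1) = s' * l + l := by ring
      rw [h10] at hn
      omega
    have h11 : (3 : ℝ) * (((s - 1 : ℕ) : ℝ) * (l : ℝ)) ≤ ((n - 2 * l : ℕ) : ℝ) := by
      exact_mod_cast h9
    linarith
  have h12 : (0 : ℝ) < ((n - l).descFactorial t : ℝ) := lt_of_lt_of_le (by positivity) h4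
  calc (l.choose t : ℝ) * (((s - 1 : ℕ) : ℝ) ^ t * ((t.factorial : ℝ) /
      ((n - l).descFactorial t : ℝ)))
      = (((l.choose t : ℝ) * (t.factorial : ℝ)) * ((s - 1 : ℕ) : ℝ) ^ t) /
          ((n - l).descFactorial t : ℝ) := by ring
    _ ≤ ((l : ℝ) ^ t * ((s - 1 : ℕ) : ℝ) ^ t) / (((n - 2 * l : ℕ) : ℝ)) ^ t := by
        apply div_le_div₀ (by positivity) _ (by positivity) h4
        exact mul_le_mul_of_nonneg_right h5 (by positivity)
    _ = ((((s - 1 : ℕ) : ℝ) * (l : ℝ)) / ((n - 2 * l : ℕ) : ℝ)) ^ t := by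
        rw [← mul_pow, ← div_pow, mul_comm (l : ℝ)]
    _ ≤ (1 / 3) ^ t := by
        apply pow_le_pow_left₀ (by positivity)
        rw [div_le_iff₀ h3]
        exact h8

/-- the numerical bound -/
theorem sum_le {n l s : ℕ} (hs : 1 ≤ s) (hl : 1 ≤ l) (hn : 5 * (l * s) ≤ n) :
    ∑ t ∈ Finset.range (l + 1), (l.choose t : ℝ) * (((s - 1 : ℕ) : ℝ) ^ t * ((t.factorial : ℝ) /
      ((n - l).descFactorial t : ℝ))) ≤ 2 := by
  calc ∑ t ∈ Finset.range (l + 1), (l.choose t : ℝ) * (((s - 1 : ℕ) : ℝ) ^ t *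
        ((t.factorial : ℝ) / ((n - l).descFactorial t : ℝ)))
      ≤ ∑ t ∈ Finset.range (l + 1), ((1 / 3 : ℝ)) ^ t :=
        Finset.sum_le_sum fun t ht => term_le hs hl hn
          (Nat.lt_succ_iff.mp (Finset.mem_range.mp ht))
    _ = ((1 / 3 : ℝ) ^ (l + 1) - 1) / (1 / 3 - 1) := geom_sum_eq (by norm_num) _
    _ ≤ 2 := by
        have h1 : (0 : ℝ) ≤ (1 / 3) ^ (l + 1) := by positivity
        have h2 : ((1 / 3 : ℝ) ^ (l + 1) - 1) / (1 / 3 - 1) =
            (3 / 2) * (1 - (1 / 3) ^ (l + 1)) := by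
          ring
        rw [h2]
        linarith

end count

section app

variable {d l s : ℕ}

/-- the projection to the chosen cards -/
def eJ (J : Fin l → Fin s) (x : (Fin l × Fin s) ↪ Pos d) : Fin l ↪ Pos d :=
  ⟨fun i => x (i, J i), fun _ _ h => congrArg Prod.fst (x.injective h)⟩

theorem eJ_smul (J : Fin l → Fin s) (g : Equiv.Perm (Pos d)) (x : (Fin l × Fin s) ↪ Pos d) :
    eJ J (g • x) = g • eJ J x := rfl

/-- swapping two choices of cards -/
def swJ (J J' : Fin l → Fin s) : Equiv.Perm (Fin l × Fin s) :=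
  Equiv.prodShear (Equiv.refl _) fun i => Equiv.swap (J i) (J' i)

theorem norm_eq (φ : (Fin l ↪ Pos d) → ℝ) (J J' : Fin l → Fin s) :
    ∑ x, φ (eJ J x) ^ 2 = ∑ x, φ (eJ J' x) ^ 2 := by
  rw [← Equiv.sum_comp ((swJ J J').embeddingCongr (Equiv.refl (Pos d)))
    (fun x => φ (eJ J' x) ^ 2)]
  refine Finset.sum_congr rfl fun x _ => ?_
  congr 2
  ext i
  simp [eJ, swJ, Equiv.embeddingCongr]
  rfl

theorem eJ_surj (hls : l * s ≤ 2 ^ d) (J : Fin l → Fin s) (y : Fin l ↪ Pos d) :
    ∃ x : (Fin l × Fin s) ↪ Pos d, eJ J x = y := by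
  have h1 : Fintype.card (Fin l × Fin s) ≤ Fintype.card (Pos d) := by
    simpa [Pos] using hls
  obtain ⟨x0⟩ : Nonempty ((Fin l × Fin s) ↪ Pos d) := Function.Embedding.nonempty_of_card_le h1
  have : MulAction.IsMultiplyPretransitive (Equiv.Perm (Pos d)) (Pos d) l :=
    Equiv.Perm.isMultiplyPretransitive (Pos d) l
  obtain ⟨g, hg⟩ := MulAction.exists_smul_eq (Equiv.Perm (Pos d)) (eJ J x0) y
  exact ⟨g • x0, by rw [eJ_smul, hg]⟩

theorem pow_apply_eig {X : Type*} (T : (X → ℝ) →ₗ[ℝ] (X → ℝ)) {v : X → ℝ} {β : ℝ}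
    (h : T v = β • v) (p : ℕ) : (T ^ p) v = β ^ p • v := by
  induction p with
  | zero => simp
  | succ p ih =>
    rw [pow_succ]
    change (T ^ p) (T v) = _
    rw [h, map_smul, ih, smul_smul, pow_succ']

end app

end G2

open G2 in
theorem g2_main : G2Statement := by
  intro hG1 hPS d l s hl hs hq φ hφ hp β hβ p
  obtain ⟨-, hsym, hfac, hpull, -⟩ := hPS d ((Fin l × Fin s) ↪ Pos d)
  -- eigenfunctions
  set v : (Fin l → Fin s) → ((Fin l × Fin s) ↪ Pos d) → ℝ := fun J x => φ (eJ J x) with hv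
  have hTv : ∀ J, TT d ((Fin l × Fin s) ↪ Pos d) d (v J) = β • v J := by
    intro J
    have h1 := hpull (Fin l ↪ Pos d) (eJ J) (fun g x => eJ_smul J g x) d φ
    have h2 : φ ∘ eJ J = v J := rfl
    rw [h2] at h1
    rw [h1, hβ]
    rfl
  -- the common norm
  have hls : l ≤ l * s := Nat.le_mul_of_pos_right l hs
  set J0 : Fin l → Fin s := fun _ => ⟨0, hs⟩ with hJ0
  set N : ℝ := ∑ x, v J0 x ^ 2 with hN
  have hNJ : ∀ J, ∑ x, v J x ^ 2 = N := fun J => norm_eq φ J J0
  have hN0 : 0 < N := by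
    obtain ⟨y, hy⟩ := Function.ne_iff.mp hφ
    obtain ⟨x, hx⟩ := eJ_surj (d := d) (by omega) J0 y
    have h1 : 0 < v J0 x ^ 2 := by
      have h2 : v J0 x = φ y := by
        simp only [hv]
        rw [hx]
      rw [h2]
      have h3 : φ y ≠ 0 := hy
      positivity
    exact lt_of_lt_of_le h1 (Finset.single_le_sum (f := fun x => v J0 x ^ 2)
      (fun _ _ => sq_nonneg _) (Finset.mem_univ x))
  -- correlations
  have hcard : Fintype.card (Pos d) = 2 ^ d := by simp [Pos]
  have hcor : ∀ J J', |∑ x, v J x * v J' x| ≤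
      N * (((Finset.univ.filter fun i => J i ≠ J' i).card.factorial : ℝ) /
        ((2 ^ d - l).descFactorial (Finset.univ.filter fun i => J i ≠ J' i).card : ℝ)) := by
    intro J J'
    have h1 := hG1 (Pos d) l s φ hp J J'
    rw [hcard] at h1
    set t := (Finset.univ.filter fun i => J i ≠ J' i).card with ht
    have htl : t ≤ l := by
      have := Finset.card_filter_le (Finset.univ : Finset (Fin l)) (fun i => J i ≠ J' i)
      simpa using this
    have h2 : 0 < (2 ^ d - l).descFactorial t := by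
      rw [Nat.pos_iff_ne_zero, Ne, Nat.descFactorial_eq_zero_iff_lt]
      omega
    have h3 : (0 : ℝ) < ((2 ^ d - l).descFactorial t : ℝ) := by exact_mod_cast h2
    have h4 : N * ((t.factorial : ℝ) / ((2 ^ d - l).descFactorial t : ℝ)) =
        ((t.factorial : ℝ) * N) / ((2 ^ d - l).descFactorial t : ℝ) := by ring
    rw [h4, le_div_iff₀ h3, ← hNJ J]
    exact h1
  have hM : ∀ J, ∑ J', |∑ x, v J x * v J' x| ≤ 2 * N := by
    intro J
    calc ∑ J', |∑ x, v J x * v J' x|
        ≤ ∑ J' : Fin l → Fin s,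
          (fun t : ℕ => N * ((t.factorial : ℝ) / ((2 ^ d - l).descFactorial t : ℝ)))
            (Finset.univ.filter fun i => J i ≠ J' i).card :=
          Finset.sum_le_sum fun J' _ => hcor J J'
      _ = ∑ t ∈ Finset.range (l + 1), (l.choose t : ℝ) * (((s - 1 : ℕ) : ℝ) ^ t *
            (N * ((t.factorial : ℝ) / ((2 ^ d - l).descFactorial t : ℝ)))) :=
          sum_diff J (fun t : ℕ => N * ((t.factorial : ℝ) /
            ((2 ^ d - l).descFactorial t : ℝ)))
      _ = N * ∑ t ∈ Finset.range (l + 1), (l.choose t : ℝ) * (((s - 1 : ℕ) : ℝ) ^ t *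
            ((t.factorial : ℝ) / ((2 ^ d - l).descFactorial t : ℝ))) := by
          rw [Finset.mul_sum]
          refine Finset.sum_congr rfl fun t _ => ?_
          ring
      _ ≤ N * 2 := mul_le_mul_of_nonneg_left (sum_le hs hl hq) hN0.le
      _ = 2 * N := mul_comm _ _
  -- the square root
  obtain ⟨A, hA⟩ := exists_sqrt _ _ (hsym d) (hfac d) p
  have h1 := bombieri_op v (2 * N) (by positivity) hM A
  have h2 : ∀ J, ∑ y, (A (v J) y) ^ 2 = β ^ p * N := by
    intro J
    have h3 := hA (v J) (v J)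
    rw [pow_apply_eig _ (hTv J) p] at h3
    calc ∑ y, (A (v J) y) ^ 2 = ∑ x, A (v J) x * A (v J) x :=
          Finset.sum_congr rfl fun x _ => pow_two _
      _ = ∑ x, (β ^ p • v J) x * v J x := h3.symm
      _ = ∑ x, β ^ p * v J x ^ 2 := by
          refine Finset.sum_congr rfl fun x _ => ?_
          rw [Pi.smul_apply, smul_eq_mul]
          ring
      _ = β ^ p * N := by rw [← Finset.mul_sum, hNJ]
  have h4 : ∑ x, ∑ y, (A (Pi.single x 1) y) ^ 2 =
      LinearMap.trace ℝ (((Fin l × Fin s) ↪ Pos d) → ℝ)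
        ((TT d ((Fin l × Fin s) ↪ Pos d) d) ^ p) := by
    rw [trace_eq]
    refine Finset.sum_congr rfl fun x _ => ?_
    have h5 := hA (Pi.single x 1) (Pi.single x 1)
    calc ∑ y, (A (Pi.single x 1) y) ^ 2
        = ∑ y, A (Pi.single x 1) y * A (Pi.single x 1) y :=
          Finset.sum_congr rfl fun y _ => pow_two _
      _ = ∑ y, ((TT d ((Fin l × Fin s) ↪ Pos d) d) ^ p) (Pi.single x 1) y *
            (Pi.single x (1 : ℝ) : ((Fin l × Fin s) ↪ Pos d) → ℝ) y := h5.symm
      _ = _ := by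
          rw [Finset.sum_eq_single x]
          · simp
          · intro y _ hy
            simp [hy]
          · intro h
            exact absurd (Finset.mem_univ x) h
  simp only [h2] at h1
  rw [h4, Finset.sum_const, Finset.card_univ, Fintype.card_fun, Fintype.card_fin,
    Fintype.card_fin, nsmul_eq_mul] at h1
  push_cast at h1
  have h6 : ((s : ℝ) ^ l * β ^ p) * N ≤ (2 * LinearMap.trace ℝ (((Fin l × Fin s) ↪ Pos d) → ℝ)
        ((TT d ((Fin l × Fin s) ↪ Pos d) d) ^ p)) * N := by
    linarith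
  exact le_of_mul_le_mul_right h6 hN0

end P162L
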