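/-
P162 (Thorp shuffle), Theta(log n) project, module HA (helper22): the top part.
-/
import Vale.Agent.P162.Log.Stmts
import Vale.Agent.P162.Main

namespace P162L

open scoped BigOperators

theorem ha_main : HAStatement := by
  intro lo lk ps d k v hv0 horth β hβ
  classical
  obtain ⟨e, he⟩ := lk d
  obtain ⟨N, b, lam, hb⟩ := P162.exists_basis (Pos d)
  set ρ0 := P162.regRep (Pos d) with hρ0
  set ρ := ρ0.comp (e.permCongrHom).toMonoidHom with hρ
  have horthρ : P162.IsOrth ρ := P162.isOrth_comp_main ρ0 (P162.regRep_isOrth _) _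
  have hlap : P162.Lap ρ = P162.Lap ρ0 := P162.lap_equiv e ρ0
  set V : EuclideanSpace ℝ (Equiv.Perm (Pos d)) := WithLp.toLp 2 v with hV
  set s := P162.sconst d with hs
  set L := P162.Lap ρ0 with hL
  let _ : NormedAlgebra ℚ (EuclideanSpace ℝ (Equiv.Perm (Pos d)) →L[ℝ]
    EuclideanSpace ℝ (Equiv.Perm (Pos d))) := NormedAlgebra.restrictScalars ℚ ℝ _
  -- norms
  have hVn : ‖V‖ ^ 2 = ∑ π, v π * v π := by
    rw [EuclideanSpace.norm_sq_eq]
    refine Finset.sum_congr rfl fun π _ => ?_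
    rw [Real.norm_eq_abs, sq_abs, sq]
  have hRn : ‖P162.Rop d ρ V‖ ^ 2 = β * ‖V‖ ^ 2 := by
    have h1 : ‖P162.Rop d ρ V‖ ^ 2 = ∑ π, RR d (Equiv.Perm (Pos d)) d v π *
        RR d (Equiv.Perm (Pos d)) d v π := by
      rw [EuclideanSpace.norm_sq_eq]
      refine Finset.sum_congr rfl fun π _ => ?_
      rw [Real.norm_eq_abs, sq_abs, sq]
      have := congrFun (he V) π
      have h2 : (fun π => V π) = v := rfl
      rw [h2] at this
      rw [← this]
    rw [h1, ← (ps d (Equiv.Perm (Pos d))).2.2.1 d v v, hβ, hVn, Finset.mul_sum]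
    refine Finset.sum_congr rfl fun π _ => ?_
    rw [Pi.smul_apply, smul_eq_mul]
    ring
  -- contraction
  have hcontr : ‖P162.Rop d ρ V‖ ≤ ‖P162.heat (Pos d) s V‖ := by
    have h1 := P162.cube_contraction d ρ horthρ (P162.heat (Pos d) s V)
    have h2 : NormedSpace.exp (P162.sconst d • P162.Lap ρ) (P162.heat (Pos d) s V) = V := by
      rw [hlap]
      have h3 : NormedSpace.exp (s • L) * NormedSpace.exp ((-s) • L) = 1 := by
        rw [← NormedSpace.exp_add_of_commute]
        · rw [← add_smul, add_neg_cancel, zero_smul, NormedSpace.exp_zero]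
        · exact ((Commute.refl L).smul_left _).smul_right _
      have h4 := congrArg (fun T : EuclideanSpace ℝ (Equiv.Perm (Pos d)) →L[ℝ]
        EuclideanSpace ℝ (Equiv.Perm (Pos d)) => T V) h3
      exact h4
    rw [h2] at h1
    exact h1
  -- low eigenvectors are orthogonal to `V`
  have hlow : ∀ i, lam i < ((k : ℝ) + 1) / 2 → inner ℝ (b i) V = (0 : ℝ) := by
    intro i hi
    by_cases hne : Nonempty (Pos d)
    · have h1 := lo (Pos d) k (b i) (fun l hl hlen =>
        P162.alt_eq_zero_of_eigen ρ0 (P162.regRep_isOrth _) (b i) (lam i) (hb i) k hi l hl hlen)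
      have h2 := horth _ h1
      rw [← h2, PiLp.inner_apply]
      refine Finset.sum_congr rfl fun π _ => ?_
      simp [hV]
    · exact absurd ⟨fun _ => false⟩ hne
  have hheat : ‖P162.heat (Pos d) s V‖ ^ 2 ≤ Real.exp (-(s * ((k : ℝ) + 1))) * ‖V‖ ^ 2 := by
    rw [P162.heat_norm b lam hb, ← b.sum_sq_norm_inner_right V, Finset.mul_sum]
    refine Finset.sum_le_sum fun i _ => ?_
    by_cases hi : lam i < ((k : ℝ) + 1) / 2
    · rw [hlow i hi]
      simp
    · rw [Real.norm_eq_abs, sq_abs]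
      apply mul_le_mul_of_nonneg_right _ (sq_nonneg _)
      apply Real.exp_le_exp.2
      have hs0 : 0 ≤ s := by have := P162.sconst_ge d; linarith
      nlinarith [not_lt.1 hi]
  have hVpos : 0 < ‖V‖ ^ 2 := by
    have : V ≠ 0 := by
      intro h
      apply hv0
      funext π
      have := congrArg (fun w : EuclideanSpace ℝ (Equiv.Perm (Pos d)) => w π) h
      simpa [hV] using this
    positivity
  have hfin : β * ‖V‖ ^ 2 ≤ Real.exp (-(s * ((k : ℝ) + 1))) * ‖V‖ ^ 2 := by
    rw [← hRn]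
    exact (pow_le_pow_left₀ (norm_nonneg _) hcontr 2).trans hheat
  have hβ1 := le_of_mul_le_mul_right hfin hVpos
  refine hβ1.trans (Real.exp_le_exp.2 ?_)
  have hs1 : 1 / 1400 ≤ s := P162.sconst_ge d
  have hk : (0 : ℝ) < (k : ℝ) + 1 := by positivity
  have : (1 / 1400) * ((k : ℝ) + 1) ≤ s * ((k : ℝ) + 1) := mul_le_mul_of_nonneg_right hs1 hk.le
  linarith

end P162L
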