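/-
P162 (Thorp shuffle), Theta(log n) project, module KA (helper25): the kernel inequality.
-/
import Vale.Agent.P162.Log.Stmts

namespace P162L

open scoped BigOperators

namespace KA

variable {d : ℕ} {C : Type}

theorem rel_refl (j : ℕ) (x : C ↪ Pos d) : rel j x x := fun _ _ _ => rfl

theorem rel_symm {j : ℕ} {x y : C ↪ Pos d} (h : rel j x y) : rel j y x :=
  fun c i hi => (h c i hi).symm

theorem rel_trans {j : ℕ} {x y z : C ↪ Pos d} (h : rel j x y) (h' : rel j y z) : rel j x z :=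
  fun c i hi => (h c i hi).trans (h' c i hi)

variable [Fintype C] [DecidableEq C]

omit [DecidableEq C] in
theorem mem_cls (j : ℕ) (x y : C ↪ Pos d) : y ∈ cls j x ↔ rel j x y := by
  classical
  unfold cls
  simp only [Finset.mem_filter, Finset.mem_univ, true_and]

omit [DecidableEq C] in
theorem cls_eq {j : ℕ} {x y : C ↪ Pos d} (h : rel j x y) : cls j x = cls j y := by
  ext z
  rw [mem_cls, mem_cls]
  exact ⟨fun h' => rel_trans (rel_symm h) h', fun h' => rel_trans h h'⟩

omit [DecidableEq C] in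
theorem cls_pos (j : ℕ) (x : C ↪ Pos d) : (0 : ℝ) < ((cls j x).card : ℝ) := by
  have : x ∈ cls j x := (mem_cls j x x).2 (rel_refl j x)
  exact_mod_cast Finset.card_pos.2 ⟨x, this⟩

/-- `Lay i (single y 1)` is the normalised indicator function of the class of `y` -/
theorem lay_single (qc : QCStatement) (i : ℕ) (y : C ↪ Pos d) :
    Lay d (C ↪ Pos d) i (Pi.single y 1) =
      (1 / ((cls i y).card : ℝ)) • ∑ b ∈ cls i y, (Pi.single b 1 : (C ↪ Pos d) → ℝ) := by
  funext z
  rw [qc, Pi.smul_apply, Finset.sum_apply, smul_eq_mul]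
  by_cases h : rel i z y
  · rw [cls_eq h]
    have hz : z ∈ cls i y := (mem_cls i y z).2 (rel_symm h)
    have hy : y ∈ cls i y := (mem_cls i y y).2 (rel_refl i y)
    congr 1
    rw [Finset.sum_eq_single_of_mem y hy (fun b _ hb => by rw [Pi.single_eq_of_ne hb]),
      Finset.sum_eq_single_of_mem z hz (fun b _ hb => by rw [Pi.single_eq_of_ne (Ne.symm hb)]),
      Pi.single_eq_same, Pi.single_eq_same]
  · rw [Finset.sum_eq_zero, Finset.sum_eq_zero, mul_zero, mul_zero]
    · intro b hb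
      rw [Pi.single_eq_of_ne]
      rintro rfl
      exact h (rel_symm ((mem_cls i y z).1 hb))
    · intro b hb
      rw [Pi.single_eq_of_ne]
      rintro rfl
      exact h ((mem_cls i z b).1 hb)

/-- recursion of the kernel -/
theorem Tk_succ (qc : QCStatement) (i : ℕ) (x y : C ↪ Pos d) :
    Tk (i + 1) x y = 1 / (((cls i x).card : ℝ) * ((cls i y).card : ℝ)) *
      ∑ a ∈ cls i x, ∑ b ∈ cls i y, Tk i a b := by
  have h1 : Tk (i + 1) x y =
      Lay d (C ↪ Pos d) i (TT d (C ↪ Pos d) i (Lay d (C ↪ Pos d) i (Pi.single y 1))) x := rfl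
  rw [h1, qc, lay_single qc, map_smul, map_sum]
  have h2 : ∀ a ∈ cls i x, ((1 / ((cls i y).card : ℝ)) •
      ∑ b ∈ cls i y, TT d (C ↪ Pos d) i (Pi.single b 1 : (C ↪ Pos d) → ℝ)) a =
      (1 / ((cls i y).card : ℝ)) * ∑ b ∈ cls i y, Tk i a b := by
    intro a _
    rw [Pi.smul_apply, Finset.sum_apply, smul_eq_mul]
    rfl
  rw [Finset.sum_congr rfl h2, ← Finset.mul_sum, ← mul_assoc]
  congr 1
  rw [one_div, one_div, one_div, mul_inv]

/-- locality: `TT i` only looks at configurations agreeing on the bits `≥ i` -/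
theorem TT_local (qc : QCStatement) (i : ℕ) : ∀ (Φ : (C ↪ Pos d) → ℝ) (a : C ↪ Pos d),
    (∀ z, agr i a z → Φ z = 0) → TT d (C ↪ Pos d) i Φ a = 0 := by
  induction i with
  | zero =>
    intro Φ a h
    exact h a fun _ _ _ => rfl
  | succ i ih =>
    intro Φ a h
    show Lay d (C ↪ Pos d) i (TT d (C ↪ Pos d) i (Lay d (C ↪ Pos d) i Φ)) a = 0
    rw [qc, Finset.sum_eq_zero, mul_zero]
    intro a' ha'
    apply ih
    intro z hz
    rw [qc, Finset.sum_eq_zero, mul_zero]
    intro z' hz'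
    apply h
    intro c k hk
    have hki : (k : ℕ) ≠ i := by omega
    rw [(mem_cls i a a').1 ha' c k hki, hz c k (by omega), (mem_cls i z z').1 hz' c k hki]

theorem Tk_local (qc : QCStatement) (i : ℕ) (a b : C ↪ Pos d) (h : ¬ agr i a b) :
    Tk i a b = 0 := by
  apply TT_local qc
  intro z hz
  rw [Pi.single_eq_of_ne]
  rintro rfl
  exact h hz

theorem Tk_nonneg (qc : QCStatement) (i : ℕ) : ∀ (x y : C ↪ Pos d), 0 ≤ Tk i x y := by
  induction i with
  | zero =>
    intro x y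
    show (0 : ℝ) ≤ (Pi.single y 1 : (C ↪ Pos d) → ℝ) x
    by_cases h : x = y
    · rw [h, Pi.single_eq_same]; exact zero_le_one
    · rw [Pi.single_eq_of_ne h]
  | succ i ih =>
    intro x y
    rw [Tk_succ qc]
    have := cls_pos i x
    have := cls_pos i y
    exact mul_nonneg (by positivity)
      (Finset.sum_nonneg fun a _ => Finset.sum_nonneg fun b _ => ih a b)

omit [DecidableEq C] in
theorem ww_nonneg (j : ℕ) (x y : C ↪ Pos d) : 0 ≤ ww j x y := by
  unfold ww
  positivity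

omit [DecidableEq C] in
theorem Gk_nonneg (ι : ℝ) (i : ℕ) : ∀ (x y : C ↪ Pos d), 0 ≤ Gk ι i x y := by
  induction i with
  | zero =>
    intro x y
    unfold Gk
    split <;> norm_num
  | succ i ih =>
    intro x y
    unfold Gk
    have := cls_pos i x
    have := cls_pos i y
    exact mul_nonneg (mul_nonneg (by positivity) (Real.rpow_nonneg (ww_nonneg _ _ _) _))
      (Finset.sum_nonneg fun a _ => Finset.sum_nonneg fun b _ => ih a b)

omit [DecidableEq C] in
theorem sum_Kset (i : ℕ) (x y : C ↪ Pos d) (F : (C ↪ Pos d) → (C ↪ Pos d) → ℝ)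
    (h : ∀ a b, ¬ agr i a b → F a b = 0) :
    ∑ a ∈ cls i x, ∑ b ∈ cls i y, F a b = ∑ p ∈ Kset i x y, F p.1 p.2 := by
  classical
  unfold Kset
  rw [← Finset.sum_product' (cls i x) (cls i y) F]
  symm
  apply Finset.sum_subset (Finset.filter_subset _ _)
  intro p hp hp'
  apply h
  intro hag
  exact hp' (Finset.mem_filter.2 ⟨hp, hag⟩)

omit [DecidableEq C] in
theorem sum_Kset_le (i : ℕ) (x y : C ↪ Pos d) (F : (C ↪ Pos d) → (C ↪ Pos d) → ℝ)
    (h : ∀ a b, 0 ≤ F a b) :
    ∑ p ∈ Kset i x y, F p.1 p.2 ≤ ∑ a ∈ cls i x, ∑ b ∈ cls i y, F a b := by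
  classical
  unfold Kset
  rw [← Finset.sum_product' (cls i x) (cls i y) F]
  exact Finset.sum_le_sum_of_subset_of_nonneg (Finset.filter_subset _ _) fun p _ _ => h _ _

end KA

open KA in
theorem ka_main : KAStatement := by
  intro qc d C _ _ ι hι i
  induction i with
  | zero =>
    intro x y
    rw [pow_zero, Real.one_rpow, one_mul]
    have h0 : Tk 0 x y = if x = y then 1 else 0 := by
      show (Pi.single y 1 : (C ↪ Pos d) → ℝ) x = _
      rw [Pi.single_apply]
    rw [h0]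
    unfold Gk
    split
    · rw [Real.one_rpow]
    · rw [Real.zero_rpow (by linarith)]
  | succ i ih =>
    intro x y
    set q : ℝ := (Fintype.card C : ℝ) with hq
    set cx : ℝ := ((cls i x).card : ℝ) with hcx
    set cy : ℝ := ((cls i y).card : ℝ) with hcy
    have hcx0 : 0 < cx := cls_pos i x
    have hcy0 : 0 < cy := cls_pos i y
    have hc0 : 0 ≤ 1 / (cx * cy) := by positivity
    have hK : Tk (i + 1) x y = 1 / (cx * cy) * ∑ p ∈ Kset i x y, Tk i p.1 p.2 := by
      rw [Tk_succ qc, sum_Kset i x y (fun a b => Tk i a b) fun a b h => Tk_local qc i a b h]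
    have hS0 : 0 ≤ ∑ p ∈ Kset i x y, Tk i p.1 p.2 :=
      Finset.sum_nonneg fun p _ => Tk_nonneg qc i _ _
    have hpow : (∑ p ∈ Kset i x y, Tk i p.1 p.2) ^ (1 + ι) ≤
        ((Kset i x y).card : ℝ) ^ ι * ∑ p ∈ Kset i x y, (Tk i p.1 p.2) ^ (1 + ι) := by
      have := Real.rpow_sum_le_const_mul_sum_rpow_of_nonneg (Kset i x y)
        (f := fun p => Tk i p.1 p.2) (p := 1 + ι) (by linarith) (fun p _ => Tk_nonneg qc i _ _)
      simpa using this
    have h2i : (0 : ℝ) ≤ ((2 : ℝ) ^ i) ^ (ι * q) := Real.rpow_nonneg (by positivity) _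
    have hsplit : ((2 : ℝ) ^ (i + 1)) ^ (ι * q) = ((2 : ℝ) ^ i) ^ (ι * q) * ((2 : ℝ) ^ Fintype.card C) ^ ι := by
      rw [pow_succ, Real.mul_rpow (by positivity) (by norm_num)]
      congr 1
      rw [← Real.rpow_natCast (2 : ℝ) (Fintype.card C), ← Real.rpow_mul (by norm_num), mul_comm]
    have hww : (ww i x y) ^ ι = ((Kset i x y).card : ℝ) ^ ι * ((2 : ℝ) ^ Fintype.card C) ^ ι *
        (1 / (cx * cy)) ^ ι := by
      unfold ww
      rw [← Real.mul_rpow (by positivity) (by positivity),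
        ← Real.mul_rpow (by positivity) (by positivity)]
      congr 1
      rw [← hcx, ← hcy]
      ring
    calc ((2 : ℝ) ^ (i + 1)) ^ (ι * q) * (Tk (i + 1) x y) ^ (1 + ι)
        = ((2 : ℝ) ^ i) ^ (ι * q) * ((2 : ℝ) ^ Fintype.card C) ^ ι *
          ((1 / (cx * cy)) ^ (1 + ι) * (∑ p ∈ Kset i x y, Tk i p.1 p.2) ^ (1 + ι)) := by
          rw [hsplit, hK, Real.mul_rpow hc0 hS0]
      _ ≤ ((2 : ℝ) ^ i) ^ (ι * q) * ((2 : ℝ) ^ Fintype.card C) ^ ι *
          ((1 / (cx * cy)) ^ (1 + ι) *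
          (((Kset i x y).card : ℝ) ^ ι * ∑ p ∈ Kset i x y, (Tk i p.1 p.2) ^ (1 + ι))) := by
          apply mul_le_mul_of_nonneg_left
          · exact mul_le_mul_of_nonneg_left hpow (Real.rpow_nonneg hc0 _)
          · exact mul_nonneg h2i (Real.rpow_nonneg (by positivity) _)
      _ = 1 / (cx * cy) * (ww i x y) ^ ι *
          ∑ p ∈ Kset i x y, ((2 : ℝ) ^ i) ^ (ι * q) * (Tk i p.1 p.2) ^ (1 + ι) := by
          rw [hww, ← Finset.mul_sum, Real.rpow_add (by positivity), Real.rpow_one]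
          ring
      _ ≤ 1 / (cx * cy) * (ww i x y) ^ ι * ∑ p ∈ Kset i x y, Gk ι i p.1 p.2 := by
          apply mul_le_mul_of_nonneg_left
          · exact Finset.sum_le_sum fun p _ => ih p.1 p.2
          · exact mul_nonneg hc0 (Real.rpow_nonneg (ww_nonneg _ _ _) _)
      _ ≤ 1 / (cx * cy) * (ww i x y) ^ ι * ∑ a ∈ cls i x, ∑ b ∈ cls i y, Gk ι i a b := by
          apply mul_le_mul_of_nonneg_left
          · exact sum_Kset_le i x y (fun a b => Gk ι i a b) fun a b => Gk_nonneg ι i a b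
          · exact mul_nonneg hc0 (Real.rpow_nonneg (ww_nonneg _ _ _) _)
      _ = Gk ι (i + 1) x y := by
          rw [Gk]

end P162L
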