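/-
P162 (Thorp shuffle), Theta(log n) project, module LB (helper22): the support lower bound.
-/
import Vale.Agent.P162.Thorp

namespace P162L

open scoped BigOperators

theorem sum_conv {G : Type*} [Group G] [Fintype G] (μ ν : G → ℝ) :
    ∑ g, P162.conv μ ν g = (∑ g, μ g) * ∑ g, ν g := by
  unfold P162.conv
  rw [Finset.sum_comm, Finset.sum_mul]
  refine Finset.sum_congr rfl fun h _ => ?_
  rw [← Finset.mul_sum]
  congr 1
  exact Equiv.sum_comp (Equiv.mulLeft h⁻¹) ν

theorem thorpLaw_eq (k : ℕ) (g : Equiv.Perm (Fin (2 * k))) :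
    P162.thorpLaw k g =
      ((Finset.univ.filter fun ω : Fin k → Bool => P162.thorpPerm k ω = g).card : ℝ) / 2 ^ k := by
  unfold P162.thorpLaw
  congr 3
  ext ω
  simp only [Finset.mem_filter, Finset.mem_univ, true_and]
  rw [Equiv.ext_iff]
  constructor
  · intro h x; exact (h x).symm
  · intro h x; exact (h x).symm

theorem sum_thorpLaw (k : ℕ) : ∑ g, P162.thorpLaw k g = 1 := by
  simp only [thorpLaw_eq]
  rw [← Finset.sum_div, ← Nat.cast_sum]
  have h := Finset.card_eq_sum_card_fiberwise (s := (Finset.univ : Finset (Fin k → Bool)))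
    (t := (Finset.univ : Finset (Equiv.Perm (Fin (2 * k))))) (f := P162.thorpPerm k)
    (fun _ _ => Finset.mem_coe.2 (Finset.mem_univ _))
  rw [← h, Finset.card_univ, Fintype.card_fun, Fintype.card_bool, Fintype.card_fin]
  push_cast
  exact div_self (by positivity)

theorem sum_convPow (k t : ℕ) : ∑ g, P162.convPow (P162.thorpLaw k) t g = 1 := by
  induction t with
  | zero =>
    show ∑ g : Equiv.Perm (Fin (2 * k)), (if g = 1 then (1 : ℝ) else 0) = 1
    simp
  | succ t ih =>
    show ∑ g, P162.conv (P162.thorpLaw k) (P162.convPow (P162.thorpLaw k) t) g = 1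
    rw [sum_conv, sum_thorpLaw, ih, one_mul]

/-- support of the law after `t` shuffles -/
theorem exists_support (k t : ℕ) : ∃ S : Finset (Equiv.Perm (Fin (2 * k))),
    S.card ≤ 2 ^ (k * t) ∧ ∀ g, g ∉ S → P162.convPow (P162.thorpLaw k) t g = 0 := by
  classical
  induction t with
  | zero =>
    refine ⟨{1}, by simp, fun g hg => ?_⟩
    show (if g = 1 then (1 : ℝ) else 0) = 0
    rw [if_neg (by simpa using hg)]
  | succ t ih =>
    obtain ⟨S, hS, h0⟩ := ih
    refine ⟨((Finset.univ : Finset (Fin k → Bool)) ×ˢ S).image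
      (fun p => P162.thorpPerm k p.1 * p.2), ?_, fun g hg => ?_⟩
    · refine Finset.card_image_le.trans ?_
      rw [Finset.card_product, Finset.card_univ, Fintype.card_fun, Fintype.card_bool,
        Fintype.card_fin, mul_add, mul_one, pow_add, mul_comm]
      exact Nat.mul_le_mul_right _ hS
    · show P162.conv (P162.thorpLaw k) (P162.convPow (P162.thorpLaw k) t) g = 0
      unfold P162.conv
      refine Finset.sum_eq_zero fun h _ => ?_
      by_cases h1 : h⁻¹ * g ∈ S
      · have h2 : P162.thorpLaw k h = 0 := by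
          rw [thorpLaw_eq]
          have : (Finset.univ.filter fun ω : Fin k → Bool => P162.thorpPerm k ω = h) = ∅ := by
            rw [Finset.filter_eq_empty_iff]
            intro ω _ hω
            apply hg
            refine Finset.mem_image.2 ⟨(ω, h⁻¹ * g), ?_, ?_⟩
            · rw [Finset.mem_product]
              exact ⟨Finset.mem_univ _, h1⟩
            · show P162.thorpPerm k ω * (h⁻¹ * g) = g
              rw [hω, mul_inv_cancel_left]
          rw [this]
          simp
        rw [h2, zero_mul]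
      · rw [h0 _ h1, mul_zero]

theorem tv_lower (k t : ℕ) : 1 - (2 : ℝ) ^ (k * t) / ((2 * k).factorial : ℝ) ≤
    P162.tvUnif (P162.convPow (P162.thorpLaw k) t) := by
  classical
  obtain ⟨S, hS, h0⟩ := exists_support k t
  set μ := P162.convPow (P162.thorpLaw k) t with hμ
  have hN : (Fintype.card (Equiv.Perm (Fin (2 * k))) : ℝ) = ((2 * k).factorial : ℝ) := by
    rw [Fintype.card_perm, Fintype.card_fin]
  set N : ℝ := ((2 * k).factorial : ℝ) with hNdef
  have hNpos : 0 < N := by
    rw [hNdef]; exact_mod_cast Nat.factorial_pos _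
  unfold P162.tvUnif
  rw [hN]
  have h1 : ∑ g, |μ g - 1 / N| = ∑ g ∈ S, |μ g - 1 / N| + ∑ g ∈ Sᶜ, |μ g - 1 / N| :=
    (Finset.sum_add_sum_compl S _).symm
  have h2 : ∑ g ∈ S, (μ g - 1 / N) ≤ ∑ g ∈ S, |μ g - 1 / N| :=
    Finset.sum_le_sum fun g _ => le_abs_self _
  have h3 : ∑ g ∈ Sᶜ, |μ g - 1 / N| = (Sᶜ.card : ℝ) * (1 / N) := by
    rw [Finset.sum_congr rfl (g := fun _ => 1 / N), Finset.sum_const, nsmul_eq_mul]
    intro g hg
    rw [h0 g (Finset.mem_compl.1 hg), zero_sub, abs_neg, abs_of_pos (by positivity)]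
  have h4 : ∑ g ∈ S, μ g = 1 := by
    have h5 := sum_convPow k t
    rw [← hμ, ← Finset.sum_add_sum_compl S] at h5
    have h6 : ∑ g ∈ Sᶜ, μ g = 0 :=
      Finset.sum_eq_zero fun g hg => h0 g (Finset.mem_compl.1 hg)
    rw [h6, add_zero] at h5
    exact h5
  have h7 : ∑ g ∈ S, (μ g - 1 / N) = 1 - (S.card : ℝ) * (1 / N) := by
    rw [Finset.sum_sub_distrib, h4, Finset.sum_const, nsmul_eq_mul]
  have h8 : (Sᶜ.card : ℝ) = N - (S.card : ℝ) := by
    have := Finset.card_compl_add_card S
    have h9 : ((Sᶜ.card + S.card : ℕ) : ℝ) = (Fintype.card (Equiv.Perm (Fin (2 * k))) : ℝ) := by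
      rw [this]
    rw [hN] at h9
    push_cast at h9
    linarith
  have h10 : (S.card : ℝ) ≤ 2 ^ (k * t) := by exact_mod_cast hS
  have h11 : (N - (S.card : ℝ)) * (1 / N) = 1 - (S.card : ℝ) * (1 / N) := by
    field_simp
  rw [h1, h3, h8, h11]
  have h12 : (S.card : ℝ) * (1 / N) ≤ 2 ^ (k * t) / N := by
    rw [mul_one_div]
    exact div_le_div_of_nonneg_right h10 hNpos.le
  linarith

/-- for a deck of `2^d` cards fewer than `d` shuffles do not mix -/
theorem lower (d t : ℕ) (hd : 1 ≤ d) (ht : t < d) :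
    1 / 4 < P162.tvUnif (P162.convPow (P162.thorpLaw (2 ^ (d - 1))) t) := by
  refine lt_of_lt_of_le ?_ (tv_lower (2 ^ (d - 1)) t)
  set k := 2 ^ (d - 1) with hk
  have hk1 : 1 ≤ k := Nat.one_le_two_pow
  have h1 : k.factorial * (k + 1) ^ k ≤ (2 * k).factorial := by
    rw [two_mul]
    exact Nat.factorial_mul_pow_le_factorial
  have h2 : 2 ^ (k * t) ≤ k ^ k := by
    calc 2 ^ (k * t) ≤ 2 ^ ((d - 1) * k) := by
          apply Nat.pow_le_pow_right (by norm_num)
          rw [mul_comm]
          exact Nat.mul_le_mul_right _ (by omega)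
      _ = k ^ k := by
          rw [pow_mul]
  have h3 : 2 * k ^ k ≤ (k + 1) ^ k := by
    have hb := one_add_mul_le_pow (R := ℝ) (a := 1 / (k : ℝ)) (by
      have : (0 : ℝ) < 1 / (k : ℝ) := by positivity
      linarith) k
    have hk0 : (0 : ℝ) < (k : ℝ) := by exact_mod_cast hk1
    have h4 : (1 : ℝ) + k * (1 / k) = 2 := by
      field_simp
      norm_num
    rw [h4] at hb
    have h5 : (2 : ℝ) * k ^ k ≤ (k + 1) ^ k := by
      calc (2 : ℝ) * k ^ k ≤ (1 + 1 / k) ^ k * k ^ k := by gcongr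
        _ = (k + 1) ^ k := by
          rw [← mul_pow]
          congr 1
          field_simp
    exact_mod_cast h5
  have h4 : 2 * 2 ^ (k * t) ≤ (2 * k).factorial := by
    calc 2 * 2 ^ (k * t) ≤ 2 * k ^ k := Nat.mul_le_mul_left _ h2
      _ ≤ (k + 1) ^ k := h3
      _ ≤ k.factorial * (k + 1) ^ k := Nat.le_mul_of_pos_left _ (Nat.factorial_pos _)
      _ ≤ _ := h1
  have h5 : (2 : ℝ) * 2 ^ (k * t) ≤ ((2 * k).factorial : ℝ) := by exact_mod_cast h4
  have h6 : (0 : ℝ) < ((2 * k).factorial : ℝ) := by exact_mod_cast Nat.factorial_pos _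
  have h7 : (2 : ℝ) ^ (k * t) / ((2 * k).factorial : ℝ) ≤ 1 / 2 := by
    rw [div_le_div_iff₀ h6 (by norm_num)]
    linarith
  linarith

end P162L
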