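/-
P162 (Thorp shuffle), Theta(log n) project, module LK (helper22): the sweep on `Perm (Pos d)` is
the operator `Rop` of the regular representation.
-/
import Vale.Agent.P162.Log.Stmts

namespace P162L

open scoped BigOperators

variable {d : ℕ}

/-- bits as an equivalence -/
noncomputable def bitEquiv (d : ℕ) : P162.Cube d ≃ Pos d :=
  Equiv.ofBijective (fun x => fun j : Fin d => P162.bit d j x) <| by
    rw [Fintype.bijective_iff_injective_and_card]
    refine ⟨fun x y h => P162.bit_ext d x y fun j hj => congrFun h ⟨j, hj⟩, ?_⟩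
    rw [P162.card_cube, Fintype.card_fun, Fintype.card_bool, Fintype.card_fin]

theorem bit_flipAt (n j i : ℕ) (hi : i < n) (x : P162.Cube n) :
    P162.bit n i (P162.flipAt n j x) = if i = j then !(P162.bit n i x) else P162.bit n i x := by
  induction n with
  | zero => omega
  | succ n ih =>
    obtain ⟨x, c⟩ := (x : P162.Cube n × Bool)
    by_cases hj : j = n
    · subst hj
      rw [P162.flipAt_top]
      by_cases hij : i = j
      · subst hij
        rw [P162.bit_top, P162.bit_top, if_pos rfl]
      · rw [P162.bit_low hij, P162.bit_low hij, if_neg hij]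
    · rw [P162.flipAt_low hj]
      by_cases hin : i = n
      · subst hin
        rw [P162.bit_top, P162.bit_top, if_neg (fun h => hj h.symm)]
      · rw [P162.bit_low hin, P162.bit_low hin]
        exact ih (by omega) x

theorem bitEquiv_flipAt (d j : ℕ) (x : P162.Cube d) :
    bitEquiv d (P162.flipAt d j x) = flipBit j (bitEquiv d x) := by
  funext i
  exact bit_flipAt d j i i.2 x

/-- the operator of layer `j` in a representation -/
noncomputable def PG {E : Type*} [NormedAddCommGroup E] [InnerProductSpace ℝ E]
    (ρ0 : Equiv.Perm (Pos d) →* (E →L[ℝ] E)) (j : ℕ) : E →L[ℝ] E :=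
  (1 / (2 : ℝ) ^ Fintype.card (Pos d)) • ∑ ω : Pos d → Bool, ρ0 (lay j ω)

/-- the operator of layer `j` in the regular representation -/
noncomputable def PJ (d j : ℕ) : EuclideanSpace ℝ (Equiv.Perm (Pos d)) →L[ℝ]
    EuclideanSpace ℝ (Equiv.Perm (Pos d)) := PG (P162.regRep (Pos d)) j

theorem lay_inv (j : ℕ) (ω : Pos d → Bool) : (lay j ω)⁻¹ = lay j ω :=
  inv_eq_of_mul_eq_one_right (lay_mul_self j ω)

theorem PJ_apply (j : ℕ) (f : EuclideanSpace ℝ (Equiv.Perm (Pos d))) :
    (fun π => PJ d j f π) = Lay d (Equiv.Perm (Pos d)) j (fun π => f π) := by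
  funext π
  rw [Lay_apply]
  unfold PJ PG
  rw [smul_apply, sum_apply]
  simp only [PiLp.smul_apply, smul_eq_mul]
  congr 1
  rw [WithLp.ofLp_sum, Finset.sum_apply]
  refine Finset.sum_congr rfl fun ω _ => ?_
  have h1 : P162.regRep (Pos d) (lay j ω) f π = f ((lay j ω)⁻¹ * π) :=
    P162.regRep_apply _ _ _ _
  rw [lay_inv] at h1
  exact h1

/-- toggle the coin of the column of `z` -/
def togC (j : ℕ) (z : Pos d) : (Pos d → Bool) ≃ (Pos d → Bool) where
  toFun ω := Function.update ω (clr j z) (!ω (clr j z))
  invFun ω := Function.update ω (clr j z) (!ω (clr j z))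
  left_inv ω := by
    ext q
    by_cases hq : q = clr j z
    · subst hq; simp
    · simp [Function.update_of_ne hq]
  right_inv ω := by
    ext q
    by_cases hq : q = clr j z
    · subst hq; simp
    · simp [Function.update_of_ne hq]

theorem clr_eq_iff (j : ℕ) (y z : Pos d) : clr j y = clr j z ↔ y = z ∨ y = flipBit j z := by
  constructor
  · intro h
    by_cases hyz : y = z
    · exact Or.inl hyz
    · right
      obtain ⟨k, hk⟩ := Function.ne_iff.1 hyz
      have hkj : (k : ℕ) = j := by
        by_contra hkj
        have := congrFun h k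
        simp only [clr, hkj, if_false] at this
        exact hk this
      funext i
      by_cases hi : (i : ℕ) = j
      · have hik : i = k := Fin.ext (by omega)
        subst hik
        simp only [flipBit, hi, if_true]
        cases hx : y i <;> cases hyy : z i <;> simp_all
      · have := congrFun h i
        simp only [clr, hi, if_false] at this
        simp only [flipBit, hi, if_false]
        exact this
  · rintro (h | h)
    · rw [h]
    · rw [h, clr_flipBit]

theorem flipBit_ne (j : ℕ) (hj : j < d) (z : Pos d) : flipBit j z ≠ z := by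
  intro h
  have := congrFun h ⟨j, hj⟩
  simp [flipBit] at this

theorem swap_mul_lay (j : ℕ) (hj : j < d) (z : Pos d) (ω : Pos d → Bool) :
    Equiv.swap z (flipBit j z) * lay j ω = lay j (togC j z ω) := by
  apply Equiv.ext
  intro y
  rw [Equiv.Perm.mul_apply]
  have hne := flipBit_ne j hj z
  by_cases hy : clr j y = clr j z
  · have h1 : togC j z ω (clr j y) = !ω (clr j y) := by
      rw [hy]; simp [togC]
    rcases (clr_eq_iff j y z).1 hy with h | h
    · subst h
      rw [lay_apply, lay_apply, h1]
      cases h2 : ω (clr j y)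
      · simp
      · simp
    · subst h
      rw [lay_apply, lay_apply, h1]
      cases h2 : ω (clr j (flipBit j z))
      · simp [flipBit_flipBit]
      · simp [flipBit_flipBit]
  · have h1 : togC j z ω (clr j y) = ω (clr j y) := by
      simp [togC, Function.update_of_ne hy]
    have h2 : lay j (togC j z ω) y = lay j ω y := by
      rw [lay_apply, lay_apply, h1]
    rw [h2]
    have h3 : clr j (lay j ω y) ≠ clr j z := by rw [clr_lay]; exact hy
    apply Equiv.swap_apply_of_ne_of_ne
    · intro h; exact h3 (by rw [h])
    · intro h; exact h3 (by rw [h, clr_flipBit])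

theorem lay_mul_swap (j : ℕ) (hj : j < d) (z : Pos d) (ω : Pos d → Bool) :
    lay j ω * Equiv.swap z (flipBit j z) = lay j (togC j z ω) := by
  have h := congrArg (fun g => g⁻¹) (swap_mul_lay j hj z ω)
  simp only [mul_inv_rev, Equiv.swap_inv, lay_inv] at h
  exact h

theorem lay_mem_closure (j : ℕ) (hj : j < d) (s : Finset (Pos d)) :
    lay j (fun p => decide (p ∈ s)) ∈ Subgroup.closure
      (Set.range fun z : Pos d => Equiv.swap z (flipBit j z)) := by
  induction s using Finset.induction_on with
  | empty =>
    have : lay j (fun p : Pos d => decide (p ∈ (∅ : Finset (Pos d)))) = 1 := by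
      apply Equiv.ext
      intro z
      rw [lay_apply]; simp
    rw [this]
    exact one_mem _
  | insert p s hp ih =>
    by_cases hc : clr j p = p
    · have : lay j (fun q : Pos d => decide (q ∈ insert p s)) =
          Equiv.swap p (flipBit j p) * lay j (fun q => decide (q ∈ s)) := by
        rw [swap_mul_lay j hj]
        congr 1
        funext q
        by_cases hq : q = p
        · subst hq; simp [togC, hc, hp]
        · simp [togC, hc, hq]
      rw [this]
      exact mul_mem (Subgroup.subset_closure ⟨p, rfl⟩) ih
    · have : lay j (fun q : Pos d => decide (q ∈ insert p s)) =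
          lay j (fun q => decide (q ∈ s)) := by
        apply Equiv.ext
        intro z
        rw [lay_apply, lay_apply]
        have hne : clr j z ≠ p := by
          intro h
          apply hc
          rw [← h]
          funext i
          unfold clr
          by_cases hi : (i : ℕ) = j <;> simp [hi]
        simp [hne]
      rw [this]
      exact ih

theorem permCongr_swap' {α β : Type*} [DecidableEq α] [DecidableEq β] (e : α ≃ β) (x y : α) :
    e.permCongr (Equiv.swap x y) = Equiv.swap (e x) (e y) := by
  ext z
  rw [Equiv.permCongr_apply, Equiv.swap_apply_def, Equiv.swap_apply_def]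
  by_cases h1 : e.symm z = x
  · have : z = e x := by rw [← h1]; simp
    simp [this]
  · have h1' : z ≠ e x := by
      rintro rfl; simp at h1
    by_cases h2 : e.symm z = y
    · have hz : z = e y := by rw [← h2]; simp
      rw [if_neg h1, if_pos h2, if_neg h1', if_pos hz]
    · have h2' : z ≠ e y := by
        rintro rfl; simp at h2
      simp [h1, h1', h2, h2']

theorem isAvg_PG {E : Type*} [NormedAddCommGroup E] [InnerProductSpace ℝ E]
    (ρ0 : Equiv.Perm (Pos d) →* (E →L[ℝ] E)) (j : ℕ) (hj : j < d) : P162.IsAvg
    (ρ0.comp ((bitEquiv d).permCongrHom).toMonoidHom) (P162.Dir d j)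
    (PG ρ0 j) := by
  classical
  have hcard : Fintype.card (Pos d → Bool) = 2 ^ Fintype.card (Pos d) := by
    rw [Fintype.card_fun, Fintype.card_bool]
  have h2 : ((2 : ℝ) ^ Fintype.card (Pos d)) ≠ 0 := by positivity
  have hg : ∀ x : P162.Cube d, (ρ0.comp ((bitEquiv d).permCongrHom).toMonoidHom)
      (Equiv.swap x (P162.flipAt d j x)) =
      ρ0 (Equiv.swap (bitEquiv d x) (flipBit j (bitEquiv d x))) := by
    intro x
    rw [← bitEquiv_flipAt]
    show ρ0 ((bitEquiv d).permCongr (Equiv.swap x (P162.flipAt d j x))) = _
    congr 1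
    exact permCongr_swap' (bitEquiv d) _ _
  have hcl : ∀ (T : E →L[ℝ] E),
      (∀ g ∈ P162.Dir d j, (ρ0.comp ((bitEquiv d).permCongrHom).toMonoidHom) g * T = T) →
      ∀ ω, ρ0 (lay j ω) * T = T := by
    intro T hT ω
    have h1 : ∀ g ∈ Subgroup.closure
        (Set.range fun z : Pos d => Equiv.swap z (flipBit j z)), ρ0 g * T = T := by
      intro g hg'
      induction hg' using Subgroup.closure_induction with
      | mem x hx =>
        obtain ⟨z, rfl⟩ := hx
        have := hT _ ⟨(bitEquiv d).symm z, rfl⟩
        rw [hg, Equiv.apply_symm_apply] at this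
        exact this
      | one => rw [map_one, one_mul]
      | mul x y _ _ hx hy => rw [map_mul, mul_assoc, hy, hx]
      | inv x _ hx =>
        calc ρ0 x⁻¹ * T = ρ0 x⁻¹ * (ρ0 x * T) := by rw [hx]
          _ = T := by rw [← mul_assoc, P162.map_inv_mul_cancel', one_mul]
    have := h1 _ (lay_mem_closure j hj (Finset.univ.filter fun q => ω q = true))
    simpa using this
  have hcr : ∀ (T : E →L[ℝ] E),
      (∀ g ∈ P162.Dir d j, T * (ρ0.comp ((bitEquiv d).permCongrHom).toMonoidHom) g = T) →
      ∀ ω, T * ρ0 (lay j ω) = T := by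
    intro T hT ω
    have h1 : ∀ g ∈ Subgroup.closure
        (Set.range fun z : Pos d => Equiv.swap z (flipBit j z)), T * ρ0 g = T := by
      intro g hg'
      induction hg' using Subgroup.closure_induction with
      | mem x hx =>
        obtain ⟨z, rfl⟩ := hx
        have := hT _ ⟨(bitEquiv d).symm z, rfl⟩
        rw [hg, Equiv.apply_symm_apply] at this
        exact this
      | one => rw [map_one, mul_one]
      | mul x y _ _ hx hy => rw [map_mul, ← mul_assoc, hx, hy]
      | inv x _ hx =>
        calc T * ρ0 x⁻¹ = (T * ρ0 x) * ρ0 x⁻¹ := by rw [hx]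
          _ = T := by rw [mul_assoc, P162.map_mul_inv_cancel', mul_one]
    have := h1 _ (lay_mem_closure j hj (Finset.univ.filter fun q => ω q = true))
    simpa using this
  refine ⟨?_, ?_, ?_, ?_⟩
  · rintro _ ⟨x, rfl⟩
    rw [hg]
    unfold PG
    rw [mul_smul_comm, Finset.mul_sum]
    congr 1
    rw [← Equiv.sum_comp (togC j (bitEquiv d x)) (fun ω : Pos d → Bool => ρ0 (lay j ω))]
    refine Finset.sum_congr rfl fun ω _ => ?_
    rw [← map_mul, swap_mul_lay j hj]
  · rintro _ ⟨x, rfl⟩
    rw [hg]
    unfold PG
    rw [smul_mul_assoc, Finset.sum_mul]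
    congr 1
    rw [← Equiv.sum_comp (togC j (bitEquiv d x)) (fun ω : Pos d → Bool => ρ0 (lay j ω))]
    refine Finset.sum_congr rfl fun ω _ => ?_
    rw [← map_mul, lay_mul_swap j hj]
  · intro T hT
    unfold PG
    rw [smul_mul_assoc, Finset.sum_mul, Finset.sum_congr rfl (fun ω _ => hcl T hT ω),
      Finset.sum_const, Finset.card_univ, hcard, ← Nat.cast_smul_eq_nsmul ℝ, smul_smul,
      Nat.cast_pow, Nat.cast_ofNat, one_div, inv_mul_cancel₀ h2, one_smul]
  · intro T hT
    unfold PG
    rw [mul_smul_comm, Finset.mul_sum, Finset.sum_congr rfl (fun ω _ => hcr T hT ω),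
      Finset.sum_const, Finset.card_univ, hcard, ← Nat.cast_smul_eq_nsmul ℝ, smul_smul,
      Nat.cast_pow, Nat.cast_ofNat, one_div, inv_mul_cancel₀ h2, one_smul]

theorem prod_PJ (i : ℕ) (f : EuclideanSpace ℝ (Equiv.Perm (Pos d))) :
    (fun π => (((List.range i).map (PJ d)).prod f) π) =
      RR d (Equiv.Perm (Pos d)) i (fun π => f π) := by
  induction i generalizing f with
  | zero => rfl
  | succ i ih =>
    rw [List.range_succ, List.map_append, List.prod_append, List.map_singleton,
      List.prod_singleton]
    have h1 : (((List.range i).map (PJ d)).prod * PJ d i) f =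
        ((List.range i).map (PJ d)).prod (PJ d i f) := rfl
    rw [h1, ih (PJ d i f), PJ_apply]
    rfl

theorem lk_main : LKStatement := by
  intro d
  refine ⟨bitEquiv d, fun f => ?_⟩
  rw [P162.rop_eq d _ (PJ d) (fun j hj => isAvg_PG (P162.regRep (Pos d)) j hj)]
  exact prod_PJ d f

end P162L
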