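/-
P162 (Thorp shuffle), Theta(log n) project, module LO (helper1): functions killed by all
products of `k+1` disjoint `1 - (a b)` are sums of functions of at most `2k` cards.
-/
import Vale.Agent.P162.Log.Stmts

namespace P162L

open scoped BigOperators

section

variable {Ω : Type} [Fintype Ω] [DecidableEq Ω]

/-- right alternating operator -/
def altR : List (Ω × Ω) → (Equiv.Perm Ω → ℝ) → Equiv.Perm Ω → ℝ
  | [], f, h => f h
  | (p :: l), f, h => altR l f h - altR l f (h * Equiv.swap p.1 p.2)

omit [Fintype Ω] in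
theorem map_swap_eq (h : Equiv.Perm Ω) (p : Ω × Ω) (l : List (Ω × Ω))
    (hl : ∀ q ∈ l, p.1 ≠ q.1 ∧ p.1 ≠ q.2 ∧ p.2 ≠ q.1 ∧ p.2 ≠ q.2) :
    l.map (fun q => ((h * Equiv.swap p.1 p.2) q.1, (h * Equiv.swap p.1 p.2) q.2)) =
      l.map (fun q => (h q.1, h q.2)) := by
  apply List.map_congr_left
  intro q hq
  obtain ⟨h1, h2, h3, h4⟩ := hl q hq
  rw [Equiv.Perm.mul_apply, Equiv.Perm.mul_apply, Equiv.swap_apply_of_ne_of_ne h1.symm h3.symm,
    Equiv.swap_apply_of_ne_of_ne h2.symm h4.symm]

theorem altR_eq (f : EuclideanSpace ℝ (Equiv.Perm Ω)) : ∀ (l : List (Ω × Ω)),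
    P162.DisjPairs l → ∀ h : Equiv.Perm Ω, altR l (fun π => f π) h =
      (P162.altOp (P162.regRep Ω) (l.map (fun q => (h q.1, h q.2))) f) h := by
  intro l
  induction l with
  | nil =>
    intro _ h
    rw [List.map_nil, P162.altOp_nil]
    rfl
  | cons p l ih =>
    intro hl h
    rw [P162.DisjPairs.cons_iff] at hl
    obtain ⟨h1, h2, h3⟩ := hl
    rw [altR, ih h3, ih h3, map_swap_eq h p l h2, List.map_cons, P162.altOp_cons]
    show _ = (P162.altOp (P162.regRep Ω) (l.map (fun q => (h q.1, h q.2))) f) h -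
      (P162.regRep Ω (Equiv.swap (h p.1) (h p.2))
        (P162.altOp (P162.regRep Ω) (l.map (fun q => (h q.1, h q.2))) f)) h
    rw [P162.regRep_apply, Equiv.swap_inv, Equiv.mul_swap_eq_swap_mul]

omit [DecidableEq Ω] in
theorem UU_right (m : ℕ) (g : Equiv.Perm Ω) {f : Equiv.Perm Ω → ℝ} (hf : f ∈ UU Ω m) :
    (fun h => f (h * g)) ∈ UU Ω m := by
  classical
  unfold UU at hf ⊢
  induction hf using Submodule.span_induction with
  | mem f hf =>
    obtain ⟨J, hJ, h⟩ := hf
    apply Submodule.subset_span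
    refine ⟨J.image g, Finset.card_image_le.trans hJ, ?_⟩
    intro π π' hππ
    apply h
    intro c hc
    exact hππ (g c) (Finset.mem_image_of_mem _ hc)
  | zero => exact Submodule.zero_mem _
  | add f f' _ _ h1 h2 => exact Submodule.add_mem _ h1 h2
  | smul c f _ h1 => exact Submodule.smul_mem _ c h1

/-- right translates by permutations fixing `T` -/
theorem sub_mem_of_swaps (m : ℕ) (T : Finset Ω) (g : Equiv.Perm Ω → ℝ)
    (hs : ∀ x y, x ∉ T → y ∉ T → x ≠ y → (fun h => g h - g (h * Equiv.swap x y)) ∈ UU Ω m) :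
    ∀ (k : ℕ) (σ : Equiv.Perm Ω), σ.support.card ≤ k → (∀ a ∈ T, σ a = a) →
      (fun h => g h - g (h * σ)) ∈ UU Ω m := by
  intro k
  induction k with
  | zero =>
    intro σ hσ _
    have h1 : σ = 1 := by
      rw [← Equiv.Perm.support_eq_empty_iff, ← Finset.card_eq_zero]
      omega
    subst h1
    have : (fun h => g h - g (h * 1)) = 0 := by
      funext h
      simp
    rw [this]
    exact Submodule.zero_mem _
  | succ k ih =>
    intro σ hσ hT
    by_cases h1 : σ = 1
    · subst h1
      exact ih 1 (by simp) (fun a _ => rfl)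
    · obtain ⟨x, hx⟩ : ∃ x, σ x ≠ x := by
        by_contra hne
        push Not at hne
        exact h1 (Equiv.ext hne)
      have hxT : x ∉ T := fun h => hx (hT x h)
      have hsT : σ x ∉ T := fun h => hx (σ.injective (hT _ h))
      set σ' := Equiv.swap x (σ x) * σ with hσ'
      have h2 : σ'.support.card ≤ k := by
        have h21 : σ'.support.card < σ.support.card := Equiv.Perm.card_support_swap_mul hx
        omega
      have h3 : σ = Equiv.swap x (σ x) * σ' := by
        rw [hσ', ← mul_assoc, Equiv.swap_mul_self, one_mul]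
      have h4 : ∀ a ∈ T, σ' a = a := by
        intro a ha
        rw [hσ', Equiv.Perm.mul_apply, hT a ha, Equiv.swap_apply_of_ne_of_ne]
        · rintro rfl; exact hxT ha
        · intro h; exact hsT (h ▸ ha)
      have h5 := ih σ' h2 h4
      have h6 := UU_right m σ' (hs x (σ x) hxT hsT (Ne.symm hx))
      -- g h - g (h σ) with σ = swap * σ'
      have h7 := UU_right m (Equiv.swap x (σ x)) h5
      have h8 := hs x (σ x) hxT hsT (Ne.symm hx)
      have h9 : (fun h => g h - g (h * σ)) = (fun h => g h - g (h * Equiv.swap x (σ x))) +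
          (fun h => g (h * Equiv.swap x (σ x)) - g (h * Equiv.swap x (σ x) * σ')) := by
        funext h
        simp only [Pi.add_apply]
        rw [mul_assoc, ← h3]
        ring
      rw [h9]
      exact Submodule.add_mem _ h8 h7

theorem mem_of_swaps (m : ℕ) (T : Finset Ω) (hT : T.card ≤ m) (g : Equiv.Perm Ω → ℝ)
    (hs : ∀ x y, x ∉ T → y ∉ T → x ≠ y → (fun h => g h - g (h * Equiv.swap x y)) ∈ UU Ω m) :
    g ∈ UU Ω m := by
  classical
  set St : Finset (Equiv.Perm Ω) := Finset.univ.filter (fun σ => ∀ a ∈ T, σ a = a) with hSt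
  have hmem : ∀ σ, σ ∈ St ↔ ∀ a ∈ T, σ a = a := fun σ => by simp [hSt]
  have h1 : ∀ σ ∈ St, (fun h => g h - g (h * σ)) ∈ UU Ω m := fun σ hσ =>
    sub_mem_of_swaps m T g hs _ σ le_rfl ((hmem σ).1 hσ)
  have hpos : 0 < St.card := Finset.card_pos.2 ⟨1, (hmem 1).2 (fun a _ => rfl)⟩
  have h2 : (∑ σ ∈ St, fun h => g h - g (h * σ)) ∈ UU Ω m := Submodule.sum_mem _ h1
  have h3 : (fun h => ∑ σ ∈ St, g (h * σ)) ∈ UU Ω m := by
    apply Submodule.subset_span
    refine ⟨T, hT, ?_⟩
    intro π π' hππ
    refine Finset.sum_nbij' (fun σ => π'⁻¹ * π * σ) (fun σ => π⁻¹ * π' * σ) ?_ ?_ ?_ ?_ ?_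
    · intro σ hσ
      rw [hmem] at hσ ⊢
      intro a ha
      rw [Equiv.Perm.mul_apply, Equiv.Perm.mul_apply, hσ a ha, hππ a ha]
      simp
    · intro σ hσ
      rw [hmem] at hσ ⊢
      intro a ha
      rw [Equiv.Perm.mul_apply, Equiv.Perm.mul_apply, hσ a ha, ← hππ a ha]
      simp
    · intro σ _; group
    · intro σ _; group
    · intro σ _
      congr 1
      group
  have h4 : g = (1 / (St.card : ℝ)) • ((∑ σ ∈ St, fun h => g h - g (h * σ)) +
      (fun h => ∑ σ ∈ St, g (h * σ))) := by
    funext h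
    simp only [Pi.smul_apply, Pi.add_apply, Finset.sum_apply, smul_eq_mul]
    rw [← Finset.sum_add_distrib]
    simp only [sub_add_cancel, Finset.sum_const, nsmul_eq_mul]
    field_simp
  rw [h4]
  exact Submodule.smul_mem _ _ (Submodule.add_mem _ h2 h3)

/-- the entries of a list of pairs -/
def ent (l : List (Ω × Ω)) : Finset Ω := (l.flatMap fun p => [p.1, p.2]).toFinset

omit [Fintype Ω] in
theorem mem_ent (l : List (Ω × Ω)) (x : Ω) : x ∈ ent l ↔ ∃ p ∈ l, x = p.1 ∨ x = p.2 := by
  simp [ent, List.mem_flatMap]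

omit [Fintype Ω] in
theorem card_ent (l : List (Ω × Ω)) : (ent l).card ≤ 2 * l.length := by
  unfold ent
  refine (List.toFinset_card_le _).trans ?_
  induction l with
  | nil => simp
  | cons p l ih =>
    simp only [List.flatMap_cons, List.length_append, List.length_cons, List.length_nil]
    omega

theorem altR_mem (k : ℕ) (f : EuclideanSpace ℝ (Equiv.Perm Ω))
    (h : ∀ l : List (Ω × Ω), P162.DisjPairs l → l.length = k + 1 →
      P162.altOp (P162.regRep Ω) l f = 0) :
    ∀ (r s : ℕ), r + s = k + 1 → ∀ l : List (Ω × Ω), P162.DisjPairs l → l.length = r →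
      altR l (fun π => f π) ∈ UU Ω (2 * k) := by
  intro r s
  induction s generalizing r with
  | zero =>
    intro hr l hl hlen
    have h0 : altR l (fun π => f π) = 0 := by
      funext π
      have h1 : P162.altOp (P162.regRep Ω) (l.map (fun q => (π q.1, π q.2))) f = 0 :=
        h _ (P162.DisjPairs.map hl π) (by rw [List.length_map]; omega)
      rw [altR_eq f l hl, h1]
      rfl
    rw [h0]
    exact Submodule.zero_mem _
  | succ s ih =>
    intro hr l hl hlen
    apply mem_of_swaps (2 * k) (ent l) ((card_ent l).trans (by omega))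
    intro x y hx hy hxy
    have h1 : P162.DisjPairs ((x, y) :: l) := by
      rw [P162.DisjPairs.cons_iff]
      refine ⟨hxy, ?_, hl⟩
      intro q hq
      rw [mem_ent] at hx hy
      push Not at hx hy
      exact ⟨(hx q hq).1, (hx q hq).2, (hy q hq).1, (hy q hq).2⟩
    have h2 := ih (r + 1) (by omega) _ h1 (by rw [List.length_cons, hlen])
    exact h2

theorem lo_main : LOStatement := by
  intro Ω _ _ k f h
  exact altR_mem k f h 0 (k + 1) (by omega) [] (by simp [P162.DisjPairs]) rfl

end

end P162L
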