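/-
P162 (Thorp shuffle), Theta(log n) project, module PS (helper25): symmetry and equivariance of
the layer, sweep and palindromic operators.
-/
import Vale.Agent.P162.Log.Stmts

namespace P162L

open scoped BigOperators

namespace PS

variable {d : ℕ}

theorem lay_smul_smul_self {X : Type*} [MulAction (Equiv.Perm (Pos d)) X] (j : ℕ)
    (ω : Pos d → Bool) (x : X) : lay j ω • (lay j ω • x) = x := by
  rw [smul_smul, lay_mul_self, one_smul]

/-- `lay j ω` as a permutation of `X` -/
def layX {X : Type*} [MulAction (Equiv.Perm (Pos d)) X] (j : ℕ) (ω : Pos d → Bool) :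
    Equiv.Perm X where
  toFun x := lay j ω • x
  invFun x := lay j ω • x
  left_inv x := lay_smul_smul_self j ω x
  right_inv x := lay_smul_smul_self j ω x

theorem layX_apply {X : Type*} [MulAction (Equiv.Perm (Pos d)) X] (j : ℕ) (ω : Pos d → Bool)
    (x : X) : layX j ω x = lay j ω • x := rfl

theorem Lay_symm {X : Type*} [Fintype X] [MulAction (Equiv.Perm (Pos d)) X] (j : ℕ)
    (f g : X → ℝ) : ∑ x, Lay d X j f x * g x = ∑ x, f x * Lay d X j g x := by
  have h1 : ∀ x, Lay d X j f x * g x = (1 / (2 : ℝ) ^ Fintype.card (Pos d)) *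
      ∑ ω : Pos d → Bool, f (lay j ω • x) * g x := by
    intro x
    rw [Lay_apply, mul_assoc, Finset.sum_mul]
  have h2 : ∀ x, f x * Lay d X j g x = (1 / (2 : ℝ) ^ Fintype.card (Pos d)) *
      ∑ ω : Pos d → Bool, f x * g (lay j ω • x) := by
    intro x
    rw [Lay_apply, ← Finset.mul_sum]
    ring
  rw [Finset.sum_congr rfl fun x _ => h1 x, Finset.sum_congr rfl fun x _ => h2 x,
    ← Finset.mul_sum, ← Finset.mul_sum, Finset.sum_comm,
    Finset.sum_comm (f := fun x (ω : Pos d → Bool) => f x * g (lay j ω • x))]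
  congr 1
  refine Finset.sum_congr rfl fun ω _ => ?_
  refine Fintype.sum_equiv (layX j ω) _ _ fun x => ?_
  rw [layX_apply, lay_smul_smul_self]

theorem TT_succ_apply {X : Type*} [MulAction (Equiv.Perm (Pos d)) X] (i : ℕ) (f : X → ℝ) :
    TT d X (i + 1) f = Lay d X i (TT d X i (Lay d X i f)) := rfl

theorem RR_succ_apply {X : Type*} [MulAction (Equiv.Perm (Pos d)) X] (i : ℕ) (f : X → ℝ) :
    RR d X (i + 1) f = RR d X i (Lay d X i f) := rfl

theorem TT_symm {X : Type*} [Fintype X] [MulAction (Equiv.Perm (Pos d)) X] (i : ℕ) :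
    ∀ f g : X → ℝ, ∑ x, TT d X i f x * g x = ∑ x, f x * TT d X i g x := by
  induction i with
  | zero => intro f g; rfl
  | succ i ih =>
    intro f g
    rw [TT_succ_apply, TT_succ_apply, Lay_symm, ih, Lay_symm]

theorem TT_fact {X : Type*} [Fintype X] [MulAction (Equiv.Perm (Pos d)) X] (i : ℕ) :
    ∀ f g : X → ℝ, ∑ x, TT d X i f x * g x = ∑ x, RR d X i f x * RR d X i g x := by
  induction i with
  | zero => intro f g; rfl
  | succ i ih =>
    intro f g
    rw [TT_succ_apply, RR_succ_apply, RR_succ_apply, Lay_symm, ih]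

theorem Lay_pull {X Y : Type*} [MulAction (Equiv.Perm (Pos d)) X]
    [MulAction (Equiv.Perm (Pos d)) Y] (e : X → Y)
    (he : ∀ (g : Equiv.Perm (Pos d)) x, e (g • x) = g • e x) (j : ℕ) (f : Y → ℝ) :
    Lay d X j (f ∘ e) = (Lay d Y j f) ∘ e := by
  funext x
  rw [Function.comp_apply, Lay_apply, Lay_apply]
  simp only [Function.comp_apply, he]

theorem TT_pull {X Y : Type*} [MulAction (Equiv.Perm (Pos d)) X]
    [MulAction (Equiv.Perm (Pos d)) Y] (e : X → Y)
    (he : ∀ (g : Equiv.Perm (Pos d)) x, e (g • x) = g • e x) (i : ℕ) :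
    ∀ f : Y → ℝ, TT d X i (f ∘ e) = (TT d Y i f) ∘ e := by
  induction i with
  | zero => intro f; rfl
  | succ i ih =>
    intro f
    rw [TT_succ_apply, TT_succ_apply, Lay_pull e he, ih, Lay_pull e he]

/-- push forward -/
def push {X Y : Type*} [Fintype X] [DecidableEq Y] (e : X → Y) (f : X → ℝ) : Y → ℝ :=
  fun y => ∑ x ∈ Finset.univ.filter (fun x => e x = y), f x

theorem Lay_push {X Y : Type*} [Fintype X] [DecidableEq Y] [MulAction (Equiv.Perm (Pos d)) X]
    [MulAction (Equiv.Perm (Pos d)) Y] (e : X → Y)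
    (he : ∀ (g : Equiv.Perm (Pos d)) x, e (g • x) = g • e x) (j : ℕ) (f : X → ℝ) :
    Lay d Y j (push e f) = push e (Lay d X j f) := by
  funext y
  rw [Lay_apply]
  unfold push
  have h1 : ∀ x, Lay d X j f x = (1 / (2 : ℝ) ^ Fintype.card (Pos d)) *
      ∑ ω : Pos d → Bool, f (lay j ω • x) := fun x => Lay_apply d X j f x
  rw [Finset.sum_congr rfl fun x _ => h1 x, ← Finset.mul_sum, Finset.sum_comm]
  congr 1
  refine Finset.sum_congr rfl fun ω _ => ?_
  refine Finset.sum_bij' (fun x _ => lay j ω • x) (fun x _ => lay j ω • x) ?_ ?_ ?_ ?_ ?_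
  · intro x hx
    have hx' := (Finset.mem_filter.1 hx).2
    refine Finset.mem_filter.2 ⟨Finset.mem_univ _, ?_⟩
    rw [he, hx', lay_smul_smul_self]
  · intro x hx
    have hx' := (Finset.mem_filter.1 hx).2
    refine Finset.mem_filter.2 ⟨Finset.mem_univ _, ?_⟩
    rw [he, hx']
  · intro x _
    exact lay_smul_smul_self j ω x
  · intro x _
    exact lay_smul_smul_self j ω x
  · intro x _
    rw [lay_smul_smul_self]

theorem TT_push {X Y : Type*} [Fintype X] [DecidableEq Y] [MulAction (Equiv.Perm (Pos d)) X]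
    [MulAction (Equiv.Perm (Pos d)) Y] (e : X → Y)
    (he : ∀ (g : Equiv.Perm (Pos d)) x, e (g • x) = g • e x) (i : ℕ) :
    ∀ f : X → ℝ, TT d Y i (push e f) = push e (TT d X i f) := by
  induction i with
  | zero => intro f; rfl
  | succ i ih =>
    intro f
    rw [TT_succ_apply, TT_succ_apply, Lay_push e he, ih, Lay_push e he]

end PS

theorem ps_main : PSStatement := by
  intro d X _ _
  refine ⟨fun j f g => PS.Lay_symm j f g, fun i f g => PS.TT_symm i f g,
    fun i f g => PS.TT_fact i f g, ?_, ?_⟩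
  · intro Y _ e he i f
    exact PS.TT_pull e he i f
  · intro Y _ _ _ e he i f
    exact PS.TT_push e he i f

end P162L
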