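/-
P162 (Thorp shuffle), Theta(log n) project, module LR (helper25): eigenfunctions of exact level
`l` on `Perm (Pos d)` reduce to pure eigenfunctions on `Fin l ↪ Pos d`.
-/
import Vale.Agent.P162.Log.Stmts
import Vale.Agent.P162.Log.PS

namespace P162L

open scoped BigOperators

namespace LR

/-- restriction of a permutation to the cards `κ` -/
def res {Ω : Type*} {l : ℕ} (κ : Fin l ↪ Ω) (π : Equiv.Perm Ω) : Fin l ↪ Ω :=
  κ.trans π.toEmbedding

theorem res_apply {Ω : Type*} {l : ℕ} (κ : Fin l ↪ Ω) (π : Equiv.Perm Ω) (i : Fin l) :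
    res κ π i = π (κ i) := rfl

/-- some generator of `UU` is not orthogonal to `f` -/
theorem exists_gen {Ω : Type*} [Fintype Ω] [DecidableEq Ω] (m : ℕ) (f : Equiv.Perm Ω → ℝ)
    (hf : f ≠ 0) (h1 : f ∈ UU Ω m) :
    ∃ (J : Finset Ω) (g : Equiv.Perm Ω → ℝ), J.card ≤ m ∧
      (∀ π π' : Equiv.Perm Ω, (∀ c ∈ J, π c = π' c) → g π = g π') ∧ ∑ π, f π * g π ≠ 0 := by
  by_contra hcon
  push Not at hcon
  have hall : ∀ g ∈ UU Ω m, ∑ π, f π * g π = 0 := by
    intro g hg
    unfold UU at hg
    induction hg using Submodule.span_induction with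
    | mem g hg =>
      obtain ⟨J, hJ, hJg⟩ := hg
      exact hcon J g hJ hJg
    | zero => simp
    | add a b _ _ ha hb =>
      simp only [Pi.add_apply, mul_add, Finset.sum_add_distrib, ha, hb, add_zero]
    | smul c a _ ha =>
      have : ∀ π : Equiv.Perm Ω, f π * (c • a) π = c * (f π * a π) := by
        intro π
        rw [Pi.smul_apply, smul_eq_mul]
        ring
      rw [Finset.sum_congr rfl fun π _ => this π, ← Finset.mul_sum, ha, mul_zero]
  have h0 := hall f h1
  apply hf
  funext π
  have h2 := (Finset.sum_eq_zero_iff_of_nonneg (fun π _ => mul_self_nonneg (f π))).1 h0 π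
    (Finset.mem_univ _)
  exact mul_self_eq_zero.1 h2

end LR

open LR in
theorem lr_main : LRStatement := by
  intro d l hl f hf h1 h2 β hβ
  classical
  obtain ⟨J, g, hJ, hg, hne⟩ := exists_gen l f hf h1
  have hJl : J.card = l := by
    by_contra hne'
    apply hne
    apply h2
    apply Submodule.subset_span
    exact ⟨J, by omega, hg⟩
  -- enumeration of `J`
  let κ : Fin l ↪ Pos d :=
    (J.equivFinOfCardEq hJl).symm.toEmbedding.trans (Function.Embedding.subtype _)
  have hκ : ∀ i, κ i ∈ J := fun i => ((J.equivFinOfCardEq hJl).symm i).2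
  have hκ' : ∀ c ∈ J, ∃ i, κ i = c := by
    intro c hc
    refine ⟨J.equivFinOfCardEq hJl ⟨c, hc⟩, ?_⟩
    show (((J.equivFinOfCardEq hJl).symm (J.equivFinOfCardEq hJl ⟨c, hc⟩) : J) : Pos d) = c
    rw [Equiv.symm_apply_apply]
  have he : ∀ (s : Equiv.Perm (Pos d)) (x : Equiv.Perm (Pos d)), res κ (s • x) = s • res κ x := by
    intro s x
    ext1 i
    rfl
  refine ⟨PS.push (res κ) f, ?_, ?_, ?_⟩
  · intro h0
    apply hne
    -- `g` is a function of `res κ`
    have hgr : ∀ π π', res κ π = res κ π' → g π = g π' := by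
      intro π π' h
      apply hg
      intro c hc
      obtain ⟨i, rfl⟩ := hκ' c hc
      exact congrArg (fun e : Fin l ↪ Pos d => e i) h
    rw [← Finset.sum_fiberwise_of_maps_to (s := Finset.univ)
      (t := (Finset.univ : Finset (Fin l ↪ Pos d))) (g := res κ) (fun _ _ => Finset.mem_univ _)]
    refine Finset.sum_eq_zero fun y _ => ?_
    by_cases hy : ∃ π0, res κ π0 = y
    · obtain ⟨π0, hπ0⟩ := hy
      have h3 : ∀ π ∈ Finset.univ.filter (fun π => res κ π = y), f π * g π = f π * g π0 := by
        intro π hπ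
        rw [hgr π π0 ((Finset.mem_filter.1 hπ).2.trans hπ0.symm)]
      rw [Finset.sum_congr rfl h3, ← Finset.sum_mul]
      have h4 := congrFun h0 y
      unfold PS.push at h4
      rw [h4, Pi.zero_apply, zero_mul]
    · refine Finset.sum_eq_zero fun π hπ => ?_
      exact absurd ⟨π, (Finset.mem_filter.1 hπ).2⟩ hy
  · intro i y
    -- indicator of the event that all other cards are placed as in `y`
    set g' : Equiv.Perm (Pos d) → ℝ := fun π => if ∀ k, k ≠ i → π (κ k) = y k then 1 else 0
      with hg'
    have hmem : g' ∈ UU (Pos d) (l - 1) := by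
      apply Submodule.subset_span
      refine ⟨J.erase (κ i), ?_, ?_⟩
      · rw [Finset.card_erase_of_mem (hκ i), hJl]
      · intro π π' h
        have : ∀ k, k ≠ i → π (κ k) = π' (κ k) := by
          intro k hk
          apply h
          exact Finset.mem_erase.2 ⟨fun h => hk (κ.injective h), hκ k⟩
        rw [hg']
        simp only
        congr 1
        apply propext
        constructor
        · intro h' k hk; rw [← this k hk]; exact h' k hk
        · intro h' k hk; rw [this k hk]; exact h' k hk
    have h5 := h2 g' hmem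
    unfold PS.push
    rw [← h5]
    have h6 : ∀ π : Equiv.Perm (Pos d), f π * g' π =
        if ∀ k, k ≠ i → π (κ k) = y k then f π else 0 := by
      intro π
      rw [hg']
      simp only
      split <;> simp
    rw [Finset.sum_congr rfl fun π _ => h6 π, ← Finset.sum_filter]
    rw [← Finset.sum_fiberwise_of_maps_to
      (s := Finset.univ.filter fun π : Equiv.Perm (Pos d) => ∀ k, k ≠ i → π (κ k) = y k)
      (t := Finset.univ.filter (fun y' : Fin l ↪ Pos d => ∀ k, k ≠ i → y' k = y k))
      (g := res κ)]
    · refine Finset.sum_congr rfl fun y' hy' => ?_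
      have hy'' := (Finset.mem_filter.1 hy').2
      refine Finset.sum_congr ?_ fun _ _ => rfl
      ext π
      simp only [Finset.mem_filter, Finset.mem_univ, true_and]
      constructor
      · intro h
        refine ⟨fun k hk => ?_, h⟩
        rw [← hy'' k hk, ← h]
        rfl
      · exact fun h => h.2
    · intro π hπ
      have hπ' := (Finset.mem_filter.1 hπ).2
      exact Finset.mem_filter.2 ⟨Finset.mem_univ _, fun k hk => hπ' k hk⟩
  · rw [PS.TT_push (res κ) he, hβ]
    funext y
    unfold PS.push
    simp only [Pi.smul_apply, smul_eq_mul, Finset.mul_sum]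

end P162L
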