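/-
P162 (Thorp shuffle), Theta(log n) project, module NA (helper13): norm after `2^k` sweeps <= trace.
-/
import Vale.Agent.P162.Log.Stmts

namespace P162L

open scoped BigOperators

namespace NAx

section conj

open P162

variable {d n : ℕ}

/-- relabelling of the deck -/
noncomputable def UU' {Ω Ω' : Type} [Fintype Ω] [DecidableEq Ω] [Fintype Ω'] [DecidableEq Ω']
    (ψ : Ω ≃ Ω') :
    EuclideanSpace ℝ (Equiv.Perm Ω) ≃ₗᵢ[ℝ] EuclideanSpace ℝ (Equiv.Perm Ω') :=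
  LinearIsometryEquiv.piLpCongrLeft 2 ℝ ℝ ψ.permCongr

theorem UU'_apply {Ω Ω' : Type} [Fintype Ω] [DecidableEq Ω] [Fintype Ω'] [DecidableEq Ω']
    (ψ : Ω ≃ Ω') (f : EuclideanSpace ℝ (Equiv.Perm Ω)) (π : Equiv.Perm Ω') :
    (UU' ψ f) π = f (ψ.permCongr.symm π) := rfl

theorem UU'_rep {Ω Ω' : Type} [Fintype Ω] [DecidableEq Ω] [Fintype Ω'] [DecidableEq Ω']
    (ψ : Ω ≃ Ω') (g : Equiv.Perm Ω) (f : EuclideanSpace ℝ (Equiv.Perm Ω)) :
    UU' ψ (regRep Ω g f) = ((regRep Ω').comp (ψ.permCongrHom).toMonoidHom) g (UU' ψ f) := by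
  ext π
  have h1 : (UU' ψ (regRep Ω g f)) π = f (g⁻¹ * ψ.permCongr.symm π) := rfl
  have h2 : (((regRep Ω').comp (ψ.permCongrHom).toMonoidHom) g (UU' ψ f)) π =
      f (ψ.permCongr.symm ((ψ.permCongr g)⁻¹ * π)) := rfl
  rw [h1, h2]
  have h4 : g⁻¹ * ψ.permCongr.symm π = ψ.permCongr.symm ((ψ.permCongr g)⁻¹ * π) := by
    apply Equiv.ext
    intro x
    have h3 : ∀ y, (ψ.permCongr g)⁻¹ y = ψ (g⁻¹ (ψ.symm y)) := by
      intro y
      rw [Equiv.Perm.inv_eq_iff_eq]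
      simp [Equiv.permCongr_apply]
    simp [Equiv.permCongr_symm, Equiv.permCongr_apply, Equiv.Perm.mul_apply, h3]
  rw [h4]

theorem UU'_delta {Ω Ω' : Type} [Fintype Ω] [DecidableEq Ω] [Fintype Ω'] [DecidableEq Ω']
    (ψ : Ω ≃ Ω') : UU' ψ (delta0 Ω) = delta0 Ω' := by
  ext π
  rw [UU'_apply]
  have h1 : ψ.permCongr.symm π = 1 ↔ π = 1 := by
    rw [Equiv.symm_apply_eq]
    have : ψ.permCongr 1 = 1 := by
      apply Equiv.ext
      intro x
      simp [Equiv.permCongr_apply]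
    rw [this]
  have h2 : Fintype.card (Equiv.Perm Ω) = Fintype.card (Equiv.Perm Ω') :=
    Fintype.card_congr ψ.permCongr
  show (if ψ.permCongr.symm π = 1 then (1 : ℝ) else 0) - 1 / (Fintype.card (Equiv.Perm Ω) : ℝ) =
    (if π = 1 then (1 : ℝ) else 0) - 1 / (Fintype.card (Equiv.Perm Ω') : ℝ)
  rw [h2]
  simp only [h1]

theorem UU'_Top {k : ℕ} {Ω' : Type} [Fintype Ω'] [DecidableEq Ω'] (ψ : Fin (2 * k) ≃ Ω')
    (f : EuclideanSpace ℝ (Equiv.Perm (Fin (2 * k)))) :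
    UU' ψ (Top k (regRep (Fin (2 * k))) f) =
      Top k ((regRep Ω').comp (ψ.permCongrHom).toMonoidHom) (UU' ψ f) := by
  unfold P162.Top
  rw [smul_apply, smul_apply, sum_apply, sum_apply, map_smul, map_sum]
  congr 1
  exact Finset.sum_congr rfl fun ω _ => UU'_rep ψ _ f

theorem UU'_Top_pow {k : ℕ} {Ω' : Type} [Fintype Ω'] [DecidableEq Ω'] (ψ : Fin (2 * k) ≃ Ω')
    (t : ℕ) (f : EuclideanSpace ℝ (Equiv.Perm (Fin (2 * k)))) :
    UU' ψ ((Top k (regRep (Fin (2 * k))) ^ t) f) =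
      (Top k ((regRep Ω').comp (ψ.permCongrHom).toMonoidHom) ^ t) (UU' ψ f) := by
  induction t generalizing f with
  | zero => rfl
  | succ t ih =>
    rw [pow_succ', pow_succ', mul_apply_eq_comp, mul_apply_eq_comp, ← ih, UU'_Top]

end conj

section flat

variable {n : ℕ}

abbrev XX (n : ℕ) := Equiv.Perm (Pos n)

theorem Lay_right (j : ℕ) (f : XX n → ℝ) (h : XX n) (x : XX n) :
    Lay n (XX n) j (fun y => f (y * h)) x = Lay n (XX n) j f (x * h) := by
  rw [Lay_apply, Lay_apply]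
  simp only [smul_eq_mul, mul_assoc]

theorem RR_right (i : ℕ) (f : XX n → ℝ) (h : XX n) :
    RR n (XX n) i (fun y => f (y * h)) = fun x => RR n (XX n) i f (x * h) := by
  induction i generalizing f with
  | zero => rfl
  | succ i ih =>
    show RR n (XX n) i (Lay n (XX n) i (fun y => f (y * h))) =
      fun x => RR n (XX n) i (Lay n (XX n) i f) (x * h)
    rw [← ih]
    congr 1

theorem RR_pow_right (i m : ℕ) (f : XX n → ℝ) (h : XX n) :
    (RR n (XX n) i ^ m) (fun y => f (y * h)) = fun x => (RR n (XX n) i ^ m) f (x * h) := by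
  induction m generalizing f with
  | zero => rfl
  | succ m ih =>
    rw [pow_succ, Module.End.mul_apply, Module.End.mul_apply, RR_right, ih]

theorem Lay_const (j : ℕ) (c : ℝ) : Lay n (XX n) j (fun _ => c) = fun _ => c := by
  have h1 : (fun _ : XX n => c) = c • (fun _ : XX n => (1 : ℝ)) := by
    funext x; simp
  rw [h1, map_smul, (isMk_Lay n (XX n) j).one]

theorem RR_const (i : ℕ) (c : ℝ) : RR n (XX n) i (fun _ => c) = fun _ => c := by
  induction i with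
  | zero => rfl
  | succ i ih =>
    show RR n (XX n) i (Lay n (XX n) i (fun _ => c)) = _
    rw [Lay_const, ih]

theorem RR_pow_const (i m : ℕ) (c : ℝ) : (RR n (XX n) i ^ m) (fun _ => c) = fun _ => c := by
  induction m with
  | zero => rfl
  | succ m ih => rw [pow_succ, Module.End.mul_apply, RR_const, ih]

theorem Lay_sum (hP : PSStatement) (j : ℕ) (f : XX n → ℝ) :
    ∑ x, Lay n (XX n) j f x = ∑ x, f x := by
  have h := (hP n (XX n)).1 j f (fun _ => 1)
  rw [Lay_const] at h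
  simpa using h

theorem RR_sum (hP : PSStatement) (i : ℕ) (f : XX n → ℝ) :
    ∑ x, RR n (XX n) i f x = ∑ x, f x := by
  induction i generalizing f with
  | zero => rfl
  | succ i ih =>
    show ∑ x, RR n (XX n) i (Lay n (XX n) i f) x = _
    rw [ih, Lay_sum hP]

theorem RR_pow_sum (hP : PSStatement) (i m : ℕ) (f : XX n → ℝ) :
    ∑ x, (RR n (XX n) i ^ m) f x = ∑ x, f x := by
  induction m generalizing f with
  | zero => rfl
  | succ m ih => rw [pow_succ, Module.End.mul_apply, ih, RR_sum hP]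

/-- the sum of squares of the columns of the power -/
theorem col_sq (i m : ℕ) (y : XX n) :
    ∑ x, ((RR n (XX n) i ^ m) (Pi.single y 1) x) ^ 2 =
      ∑ x, ((RR n (XX n) i ^ m) (Pi.single 1 1) x) ^ 2 := by
  have h1 : (Pi.single y 1 : XX n → ℝ) = fun x => (Pi.single 1 1 : XX n → ℝ) (x * y⁻¹) := by
    funext x
    by_cases h : x = y
    · subst h; simp
    · have h2 : x * y⁻¹ ≠ 1 := fun h3 => h (mul_inv_eq_one.1 h3)
      rw [Pi.single_eq_of_ne h, Pi.single_eq_of_ne h2]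
  rw [h1, RR_pow_right]
  exact Equiv.sum_comp (Equiv.mulRight y⁻¹)
    (fun x => ((RR n (XX n) i ^ m) (Pi.single 1 1) x) ^ 2)

theorem trace_bound (hW : WYStatement) (hP : PSStatement) (k : ℕ) :
    (Fintype.card (XX n) : ℝ) *
      ∑ x, ((RR n (XX n) n ^ (2 ^ k)) (Pi.single 1 1) x) ^ 2 ≤
    LinearMap.trace ℝ (XX n → ℝ) ((TT n (XX n) n) ^ (2 ^ k)) := by
  classical
  obtain ⟨A, hA⟩ : ∃ A : Matrix (XX n) (XX n) ℝ, A = LinearMap.toMatrix' (RR n (XX n) n) :=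
    ⟨_, rfl⟩
  have hpow : ∀ m : ℕ, A ^ m = LinearMap.toMatrix' (RR n (XX n) n ^ m) := by
    intro m
    rw [hA]
    exact (map_pow (LinearMap.toMatrixAlgEquiv' (R := ℝ) (n := XX n)) (RR n (XX n) n) m).symm
  have hTT : LinearMap.toMatrix' (TT n (XX n) n) = A.transpose * A := by
    ext x y
    rw [Matrix.mul_apply]
    have h1 := (hP n (XX n)).2.2.1 n (Pi.single y 1) (Pi.single x 1)
    have h2 : ∑ z, TT n (XX n) n (Pi.single y 1) z * (Pi.single x 1 : XX n → ℝ) z =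
        TT n (XX n) n (Pi.single y 1) x := by
      rw [Finset.sum_eq_single x]
      · simp
      · intro z _ hz; rw [Pi.single_eq_of_ne hz, mul_zero]
      · intro h; exact absurd (Finset.mem_univ x) h
    rw [h2] at h1
    have h3 : ∀ a b, A a b = RR n (XX n) n (Pi.single b 1) a := by
      intro a b
      rw [hA, LinearMap.toMatrix'_apply]
    have h4 : (LinearMap.toMatrix' (TT n (XX n) n)) x y = TT n (XX n) n (Pi.single y 1) x := by
      rw [LinearMap.toMatrix'_apply]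
    rw [h4, h1]
    refine Finset.sum_congr rfl fun z _ => ?_
    rw [Matrix.transpose_apply, h3, h3, mul_comm]
  have hTTm : ∀ m : ℕ, LinearMap.toMatrix' ((TT n (XX n) n) ^ m) = (A.transpose * A) ^ m := by
    intro m
    rw [← hTT]
    exact map_pow (LinearMap.toMatrixAlgEquiv' (R := ℝ) (n := XX n)) (TT n (XX n) n) m
  have htr : LinearMap.trace ℝ (XX n → ℝ) ((TT n (XX n) n) ^ (2 ^ k)) =
      Matrix.trace ((A.transpose * A) ^ (2 ^ k)) := by
    rw [← hTTm, LinearMap.trace_eq_matrix_trace ℝ (Pi.basisFun ℝ (XX n))]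
    rfl
  rw [htr]
  refine le_trans (le_of_eq ?_) (hW (XX n) A k)
  rw [Matrix.trace]
  have h5 : ∀ y, ((A ^ 2 ^ k).transpose * A ^ 2 ^ k).diag y =
      ∑ x, ((RR n (XX n) n ^ (2 ^ k)) (Pi.single 1 1) x) ^ 2 := by
    intro y
    rw [Matrix.diag_apply, Matrix.mul_apply, ← col_sq n (2 ^ k) y]
    refine Finset.sum_congr rfl fun x _ => ?_
    rw [Matrix.transpose_apply, hpow, LinearMap.toMatrix'_apply, sq]
  rw [Finset.sum_congr rfl fun y _ => h5 y, Finset.sum_const, Finset.card_univ, nsmul_eq_mul]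

end flat

end NAx

theorem na_main : NAStatement := by
  intro hL hW hP d k
  obtain ⟨φ, hφ⟩ := P162.link d
  obtain ⟨e, he⟩ := hL (d + 1)
  obtain ⟨ψ, hψ⟩ : ∃ ψ : Fin (2 * 2 ^ d) ≃ Pos (d + 1), ψ = φ.symm.trans e := ⟨_, rfl⟩
  obtain ⟨ρ', hρ'⟩ : ∃ ρ' : Equiv.Perm (Fin (2 * 2 ^ d)) →*
      (EuclideanSpace ℝ (Equiv.Perm (Pos (d + 1))) →L[ℝ]
        EuclideanSpace ℝ (Equiv.Perm (Pos (d + 1)))),
      ρ' = (P162.regRep (Pos (d + 1))).comp (ψ.permCongrHom).toMonoidHom := ⟨_, rfl⟩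
  have h1 : ρ'.comp (φ.permCongrHom).toMonoidHom =
      (P162.regRep (Pos (d + 1))).comp (e.permCongrHom).toMonoidHom := by
    rw [hρ', hψ]
    apply MonoidHom.ext
    intro g
    show P162.regRep (Pos (d + 1)) ((φ.symm.trans e).permCongr (φ.permCongr g)) =
      P162.regRep (Pos (d + 1)) (e.permCongr g)
    congr 1
    apply Equiv.ext
    intro x
    simp [Equiv.permCongr_apply]
  have h2 := hφ _ ρ'
  rw [h1] at h2
  -- the operator in flat form
  have h3 : ∀ (m : ℕ) (f : EuclideanSpace ℝ (Equiv.Perm (Pos (d + 1)))),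
      (fun π => ((P162.Top (2 ^ d) ρ' ^ ((d + 1) * m)) f) π) =
        (RR (d + 1) (Equiv.Perm (Pos (d + 1))) (d + 1) ^ m) (fun π => f π) := by
    intro m
    induction m with
    | zero => intro f; rfl
    | succ m ih =>
      intro f
      rw [Nat.mul_succ, pow_add, h2, mul_apply_eq_comp, ih, pow_succ, Module.End.mul_apply]
      congr 1
      exact he f
  have h4 := NAx.UU'_Top_pow ψ ((d + 1) * 2 ^ k) (P162.delta0 (Fin (2 * 2 ^ d)))
  rw [NAx.UU'_delta, ← hρ'] at h4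
  have h5 : ‖(P162.Top (2 ^ d) (P162.regRep (Fin (2 * 2 ^ d))) ^ ((d + 1) * 2 ^ k))
      (P162.delta0 (Fin (2 * 2 ^ d)))‖ =
      ‖(P162.Top (2 ^ d) ρ' ^ ((d + 1) * 2 ^ k)) (P162.delta0 (Pos (d + 1)))‖ := by
    rw [← h4, LinearIsometryEquiv.norm_map]
  rw [h5, EuclideanSpace.norm_sq_eq]
  have h6 : ∀ π, ((P162.Top (2 ^ d) ρ' ^ ((d + 1) * 2 ^ k)) (P162.delta0 (Pos (d + 1)))) π =
      (RR (d + 1) (Equiv.Perm (Pos (d + 1))) (d + 1) ^ (2 ^ k))
        (fun π => (P162.delta0 (Pos (d + 1))) π) π := fun π =>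
    congrFun (h3 (2 ^ k) (P162.delta0 (Pos (d + 1)))) π
  obtain ⟨N, hN⟩ : ∃ N : ℝ, N = (Fintype.card (Equiv.Perm (Pos (d + 1))) : ℝ) := ⟨_, rfl⟩
  have hN0 : 0 < N := by rw [hN]; exact_mod_cast Fintype.card_pos
  obtain ⟨u, hu⟩ : ∃ u : Equiv.Perm (Pos (d + 1)) → ℝ,
    u = (RR (d + 1) (Equiv.Perm (Pos (d + 1))) (d + 1) ^ (2 ^ k)) (Pi.single 1 1) := ⟨_, rfl⟩
  have h7 : (fun π => (P162.delta0 (Pos (d + 1))) π) =
      (Pi.single 1 1 : Equiv.Perm (Pos (d + 1)) → ℝ) - (fun _ => 1 / N) := by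
    funext π
    have : (P162.delta0 (Pos (d + 1))) π = (if π = 1 then (1 : ℝ) else 0) -
      1 / (Fintype.card (Equiv.Perm (Pos (d + 1))) : ℝ) := rfl
    rw [this, Pi.sub_apply, ← hN, Pi.single_apply]
  have h8 : ∀ π, ((P162.Top (2 ^ d) ρ' ^ ((d + 1) * 2 ^ k)) (P162.delta0 (Pos (d + 1)))) π =
      u π - 1 / N := by
    intro π
    rw [h6, h7, map_sub, NAx.RR_pow_const, ← hu]
    rfl
  have h9 : ∑ π, u π = 1 := by
    rw [hu, NAx.RR_pow_sum hP]
    simp
  have h10 := NAx.trace_bound (n := d + 1) hW hP k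
  rw [← hu, ← hN] at h10
  have h11 : (Fintype.card (Equiv.Perm (Fin (2 * 2 ^ d))) : ℝ) = N := by
    rw [hN]
    exact_mod_cast Fintype.card_congr ψ.permCongr
  rw [h11, le_div_iff₀ hN0]
  have h12 : ∑ π, ‖((P162.Top (2 ^ d) ρ' ^ ((d + 1) * 2 ^ k))
      (P162.delta0 (Pos (d + 1)))) π‖ ^ 2 = ∑ π, (u π) ^ 2 - 1 / N := by
    have h13 : ∀ π, ‖((P162.Top (2 ^ d) ρ' ^ ((d + 1) * 2 ^ k))
      (P162.delta0 (Pos (d + 1)))) π‖ ^ 2 = (u π) ^ 2 - 2 / N * u π + 1 / N ^ 2 := by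
      intro π
      rw [h8, Real.norm_eq_abs, sq_abs]
      field_simp
      ring
    rw [Finset.sum_congr rfl fun π _ => h13 π, Finset.sum_add_distrib, Finset.sum_sub_distrib,
      ← Finset.mul_sum, h9, Finset.sum_const, Finset.card_univ, nsmul_eq_mul, ← hN]
    field_simp
    ring
  rw [h12, sub_mul, one_div, inv_mul_cancel₀ hN0.ne']
  linarith

end P162L
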