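/-
P162 (Thorp shuffle), Theta(log n) project, module QC (helper22): the layer operator averages
over the class.
-/
import Vale.Agent.P162.Log.Stmts

namespace P162L

open scoped BigOperators

variable {d : ℕ}

/-- composition of two coin configurations of the same layer -/
theorem lay_lay (j : ℕ) (ω ω' : Pos d → Bool) (z : Pos d) :
    lay j ω (lay j ω' z) = lay j (fun p => xor (ω p) (ω' p)) z := by
  rw [lay_apply j ω, clr_lay, lay_apply, lay_apply]
  cases h : ω (clr j z) <;> cases h' : ω' (clr j z) <;> simp [flipBit_flipBit]

theorem smul_conf {C : Type} (j : ℕ) (ω : Pos d → Bool) (x : C ↪ Pos d) (c : C) :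
    (lay j ω • x) c = lay j ω (x c) := rfl

theorem lay_smul_smul {C : Type} (j : ℕ) (ω ω' : Pos d → Bool) (x : C ↪ Pos d) :
    lay j ω • (lay j ω' • x) = lay j (fun p => xor (ω p) (ω' p)) • x := by
  ext1 c
  exact lay_lay j ω ω' (x c)

/-- transitivity on the class -/
theorem exists_lay {C : Type} (j : ℕ) (x y : C ↪ Pos d) (h : rel j x y) :
    ∃ ω : Pos d → Bool, lay j ω • x = y := by
  classical
  refine ⟨fun p => decide (∃ c, clr j (x c) = p ∧ y c ≠ x c), ?_⟩
  ext1 c
  rw [smul_conf, lay_apply]
  have hy : y c ≠ x c → y c = flipBit j (x c) := by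
    intro hne
    obtain ⟨k, hk⟩ := Function.ne_iff.1 hne
    have hkj : (k : ℕ) = j := by
      by_contra hkj
      exact hk (h c k hkj).symm
    funext i
    by_cases hi : (i : ℕ) = j
    · have hik : i = k := Fin.ext (by omega)
      subst hik
      simp only [flipBit, hi, if_true]
      cases hx : x c i <;> cases hyy : y c i <;> simp_all
    · simp only [flipBit, hi, if_false]
      exact (h c i hi).symm
  by_cases hc : y c = x c
  · have : ¬ ∃ c', clr j (x c') = clr j (x c) ∧ y c' ≠ x c' := by
      rintro ⟨c', h1, h2⟩
      have hcc : c' ≠ c := by rintro rfl; exact h2 hc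
      -- `x c'` and `x c` are in the same column
      have h3 : x c' = flipBit j (x c) := by
        have hne : x c' ≠ x c := fun h => hcc (x.injective h)
        funext i
        by_cases hi : (i : ℕ) = j
        · simp only [flipBit, hi, if_true]
          obtain ⟨k, hk⟩ := Function.ne_iff.1 hne
          have hkj : (k : ℕ) = j := by
            by_contra hkj
            have := congrFun h1 k
            simp only [clr, hkj, if_false] at this
            exact hk this
          have hik : i = k := Fin.ext (by omega)
          subst hik
          cases hx : x c' i <;> cases hyy : x c i <;> simp_all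
        · have := congrFun h1 i
          simp only [clr, hi, if_false] at this
          simp only [flipBit, hi, if_false]
          exact this
      -- `y c'` is the flip of `x c'`, hence equal to `x c = y c`
      have h4 : y c' = y c := by
        have hkk : y c' = flipBit j (x c') := by
          obtain ⟨k, hk⟩ := Function.ne_iff.1 h2
          have hkj : (k : ℕ) = j := by
            by_contra hkj
            exact hk (h c' k hkj).symm
          funext i
          by_cases hi : (i : ℕ) = j
          · have hik : i = k := Fin.ext (by omega)
            subst hik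
            simp only [flipBit, hi, if_true]
            cases hx : x c' i <;> cases hyy : y c' i <;> simp_all
          · simp only [flipBit, hi, if_false]
            exact (h c' i hi).symm
        rw [hkk, h3, flipBit_flipBit, hc]
      exact hcc (y.injective h4)
    rw [if_neg (by simpa using this), hc]
  · have : ∃ c', clr j (x c') = clr j (x c) ∧ y c' ≠ x c' := ⟨c, rfl, hc⟩
    rw [if_pos (by simpa using this), hy hc]

theorem rel_lay {C : Type} (j : ℕ) (ω : Pos d → Bool) (x : C ↪ Pos d) : rel j x (lay j ω • x) := by
  intro c i hi
  show x c i = lay j ω (x c) i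
  rw [lay_apply]
  split
  · simp [flipBit, hi]
  · rfl

/-- xor with a fixed configuration -/
def xorEquiv (ω0 : Pos d → Bool) : (Pos d → Bool) ≃ (Pos d → Bool) where
  toFun ω := fun p => xor (ω p) (ω0 p)
  invFun ω := fun p => xor (ω p) (ω0 p)
  left_inv ω := by
    funext p
    simp
  right_inv ω := by
    funext p
    simp

theorem qc_main : QCStatement := by
  intro d C _ _ j Φ x
  classical
  rw [Lay_apply]
  set N : (C ↪ Pos d) → ℕ := fun y =>
    (Finset.univ.filter fun ω : Pos d → Bool => lay j ω • x = y).card with hN
  have hfib : ∀ y ∈ cls j x, N y = N x := by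
    intro y hy
    have hy' : rel j x y := by
      unfold cls at hy
      exact (Finset.mem_filter.1 hy).2
    obtain ⟨ω0, h0⟩ := exists_lay j x y hy'
    rw [hN]
    simp only
    refine Finset.card_equiv (xorEquiv ω0) ?_
    intro ω
    simp only [Finset.mem_filter, Finset.mem_univ, true_and]
    have h1 : lay j (xorEquiv ω0 ω) • x = lay j ω0 • (lay j ω • x) := by
      rw [lay_smul_smul]
      congr 2
      funext p
      exact Bool.xor_comm _ _
    have h2 : lay j ω0 • y = x := by
      rw [← h0, lay_smul_smul]
      have : (fun p => xor (ω0 p) (ω0 p)) = fun _ : Pos d => false := by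
        funext p; simp
      rw [this]
      ext1 c
      rw [smul_conf, lay_apply]; simp
    rw [h1]
    constructor
    · intro h; rw [h, h2]
    · intro h
      have h3 : lay j ω0 • (lay j ω0 • (lay j ω • x)) = y := by rw [h, h0]
      rw [lay_smul_smul j ω0 ω0] at h3
      have : (fun p => xor (ω0 p) (ω0 p)) = fun _ : Pos d => false := by
        funext p; simp
      rw [this] at h3
      rw [← h3]
      ext1 c
      show lay j ω (x c) = lay j (fun _ => false) (lay j ω (x c))
      rw [lay_apply j (fun _ => false)]; simp
  have hsum : ∑ ω : Pos d → Bool, Φ (lay j ω • x) = ∑ y ∈ cls j x, (N y : ℝ) * Φ y := by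
    rw [← Finset.sum_fiberwise_of_maps_to (s := Finset.univ) (t := cls j x)
      (g := fun ω : Pos d → Bool => lay j ω • x)]
    · refine Finset.sum_congr rfl fun y _ => ?_
      rw [Finset.sum_congr rfl (g := fun _ => Φ y), Finset.sum_const, nsmul_eq_mul]
      intro ω hω
      rw [(Finset.mem_filter.1 hω).2]
    · intro ω _
      unfold cls
      rw [Finset.mem_filter]
      exact ⟨Finset.mem_univ _, rel_lay j ω x⟩
  have htot : ((cls j x).card : ℝ) * (N x : ℝ) = 2 ^ Fintype.card (Pos d) := by
    have h1 : ∑ y ∈ cls j x, N y = Fintype.card (Pos d → Bool) := by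
      rw [← Finset.card_univ, Finset.card_eq_sum_card_fiberwise (s := Finset.univ) (t := cls j x)
        (f := fun ω : Pos d → Bool => lay j ω • x)]
      intro ω _
      unfold cls
      simp only [Finset.coe_filter, Finset.mem_univ, true_and]
      exact rel_lay j ω x
    rw [Finset.sum_congr rfl hfib, Finset.sum_const, smul_eq_mul, Fintype.card_fun,
      Fintype.card_bool] at h1
    exact_mod_cast h1
  have hne : (N x : ℝ) ≠ 0 := by
    intro h
    rw [h, mul_zero] at htot
    have : (0 : ℝ) < 2 ^ Fintype.card (Pos d) := by positivity
    linarith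
  have hcne : ((cls j x).card : ℝ) ≠ 0 := by
    intro h
    rw [h, zero_mul] at htot
    have : (0 : ℝ) < 2 ^ Fintype.card (Pos d) := by positivity
    linarith
  rw [hsum, Finset.sum_congr rfl (g := fun y => (N x : ℝ) * Φ y)
    (fun y hy => by rw [hfib y hy]), ← Finset.mul_sum, ← htot]
  field_simp

end P162L
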