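/-
P162 (Thorp shuffle), Theta(log n) project, module SS (helper4): small scales.
-/
import Vale.Agent.P162.Log.Stmts

namespace P162L

open scoped BigOperators

namespace SSm

theorem clr_eq {d : ℕ} (j : ℕ) (z z' : Pos d) (h : clr j z = clr j z') :
    z' = z ∨ z' = flipBit j z := by
  by_cases hj : ∃ i : Fin d, (i : ℕ) = j ∧ z i ≠ z' i
  · right
    obtain ⟨i, hi, hne⟩ := hj
    funext k
    unfold flipBit
    by_cases hk : (k : ℕ) = j
    · have hki : k = i := Fin.ext (hk.trans hi.symm)
      rw [if_pos hk, hki]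
      revert hne
      cases z i <;> cases z' i <;> simp
    · rw [if_neg hk]
      have := congrFun h k
      unfold clr at this
      rw [if_neg hk, if_neg hk] at this
      exact this.symm
  · left
    push Not at hj
    funext k
    by_cases hk : (k : ℕ) = j
    · exact (hj k hk).symm
    · have := congrFun h k
      unfold clr at this
      rw [if_neg hk, if_neg hk] at this
      exact this.symm

theorem avg_prod {S : Type*} [Fintype S] [DecidableEq S] (h : S → Bool → ℝ) :
    ∑ ω : S → Bool, ∏ s, h s (ω s) = ∏ s, (h s true + h s false) := by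
  have h1 := Finset.prod_univ_sum (fun _ : S => (Finset.univ : Finset Bool)) h
  rw [Fintype.piFinset_univ] at h1
  rw [← h1]
  apply Finset.prod_congr rfl
  intro s _
  rw [Fintype.sum_bool]

theorem column {d : ℕ} {C : Type*} [Fintype C] [DecidableEq C] (j : ℕ) (g : Pos d → ℝ)
    (_hg : ∀ z, 0 ≤ g z) (x : C ↪ Pos d) (s : Pos d) :
    (∏ c ∈ Finset.univ.filter (fun c => clr j (x c) = s), g (flipBit j (x c)) +
      ∏ c ∈ Finset.univ.filter (fun c => clr j (x c) = s), g (x c)) ≤
    2 * ∏ c ∈ Finset.univ.filter (fun c => clr j (x c) = s),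
      ((g (x c) + g (flipBit j (x c))) / 2) := by
  rcases Finset.eq_empty_or_nonempty (Finset.univ.filter (fun c => clr j (x c) = s)) with h | ⟨c, hc⟩
  · rw [h]
    simp only [Finset.prod_empty]
    norm_num
  · have hc' := (Finset.mem_filter.mp hc).2
    by_cases h2 : ∃ c' ∈ Finset.univ.filter (fun c => clr j (x c) = s), c' ≠ c
    · obtain ⟨c', hc1, hne⟩ := h2
      have hc1' := (Finset.mem_filter.mp hc1).2
      have hx : x c' = flipBit j (x c) := by
        rcases clr_eq j (x c) (x c') (hc'.trans hc1'.symm) with h | h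
        · exact absurd (x.injective h) hne
        · exact h
      have hx' : flipBit j (x c') = x c := by
        rw [hx, flipBit_flipBit]
      have hF : Finset.univ.filter (fun c => clr j (x c) = s) = {c, c'} := by
        ext c''
        simp only [Finset.mem_insert, Finset.mem_singleton]
        constructor
        · intro h
          have h' := (Finset.mem_filter.mp h).2
          rcases clr_eq j (x c) (x c'') (hc'.trans h'.symm) with h | h
          · left; exact x.injective h
          · right; exact x.injective (h.trans hx.symm)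
        · rintro (h | h)
          · rw [h]; exact hc
          · rw [h]; exact hc1
      rw [hF, Finset.prod_pair hne.symm, Finset.prod_pair hne.symm, Finset.prod_pair hne.symm,
        hx', ← hx]
      nlinarith [sq_nonneg (g (x c) - g (x c'))]
    · have hF : Finset.univ.filter (fun c => clr j (x c) = s) = {c} := by
        ext c''
        rw [Finset.mem_singleton]
        constructor
        · intro h
          by_contra hne
          exact h2 ⟨c'', h, hne⟩
        · intro h
          rw [h]; exact hc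
      rw [hF, Finset.prod_singleton, Finset.prod_singleton, Finset.prod_singleton]
      apply le_of_eq
      ring

theorem one_layer {d : ℕ} {C : Type} [Fintype C] [DecidableEq C] (j : ℕ) (g : Pos d → ℝ)
    (hg : ∀ z, 0 ≤ g z) (x : C ↪ Pos d) :
    Lay d (C ↪ Pos d) j (fun y => ∏ c, g (y c)) x ≤
      ∏ c, ((g (x c) + g (flipBit j (x c))) / 2) := by
  rw [Lay_apply]
  have h1 : ∀ ω : Pos d → Bool, (∏ c, g ((lay j ω • x) c)) =
      ∏ s : Pos d, (fun (s : Pos d) (e : Bool) =>
        ∏ c ∈ Finset.univ.filter (fun c => clr j (x c) = s),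
          g (if e then flipBit j (x c) else x c)) s (ω s) := by
    intro ω
    rw [← Finset.prod_fiberwise Finset.univ (fun c => clr j (x c))]
    apply Finset.prod_congr rfl
    intro s _
    apply Finset.prod_congr rfl
    intro c hc
    have hc' := (Finset.mem_filter.mp hc).2
    have h2 : (lay j ω • x) c = lay j ω (x c) := rfl
    rw [h2, lay_apply, hc']
  rw [Finset.sum_congr rfl (fun ω _ => h1 ω), avg_prod (fun (s : Pos d) (e : Bool) =>
        ∏ c ∈ Finset.univ.filter (fun c => clr j (x c) = s),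
          g (if e then flipBit j (x c) else x c))]
  have h3 : (1 / (2 : ℝ) ^ Fintype.card (Pos d)) = ∏ _s : Pos d, (1 / 2 : ℝ) := by
    rw [Finset.prod_const, Finset.card_univ, one_div_pow]
  rw [h3, ← Finset.prod_mul_distrib]
  rw [← Finset.prod_fiberwise Finset.univ (fun c => clr j (x c))
    (fun c => ((g (x c) + g (flipBit j (x c))) / 2))]
  apply Finset.prod_le_prod
  · intro s _
    apply mul_nonneg (by norm_num)
    apply add_nonneg <;> exact Finset.prod_nonneg fun c _ => hg _
  · intro s _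
    have := column j g hg x s
    simp only [if_true, Bool.false_eq_true, if_false]
    linarith

/-- iterated averages -/
noncomputable def Av {d : ℕ} (j0 : ℕ) : ℕ → (Pos d → ℝ) → (Pos d → ℝ)
  | 0, g => g
  | (n + 1), g => fun z => (Av j0 n g z + Av j0 n g (flipBit (j0 + n) z)) / 2

theorem Av_nonneg {d : ℕ} (j0 n : ℕ) (g : Pos d → ℝ) (hg : ∀ z, 0 ≤ g z) (z : Pos d) :
    0 ≤ Av j0 n g z := by
  induction n generalizing z with
  | zero => exact hg z
  | succ n ih =>
    unfold Av
    have h1 := ih z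
    have h2 := ih (flipBit (j0 + n) z)
    linarith

theorem Dn_prod {d : ℕ} {C : Type} [Fintype C] [DecidableEq C] (j0 n : ℕ) (g : Pos d → ℝ)
    (hg : ∀ z, 0 ≤ g z) (x : C ↪ Pos d) :
    Dn (Lay d (C ↪ Pos d)) j0 n (fun y => ∏ c, g (y c)) x ≤ ∏ c, Av j0 n g (x c) := by
  induction n generalizing x with
  | zero => exact le_refl _
  | succ n ih =>
    have h1 : Dn (Lay d (C ↪ Pos d)) j0 (n + 1) (fun y => ∏ c, g (y c)) x =
      Lay d (C ↪ Pos d) (j0 + n) (Dn (Lay d (C ↪ Pos d)) j0 n (fun y => ∏ c, g (y c))) x := rfl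
    rw [h1]
    refine le_trans ((isMk_Lay d (C ↪ Pos d) (j0 + n)).mono _ _ ih x) ?_
    exact one_layer (j0 + n) (Av j0 n g) (Av_nonneg j0 n g hg) x

theorem flip_comm {d : ℕ} (i j : ℕ) (z : Pos d) :
    flipBit i (flipBit j z) = flipBit j (flipBit i z) := by
  funext k
  unfold flipBit
  by_cases h1 : (k : ℕ) = i <;> by_cases h2 : (k : ℕ) = j
  · rw [if_pos h1, if_pos h2, if_pos h2, if_pos h1]
  · rw [if_pos h1, if_neg h2, if_neg h2, if_pos h1]
  · rw [if_neg h1, if_pos h2, if_pos h2, if_neg h1]
  · rw [if_neg h1, if_neg h2, if_neg h2, if_neg h1]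

theorem Av_flip_of {d : ℕ} (j0 n i : ℕ) (g : Pos d → ℝ) (hg : ∀ z, g (flipBit i z) = g z)
    (z : Pos d) : Av j0 n g (flipBit i z) = Av j0 n g z := by
  induction n generalizing z with
  | zero => exact hg z
  | succ n ih =>
    unfold Av
    rw [ih, flip_comm, ih]

theorem Av_flip_in {d : ℕ} (j0 n i : ℕ) (hi : i < n) (g : Pos d → ℝ) (z : Pos d) :
    Av j0 n g (flipBit (j0 + i) z) = Av j0 n g z := by
  induction n generalizing z with
  | zero => exact absurd hi (Nat.not_lt_zero _)
  | succ n ih =>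
    unfold Av
    rcases Nat.lt_or_ge i n with h | h
    · rw [ih h, flip_comm, ih h]
    · have : i = n := by omega
      subst this
      rw [flipBit_flipBit, add_comm]

theorem Av_sum {d : ℕ} (j0 n : ℕ) (g : Pos d → ℝ) : ∑ z, Av j0 n g z = ∑ z, g z := by
  induction n with
  | zero => rfl
  | succ n ih =>
    unfold Av
    have hb : ∑ z, Av j0 n g (flipBit (j0 + n) z) = ∑ z, Av j0 n g z := by
      apply Finset.sum_bij' (fun z _ => flipBit (j0 + n) z) (fun z _ => flipBit (j0 + n) z)
      · intro a _; exact Finset.mem_univ _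
      · intro a _; exact Finset.mem_univ _
      · intro a _; exact flipBit_flipBit _ _
      · intro a _; exact flipBit_flipBit _ _
      · intro a _; rfl
    rw [← Finset.sum_div, Finset.sum_add_distrib, hb, ih]
    ring

/-- invariance under all flips implies constancy -/
theorem const_of_flips {d : ℕ} (f : Pos d → ℝ) (h : ∀ i < d, ∀ z, f (flipBit i z) = f z)
    (z z' : Pos d) : f z = f z' := by
  -- move z to z' one bit at a time
  have key : ∀ m ≤ d, f (fun i => if (i : ℕ) < m then z' i else z i) = f z := by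
    intro m
    induction m with
    | zero => intro _; congr 1
    | succ m ih =>
      intro hm
      rw [← ih (by omega)]
      have hmd : m < d := by omega
      by_cases hb : z' ⟨m, hmd⟩ = z ⟨m, hmd⟩
      · congr 1
        funext i
        by_cases h1 : (i : ℕ) < m
        · rw [if_pos (by omega), if_pos h1]
        · by_cases h2 : (i : ℕ) = m
          · have : i = ⟨m, hmd⟩ := Fin.ext h2
            subst this
            rw [if_pos (by simp), if_neg (by simp), hb]
          · rw [if_neg (by omega), if_neg h1]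
      · rw [← h m hmd]
        congr 1
        funext i
        unfold flipBit
        by_cases h2 : (i : ℕ) = m
        · have : i = ⟨m, hmd⟩ := Fin.ext h2
          subst this
          rw [if_pos rfl]
          simp only [Nat.lt_succ_self, if_true, lt_irrefl, if_false]
          revert hb
          cases z' ⟨m, hmd⟩ <;> cases z ⟨m, hmd⟩ <;> simp
        · rw [if_neg h2]
          by_cases h1 : (i : ℕ) < m
          · rw [if_pos h1]
            exact if_pos (by omega)
          · rw [if_neg h1]
            exact if_neg (by omega)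
  have := key d le_rfl
  rw [← this]
  congr 1
  funext i
  rw [if_pos i.isLt]

theorem Av_const {d j0 : ℕ} (hj : j0 ≤ d) (g : Pos d → ℝ)
    (hg : ∀ i < j0, ∀ z, g (flipBit i z) = g z) (z : Pos d) :
    Av j0 (d - j0) g z = (∑ z, g z) / 2 ^ d := by
  have h1 : ∀ i < d, ∀ z, Av j0 (d - j0) g (flipBit i z) = Av j0 (d - j0) g z := by
    intro i hi z
    rcases Nat.lt_or_ge i j0 with h | h
    · exact Av_flip_of j0 _ i g (hg i h) z
    · have := Av_flip_in (d := d) j0 (d - j0) (i - j0) (by omega) g z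
      rwa [Nat.add_sub_cancel' h] at this
  have h2 : ∑ z', Av j0 (d - j0) g z' = (2 ^ d : ℝ) * Av j0 (d - j0) g z := by
    rw [Finset.sum_congr rfl (fun z' _ => const_of_flips _ h1 z' z)]
    rw [Finset.sum_const, Finset.card_univ, nsmul_eq_mul]
    congr 1
    rw [Fintype.card_fun, Fintype.card_bool, Fintype.card_fin]
    push_cast
    rfl
  rw [Av_sum] at h2
  rw [h2]
  field_simp


/-! ### the weights -/

section wt

variable {d : ℕ} {C : Type} [Fintype C] [DecidableEq C]

/-- names of the blocks -/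
noncomputable def HH (d j0 : ℕ) : Finset (Pos d) := Finset.univ.image (high j0)

/-- number of cards in the block -/
noncomputable def bb (j0 : ℕ) (y : C ↪ Pos d) (s : Pos d) : ℕ :=
  (Finset.univ.filter fun c => high j0 (y c) = s).card

theorem sum_bb (j0 : ℕ) (y : C ↪ Pos d) : ∑ s ∈ HH d j0, bb j0 y s = Fintype.card C := by
  unfold bb
  rw [← Finset.card_univ]
  symm
  apply Finset.card_eq_sum_card_fiberwise
  intro c _
  exact Finset.mem_image_of_mem _ (Finset.mem_univ _)

theorem nblk_eq (j0 : ℕ) (y : C ↪ Pos d) :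
    nblk j0 y = ((HH d j0).filter fun s => 1 ≤ bb j0 y s).card := by
  unfold nblk
  congr 1
  ext s
  rw [Finset.mem_image, Finset.mem_filter]
  unfold bb
  constructor
  · rintro ⟨c, _, hc⟩
    refine ⟨Finset.mem_image.mpr ⟨y c, Finset.mem_univ _, hc⟩, ?_⟩
    exact Finset.card_pos.mpr ⟨c, Finset.mem_filter.mpr ⟨Finset.mem_univ _, hc⟩⟩
  · rintro ⟨_, h⟩
    obtain ⟨c, hc⟩ := Finset.card_pos.mp h
    exact ⟨c, Finset.mem_univ _, (Finset.mem_filter.mp hc).2⟩

theorem sub_nblk (j0 : ℕ) (y : C ↪ Pos d) :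
    Fintype.card C - nblk j0 y = ∑ s ∈ HH d j0, (bb j0 y s - 1) := by
  have h1 : nblk j0 y = ∑ s ∈ HH d j0, (if 1 ≤ bb j0 y s then 1 else 0) := by
    rw [nblk_eq, Finset.card_filter]
  have h2 : ∑ s ∈ HH d j0, bb j0 y s =
      ∑ s ∈ HH d j0, (bb j0 y s - 1) + ∑ s ∈ HH d j0, (if 1 ≤ bb j0 y s then 1 else 0) := by
    rw [← Finset.sum_add_distrib]
    apply Finset.sum_congr rfl
    intro s _
    split <;> omega
  rw [sum_bb] at h2
  omega

theorem block_bound (θ a : ℝ) (h1 : 1 ≤ θ) (h2 : θ ≤ a) (b : ℕ) :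
    θ ^ (b - 1) ≤ θ / a ^ 2 * a ^ b + (1 - θ / a ^ 2) := by
  have ha : 1 ≤ a := le_trans h1 h2
  have ha0 : 0 < a := by linarith
  have hp0 : 0 ≤ θ / a ^ 2 := by positivity
  have hp1 : θ / a ^ 2 ≤ 1 := by
    rw [div_le_one (by positivity)]
    nlinarith
  rcases b with _ | _ | b
  · simp
  · simp only [zero_add, Nat.sub_self, pow_zero, pow_one]
    nlinarith
  · have h3 : b + 1 + 1 - 1 = b + 1 := by omega
    rw [h3]
    have h4 : θ / a ^ 2 * a ^ (b + 1 + 1) = θ * a ^ b := by
      field_simp
      ring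
    rw [h4, pow_succ']
    have h5 : θ ^ b ≤ a ^ b := pow_le_pow_left₀ (by linarith) h2 b
    have h6 : θ * θ ^ b ≤ θ * a ^ b := mul_le_mul_of_nonneg_left h5 (by linarith)
    linarith

/-- the one-card weight -/
noncomputable def gW (j0 : ℕ) (a : ℝ) (W : Finset (Pos d)) (z : Pos d) : ℝ :=
  if high j0 z ∈ W then a else 1

theorem prod_gW (j0 : ℕ) (a : ℝ) (W : Finset (Pos d)) (y : C ↪ Pos d) :
    ∏ c, gW j0 a W (y c) = ∏ s ∈ W, a ^ bb j0 y s := by
  unfold gW bb
  rw [Finset.prod_pow_eq_pow_sum]
  rw [Finset.prod_ite, Finset.prod_const_one, mul_one, Finset.prod_const]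
  congr 1
  rw [Finset.card_eq_sum_card_fiberwise (f := fun c => high j0 (y c)) (t := W)]
  · apply Finset.sum_congr rfl
    intro s hs
    congr 1
    ext c
    simp only [Finset.mem_filter, Finset.mem_univ, true_and]
    constructor
    · rintro ⟨_, h⟩; exact h
    · intro h; exact ⟨h ▸ hs, h⟩
  · intro c hc
    exact (Finset.mem_filter.mp hc).2

theorem theta_le (j0 : ℕ) (θ a : ℝ) (h1 : 1 ≤ θ) (h2 : θ ≤ a) (y : C ↪ Pos d) :
    θ ^ (Fintype.card C - nblk j0 y) ≤
      ∑ W ∈ (HH d j0).powerset, ((θ / a ^ 2) ^ W.card * (1 - θ / a ^ 2) ^ ((HH d j0) \ W).card) *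
        ∏ c, gW j0 a W (y c) := by
  have h3 : θ ^ (Fintype.card C - nblk j0 y) ≤
      ∏ s ∈ HH d j0, (θ / a ^ 2 * a ^ bb j0 y s + (1 - θ / a ^ 2)) := by
    rw [sub_nblk, ← Finset.prod_pow_eq_pow_sum]
    apply Finset.prod_le_prod
    · intro s _; positivity
    · intro s _; exact block_bound θ a h1 h2 _
  refine le_trans h3 ?_
  rw [Finset.prod_add]
  apply le_of_eq
  apply Finset.sum_congr rfl
  intro W hW
  rw [prod_gW, Finset.prod_mul_distrib, Finset.prod_const, Finset.prod_const]
  ring

theorem high_flip (j0 i : ℕ) (hi : i < j0) (z : Pos d) : high j0 (flipBit i z) = high j0 z := by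
  funext k
  unfold high flipBit
  by_cases h1 : (k : ℕ) < j0
  · rw [if_pos h1, if_pos h1]
  · rw [if_neg h1, if_neg h1, if_neg (by omega)]

/-- every block has the same number of positions -/
theorem block_card (j0 : ℕ) (hj : j0 ≤ d) (s : Pos d) (hs : s ∈ HH d j0) :
    (Finset.univ.filter fun z : Pos d => high j0 z = s).card = 2 ^ j0 := by
  obtain ⟨w, _, hw⟩ := Finset.mem_image.mp hs
  have h1 : (Finset.univ : Finset (Fin j0 → Bool)).card = 2 ^ j0 := by
    rw [Finset.card_univ, Fintype.card_fun, Fintype.card_bool, Fintype.card_fin]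
  rw [← h1]
  symm
  apply Finset.card_bij' (fun (u : Fin j0 → Bool) _ => (fun i : Fin d =>
      if h : (i : ℕ) < j0 then u ⟨i, h⟩ else w i : Pos d))
    (fun (z : Pos d) _ => fun i : Fin j0 => z ⟨i, lt_of_lt_of_le i.isLt hj⟩)
  · intro u _
    rw [Finset.mem_filter]
    refine ⟨Finset.mem_univ _, ?_⟩
    rw [← hw]
    funext i
    unfold high
    by_cases h : (i : ℕ) < j0
    · rw [if_pos h, if_pos h]
    · rw [if_neg h, if_neg h]
      exact dif_neg h
  · intro z _; exact Finset.mem_univ _
  · intro u _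
    funext i
    simp
  · intro z hz
    have hz' := (Finset.mem_filter.mp hz).2
    rw [← hw] at hz'
    funext i
    by_cases h : (i : ℕ) < j0
    · simp only [h, dif_pos]
    · simp only [h, dif_neg, not_false_eq_true]
      have := congrFun hz' i
      unfold high at this
      rw [if_neg h, if_neg h] at this
      exact this.symm

theorem HH_card (j0 : ℕ) (hj : j0 ≤ d) : (HH d j0).card = 2 ^ (d - j0) := by
  have h1 : (Finset.univ : Finset (Pos d)).card =
      ∑ s ∈ HH d j0, (Finset.univ.filter fun z : Pos d => high j0 z = s).card := by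
    apply Finset.card_eq_sum_card_fiberwise
    intro z _
    exact Finset.mem_image_of_mem _ (Finset.mem_univ _)
  rw [Finset.sum_congr rfl (fun s hs => block_card j0 hj s hs), Finset.sum_const,
    Finset.card_univ, Fintype.card_fun, Fintype.card_bool, Fintype.card_fin, smul_eq_mul] at h1
  have h2 : 2 ^ d = 2 ^ (d - j0) * 2 ^ j0 := by
    rw [← pow_add]; congr 1; omega
  rw [h2] at h1
  exact (Nat.eq_of_mul_eq_mul_right (by positivity) h1).symm

theorem sum_gW (j0 : ℕ) (hj : j0 ≤ d) (a : ℝ) (W : Finset (Pos d)) (hW : W ⊆ HH d j0) :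
    ∑ z : Pos d, gW j0 a W z = 2 ^ d + (a - 1) * (W.card * 2 ^ j0) := by
  have h1 : ∀ z : Pos d, gW j0 a W z = 1 + (a - 1) * (if high j0 z ∈ W then 1 else 0) := by
    intro z
    unfold gW
    split <;> ring
  rw [Finset.sum_congr rfl (fun z _ => h1 z), Finset.sum_add_distrib, ← Finset.mul_sum]
  congr 1
  · rw [Finset.sum_const, Finset.card_univ, Fintype.card_fun, Fintype.card_bool,
      Fintype.card_fin, nsmul_eq_mul, mul_one]
    push_cast
    rfl
  · congr 1
    rw [← Finset.sum_filter, Finset.sum_const, nsmul_eq_mul, mul_one]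
    have h2 : (Finset.univ.filter fun z : Pos d => high j0 z ∈ W).card = W.card * 2 ^ j0 := by
      rw [Finset.card_eq_sum_card_fiberwise (f := fun z => high j0 z) (t := W)]
      · rw [Finset.sum_congr rfl (g := fun _ => 2 ^ j0)]
        · rw [Finset.sum_const, smul_eq_mul]
        · intro s hs
          rw [← block_card j0 hj s (hW hs)]
          congr 1
          ext z
          simp only [Finset.mem_filter, Finset.mem_univ, true_and]
          constructor
          · rintro ⟨_, h⟩; exact h
          · intro h; exact ⟨h ▸ hs, h⟩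
      · intro z hz
        exact (Finset.mem_filter.mp hz).2
    rw [h2]
    push_cast
    ring

end wt

end SSm

open SSm in
theorem ss_main : SSStatement := by
  intro d C _ _ j0 hj θ a h1 h2 h3 x
  classical
  have ha : 1 ≤ a := le_trans h1 h2
  have ha0 : 0 < a := by linarith
  have hp0 : 0 ≤ θ / a ^ 2 := by positivity
  have hp1 : θ / a ^ 2 ≤ 1 := by
    rw [div_le_one (by positivity)]
    nlinarith
  have hN : (0 : ℝ) < 2 ^ (d - j0) := by positivity
  -- monotonicity and linearity of Dn
  have hmono : ∀ (n : ℕ) (Φ Ψ : (C ↪ Pos d) → ℝ), (∀ y, Φ y ≤ Ψ y) → ∀ y,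
      Dn (Lay d (C ↪ Pos d)) j0 n Φ y ≤ Dn (Lay d (C ↪ Pos d)) j0 n Ψ y := by
    intro n
    induction n with
    | zero => intro Φ Ψ h y; exact h y
    | succ n ih =>
      intro Φ Ψ h y
      exact (isMk_Lay d (C ↪ Pos d) (j0 + n)).mono _ _ (ih Φ Ψ h) y
  have hlin : ∀ (n : ℕ) (T : Finset (Finset (Pos d))) (w : Finset (Pos d) → ℝ)
      (Φ : Finset (Pos d) → (C ↪ Pos d) → ℝ),
      Dn (Lay d (C ↪ Pos d)) j0 n (fun y => ∑ W ∈ T, w W * Φ W y) =
        fun y => ∑ W ∈ T, w W * Dn (Lay d (C ↪ Pos d)) j0 n (Φ W) y := by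
    intro n
    induction n with
    | zero => intro T w Φ; rfl
    | succ n ih =>
      intro T w Φ
      have e1 : Dn (Lay d (C ↪ Pos d)) j0 (n + 1) (fun y => ∑ W ∈ T, w W * Φ W y) =
        Lay d (C ↪ Pos d) (j0 + n)
          (Dn (Lay d (C ↪ Pos d)) j0 n (fun y => ∑ W ∈ T, w W * Φ W y)) := rfl
      rw [e1, ih]
      have e2 : (fun y => ∑ W ∈ T, w W * Dn (Lay d (C ↪ Pos d)) j0 n (Φ W) y) =
          ∑ W ∈ T, w W • Dn (Lay d (C ↪ Pos d)) j0 n (Φ W) := by
        funext y
        simp only [Finset.sum_apply, Pi.smul_apply, smul_eq_mul]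
      rw [e2, map_sum]
      funext y
      simp only [Finset.sum_apply, map_smul, Pi.smul_apply, smul_eq_mul]
      rfl
  refine le_trans (hmono _ _ _ (theta_le j0 θ a h1 h2) x) ?_
  rw [hlin]
  -- bound of each term
  set u : ℝ := (Fintype.card C : ℝ) * (a - 1) / 2 ^ (d - j0) with hu
  have hu0 : 0 ≤ u := by
    rw [hu]
    apply div_nonneg (mul_nonneg (by positivity) (by linarith)) hN.le
  have hu1 : u ≤ 1 := by
    rw [hu, div_le_one hN]
    have : (0 : ℝ) ≤ Fintype.card C := by positivity
    nlinarith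
  have hterm : ∀ W ∈ (HH d j0).powerset,
      ((θ / a ^ 2) ^ W.card * (1 - θ / a ^ 2) ^ ((HH d j0) \ W).card) *
        Dn (Lay d (C ↪ Pos d)) j0 (d - j0) (fun y => ∏ c, gW j0 a W (y c)) x ≤
      ((θ / a ^ 2 * Real.exp u) ^ W.card * (1 - θ / a ^ 2) ^ ((HH d j0) \ W).card) := by
    intro W hW
    have hW' : W ⊆ HH d j0 := Finset.mem_powerset.mp hW
    have hg0 : ∀ z : Pos d, 0 ≤ gW j0 a W z := by
      intro z
      unfold gW
      split <;> linarith
    have hgi : ∀ i < j0, ∀ z : Pos d, gW j0 a W (flipBit i z) = gW j0 a W z := by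
      intro i hi z
      unfold gW
      rw [high_flip j0 i hi z]
    have e1 : Dn (Lay d (C ↪ Pos d)) j0 (d - j0) (fun y => ∏ c, gW j0 a W (y c)) x ≤
        Real.exp u ^ W.card := by
      refine le_trans (Dn_prod j0 (d - j0) (gW j0 a W) hg0 x) ?_
      have e2 : ∀ c, Av j0 (d - j0) (gW j0 a W) (x c) =
          1 + (a - 1) * W.card / 2 ^ (d - j0) := by
        intro c
        rw [Av_const hj (gW j0 a W) hgi, sum_gW j0 hj a W hW']
        have e3 : (2 : ℝ) ^ d = 2 ^ (d - j0) * 2 ^ j0 := by
          rw [← pow_add]; congr 1; omega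
        rw [e3]
        field_simp
      rw [Finset.prod_congr rfl (fun c _ => e2 c), Finset.prod_const, Finset.card_univ,
        ← Real.exp_nat_mul]
      have e4 : 1 + (a - 1) * W.card / 2 ^ (d - j0) ≤
          Real.exp ((a - 1) * W.card / 2 ^ (d - j0)) := by
        have := Real.add_one_le_exp ((a - 1) * W.card / 2 ^ (d - j0) : ℝ)
        linarith
      have e5 : (0 : ℝ) ≤ 1 + (a - 1) * W.card / 2 ^ (d - j0) := by
        have : (0 : ℝ) ≤ (a - 1) * W.card / 2 ^ (d - j0) :=
          div_nonneg (mul_nonneg (by linarith) (by positivity)) hN.le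
        linarith
      refine le_trans (pow_le_pow_left₀ e5 e4 _) ?_
      rw [← Real.exp_nat_mul]
      apply le_of_eq
      congr 1
      rw [hu]
      ring
    have e6 : (0 : ℝ) ≤ (θ / a ^ 2) ^ W.card * (1 - θ / a ^ 2) ^ ((HH d j0) \ W).card :=
      mul_nonneg (pow_nonneg hp0 _) (pow_nonneg (by linarith) _)
    refine le_trans (mul_le_mul_of_nonneg_left e1 e6) ?_
    rw [mul_pow]
    apply le_of_eq
    ring
  refine le_trans (Finset.sum_le_sum hterm) ?_
  have e7 : ∑ W ∈ (HH d j0).powerset,
      ((θ / a ^ 2 * Real.exp u) ^ W.card * (1 - θ / a ^ 2) ^ ((HH d j0) \ W).card) =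
      (θ / a ^ 2 * Real.exp u + (1 - θ / a ^ 2)) ^ (2 ^ (d - j0)) := by
    rw [← HH_card j0 hj, ← Finset.prod_const, Finset.prod_add]
    apply Finset.sum_congr rfl
    intro W hW
    rw [Finset.prod_const, Finset.prod_const]
  rw [e7]
  have e8 : Real.exp u ≤ 1 + 2 * u := by
    have := Real.exp_bound' hu0 hu1 (n := 2) (by norm_num)
    simp [Finset.sum_range_succ] at this
    nlinarith
  have e9 : θ / a ^ 2 * Real.exp u + (1 - θ / a ^ 2) ≤ Real.exp (θ / a ^ 2 * (2 * u)) := by
    have h := Real.add_one_le_exp (θ / a ^ 2 * (2 * u))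
    have h' := mul_le_mul_of_nonneg_left e8 hp0
    linarith
  have e10 : 0 ≤ θ / a ^ 2 * Real.exp u + (1 - θ / a ^ 2) := by
    have := mul_nonneg hp0 (Real.exp_pos u).le
    linarith
  refine le_trans (pow_le_pow_left₀ e10 e9 _) ?_
  rw [← Real.exp_nat_mul]
  apply Real.exp_le_exp.mpr
  push_cast
  have e11 : (2 : ℝ) ^ (d - j0) * (θ / a ^ 2 * (2 * u)) =
      2 * θ * (Fintype.card C : ℝ) * (a - 1) / a ^ 2 := by
    rw [hu]
    field_simp
  rw [e11, div_le_div_iff₀ (by positivity) ha0]
  have e12 : 0 ≤ 2 * θ * (Fintype.card C : ℝ) := by positivity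
  nlinarith [mul_nonneg e12 ha0.le]

end P162L
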