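/-
P162 (Thorp shuffle), Theta(log n) project, module TA (helper25): trace bound on markings.
-/
import Vale.Agent.P162.Log.Stmts

namespace P162L

open scoped BigOperators

namespace TA

variable {d : ℕ}

theorem Lay_nonneg {X : Type*} [MulAction (Equiv.Perm (Pos d)) X] (j : ℕ) (f : X → ℝ)
    (hf : ∀ x, 0 ≤ f x) (x : X) : 0 ≤ Lay d X j f x := by
  rw [Lay_apply]
  exact mul_nonneg (by positivity) (Finset.sum_nonneg fun ω _ => hf _)

theorem TT_nonneg {X : Type*} [MulAction (Equiv.Perm (Pos d)) X] (i : ℕ) :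
    ∀ f : X → ℝ, (∀ x, 0 ≤ f x) → ∀ x, 0 ≤ TT d X i f x := by
  induction i with
  | zero => intro f hf x; exact hf x
  | succ i ih =>
    intro f hf x
    show 0 ≤ Lay d X i (TT d X i (Lay d X i f)) x
    exact Lay_nonneg i _ (ih _ (Lay_nonneg i f hf)) x

variable {C : Type} [Fintype C] [DecidableEq C]

/-- the matrix of `TT d` on markings -/
noncomputable def AA (d : ℕ) (C : Type) [Fintype C] [DecidableEq C] :
    Matrix (C ↪ Pos d) (C ↪ Pos d) ℝ := LinearMap.toMatrix' (TT d (C ↪ Pos d) d)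

theorem AA_apply (x y : C ↪ Pos d) : AA d C x y = Tk d x y := by
  unfold AA Tk
  rw [LinearMap.toMatrix'_apply]

omit [DecidableEq C] in
theorem Tk_nonneg (x y : C ↪ Pos d) : 0 ≤ Tk d x y := by
  apply TT_nonneg
  intro z
  by_cases h : z = y
  · rw [h, Pi.single_eq_same]; exact zero_le_one
  · rw [Pi.single_eq_of_ne h]

omit [DecidableEq C] in
theorem Tk_symm (ps : PSStatement) (x y : C ↪ Pos d) : Tk d y x = Tk d x y := by
  have h := (ps d (C ↪ Pos d)).2.1 d (Pi.single x 1) (Pi.single y 1)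
  have h1 : ∑ z, TT d (C ↪ Pos d) d (Pi.single x 1) z * (Pi.single y 1 : (C ↪ Pos d) → ℝ) z =
      Tk d y x := by
    rw [Finset.sum_eq_single y (fun z _ hz => by rw [Pi.single_eq_of_ne hz, mul_zero])
      (fun h => absurd (Finset.mem_univ _) h), Pi.single_eq_same, mul_one]
    rfl
  have h2 : ∑ z, (Pi.single x 1 : (C ↪ Pos d) → ℝ) z * TT d (C ↪ Pos d) d (Pi.single y 1) z =
      Tk d x y := by
    rw [Finset.sum_eq_single x (fun z _ hz => by rw [Pi.single_eq_of_ne hz, zero_mul])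
      (fun h => absurd (Finset.mem_univ _) h), Pi.single_eq_same, one_mul]
    rfl
  rw [← h1, ← h2]
  exact h

theorem trace_eq (m : ℕ) : LinearMap.trace ℝ ((C ↪ Pos d) → ℝ) ((TT d (C ↪ Pos d) d) ^ m) =
    Matrix.trace ((AA d C) ^ m) := by
  rw [LinearMap.trace_eq_matrix_trace ℝ (Pi.basisFun ℝ (C ↪ Pos d)), ← LinearMap.toMatrix_pow,
    LinearMap.toMatrix_eq_toMatrix']
  rfl

end TA

open TA in
theorem ta_main : TAStatement := by
  intro ki ga tr ps
  obtain ⟨K, hK0, hK⟩ := ga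
  refine ⟨65 * K, by positivity, ?_⟩
  intro d C _ _ hC
  set q : ℝ := (Fintype.card C : ℝ) with hq
  set E : ℝ := K * q * (q / 2 ^ d) ^ ((1 : ℝ) / 256) with hE
  set M : ℝ := ((2 : ℝ) ^ d) ^ ((1 : ℝ) / 65 * q) with hM
  have hMpos : 0 < M := Real.rpow_pos_of_pos (by positivity) _
  have hrow : ∀ x : C ↪ Pos d, ∑ y, (AA d C x y) ^ ((((65 : ℕ) : ℝ) + 1) / ((65 : ℕ) : ℝ)) ≤
      Real.exp E / M := by
    intro x
    rw [le_div_iff₀ hMpos, mul_comm, Finset.mul_sum]
    refine le_trans (Finset.sum_le_sum fun y _ => ?_) (hK d C hC x)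
    have h := ki d C (1 / 65) (by norm_num) d x y
    have he : ((((65 : ℕ) : ℝ) + 1) / ((65 : ℕ) : ℝ)) = 1 + 1 / 65 := by norm_num
    rw [he, AA_apply]
    exact h
  have htr := tr (C ↪ Pos d) (AA d C)
    (by
      ext x y
      rw [Matrix.transpose_apply, AA_apply, AA_apply, Tk_symm ps])
    (fun x y => by rw [AA_apply]; exact Tk_nonneg x y) 65 (by norm_num) (Real.exp E / M) hrow
  rw [trace_eq]
  refine le_trans htr ?_
  have hcard : (Fintype.card (C ↪ Pos d) : ℝ) ≤ ((2 : ℝ) ^ d) ^ Fintype.card C := by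
    rw [Fintype.card_embedding_eq]
    have h1 : Fintype.card (Pos d) = 2 ^ d := by
      rw [Fintype.card_fun, Fintype.card_bool, Fintype.card_fin]
    rw [h1]
    have h2 := Nat.descFactorial_le_pow (2 ^ d) (Fintype.card C)
    exact_mod_cast h2
  have hM65 : M ^ 65 = ((2 : ℝ) ^ d) ^ Fintype.card C := by
    rw [hM, ← Real.rpow_natCast _ 65, ← Real.rpow_mul (by positivity)]
    have : (1 : ℝ) / 65 * q * ((65 : ℕ) : ℝ) = ((Fintype.card C : ℕ) : ℝ) := by
      rw [hq]; push_cast; ring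
    rw [this, Real.rpow_natCast]
  rw [div_pow, hM65, ← Real.exp_nat_mul]
  have hpos : (0 : ℝ) < ((2 : ℝ) ^ d) ^ Fintype.card C := by positivity
  calc (Fintype.card (C ↪ Pos d) : ℝ) *
      (Real.exp (((65 : ℕ) : ℝ) * E) / ((2 : ℝ) ^ d) ^ Fintype.card C)
      ≤ ((2 : ℝ) ^ d) ^ Fintype.card C *
      (Real.exp (((65 : ℕ) : ℝ) * E) / ((2 : ℝ) ^ d) ^ Fintype.card C) :=
        mul_le_mul_of_nonneg_right hcard (by positivity)
    _ = Real.exp (((65 : ℕ) : ℝ) * E) := by
        field_simp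
    _ = Real.exp (65 * K * q * (q / 2 ^ d) ^ ((1 : ℝ) / 256)) := by
        congr 1
        rw [hE]
        push_cast
        ring

end P162L
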