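/-
P162 (Thorp shuffle), Theta(log n) project, module TF (helper19): final trace bound from the
trace bound on markings, the level norms and the flag trace lemma.
-/
import Vale.Agent.P162.Log.Stmts

namespace P162L
namespace TFx

open scoped BigOperators

/-- constants are fixed -/
theorem TT_const (d : ℕ) (X : Type) [MulAction (Equiv.Perm (Pos d)) X] (i : ℕ) (c : ℝ) :
    TT d X i (fun _ => c) = fun _ => c := by
  have hone : ∀ j, Lay d X j (fun _ => c) = fun _ => c := by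
    intro j
    have h1 : (fun _ : X => c) = c • (fun _ : X => (1 : ℝ)) := by
      funext x
      simp
    rw [h1, map_smul, (isMk_Lay d X j).one]
  induction i with
  | zero => rfl
  | succ i ih =>
    have h2 : TT d X (i + 1) = (Lay d X i).comp ((TT d X i).comp (Lay d X i)) := rfl
    rw [h2, LinearMap.comp_apply, LinearMap.comp_apply, hone, ih, hone]

theorem UU_mono (Ω : Type) : Monotone (UU Ω) := by
  intro a b hab
  apply Submodule.span_mono
  rintro f ⟨J, hJ, hf⟩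
  exact ⟨J, hJ.trans hab, hf⟩

theorem UU_zero (Ω : Type) (f : Equiv.Perm Ω → ℝ) (hf : f ∈ UU Ω 0) :
    f ∈ Submodule.span ℝ {fun _ : Equiv.Perm Ω => (1 : ℝ)} := by
  refine Submodule.span_le.2 ?_ hf
  rintro g ⟨J, hJ, hg⟩
  have hJ0 : J = ∅ := Finset.card_eq_zero.1 (Nat.le_zero.1 hJ)
  rw [SetLike.mem_coe, Submodule.mem_span_singleton]
  refine ⟨g 1, ?_⟩
  funext π
  rw [Pi.smul_apply, smul_eq_mul, mul_one]
  apply hg
  intro c hc
  rw [hJ0] at hc
  exact absurd hc (Finset.notMem_empty c)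

theorem UU_top (Ω : Type) [Fintype Ω] : UU Ω (Fintype.card Ω) = ⊤ := by
  rw [eq_top_iff]
  intro f _
  apply Submodule.subset_span
  refine ⟨Finset.univ, le_of_eq Finset.card_univ, ?_⟩
  intro π π' h
  have : π = π' := Equiv.ext fun c => h c (Finset.mem_univ c)
  rw [this]

section gen

variable {V W : Type} [AddCommGroup V] [Module ℝ V] [AddCommGroup W] [Module ℝ W]

theorem conj_pow (e : V ≃ₗ[ℝ] W) (S : W →ₗ[ℝ] W) (m : ℕ) :
    (e.symm.conj S) ^ m = e.symm.conj (S ^ m) := by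
  induction m with
  | zero =>
    rw [pow_zero, pow_zero]
    apply LinearMap.ext
    intro v
    simp [LinearEquiv.conj_apply]
  | succ m ih =>
    rw [pow_succ, ih, pow_succ]
    apply LinearMap.ext
    intro v
    simp [LinearEquiv.conj_apply]

theorem trace_restrict_conj (e : V ≃ₗ[ℝ] W) (S : W →ₗ[ℝ] W) (p : Submodule ℝ W)
    (h : ∀ w ∈ p, S w ∈ p) (h' : ∀ v ∈ p.comap (e : V →ₗ[ℝ] W), (e.symm.conj S) v ∈
      p.comap (e : V →ₗ[ℝ] W)) (m : ℕ) :
    LinearMap.trace ℝ (p.comap (e : V →ₗ[ℝ] W)) (((e.symm.conj S).restrict h') ^ m) =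
      LinearMap.trace ℝ p ((S.restrict h) ^ m) := by
  let e1 : (p.comap (e : V →ₗ[ℝ] W)) ≃ₗ[ℝ] p := e.ofSubmodule' p
  have h1 : (e.symm.conj S).restrict h' = e1.symm.conj (S.restrict h) := by
    apply LinearMap.ext
    intro v
    apply Subtype.ext
    apply e.injective
    simp [e1, LinearEquiv.conj_apply]
  rw [h1, conj_pow, LinearMap.trace_conj']

end gen


theorem choose_bound (n l : ℕ) (hl : 1 ≤ l) :
    ((n.choose l : ℕ) : ℝ) ≤ (Real.exp 1 * ((n : ℝ) / l)) ^ l := by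
  have h1 : ((n.choose l : ℕ) : ℝ) ≤ (n : ℝ) ^ l / (l.factorial : ℝ) := Nat.choose_le_pow_div l n
  have h2 : (l : ℝ) ^ l / (l.factorial : ℝ) ≤ Real.exp (l : ℝ) :=
    Real.pow_div_factorial_le_exp (l : ℝ) (by positivity) l
  have hlp : (0 : ℝ) < l := by exact_mod_cast hl
  have hf : (0 : ℝ) < (l.factorial : ℝ) := by exact_mod_cast l.factorial_pos
  refine h1.trans ?_
  rw [mul_pow, div_pow, ← Real.exp_nat_mul, mul_one]
  have h3 : (n : ℝ) ^ l / (l.factorial : ℝ) =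
      ((l : ℝ) ^ l / (l.factorial : ℝ)) * ((n : ℝ) ^ l / (l : ℝ) ^ l) := by
    field_simp
  rw [h3]
  exact mul_le_mul_of_nonneg_right h2 (by positivity)

theorem sum_half (L : ℕ) : ∑ l ∈ Finset.Icc 1 L, (l : ℝ) * (1 / 2) ^ (l - 1) ≤
    4 - (2 * (L : ℝ) + 4) / 2 ^ L := by
  induction L with
  | zero => norm_num
  | succ L ih =>
    rw [Finset.sum_Icc_succ_top (by omega)]
    have h : ((L + 1 : ℕ) : ℝ) * (1 / 2) ^ (L + 1 - 1) =
        (2 * (L : ℝ) + 4) / 2 ^ L - (2 * ((L + 1 : ℕ) : ℝ) + 4) / 2 ^ (L + 1) := by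
      rw [Nat.add_sub_cancel, one_div, inv_pow, pow_succ]
      push_cast
      field_simp
      ring
    rw [h]
    linarith

theorem sum_pow (C : ℝ) (hC : 0 ≤ C) (L : ℕ) (h : C * (L : ℝ) ≤ 1 / 2) :
    ∑ l ∈ Finset.Icc 1 L, (C * (l : ℝ)) ^ l ≤ 4 * C := by
  have h1 : ∀ l ∈ Finset.Icc 1 L, (C * (l : ℝ)) ^ l ≤ C * ((l : ℝ) * (1 / 2) ^ (l - 1)) := by
    intro l hl
    rw [Finset.mem_Icc] at hl
    obtain ⟨m, rfl⟩ : ∃ m, l = m + 1 := ⟨l - 1, by omega⟩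
    have hm : ((m + 1 : ℕ) : ℝ) ≤ L := by exact_mod_cast hl.2
    have h2 : C * ((m + 1 : ℕ) : ℝ) ≤ 1 / 2 :=
      (mul_le_mul_of_nonneg_left hm hC).trans h
    rw [pow_succ, Nat.add_sub_cancel]
    calc (C * ((m + 1 : ℕ) : ℝ)) ^ m * (C * ((m + 1 : ℕ) : ℝ))
        ≤ (1 / 2) ^ m * (C * ((m + 1 : ℕ) : ℝ)) := by
          apply mul_le_mul_of_nonneg_right _ (by positivity)
          exact pow_le_pow_left₀ (by positivity) h2 m
      _ = C * (((m + 1 : ℕ) : ℝ) * (1 / 2) ^ m) := by ring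
  refine (Finset.sum_le_sum h1).trans ?_
  rw [← Finset.mul_sum]
  have h3 := sum_half L
  have h4 : (0 : ℝ) ≤ (2 * (L : ℝ) + 4) / 2 ^ L := by positivity
  nlinarith

/-- the level bounds -/
noncomputable def bb (K : ℝ) (d l : ℕ) : ℝ :=
  ((K * ((l : ℝ) / 2 ^ d) ^ ((1 : ℝ) / 257)) ^ l) ^ ((1 : ℝ) / 66)

theorem bb_nonneg (K : ℝ) (hK : 1 ≤ K) (d l : ℕ) : 0 ≤ bb K d l := by
  unfold bb
  positivity

theorem bb_pow (K : ℝ) (hK : 1 ≤ K) (d l : ℕ) :
    (bb K d l) ^ 66 = (K * ((l : ℝ) / 2 ^ d) ^ ((1 : ℝ) / 257)) ^ l := by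
  unfold bb
  rw [← Real.rpow_natCast, ← Real.rpow_mul (by positivity)]
  norm_num

theorem le_bb (K : ℝ) (hK : 1 ≤ K) (d l : ℕ) (β : ℝ)
    (h : β ^ 66 ≤ (K * ((l : ℝ) / 2 ^ d) ^ ((1 : ℝ) / 257)) ^ l) : β ≤ bb K d l := by
  rw [← bb_pow K hK] at h
  rcases le_or_gt β 0 with h0 | h0
  · exact h0.trans (bb_nonneg K hK d l)
  · exact (pow_le_pow_iff_left₀ h0.le (bb_nonneg K hK d l) (by norm_num)).1 h

theorem bb_term (K K2 : ℝ) (hK : 1 ≤ K) (d l E : ℕ) (hl : 1 ≤ l)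
    (hE : 66 * 514 ≤ E) (h1 : K ^ 257 * (l : ℝ) ≤ 2 ^ d) :
    (bb K d l) ^ E * ((((2 ^ d).choose l : ℕ) : ℝ) * Real.exp (K2 * l)) ≤
      ((K ^ 514 * Real.exp 1 * Real.exp K2 / 2 ^ d) * (l : ℝ)) ^ l := by
  have hlp : (0 : ℝ) < l := by exact_mod_cast hl
  have hK0 : 0 < K := by linarith
  -- bb ≤ 1
  have hx : K * ((l : ℝ) / 2 ^ d) ^ ((1 : ℝ) / 257) ≤ 1 := by
    have h2 : (K * ((l : ℝ) / 2 ^ d) ^ ((1 : ℝ) / 257)) ^ 257 ≤ 1 := by
      rw [mul_pow]
      have h3 : (((l : ℝ) / 2 ^ d) ^ ((1 : ℝ) / 257)) ^ 257 = (l : ℝ) / 2 ^ d := by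
        rw [← Real.rpow_natCast, ← Real.rpow_mul (by positivity)]
        norm_num
      rw [h3, ← mul_div_assoc, div_le_one (by positivity)]
      exact h1
    exact (pow_le_one_iff_of_nonneg (by positivity) (by norm_num)).1 h2
  have hb1 : bb K d l ≤ 1 := by
    have h4 : (bb K d l) ^ 66 ≤ 1 := by
      rw [bb_pow K hK]
      exact pow_le_one₀ (by positivity) hx
    exact (pow_le_one_iff_of_nonneg (bb_nonneg K hK d l) (by norm_num)).1 h4
  have h5 : (bb K d l) ^ E ≤ (bb K d l) ^ (66 * 514) :=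
    pow_le_pow_of_le_one (bb_nonneg K hK d l) hb1 hE
  have h6 : (bb K d l) ^ (66 * 514) = (K ^ 514 * ((l : ℝ) / 2 ^ d) ^ 2) ^ l := by
    have h61 : (((l : ℝ) / 2 ^ d) ^ ((1 : ℝ) / 257)) ^ 514 = ((l : ℝ) / 2 ^ d) ^ 2 := by
      rw [← Real.rpow_natCast, ← Real.rpow_mul (by positivity)]
      norm_num
    rw [pow_mul, bb_pow K hK, pow_right_comm, mul_pow, h61]
  have h7 := choose_bound (2 ^ d) l hl
  have h8 : Real.exp (K2 * l) = (Real.exp K2) ^ l := by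
    rw [← Real.exp_nat_mul, mul_comm]
  calc (bb K d l) ^ E * ((((2 ^ d).choose l : ℕ) : ℝ) * Real.exp (K2 * l))
      ≤ (K ^ 514 * ((l : ℝ) / 2 ^ d) ^ 2) ^ l *
        ((Real.exp 1 * (((2 ^ d : ℕ) : ℝ) / l)) ^ l * (Real.exp K2) ^ l) := by
        rw [h8, ← h6]
        apply mul_le_mul h5 _ (by positivity) (pow_nonneg (bb_nonneg K hK d l) _)
        exact mul_le_mul_of_nonneg_right h7 (by positivity)
    _ = ((K ^ 514 * Real.exp 1 * Real.exp K2 / 2 ^ d) * (l : ℝ)) ^ l := by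
        rw [← mul_pow, ← mul_pow]
        have h9 : K ^ 514 * ((l : ℝ) / 2 ^ d) ^ 2 *
            (Real.exp 1 * (((2 ^ d : ℕ) : ℝ) / l) * Real.exp K2) =
            (K ^ 514 * Real.exp 1 * Real.exp K2 / 2 ^ d) * (l : ℝ) := by
          push_cast
          generalize K ^ 514 = A
          field_simp
        rw [h9]

/-- the numerical statement -/
theorem numeric (K K2 : ℝ) (hK : 1 ≤ K) (hK2 : 0 ≤ K2) :
    ∃ c0 k d0 : ℕ, 66 ≤ 2 ^ k ∧ ∀ d, d0 ≤ d → c0 + 1 ≤ d ∧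
      (∀ l : ℕ, l ≤ 2 * 2 ^ (d - c0 - 1) → K * (l : ℝ) ≤ 2 ^ d) ∧
      2 * 2 ^ (d - c0 - 1) ≤ 2 ^ d ∧
      ∑ l ∈ Finset.Icc 1 (2 * 2 ^ (d - c0 - 1)), (bb K d l) ^ (2 ^ k - 66) *
        ((((2 ^ d).choose l : ℕ) : ℝ) * Real.exp (K2 * l)) +
      (Real.exp (-(((2 ^ (d - c0 - 1) : ℕ) : ℝ) + 1) / 1400)) ^ (2 ^ k - 66) *
        Real.exp (K2 * 2 ^ d) ≤ 1 / 4 := by
  set C1 : ℝ := K ^ 514 * Real.exp 1 * Real.exp K2 with hC1
  have hC1p : 0 < C1 := by positivity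
  have hK257 : K ^ 257 ≤ C1 := by
    have h1 : K ^ 257 ≤ K ^ 514 := pow_le_pow_right₀ hK (by norm_num)
    have h2 : (1 : ℝ) ≤ Real.exp 1 := Real.one_le_exp (by norm_num)
    have h3 : (1 : ℝ) ≤ Real.exp K2 := Real.one_le_exp hK2
    calc K ^ 257 ≤ K ^ 514 := h1
      _ ≤ K ^ 514 * Real.exp 1 := le_mul_of_one_le_right (by positivity) h2
      _ ≤ _ := le_mul_of_one_le_right (by positivity) h3
  have hKK : K ≤ K ^ 257 := le_self_pow₀ hK (by norm_num)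
  -- choose c0
  obtain ⟨c0, hc0⟩ : ∃ c0 : ℕ, 2 * C1 ≤ (2 : ℝ) ^ c0 := by
    obtain ⟨c, hc⟩ := pow_unbounded_of_one_lt (2 * C1) (by norm_num : (1 : ℝ) < 2)
    exact ⟨c, hc.le⟩
  obtain ⟨k, hk⟩ : ∃ k : ℕ, 66 * 515 + (1400 * 2 ^ (c0 + 1) * (K2 + 1)) ≤ (2 : ℝ) ^ k := by
    obtain ⟨c, hc⟩ := pow_unbounded_of_one_lt (66 * 515 + (1400 * 2 ^ (c0 + 1) * (K2 + 1)))
      (by norm_num : (1 : ℝ) < 2)
    exact ⟨c, hc.le⟩
  have hk1 : 66 * 515 ≤ 2 ^ k := by
    have h : ((66 * 515 : ℕ) : ℝ) ≤ ((2 ^ k : ℕ) : ℝ) := by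
      push_cast
      have : (0 : ℝ) ≤ 1400 * 2 ^ (c0 + 1) * (K2 + 1) := by positivity
      linarith
    exact_mod_cast h
  obtain ⟨d1, hd1⟩ : ∃ d1 : ℕ, 32 * C1 ≤ (2 : ℝ) ^ d1 := by
    obtain ⟨c, hc⟩ := pow_unbounded_of_one_lt (32 * C1) (by norm_num : (1 : ℝ) < 2)
    exact ⟨c, hc.le⟩
  refine ⟨c0, k, max (c0 + 1) (max d1 3), by omega, ?_⟩
  intro d hd
  have hdc : c0 + 1 ≤ d := le_trans (le_max_left _ _) hd
  have hdd1 : d1 ≤ d := le_trans (le_trans (le_max_left _ _) (le_max_right _ _)) hd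
  have hd3 : 3 ≤ d := le_trans (le_trans (le_max_right _ _) (le_max_right _ _)) hd
  -- 2 ^ d = 2 ^ c0 * (2 * 2 ^ (d - c0 - 1))
  have hpow : (2 : ℕ) ^ d = 2 ^ c0 * (2 * 2 ^ (d - c0 - 1)) := by
    rw [← pow_succ', ← pow_add]
    congr 1
    omega
  have hpowR : (2 : ℝ) ^ d = 2 ^ c0 * ((2 * 2 ^ (d - c0 - 1) : ℕ) : ℝ) := by
    have := congrArg (fun n : ℕ => (n : ℝ)) hpow
    push_cast at this ⊢
    exact this
  set L : ℕ := 2 * 2 ^ (d - c0 - 1) with hL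
  have hC1L : 2 * C1 * (L : ℝ) ≤ 2 ^ d := by
    rw [hpowR]
    exact mul_le_mul_of_nonneg_right hc0 (by positivity)
  have hlL : ∀ l, l ≤ L → C1 * (l : ℝ) ≤ 2 ^ d := by
    intro l hl
    have h1 : (l : ℝ) ≤ L := by exact_mod_cast hl
    have h2 : C1 * (l : ℝ) ≤ C1 * L := mul_le_mul_of_nonneg_left h1 hC1p.le
    have h3 : 0 ≤ C1 * (L : ℝ) := by positivity
    nlinarith
  refine ⟨hdc, ?_, ?_, ?_⟩
  · intro l hl
    have h1 := hlL l hl
    have h2 : K * (l : ℝ) ≤ C1 * l :=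
      mul_le_mul_of_nonneg_right (hKK.trans hK257) (by positivity)
    exact h2.trans h1
  · rw [hpow]
    exact Nat.le_mul_of_pos_left _ (by positivity)
  · have hsum : ∑ l ∈ Finset.Icc 1 L, (bb K d l) ^ (2 ^ k - 66) *
        ((((2 ^ d).choose l : ℕ) : ℝ) * Real.exp (K2 * l)) ≤ 1 / 8 := by
      have h1 : ∀ l ∈ Finset.Icc 1 L, (bb K d l) ^ (2 ^ k - 66) *
          ((((2 ^ d).choose l : ℕ) : ℝ) * Real.exp (K2 * l)) ≤ ((C1 / 2 ^ d) * (l : ℝ)) ^ l := by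
        intro l hl
        rw [Finset.mem_Icc] at hl
        apply bb_term K K2 hK d l _ hl.1 (by omega)
        exact (mul_le_mul_of_nonneg_right hK257 (by positivity)).trans (hlL l hl.2)
      refine (Finset.sum_le_sum h1).trans ?_
      refine (sum_pow (C1 / 2 ^ d) (by positivity) L ?_).trans ?_
      · rw [div_mul_eq_mul_div, div_le_iff₀ (by positivity)]
        linarith
      · rw [mul_div_assoc', div_le_iff₀ (by positivity)]
        have h2 : (2 : ℝ) ^ d1 ≤ 2 ^ d := pow_le_pow_right₀ (by norm_num) hdd1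
        linarith
    have hinf : (Real.exp (-(((2 ^ (d - c0 - 1) : ℕ) : ℝ) + 1) / 1400)) ^ (2 ^ k - 66) *
        Real.exp (K2 * 2 ^ d) ≤ 1 / 8 := by
      rw [← Real.exp_nat_mul, ← Real.exp_add]
      have h1 : ((2 ^ k - 66 : ℕ) : ℝ) * (-(((2 ^ (d - c0 - 1) : ℕ) : ℝ) + 1) / 1400) +
          K2 * 2 ^ d ≤ -(2 : ℝ) ^ d := by
        have h2 : 1400 * 2 ^ (c0 + 1) * (K2 + 1) ≤ ((2 ^ k - 66 : ℕ) : ℝ) := by
          rw [Nat.cast_sub (by omega)]
          push_cast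
          linarith
        have h3 : (2 : ℝ) ^ d = 2 ^ (c0 + 1) * (2 : ℝ) ^ (d - c0 - 1) := by
          rw [← pow_add]
          congr 1
          omega
        have h4 : (1400 * 2 ^ (c0 + 1) * (K2 + 1)) * (2 : ℝ) ^ (d - c0 - 1) ≤
            ((2 ^ k - 66 : ℕ) : ℝ) * ((2 : ℝ) ^ (d - c0 - 1) + 1) := by
          have h5 : (2 : ℝ) ^ (d - c0 - 1) ≤ (2 : ℝ) ^ (d - c0 - 1) + 1 := by linarith
          exact mul_le_mul h2 h5 (by positivity) (by positivity)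
        push_cast
        rw [h3]
        have h6 : ((2 ^ k - 66 : ℕ) : ℝ) * (-((2 : ℝ) ^ (d - c0 - 1) + 1) / 1400) =
            -(((2 ^ k - 66 : ℕ) : ℝ) * ((2 : ℝ) ^ (d - c0 - 1) + 1)) / 1400 := by ring
        rw [h6]
        have h7 : (((2 ^ k - 66 : ℕ) : ℝ) * ((2 : ℝ) ^ (d - c0 - 1) + 1)) / 1400 ≥
            (2 ^ (c0 + 1) * (K2 + 1)) * (2 : ℝ) ^ (d - c0 - 1) := by
          rw [ge_iff_le, le_div_iff₀ (by norm_num)]
          linarith
        rw [neg_div]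
        nlinarith
      have h8 : (8 : ℝ) ≤ 2 ^ d := by
        calc (8 : ℝ) = 2 ^ 3 := by norm_num
          _ ≤ 2 ^ d := pow_le_pow_right₀ (by norm_num) hd3
      have h9 : ((2 ^ k - 66 : ℕ) : ℝ) * (-(((2 ^ (d - c0 - 1) : ℕ) : ℝ) + 1) / 1400) +
          K2 * 2 ^ d ≤ -8 := by linarith
      refine (Real.exp_le_exp.2 h9).trans ?_
      rw [Real.exp_neg, inv_le_comm₀ (Real.exp_pos _) (by norm_num)]
      have := Real.add_one_le_exp (8 : ℝ)
      linarith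
    linarith


/-- the functions on permutations as a Euclidean space -/
noncomputable abbrev ee (d : ℕ) : EuclideanSpace ℝ (Equiv.Perm (Pos d)) ≃ₗ[ℝ]
    (Equiv.Perm (Pos d) → ℝ) := WithLp.linearEquiv 2 ℝ (Equiv.Perm (Pos d) → ℝ)

theorem inner_ee (d : ℕ) (v w : EuclideanSpace ℝ (Equiv.Perm (Pos d))) :
    inner ℝ v w = ∑ π, (ee d v) π * (ee d w) π := by
  rw [PiLp.inner_apply]
  apply Finset.sum_congr rfl
  intro π _
  exact mul_comm _ _

theorem main (ts : TSStatement) (be : BEStatement) (fl : FLStatement) (tu : TUStatement)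
    (lr : LRStatement) (hi : HIStatement) (ps : PSStatement) : TBStatement := by
  obtain ⟨K2, hK2, hts⟩ := ts
  obtain ⟨K, hK, hbe⟩ := be
  obtain ⟨c0, k, d0, hk, hnum⟩ := numeric K K2 hK hK2
  refine ⟨k, d0, ?_⟩
  intro d hd
  obtain ⟨hdc, hKl, hL2, hfin⟩ := hnum d hd
  set kk : ℕ := 2 ^ (d - c0 - 1) with hkk
  obtain ⟨_, hsym, hfac, _, _⟩ := ps d (Equiv.Perm (Pos d))
  -- trace bound on markings
  have hts' : ∀ l, l ≤ 2 ^ d → LinearMap.trace ℝ ((Fin l ↪ Pos d) → ℝ)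
      ((TT d (Fin l ↪ Pos d) d) ^ 66) ≤ Real.exp (K2 * l) := by
    intro l hl
    have h1 := hts d (Fin l) (by rw [Fintype.card_fin]; exact hl)
    refine h1.trans ?_
    rw [Fintype.card_fin]
    apply Real.exp_le_exp.2
    have hlR : (l : ℝ) ≤ 2 ^ d := by exact_mod_cast hl
    have h2 : ((l : ℝ) / 2 ^ d) ^ ((1 : ℝ) / 256) ≤ 1 := by
      apply Real.rpow_le_one (by positivity) _ (by norm_num)
      rw [div_le_one (by positivity)]
      exact hlR
    calc K2 * (l : ℝ) * ((l : ℝ) / 2 ^ d) ^ ((1 : ℝ) / 256)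
        ≤ K2 * (l : ℝ) * 1 := mul_le_mul_of_nonneg_left h2 (by positivity)
      _ = K2 * l := mul_one _
  -- the operator on the Euclidean space
  set T : EuclideanSpace ℝ (Equiv.Perm (Pos d)) →ₗ[ℝ] EuclideanSpace ℝ (Equiv.Perm (Pos d)) :=
    (ee d).symm.conj (TT d (Equiv.Perm (Pos d)) d) with hT
  have hTe : ∀ v, ee d (T v) = TT d (Equiv.Perm (Pos d)) d (ee d v) := by
    intro v
    rw [hT, LinearEquiv.conj_apply]
    simp
  have hTsym : T.IsSymmetric := by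
    intro v w
    rw [inner_ee, inner_ee, hTe, hTe]
    exact hsym d _ _
  have hTpos : ∀ v, 0 ≤ inner ℝ v (T v) := by
    intro v
    rw [inner_ee, hTe, ← hsym, hfac]
    exact Finset.sum_nonneg fun π _ => mul_self_nonneg _
  set U : ℕ → Submodule ℝ (EuclideanSpace ℝ (Equiv.Perm (Pos d))) :=
    fun l => (UU (Pos d) l).comap (ee d : _ →ₗ[ℝ] _) with hU
  have hUmem : ∀ l v, v ∈ U l ↔ ee d v ∈ UU (Pos d) l := fun l v => Iff.rfl
  have hUmono : Monotone U := fun a b hab => Submodule.comap_mono (UU_mono (Pos d) hab)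
  have hinv' : ∀ l, ∀ f ∈ UU (Pos d) l, TT d (Equiv.Perm (Pos d)) d f ∈ UU (Pos d) l := by
    intro l
    obtain ⟨h, _⟩ := tu d l 0
    exact h
  have hinv : ∀ l, ∀ v ∈ U l, T v ∈ U l := by
    intro l v hv
    rw [hUmem, hTe]
    exact hinv' l _ ((hUmem l v).1 hv)
  have htrm : ∀ m, LinearMap.trace ℝ (EuclideanSpace ℝ (Equiv.Perm (Pos d))) (T ^ m) =
      LinearMap.trace ℝ (Equiv.Perm (Pos d) → ℝ) ((TT d (Equiv.Perm (Pos d)) d) ^ m) := by
    intro m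
    rw [hT, conj_pow, LinearMap.trace_conj']
  have hmain := fl (EuclideanSpace ℝ (Equiv.Perm (Pos d))) T hTsym hTpos (2 * kk) U hUmono hinv
    (bb K d) (fun l => (((2 ^ d).choose l : ℕ) : ℝ) * Real.exp (K2 * l))
    (Real.exp (-((kk : ℝ) + 1) / 1400)) (Real.exp (K2 * 2 ^ d)) 66 (2 ^ k) hk
    (bb_nonneg K hK d) (Real.exp_pos _).le ?_ ?_ ?_ ?_ ?_ ?_
  · rw [htrm] at hmain
    linarith
  · -- finrank (U 0) ≤ 1
    have h1 : U 0 ≤ Submodule.span ℝ {(ee d).symm (fun _ => (1 : ℝ))} := by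
      intro v hv
      have h2 := UU_zero (Pos d) (ee d v) hv
      rw [Submodule.mem_span_singleton] at h2 ⊢
      obtain ⟨c, hc⟩ := h2
      refine ⟨c, ?_⟩
      apply (ee d).injective
      rw [map_smul, LinearEquiv.apply_symm_apply]
      exact hc
    refine (Submodule.finrank_mono h1).trans ((finrank_span_le_card _).trans ?_)
    simp
  · intro v hv
    apply (ee d).injective
    rw [hTe]
    have h2 := UU_zero (Pos d) (ee d v) hv
    rw [Submodule.mem_span_singleton] at h2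
    obtain ⟨c, hc⟩ := h2
    have h3 : ee d v = fun _ => c := by
      rw [← hc]
      funext π
      simp
    rw [h3, TT_const]
  · intro l hl1 hl2 v hv horth hv0 β hβ
    have hne : ee d v ≠ 0 := fun h => hv0 ((ee d).map_eq_zero_iff.1 h)
    obtain ⟨φ, hφ0, hφp, hφβ⟩ := lr d l hl1 (ee d v) hne hv (by
      intro g hg
      have h4 := horth ((ee d).symm g) (by
        rw [hUmem, LinearEquiv.apply_symm_apply]
        exact hg)
      rw [inner_ee, LinearEquiv.apply_symm_apply] at h4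
      rw [← h4]
      exact Finset.sum_congr rfl fun π _ => mul_comm _ _) β (by
      rw [← hTe, hβ, map_smul])
    exact le_bb K hK d l β (hbe d l hl1 (hKl l hl2) φ hφ0 hφp β hφβ)
  · intro v horth hv0 β hβ
    have hne : ee d v ≠ 0 := fun h => hv0 ((ee d).map_eq_zero_iff.1 h)
    apply hi d kk (ee d v) hne _ β (by rw [← hTe, hβ, map_smul])
    intro g hg
    have h4 := horth ((ee d).symm g) (by
      rw [hUmem, LinearEquiv.apply_symm_apply]
      exact hg)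
    rw [inner_ee, LinearEquiv.apply_symm_apply] at h4
    rw [← h4]
    exact Finset.sum_congr rfl fun π _ => mul_comm _ _
  · intro l hl1 hl2
    obtain ⟨h, htu⟩ := tu d l 66
    have hl3 : l ≤ 2 ^ d := hl2.trans hL2
    have h5 := trace_restrict_conj (ee d) (TT d (Equiv.Perm (Pos d)) d) (UU (Pos d) l) h
      (hinv l) 66
    refine (le_of_eq h5).trans ((htu hl3).trans ?_)
    exact mul_le_mul_of_nonneg_left (hts' l hl3) (by positivity)
  · -- total trace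
    rw [htrm]
    obtain ⟨h, htu⟩ := tu d (2 ^ d) 66
    have h6 := htu le_rfl
    rw [Nat.choose_self, Nat.cast_one, one_mul] at h6
    have h7 : UU (Pos d) (2 ^ d) = ⊤ := by
      have h8 := UU_top (Pos d)
      rwa [Fintype.card_fun, Fintype.card_bool, Fintype.card_fin] at h8
    have h9 : LinearMap.trace ℝ (UU (Pos d) (2 ^ d))
        (((TT d (Equiv.Perm (Pos d)) d).restrict h) ^ 66) =
        LinearMap.trace ℝ (Equiv.Perm (Pos d) → ℝ) ((TT d (Equiv.Perm (Pos d)) d) ^ 66) := by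
      let e2 : (UU (Pos d) (2 ^ d)) ≃ₗ[ℝ] (Equiv.Perm (Pos d) → ℝ) :=
        LinearEquiv.ofTop _ h7
      have h10 : (TT d (Equiv.Perm (Pos d)) d).restrict h =
          e2.symm.conj (TT d (Equiv.Perm (Pos d)) d) := by
        apply LinearMap.ext
        intro v
        apply Subtype.ext
        simp [e2, LinearEquiv.conj_apply]
      rw [h10, conj_pow, LinearMap.trace_conj']
    rw [← h9]
    refine h6.trans ?_
    have h11 := hts' (2 ^ d) le_rfl
    push_cast at h11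
    exact h11

end TFx

/-- [TF] -/
theorem tf_main : TFStatement := TFx.main

end P162L
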