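/-
P162 (Thorp shuffle), Theta(log n) project, module TR (helper9): Young for kernels by AM-GM over
closed paths.
-/
import Vale.Agent.P162.Log.Stmts

namespace P162L

open scoped BigOperators

section tr

variable {X : Type} [Fintype X] [DecidableEq X]

/-- sum over open paths -/
theorem tr_path (K : Matrix X X ℝ) (n : ℕ) : ∀ (g : X → X → ℝ),
    ∑ v : Fin (n + 1) → X, (∏ j : Fin n, K (v j.castSucc) (v j.succ)) * g (v 0) (v (Fin.last n)) =
      ∑ x, ∑ y, (K ^ n) x y * g x y := by
  induction n with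
  | zero =>
    intro g
    have h1 : ∀ x : X, ∑ y, ((K ^ 0) x y) * g x y = g x x := by
      intro x
      rw [pow_zero, Finset.sum_eq_single x]
      · rw [Matrix.one_apply_eq, one_mul]
      · intro y _ hy
        rw [Matrix.one_apply_ne (Ne.symm hy), zero_mul]
      · intro h
        exact absurd (Finset.mem_univ x) h
    simp only [h1]
    rw [← (Equiv.funUnique (Fin 1) X).symm.sum_comp]
    apply Finset.sum_congr rfl
    intro x _
    simp
  | succ n ih =>
    intro g
    rw [← (Fin.consEquiv (fun _ : Fin (n + 2) => X)).sum_comp, Fintype.sum_prod_type]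
    apply Finset.sum_congr rfl
    intro a _
    have h1 := ih (fun x y => K a x * g a y)
    have h2 : ∀ w : Fin (n + 1) → X,
        (∏ j : Fin (n + 1), K ((Fin.consEquiv (fun _ : Fin (n + 2) => X)) (a, w) j.castSucc)
          ((Fin.consEquiv (fun _ : Fin (n + 2) => X)) (a, w) j.succ)) *
        g ((Fin.consEquiv (fun _ : Fin (n + 2) => X)) (a, w) 0)
          ((Fin.consEquiv (fun _ : Fin (n + 2) => X)) (a, w) (Fin.last (n + 1))) =
        (∏ j : Fin n, K (w j.castSucc) (w j.succ)) *
          (K a (w 0) * g a (w (Fin.last n))) := by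
      intro w
      simp only [Fin.consEquiv_apply]
      rw [Fin.prod_univ_succ]
      simp only [Fin.castSucc_zero, Fin.cons_zero, Fin.cons_succ, ← Fin.succ_last,
        ← Fin.succ_castSucc]
      ring
    rw [Finset.sum_congr rfl fun w _ => h2 w, h1, Finset.sum_comm]
    apply Finset.sum_congr rfl
    intro y _
    rw [pow_succ', Matrix.mul_apply, Finset.sum_mul]
    apply Finset.sum_congr rfl
    intro x _
    ring

/-- row sums of powers -/
theorem tr_rows (M : Matrix X X ℝ) (h0 : ∀ x y, 0 ≤ M x y) (D : ℝ) (hD0 : 0 ≤ D)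
    (hD : ∀ x, ∑ y, M x y ≤ D) (n : ℕ) : ∀ x, ∑ y, (M ^ n) x y ≤ D ^ n := by
  induction n with
  | zero =>
    intro x
    rw [pow_zero, pow_zero]
    rw [Finset.sum_eq_single x]
    · rw [Matrix.one_apply_eq]
    · intro y _ hy
      rw [Matrix.one_apply_ne (Ne.symm hy)]
    · intro h
      exact absurd (Finset.mem_univ x) h
  | succ n ih =>
    intro x
    have h1 : ∑ y, (M ^ (n + 1)) x y = ∑ a, M x a * ∑ y, (M ^ n) a y := by
      simp only [pow_succ', Matrix.mul_apply]
      rw [Finset.sum_comm]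
      apply Finset.sum_congr rfl
      intro a _
      rw [Finset.mul_sum]
    rw [h1]
    calc ∑ a, M x a * ∑ y, (M ^ n) a y ≤ ∑ a, M x a * D ^ n :=
          Finset.sum_le_sum fun a _ => mul_le_mul_of_nonneg_left (ih a) (h0 x a)
      _ = (∑ a, M x a) * D ^ n := by rw [Finset.sum_mul]
      _ ≤ D * D ^ n := mul_le_mul_of_nonneg_right (hD x) (pow_nonneg hD0 n)
      _ = D ^ (n + 1) := by rw [pow_succ']

/-- cyclic form of the trace -/
theorem tr_cyc (K : Matrix X X ℝ) (p : ℕ) :
    Matrix.trace (K ^ (p + 1)) = ∑ v : Fin (p + 1) → X, ∏ j, K (v j) (v (j + 1)) := by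
  have h1 := tr_path K p (fun x y => K y x)
  have h2 : ∀ v : Fin (p + 1) → X, ∏ j, K (v j) (v (j + 1)) =
      (∏ j : Fin p, K (v j.castSucc) (v j.succ)) * K (v (Fin.last p)) (v 0) := by
    intro v
    rw [Fin.prod_univ_castSucc]
    simp only [Fin.coeSucc_eq_succ, Fin.last_add_one]
  rw [Finset.sum_congr rfl fun v _ => h2 v, h1]
  unfold Matrix.trace
  apply Finset.sum_congr rfl
  intro x _
  rw [Matrix.diag_apply, pow_succ, Matrix.mul_apply]

/-- the sum over closed paths with one edge removed -/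
theorem tr_open (M : Matrix X X ℝ) (h0 : ∀ x y, 0 ≤ M x y) (D : ℝ) (hD0 : 0 ≤ D)
    (hD : ∀ x, ∑ y, M x y ≤ D) (p : ℕ) (i : Fin (p + 1)) :
    ∑ v : Fin (p + 1) → X, ∏ j, (if j = i then 1 else M (v j) (v (j + 1))) ≤
      (Fintype.card X : ℝ) * D ^ p := by
  have h1 : ∑ v : Fin (p + 1) → X, ∏ j, (if j = i then 1 else M (v j) (v (j + 1))) =
      ∑ v : Fin (p + 1) → X, ∏ j, (if j = Fin.last p then 1 else M (v j) (v (j + 1))) := by
    rw [← (Equiv.arrowCongr (Equiv.addRight (i + 1)) (Equiv.refl X)).sum_comp]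
    apply Finset.sum_congr rfl
    intro v _
    rw [← Equiv.prod_comp (Equiv.addRight (i + 1))]
    apply Finset.prod_congr rfl
    intro j _
    have h2 : (j + (i + 1) = i) ↔ (j = Fin.last p) := by
      constructor
      · intro h
        have h3 : j + 1 = 0 := by
          have h4 : (j + 1) + i = 0 + i := by
            rw [zero_add]
            rw [add_assoc, add_comm 1 i]
            exact h
          exact add_right_cancel h4
        have h5 : j + 1 = Fin.last p + 1 := by rw [h3, Fin.last_add_one]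
        exact add_right_cancel h5
      · intro h
        rw [h, add_comm i 1, ← add_assoc, Fin.last_add_one, zero_add]
    simp only [Equiv.coe_addRight, h2]
    by_cases hj : j = Fin.last p
    · rw [if_pos hj, if_pos hj]
    · rw [if_neg hj, if_neg hj]
      simp only [Equiv.arrowCongr_apply, Equiv.coe_refl, Function.comp_apply, id_eq,
        Equiv.addRight_symm, Equiv.coe_addRight]
      rw [add_neg_cancel_right, add_right_comm, add_neg_cancel_right]
  rw [h1]
  have h2 : ∀ v : Fin (p + 1) → X,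
      ∏ j, (if j = Fin.last p then 1 else M (v j) (v (j + 1))) =
      (∏ j : Fin p, M (v j.castSucc) (v j.succ)) * (1 : ℝ) := by
    intro v
    rw [Fin.prod_univ_castSucc]
    simp only [if_true]
    congr 1
    apply Finset.prod_congr rfl
    intro j _
    rw [if_neg (Fin.castSucc_lt_last j).ne, Fin.coeSucc_eq_succ]
  rw [Finset.sum_congr rfl fun v _ => h2 v, tr_path M p (fun _ _ => (1 : ℝ))]
  simp only [mul_one]
  calc ∑ x, ∑ y, (M ^ p) x y ≤ ∑ _x : X, D ^ p :=
        Finset.sum_le_sum fun x _ => tr_rows M h0 D hD0 hD p x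
    _ = (Fintype.card X : ℝ) * D ^ p := by
        rw [Finset.sum_const, Finset.card_univ, nsmul_eq_mul]

end tr

/-- AM-GM -/
theorem tr_amgm (p : ℕ) (hp : 1 ≤ p) (t : Fin (p + 1) → ℝ) (ht : ∀ j, 0 ≤ t j) :
    ∏ j, t j ≤ ∑ i : Fin (p + 1), (1 / ((p : ℝ) + 1)) *
      ∏ j, (if j = i then 1 else (t j) ^ (((p : ℝ) + 1) / p)) := by
  have hp0 : (0 : ℝ) < p := by exact_mod_cast hp
  have hz : ∀ i : Fin (p + 1), 0 ≤ ∏ j, (if j = i then 1 else (t j) ^ (((p : ℝ) + 1) / p)) := by
    intro i
    apply Finset.prod_nonneg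
    intro j _
    by_cases h : j = i
    · rw [if_pos h]
      exact zero_le_one
    · rw [if_neg h]
      exact Real.rpow_nonneg (ht j) _
  have h1 := Real.geom_mean_le_arith_mean_weighted (Finset.univ : Finset (Fin (p + 1)))
    (fun _ => 1 / ((p : ℝ) + 1))
    (fun i => ∏ j, (if j = i then 1 else (t j) ^ (((p : ℝ) + 1) / p)))
    (fun _ _ => by positivity) (by
      rw [Finset.sum_const, Finset.card_univ, Fintype.card_fin, nsmul_eq_mul]
      push_cast
      field_simp)
    (fun i _ => hz i)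
  refine le_trans (le_of_eq ?_) h1
  have h2 : ∀ i : Fin (p + 1),
      (∏ j, (if j = i then 1 else (t j) ^ (((p : ℝ) + 1) / p))) ^ (1 / ((p : ℝ) + 1)) =
      ∏ j, (if j = i then 1 else (t j) ^ (1 / (p : ℝ))) := by
    intro i
    rw [← Real.finsetProd_rpow]
    · apply Finset.prod_congr rfl
      intro j _
      by_cases h : j = i
      · rw [if_pos h, if_pos h, Real.one_rpow]
      · rw [if_neg h, if_neg h, ← Real.rpow_mul (ht j)]
        congr 1
        field_simp
    · intro j _
      by_cases h : j = i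
      · rw [if_pos h]
        exact zero_le_one
      · rw [if_neg h]
        exact Real.rpow_nonneg (ht j) _
  simp only [h2]
  rw [Finset.prod_comm]
  apply Finset.prod_congr rfl
  intro j _
  have h3 : ∀ i : Fin (p + 1), (if j = i then (1 : ℝ) else (t j) ^ (1 / (p : ℝ))) =
      if i ∈ ({j} : Finset (Fin (p + 1))) then (1 : ℝ) else (t j) ^ (1 / (p : ℝ)) := by
    intro i
    simp only [Finset.mem_singleton, eq_comm]
  have h4 : ∏ i : Fin (p + 1), (if j = i then (1 : ℝ) else (t j) ^ (1 / (p : ℝ))) =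
      ((t j) ^ (1 / (p : ℝ))) ^ p := by
    rw [← Finset.mul_prod_erase Finset.univ _ (Finset.mem_univ j), if_pos rfl, one_mul]
    rw [Finset.prod_congr rfl (g := fun _ => (t j) ^ (1 / (p : ℝ)))]
    · rw [Finset.prod_const, Finset.card_erase_of_mem (Finset.mem_univ j), Finset.card_univ,
        Fintype.card_fin, Nat.add_sub_cancel]
    · intro i hi
      rw [if_neg (Ne.symm (Finset.ne_of_mem_erase hi))]
  rw [h4, ← Real.rpow_natCast, ← Real.rpow_mul (ht j), one_div, inv_mul_cancel₀ (ne_of_gt hp0),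
    Real.rpow_one]

theorem tr_main : TRStatement := by
  intro X _ _ K _ h0 p hp D hD
  rcases isEmpty_or_nonempty X with hX | hX
  · rw [Fintype.card_eq_zero, Nat.cast_zero, zero_mul]
    unfold Matrix.trace
    rw [Finset.univ_eq_empty, Finset.sum_empty]
  have hM0 : ∀ x y, 0 ≤ (Matrix.of fun x y => (K x y) ^ (((p : ℝ) + 1) / p)) x y := by
    intro x y
    exact Real.rpow_nonneg (h0 x y) _
  have hD0 : 0 ≤ D := by
    obtain ⟨x⟩ := hX
    exact le_trans (Finset.sum_nonneg fun y _ => hM0 x y) (hD x)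
  rw [tr_cyc]
  calc ∑ v : Fin (p + 1) → X, ∏ j, K (v j) (v (j + 1))
      ≤ ∑ v : Fin (p + 1) → X, ∑ i : Fin (p + 1), (1 / ((p : ℝ) + 1)) *
        ∏ j, (if j = i then 1 else (K (v j) (v (j + 1))) ^ (((p : ℝ) + 1) / p)) :=
        Finset.sum_le_sum fun v _ => tr_amgm p hp _ fun j => h0 _ _
    _ = ∑ i : Fin (p + 1), (1 / ((p : ℝ) + 1)) * ∑ v : Fin (p + 1) → X,
        ∏ j, (if j = i then 1 else (Matrix.of fun x y => (K x y) ^ (((p : ℝ) + 1) / p))
          (v j) (v (j + 1))) := by
        rw [Finset.sum_comm]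
        apply Finset.sum_congr rfl
        intro i _
        rw [Finset.mul_sum]
        rfl
    _ ≤ ∑ _i : Fin (p + 1), (1 / ((p : ℝ) + 1)) * ((Fintype.card X : ℝ) * D ^ p) :=
        Finset.sum_le_sum fun i _ => mul_le_mul_of_nonneg_left
          (tr_open _ hM0 D hD0 hD p i) (by positivity)
    _ = (Fintype.card X : ℝ) * D ^ p := by
        rw [Finset.sum_const, Finset.card_univ, Fintype.card_fin, nsmul_eq_mul]
        push_cast
        field_simp

end P162L
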