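/-
P162 (Thorp shuffle), Theta(log n) project, module TU (helper25): trace on the level spaces.
-/
import Vale.Agent.P162.Log.Stmts
import Vale.Agent.P162.Log.PS

namespace P162L

open scoped BigOperators

namespace TU

/-- trace comparison along a surjective intertwiner -/
theorem trace_le {V W : Type*} [NormedAddCommGroup V] [InnerProductSpace ℝ V]
    [FiniteDimensional ℝ V] [AddCommGroup W] [Module ℝ W] (A : V →ₗ[ℝ] V)
    (hA : ∀ v, 0 ≤ inner ℝ v (A v)) (S : V →ₗ[ℝ] W) (hS : Function.Surjective S)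
    (B : W →ₗ[ℝ] W) (hB : B ∘ₗ S = S ∘ₗ A) : LinearMap.trace ℝ W B ≤ LinearMap.trace ℝ V A := by
  have hfin : Module.Finite ℝ W := Module.Finite.of_surjective S hS
  set N := LinearMap.ker S with hN
  set Q : V →ₗ[ℝ] V := ((N.starProjection : V →L[ℝ] V) : V →ₗ[ℝ] V) with hQ
  have hQmem : ∀ v, Q v ∈ N := fun v => Submodule.starProjection_apply_mem N v
  have hQid : ∀ v ∈ N, Q v = v := fun v hv => Submodule.starProjection_eq_self_iff.2 hv
  have hSQ : ∀ v, S (Q v) = 0 := fun v => LinearMap.mem_ker.1 (hQmem v)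
  obtain ⟨R0, hR0⟩ := LinearMap.exists_rightInverse_of_surjective S (LinearMap.range_eq_top.2 hS)
  have hR0' : ∀ w, S (R0 w) = w := fun w => by
    have := congrArg (fun f : W →ₗ[ℝ] W => f w) hR0
    simpa using this
  set R : W →ₗ[ℝ] V := R0 - Q ∘ₗ R0 with hR
  have hSR : ∀ w, S (R w) = w := by
    intro w
    rw [hR, LinearMap.sub_apply, map_sub, LinearMap.comp_apply, hSQ, hR0', sub_zero]
  have hRS : ∀ v, R (S v) = v - Q v := by
    intro v
    have h1 : R0 (S v) - v ∈ N := by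
      rw [hN, LinearMap.mem_ker, map_sub, hR0', sub_self]
    have h2 := hQid _ h1
    rw [map_sub] at h2
    rw [hR, LinearMap.sub_apply, LinearMap.comp_apply]
    have h3 : Q (R0 (S v)) = R0 (S v) - v + Q v := by rw [← h2]; abel
    rw [h3]
    abel
  have hB' : ∀ v, B (S v) = S (A v) := fun v => by
    have := congrArg (fun f : V →ₗ[ℝ] W => f v) hB
    simpa using this
  have h1 : B = S ∘ₗ (A ∘ₗ R) := by
    ext w
    rw [LinearMap.comp_apply, LinearMap.comp_apply, ← hB', hSR]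
  have h2 : LinearMap.trace ℝ W B = LinearMap.trace ℝ V ((A ∘ₗ R) ∘ₗ S) := by
    rw [h1]
    exact LinearMap.trace_comp_comm' (A ∘ₗ R) S
  have h3 : (A ∘ₗ R) ∘ₗ S = A - (A ∘ₗ Q) ∘ₗ Q := by
    ext v
    rw [LinearMap.comp_apply, LinearMap.comp_apply, hRS, map_sub, LinearMap.sub_apply,
      LinearMap.comp_apply, LinearMap.comp_apply, hQid _ (hQmem v)]
  have h4 : LinearMap.trace ℝ V ((A ∘ₗ Q) ∘ₗ Q) = LinearMap.trace ℝ V (Q ∘ₗ (A ∘ₗ Q)) :=
    LinearMap.trace_comp_comm' (R := ℝ) Q (A ∘ₗ Q)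
  have h5 : 0 ≤ LinearMap.trace ℝ V (Q ∘ₗ (A ∘ₗ Q)) := by
    rw [LinearMap.trace_eq_sum_inner _ (stdOrthonormalBasis ℝ V)]
    refine Finset.sum_nonneg fun i _ => ?_
    have h6 : inner ℝ (stdOrthonormalBasis ℝ V i) ((Q ∘ₗ (A ∘ₗ Q)) (stdOrthonormalBasis ℝ V i)) =
        inner ℝ (Q (stdOrthonormalBasis ℝ V i)) (A (Q (stdOrthonormalBasis ℝ V i))) := by
      rw [LinearMap.comp_apply, LinearMap.comp_apply]
      exact (Submodule.inner_starProjection_left_eq_right N _ _).symm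
    rw [h6]
    exact hA _
  rw [h2, h3, map_sub, h4]
  linarith

/-- the same for function spaces with the dot product -/
theorem trace_le_fun {X W : Type*} [Fintype X] [AddCommGroup W] [Module ℝ W]
    (A : (X → ℝ) →ₗ[ℝ] (X → ℝ)) (hA : ∀ v : X → ℝ, 0 ≤ ∑ x, v x * A v x)
    (S : (X → ℝ) →ₗ[ℝ] W) (hS : Function.Surjective S) (B : W →ₗ[ℝ] W)
    (hB : ∀ v, B (S v) = S (A v)) :
    LinearMap.trace ℝ W B ≤ LinearMap.trace ℝ (X → ℝ) A := by
  set e : EuclideanSpace ℝ X ≃ₗ[ℝ] (X → ℝ) := WithLp.linearEquiv 2 ℝ (X → ℝ) with he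
  rw [← LinearMap.trace_conj' A e.symm]
  refine trace_le (e.symm.conj A) ?_ (S ∘ₗ e.toLinearMap) (hS.comp e.surjective) B ?_
  · intro v
    have h := hA (e v)
    refine le_trans h (le_of_eq ?_)
    rw [PiLp.inner_apply]
    refine Finset.sum_congr rfl fun x _ => ?_
    show (e v) x * A (e v) x = A (e v) x * (e v) x
    ring
  · ext v
    rw [LinearMap.comp_apply, LinearMap.comp_apply, LinearMap.comp_apply, LinearMap.comp_apply]
    show B (S (e v)) = S (e (e.symm.conj A v))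
    rw [hB, LinearEquiv.conj_apply]
    simp

/-- trace on a function space -/
theorem trace_fun {X : Type*} [Fintype X] [DecidableEq X] (A : (X → ℝ) →ₗ[ℝ] (X → ℝ)) :
    LinearMap.trace ℝ (X → ℝ) A = ∑ x, A (Pi.single x 1) x := by
  rw [LinearMap.trace_eq_matrix_trace ℝ (Pi.basisFun ℝ X), LinearMap.toMatrix_eq_toMatrix']
  unfold Matrix.trace
  refine Finset.sum_congr rfl fun x _ => ?_
  rw [Matrix.diag_apply, LinearMap.toMatrix'_apply]

/-! ### the palindromic operator -/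

variable {d : ℕ}

/-- `(TT d X i)^p` is positive semidefinite -/
theorem TT_pow_pos {X : Type*} [Fintype X] [MulAction (Equiv.Perm (Pos d)) X] (i p : ℕ) :
    ∀ v : X → ℝ, 0 ≤ ∑ x, v x * ((TT d X i) ^ p) v x := by
  induction p using Nat.strong_induction_on with
  | _ p ih =>
    intro v
    rcases p with _ | _ | p
    · rw [pow_zero]
      exact Finset.sum_nonneg fun x _ => mul_self_nonneg (v x)
    · rw [zero_add, pow_one]
      have h := PS.TT_fact (d := d) (X := X) i v v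
      have h' : ∑ x, v x * (TT d X i) v x = ∑ x, (TT d X i) v x * v x :=
        Finset.sum_congr rfl fun x _ => mul_comm _ _
      rw [h', h]
      exact Finset.sum_nonneg fun x _ => mul_self_nonneg _
    · have h := ih p (by omega) (TT d X i v)
      have h1 : ((TT d X i) ^ (p + 1 + 1)) v = TT d X i (((TT d X i) ^ p) (TT d X i v)) := by
        rw [pow_succ', Module.End.mul_apply, pow_succ, Module.End.mul_apply]
      rw [h1, ← PS.TT_symm (X := X) (d := d) i]
      exact h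

theorem TT_pow_pull {X Y : Type*} [MulAction (Equiv.Perm (Pos d)) X]
    [MulAction (Equiv.Perm (Pos d)) Y] (e : X → Y)
    (he : ∀ (g : Equiv.Perm (Pos d)) x, e (g • x) = g • e x) (i p : ℕ) :
    ∀ f : Y → ℝ, ((TT d X i) ^ p) (f ∘ e) = (((TT d Y i) ^ p) f) ∘ e := by
  induction p with
  | zero => intro f; rfl
  | succ p ih =>
    intro f
    rw [pow_succ, pow_succ, Module.End.mul_apply, Module.End.mul_apply, PS.TT_pull e he, ih]

/-- functions of the cards in `J` -/
def Fn {Ω : Type*} (J : Finset Ω) (f : Equiv.Perm Ω → ℝ) : Prop :=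
  ∀ π π' : Equiv.Perm Ω, (∀ c ∈ J, π c = π' c) → f π = f π'

theorem Lay_Fn (J : Finset (Pos d)) (j : ℕ) (f : Equiv.Perm (Pos d) → ℝ) (hf : Fn J f) :
    Fn J (Lay d (Equiv.Perm (Pos d)) j f) := by
  intro π π' h
  rw [Lay_apply, Lay_apply]
  congr 1
  refine Finset.sum_congr rfl fun ω _ => ?_
  apply hf
  intro c hc
  show lay j ω (π c) = lay j ω (π' c)
  rw [h c hc]

theorem TT_Fn (J : Finset (Pos d)) (i : ℕ) : ∀ (f : Equiv.Perm (Pos d) → ℝ), Fn J f →
    Fn J (TT d (Equiv.Perm (Pos d)) i f) := by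
  induction i with
  | zero => intro f hf; exact hf
  | succ i ih =>
    intro f hf
    rw [PS.TT_succ_apply]
    exact Lay_Fn J i _ (ih _ (Lay_Fn J i f hf))

theorem TT_UU (l i : ℕ) : ∀ f ∈ UU (Pos d) l, TT d (Equiv.Perm (Pos d)) i f ∈ UU (Pos d) l := by
  intro f hf
  have h1 : UU (Pos d) l ≤ (UU (Pos d) l).comap (TT d (Equiv.Perm (Pos d)) i) := by
    conv_lhs => rw [UU]
    rw [Submodule.span_le]
    rintro g ⟨J, hJ, hg⟩
    show TT d (Equiv.Perm (Pos d)) i g ∈ UU (Pos d) l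
    apply Submodule.subset_span
    exact ⟨J, hJ, TT_Fn J i g hg⟩
  exact h1 hf

/-- index set: the sets of `l` cards -/
abbrev JS (d l : ℕ) := {J : Finset (Pos d) // J.card = l}

/-- enumeration of the cards -/
noncomputable def kap {d l : ℕ} (J : JS d l) : Fin l ↪ Pos d :=
  (J.1.equivFinOfCardEq J.2).symm.toEmbedding.trans (Function.Embedding.subtype _)

theorem kap_mem {l : ℕ} (J : JS d l) (i : Fin l) : kap J i ∈ J.1 :=
  ((J.1.equivFinOfCardEq J.2).symm i).2

theorem kap_surj {l : ℕ} (J : JS d l) (c : Pos d) (hc : c ∈ J.1) : ∃ i, kap J i = c := by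
  refine ⟨J.1.equivFinOfCardEq J.2 ⟨c, hc⟩, ?_⟩
  show (((J.1.equivFinOfCardEq J.2).symm (J.1.equivFinOfCardEq J.2 ⟨c, hc⟩) : J.1) : Pos d) = c
  rw [Equiv.symm_apply_apply]

/-- restriction of a permutation to the cards of `J` -/
noncomputable def res {d l : ℕ} (J : JS d l) (π : Equiv.Perm (Pos d)) : Fin l ↪ Pos d :=
  (kap J).trans π.toEmbedding

theorem res_smul {l : ℕ} (J : JS d l) (g π : Equiv.Perm (Pos d)) :
    res J (g • π) = g • res J π := by
  ext1 i
  rfl

/-- the block operator on `JS d l × (Fin l ↪ Pos d)` -/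
noncomputable def AB (d l p : ℕ) :
    ((JS d l × (Fin l ↪ Pos d)) → ℝ) →ₗ[ℝ] ((JS d l × (Fin l ↪ Pos d)) → ℝ) where
  toFun F := fun z => ((TT d (Fin l ↪ Pos d) d) ^ p) (fun y => F (z.1, y)) z.2
  map_add' F G := by
    funext z
    have : (fun y => (F + G) (z.1, y)) = (fun y => F (z.1, y)) + (fun y => G (z.1, y)) := rfl
    rw [this, map_add]
    rfl
  map_smul' c F := by
    funext z
    have : (fun y => (c • F) (z.1, y)) = c • (fun y => F (z.1, y)) := rfl
    rw [this, map_smul]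
    rfl

theorem AB_apply (l p : ℕ) (F : (JS d l × (Fin l ↪ Pos d)) → ℝ)
    (z : JS d l × (Fin l ↪ Pos d)) :
    AB d l p F z = ((TT d (Fin l ↪ Pos d) d) ^ p) (fun y => F (z.1, y)) z.2 := rfl

theorem AB_pos (l p : ℕ) (F : (JS d l × (Fin l ↪ Pos d)) → ℝ) :
    0 ≤ ∑ z, F z * AB d l p F z := by
  rw [Fintype.sum_prod_type]
  refine Finset.sum_nonneg fun J _ => ?_
  exact TT_pow_pos d p (fun y => F (J, y))

theorem AB_trace (l p : ℕ) : LinearMap.trace ℝ ((JS d l × (Fin l ↪ Pos d)) → ℝ) (AB d l p) =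
    ((2 ^ d).choose l : ℝ) *
      LinearMap.trace ℝ ((Fin l ↪ Pos d) → ℝ) ((TT d (Fin l ↪ Pos d) d) ^ p) := by
  classical
  rw [trace_fun, trace_fun, Fintype.sum_prod_type]
  have h1 : ∀ J : JS d l, ∑ y, AB d l p (Pi.single (J, y) 1) (J, y) =
      ∑ y, ((TT d (Fin l ↪ Pos d) d) ^ p) (Pi.single y 1) y := by
    intro J
    refine Finset.sum_congr rfl fun y _ => ?_
    rw [AB_apply]
    have h2 : (fun y_1 => (Pi.single (J, y) 1 : (JS d l × (Fin l ↪ Pos d)) → ℝ)
        ((J, y).1, y_1)) = (Pi.single y 1 : (Fin l ↪ Pos d) → ℝ) := by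
      funext y'
      by_cases h : y' = y
      · rw [h, Pi.single_eq_same, Pi.single_eq_same]
      · rw [Pi.single_eq_of_ne h, Pi.single_eq_of_ne]
        intro h'
        exact h (congrArg Prod.snd h')
    rw [h2]
  rw [Finset.sum_congr rfl fun J _ => h1 J, Finset.sum_const, Finset.card_univ, nsmul_eq_mul]
  congr 2
  rw [Fintype.card_finset_len, Fintype.card_fun, Fintype.card_bool, Fintype.card_fin]

/-- the surjection onto the level space, as a map to all functions -/
noncomputable def S0 (d l : ℕ) :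
    ((JS d l × (Fin l ↪ Pos d)) → ℝ) →ₗ[ℝ] (Equiv.Perm (Pos d) → ℝ) where
  toFun F := fun π => ∑ J : JS d l, F (J, res J π)
  map_add' F G := by
    funext π
    simp only [Pi.add_apply, Finset.sum_add_distrib]
  map_smul' c F := by
    funext π
    simp only [Pi.smul_apply, smul_eq_mul, Finset.mul_sum, RingHom.id_apply]

theorem S0_apply (l : ℕ) (F : (JS d l × (Fin l ↪ Pos d)) → ℝ) (π : Equiv.Perm (Pos d)) :
    S0 d l F π = ∑ J : JS d l, F (J, res J π) := rfl

theorem S0_eq (l : ℕ) (F : (JS d l × (Fin l ↪ Pos d)) → ℝ) :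
    S0 d l F = ∑ J : JS d l, (fun y => F (J, y)) ∘ res J := by
  funext π
  rw [S0_apply, Finset.sum_apply]
  rfl

theorem S0_mem (l : ℕ) (F : (JS d l × (Fin l ↪ Pos d)) → ℝ) : S0 d l F ∈ UU (Pos d) l := by
  rw [S0_eq]
  refine Submodule.sum_mem _ fun J _ => ?_
  apply Submodule.subset_span
  refine ⟨J.1, J.2.le, ?_⟩
  intro π π' h
  have : res J π = res J π' := by
    ext1 i
    exact h _ (kap_mem J i)
  rw [Function.comp_apply, Function.comp_apply, this]

theorem S0_comm (l p : ℕ) (F : (JS d l × (Fin l ↪ Pos d)) → ℝ) :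
    ((TT d (Equiv.Perm (Pos d)) d) ^ p) (S0 d l F) = S0 d l (AB d l p F) := by
  rw [S0_eq, S0_eq, map_sum]
  refine Finset.sum_congr rfl fun J _ => ?_
  rw [TT_pow_pull (res J) (res_smul J)]
  rfl

theorem S0_range (l : ℕ) (hl : l ≤ 2 ^ d) (f : Equiv.Perm (Pos d) → ℝ)
    (hf : f ∈ UU (Pos d) l) : ∃ F, S0 d l F = f := by
  classical
  have h1 : UU (Pos d) l ≤ LinearMap.range (S0 d l) := by
    rw [UU, Submodule.span_le]
    rintro g ⟨J0, hJ0, hg⟩
    have hcard : Fintype.card (Pos d) = 2 ^ d := by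
      rw [Fintype.card_fun, Fintype.card_bool, Fintype.card_fin]
    obtain ⟨J1, hJ1, hJ1c⟩ := Finset.exists_superset_card_eq hJ0 (hcard ▸ hl)
    set J : JS d l := ⟨J1, hJ1c⟩ with hJ
    have hgr : ∀ π π', res J π = res J π' → g π = g π' := by
      intro π π' h
      apply hg
      intro c hc
      obtain ⟨i, rfl⟩ := kap_surj J c (hJ1 hc)
      exact congrArg (fun e : Fin l ↪ Pos d => e i) h
    refine ⟨fun z => if z.1 = J then (if h : ∃ π0, res J π0 = z.2 then g h.choose else 0) else 0,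
      ?_⟩
    funext π
    rw [S0_apply, Finset.sum_eq_single J]
    · have hex : ∃ π0, res J π0 = res J π := ⟨π, rfl⟩
      simp only [if_true]
      rw [dif_pos hex]
      exact hgr _ _ hex.choose_spec
    · intro J' _ hne
      simp only [hne, if_false]
    · intro h
      exact absurd (Finset.mem_univ _) h
  exact h1 hf

end TU

open TU in
theorem tu_main : TUStatement := by
  intro d l p
  refine ⟨TT_UU l d, ?_⟩
  intro hl
  rw [← AB_trace]
  refine trace_le_fun (AB d l p) (AB_pos l p)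
    ((S0 d l).codRestrict (UU (Pos d) l) (S0_mem l)) ?_ _ ?_
  · rintro ⟨f, hf⟩
    obtain ⟨F, hF⟩ := S0_range l hl f hf
    exact ⟨F, Subtype.ext hF⟩
  · intro F
    rw [Module.End.pow_restrict]
    apply Subtype.ext
    show ((TT d (Equiv.Perm (Pos d)) d) ^ p) (S0 d l F) = S0 d l (AB d l p F)
    exact S0_comm l p F

end P162L
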