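/-
P162 (Thorp shuffle), Theta(log n) project, modules UA and EV (helper20): row sums of the
majorising kernel as a path expectation; properties of the downward path expectation.
-/
import Vale.Agent.P162.Log.Stmts

namespace P162L

namespace UA

open scoped BigOperators

section path

variable {X : Type*}

theorem EL_congr (P : ℕ → (X → ℝ) →ₗ[ℝ] (X → ℝ)) (n : ℕ) {F F' : (ℕ → X) → ℝ} (x : X)
    (h : ∀ lam : ℕ → X, lam n = x → F lam = F' lam) : EL P n F x = EL P n F' x := by
  cases n with
  | zero =>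
    unfold EL
    exact h _ rfl
  | succ n =>
    unfold EL
    refine congrFun (congrArg (P n) (funext fun a => ?_)) x
    congr 1
    funext lam
    apply h
    simp

theorem ER_last (P : ℕ → (X → ℝ) →ₗ[ℝ] (X → ℝ)) (n : ℕ) : ∀ (i : ℕ) (F : (ℕ → X) → ℝ) (z : X),
    ER P (n + 1) i F z = ER P n i (fun μ =>
      P (i + n) (fun y => F fun j => if j ≤ i + n then μ j else y) (μ (i + n))) z := by
  induction n with
  | zero =>
    intro i F z
    rfl
  | succ n ih =>
    intro i F z
    conv_lhs => unfold ER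
    conv_rhs => unfold ER
    refine congrFun (congrArg (P i) (funext fun y => ?_)) z
    rw [ih]
    congr 1
    funext μ
    have h1 : i + 1 + n = i + (n + 1) := by omega
    have h2 : ¬ (i + (n + 1) ≤ i) := by omega
    simp only [h1, if_neg h2]
    refine congrFun (congrArg (P (i + (n + 1))) (funext fun y' => ?_)) _
    congr 1
    funext j
    by_cases h3 : j ≤ i
    · have h4 : j ≤ i + (n + 1) := by omega
      simp [h3, h4]
    · simp [h3]

end path

section main

variable {d : ℕ} {C : Type} [Fintype C] [DecidableEq C]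

omit [DecidableEq C] in
theorem mem_cls {j : ℕ} {x y : C ↪ Pos d} : y ∈ cls j x ↔ rel j x y := by
  unfold cls
  simp

omit [DecidableEq C] in
theorem cls_eq {j : ℕ} {x y : C ↪ Pos d} (h : y ∈ cls j x) : cls j y = cls j x := by
  rw [mem_cls] at h
  ext z
  rw [mem_cls, mem_cls]
  constructor
  · intro h1 c i hi
    rw [h c i hi, h1 c i hi]
  · intro h1 c i hi
    rw [← h c i hi, h1 c i hi]

omit [DecidableEq C] in
theorem mem_cls_comm {j : ℕ} {x y : C ↪ Pos d} : y ∈ cls j x ↔ x ∈ cls j y := by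
  rw [mem_cls, mem_cls]
  exact ⟨fun h c i hi => (h c i hi).symm, fun h c i hi => (h c i hi).symm⟩

omit [DecidableEq C] in
theorem ww_eq {i : ℕ} {x y a b : C ↪ Pos d} (ha : a ∈ cls i x) (hb : b ∈ cls i y) :
    ww i a b = ww i x y := by
  unfold ww Kset
  rw [cls_eq ha, cls_eq hb]

theorem Gk_succ_sum (hQC : QCStatement) (ι : ℝ) (n : ℕ) (x : C ↪ Pos d)
    (Φ : (C ↪ Pos d) → ℝ) :
    ∑ y, Gk ι (n + 1) x y * Φ y = Lay d (C ↪ Pos d) n (fun a =>
      ∑ b, Gk ι n a b * ((ww n a b) ^ ι * Lay d (C ↪ Pos d) n Φ b)) x := by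
  rw [hQC d C n _ x]
  have h1 : ∀ a ∈ cls n x, ∀ b : C ↪ Pos d,
      Gk ι n a b * ((ww n a b) ^ ι * Lay d (C ↪ Pos d) n Φ b) =
      ∑ y ∈ cls n b, Gk ι n a b * ((ww n x y) ^ ι * ((1 / ((cls n y).card : ℝ)) * Φ y)) := by
    intro a ha b
    rw [hQC d C n Φ b, Finset.mul_sum, Finset.mul_sum, Finset.mul_sum]
    refine Finset.sum_congr rfl fun y hy => ?_
    rw [cls_eq hy, ww_eq ha (mem_cls_comm.mp hy)]
  rw [Finset.mul_sum]
  calc ∑ y, Gk ι (n + 1) x y * Φ y
      = ∑ y, ∑ a ∈ cls n x, ∑ b ∈ cls n y, 1 / ((cls n x).card : ℝ) *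
          (Gk ι n a b * ((ww n x y) ^ ι * ((1 / ((cls n y).card : ℝ)) * Φ y))) := by
        refine Finset.sum_congr rfl fun y _ => ?_
        have h2 : Gk ι (n + 1) x y = 1 / (((cls n x).card : ℝ) * ((cls n y).card : ℝ)) *
          (ww n x y) ^ ι * ∑ a ∈ cls n x, ∑ b ∈ cls n y, Gk ι n a b := rfl
        rw [h2, Finset.mul_sum, Finset.sum_mul]
        refine Finset.sum_congr rfl fun a _ => ?_
        rw [Finset.mul_sum, Finset.sum_mul]
        refine Finset.sum_congr rfl fun b _ => ?_
        rw [one_div, one_div, one_div, mul_inv]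
        ring
    _ = ∑ a ∈ cls n x, ∑ y, ∑ b ∈ cls n y, 1 / ((cls n x).card : ℝ) *
          (Gk ι n a b * ((ww n x y) ^ ι * ((1 / ((cls n y).card : ℝ)) * Φ y))) :=
        Finset.sum_comm
    _ = ∑ a ∈ cls n x, ∑ b, ∑ y ∈ cls n b, 1 / ((cls n x).card : ℝ) *
          (Gk ι n a b * ((ww n x y) ^ ι * ((1 / ((cls n y).card : ℝ)) * Φ y))) := by
        refine Finset.sum_congr rfl fun a _ => ?_
        refine Finset.sum_comm' ?_
        intro y b
        simp only [Finset.mem_univ, true_and, and_true]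
        exact mem_cls_comm
    _ = _ := by
        refine Finset.sum_congr rfl fun a ha => ?_
        rw [Finset.mul_sum]
        refine Finset.sum_congr rfl fun b _ => ?_
        rw [h1 a ha b, Finset.mul_sum]

theorem general (hQC : QCStatement) (ι : ℝ) (n : ℕ) : ∀ (x : C ↪ Pos d)
    (Φ : (C ↪ Pos d) → ℝ),
    ∑ y, Gk ι n x y * Φ y = EL (Lay d (C ↪ Pos d)) n (fun lam =>
      ER (Lay d (C ↪ Pos d)) n 0 (fun μ =>
        (∏ j ∈ Finset.range n, (ww j (lam j) (μ j)) ^ ι) * Φ (μ n)) (lam 0)) x := by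
  induction n with
  | zero =>
    intro x Φ
    unfold EL ER Gk
    simp
  | succ n ih =>
    intro x Φ
    rw [Gk_succ_sum hQC]
    conv_rhs => unfold EL
    refine congrFun (congrArg (Lay d (C ↪ Pos d) n) (funext fun a => ?_)) x
    rw [ih a (fun b => (ww n a b) ^ ι * Lay d (C ↪ Pos d) n Φ b)]
    apply EL_congr
    intro lam hlam
    beta_reduce
    rw [ER_last]
    simp only [Nat.zero_le, if_true, Nat.zero_add]
    congr 1
    funext μ
    have h1 : ∀ y : C ↪ Pos d, (∏ j ∈ Finset.range n,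
        (ww j (if j ≤ n then lam j else x) (if j ≤ n then μ j else y)) ^ ι) *
        (ww n (if n ≤ n then lam n else x) (if n ≤ n then μ n else y)) ^ ι *
          Φ (if n + 1 ≤ n then μ (n + 1) else y) =
        ((∏ j ∈ Finset.range n, (ww j (lam j) (μ j)) ^ ι) * (ww n a (μ n)) ^ ι) • Φ y := by
      intro y
      have h2 : ∏ j ∈ Finset.range n,
          (ww j (if j ≤ n then lam j else x) (if j ≤ n then μ j else y)) ^ ι =
          ∏ j ∈ Finset.range n, (ww j (lam j) (μ j)) ^ ι := by
        refine Finset.prod_congr rfl fun j hj => ?_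
        have h3 : j ≤ n := (Finset.mem_range.mp hj).le
        rw [if_pos h3, if_pos h3]
      rw [h2, if_pos le_rfl, if_pos le_rfl, if_neg (by omega), hlam, smul_eq_mul]
    simp only [Finset.prod_range_succ]
    have h4 : (fun y : C ↪ Pos d => (∏ j ∈ Finset.range n,
        (ww j (if j ≤ n then lam j else x) (if j ≤ n then μ j else y)) ^ ι) *
        (ww n (if n ≤ n then lam n else x) (if n ≤ n then μ n else y)) ^ ι *
          Φ (if n + 1 ≤ n then μ (n + 1) else y)) =
        ((∏ j ∈ Finset.range n, (ww j (lam j) (μ j)) ^ ι) * (ww n a (μ n)) ^ ι) • Φ := by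
      funext y
      rw [h1 y]
      rfl
    rw [h4, map_smul, Pi.smul_apply, smul_eq_mul]
    ring

omit [Fintype C] [DecidableEq C] in
theorem lay_mono {j : ℕ} {Φ Ψ : (C ↪ Pos d) → ℝ} {x : C ↪ Pos d}
    (h : ∀ a, rel j x a → Φ a ≤ Ψ a) : Lay d (C ↪ Pos d) j Φ x ≤ Lay d (C ↪ Pos d) j Ψ x := by
  rw [Lay_apply, Lay_apply]
  apply mul_le_mul_of_nonneg_left _ (by positivity)
  refine Finset.sum_le_sum fun ω _ => h _ ?_
  intro c i hi
  change x c i = (lay j ω (x c)) i
  rw [lay_apply]
  split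
  · unfold flipBit
    rw [if_neg hi]
  · rfl

omit [Fintype C] [DecidableEq C] in
theorem EL_mono (n : ℕ) : ∀ (x : C ↪ Pos d) (F F' : (ℕ → (C ↪ Pos d)) → ℝ),
    (∀ lam : ℕ → (C ↪ Pos d), lam n = x → (∀ j < n, rel j (lam (j + 1)) (lam j)) →
      F lam ≤ F' lam) →
    EL (Lay d (C ↪ Pos d)) n F x ≤ EL (Lay d (C ↪ Pos d)) n F' x := by
  induction n with
  | zero =>
    intro x F F' h
    unfold EL
    exact h _ rfl (fun j hj => absurd hj (Nat.not_lt_zero j))
  | succ n ih =>
    intro x F F' h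
    unfold EL
    apply lay_mono
    intro a ha
    apply ih
    intro lam hlam hrel
    apply h
    · simp
    · intro j hj
      rcases Nat.lt_succ_iff_lt_or_eq.mp hj with h1 | h1
      · rw [if_pos (by omega), if_pos (by omega)]
        exact hrel j h1
      · subst h1
        rw [if_neg (by omega), if_pos le_rfl, hlam]
        exact ha

omit [Fintype C] [DecidableEq C] in
theorem EL_const (n : ℕ) : ∀ (x : C ↪ Pos d) (r : ℝ),
    EL (Lay d (C ↪ Pos d)) n (fun _ => r) x = r := by
  induction n with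
  | zero => intro x r; rfl
  | succ n ih =>
    intro x r
    unfold EL
    have h1 : (fun a : C ↪ Pos d => EL (Lay d (C ↪ Pos d)) n (fun _ => r) a) =
        r • (fun _ => (1 : ℝ)) := by
      funext a
      rw [ih a r]
      simp
    rw [h1, map_smul, (isMk_Lay d (C ↪ Pos d) n).one]
    simp

omit [Fintype C] [DecidableEq C] in
theorem EL_time (n : ℕ) : ∀ (x : C ↪ Pos d) (k : ℕ) (Φ : (C ↪ Pos d) → ℝ), k ≤ n →
    EL (Lay d (C ↪ Pos d)) n (fun lam => Φ (lam k)) x = Dn (Lay d (C ↪ Pos d)) k (n - k) Φ x := by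
  induction n with
  | zero =>
    intro x k Φ hk
    obtain rfl : k = 0 := by omega
    rfl
  | succ n ih =>
    intro x k Φ hk
    rcases Nat.lt_or_ge n k with h1 | h1
    · obtain rfl : k = n + 1 := by omega
      rw [Nat.sub_self]
      unfold EL
      have h2 : (fun a : C ↪ Pos d => EL (Lay d (C ↪ Pos d)) n
          (fun lam => Φ (if n + 1 ≤ n then lam (n + 1) else x)) a) = fun a =>
          EL (Lay d (C ↪ Pos d)) n (fun _ => Φ x) a := by
        funext a
        congr 1
        funext lam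
        rw [if_neg (by omega)]
      rw [h2]
      have h3 := EL_const (n + 1) x (Φ x)
      unfold EL at h3
      rw [h3]
      rfl
    · have h2 : n + 1 - k = (n - k) + 1 := by omega
      rw [h2]
      unfold EL Dn
      have h3 : k + (n - k) = n := by omega
      rw [h3]
      refine congrFun (congrArg (Lay d (C ↪ Pos d) n) (funext fun a => ?_)) x
      rw [← ih a k Φ h1]
      congr 1
      funext lam
      have h4 : k ≤ n := h1
      beta_reduce
      rw [if_pos h4]

end main

end UA

theorem ua_main : UAStatement := by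
  intro hQC d C _ _ ι n x
  have h := UA.general hQC ι n x (fun _ => 1)
  simp only [mul_one] at h
  exact h

theorem ev_main : EVStatement := by
  intro d C _ _ n x
  exact ⟨fun F F' h => UA.EL_mono n x F F' h, fun k Φ hk => UA.EL_time n x k Φ hk⟩

end P162L
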