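/-
P162 (Thorp shuffle), Theta(log n) project, module W1 (helper22): `Up` as an average over coins.
-/
import Vale.Agent.P162.Log.Window

namespace P162L

open scoped BigOperators

theorem wpos_cons {n d : ℕ} (i : ℕ) (ω0 : Pos d → Bool) (ω : Coins n d) (s : ℕ) (z : Pos d) :
    wpos i (Fin.cons ω0 ω : Coins (n + 1) d) (s + 1) z = wpos (i + 1) ω s (lay i ω0 z) := by
  induction s with
  | zero =>
    show (if h : 0 < n + 1 then lay (i + 0)
      ((Fin.cons ω0 ω : Coins (n + 1) d) ⟨0, h⟩) z else z) = lay i ω0 z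
    rw [dif_pos (Nat.succ_pos n)]
    rfl
  | succ s ih =>
    have h1 : wpos i (Fin.cons ω0 ω : Coins (n + 1) d) (s + 1 + 1) z =
      if h : s + 1 < n + 1 then lay (i + (s + 1)) ((Fin.cons ω0 ω : Coins (n + 1) d) ⟨s + 1, h⟩)
        (wpos i (Fin.cons ω0 ω : Coins (n + 1) d) (s + 1) z)
      else wpos i (Fin.cons ω0 ω : Coins (n + 1) d) (s + 1) z := rfl
    have h2 : wpos (i + 1) ω (s + 1) (lay i ω0 z) =
      if h : s < n then lay (i + 1 + s) (ω ⟨s, h⟩) (wpos (i + 1) ω s (lay i ω0 z))
      else wpos (i + 1) ω s (lay i ω0 z) := rfl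
    rw [h1, h2, ih]
    by_cases hs : s < n
    · rw [dif_pos hs, dif_pos (by omega)]
      have e1 : (Fin.cons ω0 ω : Coins (n + 1) d) ⟨s + 1, by omega⟩ = ω ⟨s, hs⟩ := rfl
      have e2 : i + (s + 1) = i + 1 + s := by omega
      rw [e1, e2]
    · rw [dif_neg hs, dif_neg (by omega)]

theorem wend_cons {n d : ℕ} {C : Type} (i : ℕ) (ω0 : Pos d → Bool) (ω : Coins n d)
    (z : C ↪ Pos d) :
    wend i (Fin.cons ω0 ω : Coins (n + 1) d) z = wend (i + 1) ω (lay i ω0 • z) := by
  ext1 c
  exact wpos_cons i ω0 ω n (z c)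

theorem w1_main : W1Statement := by
  intro n d C _ _ i Φ z
  induction n generalizing i z with
  | zero =>
    show Φ z = _
    have h1 : ∀ ω : Coins 0 d, wend i ω z = z := by
      intro ω
      ext1 c
      rfl
    simp only [h1, Finset.sum_const, Finset.card_univ, nsmul_eq_mul]
    have h2 : Fintype.card (Coins 0 d) = 1 := by simp [Coins]
    rw [h2]
    simp
  | succ n ih =>
    show Lay d (C ↪ Pos d) i (Up (Lay d (C ↪ Pos d)) n (i + 1) Φ) z = _
    rw [Lay_apply]
    simp only [ih]
    rw [← Finset.mul_sum]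
    have hcard : (Fintype.card (Coins (n + 1) d) : ℝ) =
        2 ^ Fintype.card (Pos d) * (Fintype.card (Coins n d) : ℝ) := by
      have : Fintype.card (Coins (n + 1) d) =
          Fintype.card (Pos d → Bool) * Fintype.card (Coins n d) := by
        rw [← Fintype.card_prod]
        exact Fintype.card_congr (Fin.consEquiv (fun _ : Fin (n + 1) => Pos d → Bool)).symm
      rw [this, Fintype.card_fun, Fintype.card_bool]
      push_cast
      rfl
    have hsum : ∑ ω : Coins (n + 1) d, Φ (wend i ω z) =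
        ∑ ω0 : Pos d → Bool, ∑ ω : Coins n d, Φ (wend (i + 1) ω (lay i ω0 • z)) := by
      rw [← Fintype.sum_prod_type', ← Equiv.sum_comp
        (Fin.consEquiv (fun _ : Fin (n + 1) => Pos d → Bool))
        (fun ω : Coins (n + 1) d => Φ (wend i ω z))]
      refine Finset.sum_congr rfl fun p _ => ?_
      obtain ⟨ω0, ω⟩ := p
      show Φ (wend i (Fin.cons ω0 ω : Coins (n + 1) d) z) = _
      rw [wend_cons]
    rw [hcard, hsum, ← mul_assoc]
    congr 1
    rw [one_div_mul_one_div]

end P162L
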