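/-
P162 (Thorp shuffle), Theta(log n) project, module W2 (helper4): the Kraft lemma.
-/
import Vale.Agent.P162.Log.Window

namespace P162L

open scoped BigOperators

namespace W2m

/-- steps `s ∈ [t, n)` where `c` shares its switch with another card of `S` -/
def sh {d : ℕ} {C : Type} [DecidableEq C] (i n : ℕ) (P : ℕ → C → Pos d) (S : Finset C) (t : ℕ)
    (c : C) : Finset ℕ :=
  (Finset.Ico t n).filter fun s =>
    ∃ c' ∈ S, c' ≠ c ∧ clr (i + s) (P s c) = clr (i + s) (P s c')

theorem far {d : ℕ} {C : Type} (i n : ℕ) (P : ℕ → C → Pos d)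
    (hP : ∀ t < n, ∀ c, ∀ k : Fin d, (k : ℕ) ≠ i + t → P (t + 1) c k = P t c k)
    (t : ℕ) (k : Fin d) (hk : (k : ℕ) = i + t) (c : C) :
    ∀ s, t + 1 ≤ s → s ≤ n → P s c k = P (t + 1) c k := by
  intro s hs
  induction s, hs using Nat.le_induction with
  | base => intro _; rfl
  | succ s hs ih =>
    intro hn
    rw [hP s (by omega) c k (by omega), ih (by omega)]

theorem kraft {d : ℕ} {C : Type} [DecidableEq C] (i n : ℕ) (hi : i + n ≤ d) (P : ℕ → C → Pos d)
    (hinj : ∀ t, Function.Injective (P t))
    (hP : ∀ t < n, ∀ c, ∀ k : Fin d, (k : ℕ) ≠ i + t → P (t + 1) c k = P t c k) (m : ℕ) :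
    ∀ t, t + m = n → ∀ S : Finset C, S.Nonempty →
      (1 : ℝ) ≤ ∑ c ∈ S, (1 / 2 : ℝ) ^ (sh i n P S t c).card := by
  induction m with
  | zero =>
    intro t ht S hS
    have h1 : ∀ c ∈ S, (1 / 2 : ℝ) ^ (sh i n P S t c).card = 1 := by
      intro c _
      have : sh i n P S t c = ∅ := by
        unfold sh
        have h2 : Finset.Ico t n = ∅ := by
          rw [Finset.Ico_eq_empty_iff]
          omega
        rw [h2, Finset.filter_empty]
      rw [this, Finset.card_empty, pow_zero]
    rw [Finset.sum_congr rfl h1, Finset.sum_const, nsmul_eq_mul, mul_one]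
    exact_mod_cast hS.card_pos
  | succ m ih =>
    intro t ht S hS
    have htn : t < n := by omega
    have hkd : i + t < d := by omega
    set k : Fin d := ⟨i + t, hkd⟩ with hk
    have hkv : (k : ℕ) = i + t := rfl
    -- decomposition of `sh`
    have hsub : ∀ (T : Finset C) (c : C),
        (sh i n P T t c).card ≤ (sh i n P T (t + 1) c).card + 1 := by
      intro T c
      have : sh i n P T t c ⊆ insert t (sh i n P T (t + 1) c) := by
        intro s hs
        unfold sh at hs ⊢
        rw [Finset.mem_filter, Finset.mem_Ico] at hs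
        rw [Finset.mem_insert, Finset.mem_filter, Finset.mem_Ico]
        rcases Nat.eq_or_lt_of_le hs.1.1 with h | h
        · left; exact h.symm
        · right; exact ⟨⟨h, hs.1.2⟩, hs.2⟩
      exact le_trans (Finset.card_le_card this) (Finset.card_insert_le _ _)
    -- cards with different bits never meet again
    have hpart : ∀ (T : Finset C), T ⊆ S → (∀ c ∈ T, ∀ c' ∈ S, P (t + 1) c' k = P (t + 1) c k →
        c' ∈ T) → ∀ c ∈ T, sh i n P S (t + 1) c = sh i n P T (t + 1) c := by
      intro T hTS hT c hc
      unfold sh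
      ext s
      simp only [Finset.mem_filter, Finset.mem_Ico]
      constructor
      · rintro ⟨hs, c', hc', hne, he⟩
        refine ⟨hs, c', ?_, hne, he⟩
        apply hT c hc c' hc'
        rw [← far i n P hP t k hkv c' s hs.1 (by omega), ← far i n P hP t k hkv c s hs.1 (by omega)]
        have := congrFun he k
        unfold clr at this
        rw [if_neg (by omega), if_neg (by omega)] at this
        exact this.symm
      · rintro ⟨hs, c', hc', hne, he⟩
        exact ⟨hs, c', hTS hc', hne, he⟩
    -- the two parts
    set S0 := S.filter (fun c => P (t + 1) c k = false) with hS0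
    set S1 := S.filter (fun c => ¬ P (t + 1) c k = false) with hS1
    have hsplit : ∑ c ∈ S, (1 / 2 : ℝ) ^ (sh i n P S t c).card =
        ∑ c ∈ S0, (1 / 2 : ℝ) ^ (sh i n P S t c).card +
        ∑ c ∈ S1, (1 / 2 : ℝ) ^ (sh i n P S t c).card :=
      (Finset.sum_filter_add_sum_filter_not S (fun c => P (t + 1) c k = false) _).symm
    have h0 : ∀ c ∈ S0, sh i n P S (t + 1) c = sh i n P S0 (t + 1) c := by
      apply hpart S0 (Finset.filter_subset _ _)
      intro c hc c' hc' he
      rw [hS0, Finset.mem_filter] at hc ⊢
      exact ⟨hc', he.trans hc.2⟩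
    have h1 : ∀ c ∈ S1, sh i n P S (t + 1) c = sh i n P S1 (t + 1) c := by
      apply hpart S1 (Finset.filter_subset _ _)
      intro c hc c' hc' he
      rw [hS1, Finset.mem_filter] at hc ⊢
      exact ⟨hc', fun h => hc.2 (he.symm.trans h)⟩
    -- if all bits agree nobody shares the switch `t`
    have hsame : (∀ c ∈ S, ∀ c' ∈ S, P (t + 1) c k = P (t + 1) c' k) →
        (1 : ℝ) ≤ ∑ c ∈ S, (1 / 2 : ℝ) ^ (sh i n P S t c).card := by
      intro hall
      have h2 : ∀ c ∈ S, sh i n P S t c = sh i n P S (t + 1) c := by
        intro c hc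
        unfold sh
        ext s
        simp only [Finset.mem_filter, Finset.mem_Ico]
        constructor
        · rintro ⟨hs, c', hc', hne, he⟩
          refine ⟨⟨?_, hs.2⟩, c', hc', hne, he⟩
          by_contra hcon
          have hst : s = t := by omega
          subst hst
          apply hne
          apply hinj (s + 1)
          funext k'
          by_cases hk' : (k' : ℕ) = i + s
          · have : k' = k := Fin.ext hk'
            rw [this]
            exact hall c' hc' c hc
          · rw [hP s htn c' k' hk', hP s htn c k' hk']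
            have := congrFun he k'
            unfold clr at this
            rw [if_neg hk', if_neg hk'] at this
            exact this.symm
        · rintro ⟨hs, h⟩
          exact ⟨⟨by omega, hs.2⟩, h⟩
      have h3 : ∑ c ∈ S, (1 / 2 : ℝ) ^ (sh i n P S t c).card =
          ∑ c ∈ S, (1 / 2 : ℝ) ^ (sh i n P S (t + 1) c).card := by
        apply Finset.sum_congr rfl
        intro c hc
        rw [h2 c hc]
      rw [h3]
      exact ih (t + 1) (by omega) S hS
    have hhalf : ∀ (T : Finset C), T.Nonempty →
        (∀ c ∈ T, sh i n P S (t + 1) c = sh i n P T (t + 1) c) →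
        (1 / 2 : ℝ) ≤ ∑ c ∈ T, (1 / 2 : ℝ) ^ (sh i n P S t c).card := by
      intro T hTne hT
      have h4 := ih (t + 1) (by omega) T hTne
      have h5 : ∑ c ∈ T, (1 / 2 : ℝ) * (1 / 2 : ℝ) ^ (sh i n P T (t + 1) c).card ≤
          ∑ c ∈ T, (1 / 2 : ℝ) ^ (sh i n P S t c).card := by
        apply Finset.sum_le_sum
        intro c hc
        rw [← pow_succ']
        apply pow_le_pow_of_le_one (by norm_num) (by norm_num)
        have := hsub S c
        rw [hT c hc] at this
        exact this
      rw [← Finset.mul_sum] at h5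
      linarith
    rcases S0.eq_empty_or_nonempty with he0 | hne0
    · apply hsame
      intro c hc c' hc'
      have e1 : ∀ a ∈ S, P (t + 1) a k = true := by
        intro a ha
        by_contra hcon
        have : a ∈ S0 := by
          rw [hS0, Finset.mem_filter]
          exact ⟨ha, by simpa using hcon⟩
        rw [he0] at this
        exact absurd this (Finset.notMem_empty _)
      rw [e1 c hc, e1 c' hc']
    · rcases S1.eq_empty_or_nonempty with he1 | hne1
      · apply hsame
        intro c hc c' hc'
        have e1 : ∀ a ∈ S, P (t + 1) a k = false := by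
          intro a ha
          by_contra hcon
          have : a ∈ S1 := by
            rw [hS1, Finset.mem_filter]
            exact ⟨ha, hcon⟩
          rw [he1] at this
          exact absurd this (Finset.notMem_empty _)
        rw [e1 c hc, e1 c' hc']
      · rw [hsplit]
        have := hhalf S0 hne0 h0
        have := hhalf S1 hne1 h1
        linarith

end W2m

open W2m in
theorem w2_main : W2Statement := by
  intro n d C _ _ i hi ω z S hS
  set P : ℕ → C → Pos d := fun t c => wpos i ω t (z c) with hPdef
  have hinj : ∀ t, Function.Injective (P t) := by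
    intro t a b h
    exact z.injective (wpos_injective i ω t h)
  have hP : ∀ t < n, ∀ c, ∀ k : Fin d, (k : ℕ) ≠ i + t → P (t + 1) c k = P t c k := by
    intro t ht c k hk
    show wpos i ω (t + 1) (z c) k = wpos i ω t (z c) k
    have e1 : wpos i ω (t + 1) (z c) = lay (i + t) (ω ⟨t, ht⟩) (wpos i ω t (z c)) := by
      rw [wpos, dif_pos ht]
    have e2 := congrFun (clr_lay (i + t) (ω ⟨t, ht⟩) (wpos i ω t (z c))) k
    unfold clr at e2
    rw [if_neg hk, if_neg hk] at e2
    rw [e1]
    exact e2
  have hk := kraft i n hi P hinj hP n 0 (by omega) S hS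
  by_contra hcon
  push Not at hcon
  have hcard : (0 : ℝ) < (S.card : ℝ) := by exact_mod_cast hS.card_pos
  have h1 : ∀ c ∈ S, (1 / 2 : ℝ) ^ (sh i n P S 0 c).card < 1 / (S.card : ℝ) := by
    intro c hc
    have h2 := hcon c hc
    have h3 : ((pathS i ω (z c)).filter
        (fun s => ∃ c' ∈ S, c' ≠ c ∧ s ∈ pathS i ω (z c'))).card ≤ (sh i n P S 0 c).card := by
      apply Finset.card_le_card_of_injOn (fun s => (s.1 : ℕ))
      · intro s hs
        rw [Finset.mem_coe, Finset.mem_filter] at hs
        obtain ⟨hs1, c', hc', hne, hs2⟩ := hs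
        unfold pathS at hs1 hs2
        rw [Finset.mem_image] at hs1 hs2
        obtain ⟨a, _, ha⟩ := hs1
        obtain ⟨b, _, hb⟩ := hs2
        have e1 : s.1 = a := by rw [← ha]; rfl
        have e2 : s.1 = b := by rw [← hb]; rfl
        have e3 : a = b := e1.symm.trans e2
        subst e3
        have e4 := ha.trans hb.symm
        unfold site at e4
        rw [Prod.mk.injEq] at e4
        rw [Finset.mem_coe]
        unfold sh
        rw [Finset.mem_filter, Finset.mem_Ico]
        dsimp only
        rw [e1]
        exact ⟨⟨Nat.zero_le _, a.isLt⟩, c', hc', hne, e4.2⟩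
      · intro s hs s' hs' he
        rw [Finset.mem_coe, Finset.mem_filter] at hs hs'
        obtain ⟨a, _, ha⟩ := Finset.mem_image.mp hs.1
        obtain ⟨b, _, hb⟩ := Finset.mem_image.mp hs'.1
        have e1 : s.1 = a := by rw [← ha]; rfl
        have e2 : s'.1 = b := by rw [← hb]; rfl
        have e3 : a = b := by
          apply Fin.ext
          rw [← e1, ← e2]
          exact he
        rw [← ha, ← hb, e3]
    have h4 : S.card < 2 ^ (sh i n P S 0 c).card :=
      lt_of_lt_of_le h2 (Nat.pow_le_pow_right (by norm_num) h3)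
    have h5 : (S.card : ℝ) < (2 : ℝ) ^ (sh i n P S 0 c).card := by exact_mod_cast h4
    rw [one_div_pow]
    exact one_div_lt_one_div_of_lt hcard h5
  have h6 : ∑ c ∈ S, (1 / 2 : ℝ) ^ (sh i n P S 0 c).card < ∑ _c ∈ S, 1 / (S.card : ℝ) :=
    Finset.sum_lt_sum_of_nonempty hS h1
  rw [Finset.sum_const, nsmul_eq_mul, mul_one_div, div_self hcard.ne'] at h6
  linarith

end P162L
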