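/-
P162 (Thorp shuffle), Theta(log n) project, module W3 (helper22): unique path property.
-/
import Vale.Agent.P162.Log.Window

namespace P162L

theorem lay_bit_ne {d : ℕ} (j : ℕ) (ω : Pos d → Bool) (z : Pos d) (k : Fin d)
    (hk : (k : ℕ) ≠ j) : lay j ω z k = z k := by
  rw [lay_apply]
  split
  · simp [flipBit, hk]
  · rfl

theorem lay_bit_eq {d : ℕ} (j : ℕ) (ω : Pos d → Bool) (z : Pos d) (k : Fin d)
    (hk : (k : ℕ) = j) : lay j ω z k = xor (z k) (ω (clr j z)) := by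
  rw [lay_apply]
  by_cases h : ω (clr j z) = true
  · simp [flipBit, hk, h]
  · simp [h]

theorem wpos_succ {n d : ℕ} (i : ℕ) (ω : Coins n d) (s : ℕ) (z : Pos d) (h : s < n) :
    wpos i ω (s + 1) z = lay (i + s) (ω ⟨s, h⟩) (wpos i ω s z) := by
  show (if h : s < n then lay (i + s) (ω ⟨s, h⟩) (wpos i ω s z) else wpos i ω s z) = _
  rw [dif_pos h]

/-- bits outside of `[i, i+s)` are those of the start -/
theorem wpos_bit_out {n d : ℕ} (i : ℕ) (ω : Coins n d) (s : ℕ) (z : Pos d) (hs : s ≤ n)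
    (k : Fin d) (hk : (k : ℕ) < i ∨ i + s ≤ (k : ℕ)) : wpos i ω s z k = z k := by
  induction s with
  | zero => rfl
  | succ s ih =>
    rw [wpos_succ i ω s z (by omega), lay_bit_ne _ _ _ _ (by omega)]
    exact ih (by omega) (by omega)

/-- bits in `[i, i+s)` are those of the later positions -/
theorem wpos_bit_in {n d : ℕ} (i : ℕ) (ω : Coins n d) (s t : ℕ) (z : Pos d) (hst : s ≤ t)
    (ht : t ≤ n) (k : Fin d) (hk : (k : ℕ) < i + s) : wpos i ω t z k = wpos i ω s z k := by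
  induction t, hst using Nat.le_induction with
  | base => rfl
  | succ t hst ih =>
    rw [wpos_succ i ω t z (by omega), lay_bit_ne _ _ _ _ (by omega)]
    exact ih (by omega)

theorem w3_main : W3Statement := by
  intro n d i hi ω ω' z h
  have h1 : ∀ s ≤ n, wpos i ω s z = wpos i ω' s z := by
    intro s hs
    funext k
    by_cases hk : (k : ℕ) < i + s
    · rw [← wpos_bit_in i ω s n z hs le_rfl k hk, ← wpos_bit_in i ω' s n z hs le_rfl k hk, h]
    · rw [wpos_bit_out i ω s z hs k (Or.inr (by omega)),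
        wpos_bit_out i ω' s z hs k (Or.inr (by omega))]
  refine ⟨h1, fun s => ?_⟩
  have hs := s.2
  have e1 := congrFun (h1 (s.1 + 1) (by omega)) ⟨i + s.1, by omega⟩
  rw [wpos_succ i ω s.1 z hs, wpos_succ i ω' s.1 z hs,
    lay_bit_eq (i + s.1) _ _ ⟨i + s.1, by omega⟩ rfl,
    lay_bit_eq (i + s.1) _ _ ⟨i + s.1, by omega⟩ rfl, h1 s.1 (by omega)] at e1
  rw [h1 s.1 (by omega)]
  revert e1
  generalize wpos i ω' (s : ℕ) z ⟨i + s.1, _⟩ = b
  show _ = _ → ω ⟨s.1, hs⟩ _ = ω' ⟨s.1, hs⟩ _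
  generalize ω ⟨s.1, hs⟩ (clr (i + s.1) (wpos i ω' s.1 z)) = u
  generalize ω' ⟨s.1, hs⟩ (clr (i + s.1) (wpos i ω' s.1 z)) = v
  cases b <;> cases u <;> cases v <;> simp

end P162L
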