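/-
P162 (Thorp shuffle), Theta(log n) project, module W4A (helper22): compression lemma.
-/
import Vale.Agent.P162.Log.Window

namespace P162L

open scoped BigOperators

section

variable {n d : ℕ} {C : Type*} [DecidableEq C]

/-- agreement of the coins on the path gives agreement of the positions -/
theorem wpos_congr (i : ℕ) (ω ω' : Coins n d) (z : Pos d)
    (h : ∀ s : Fin n, ω' s (clr (i + (s : ℕ)) (wpos i ω (s : ℕ) z)) =
      ω s (clr (i + (s : ℕ)) (wpos i ω (s : ℕ) z))) (s : ℕ) :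
    wpos i ω' s z = wpos i ω s z := by
  induction s with
  | zero => rfl
  | succ s ih =>
    unfold wpos
    by_cases hs : s < n
    · rw [dif_pos hs, dif_pos hs, ih, lay_apply, lay_apply, h ⟨s, hs⟩]
    · rw [dif_neg hs, dif_neg hs, ih]

theorem wpos_congr_of_path (i : ℕ) (ω ω' : Coins n d) (z : Pos d)
    (h : ∀ p ∈ pathS i ω z, ω' p.1 p.2 = ω p.1 p.2) (s : ℕ) :
    wpos i ω' s z = wpos i ω s z := by
  refine wpos_congr i ω ω' z (fun s => ?_) s
  exact h _ (Finset.mem_image.2 ⟨s, Finset.mem_univ _, rfl⟩)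

theorem pathS_congr (i : ℕ) (ω ω' : Coins n d) (z : Pos d)
    (h : ∀ s, wpos i ω' s z = wpos i ω s z) : pathS i ω' z = pathS i ω z := by
  unfold pathS site
  simp only [h]

omit [DecidableEq C] in
theorem ptnE_spec' {j : ℕ} {x : C ↪ Pos d} {c : C} (h : ptnE j x c ≠ c) :
    x (ptnE j x c) = flipBit j (x c) := by
  rw [ptnE_apply] at h ⊢
  by_cases h1 : ∃ c', x c' = flipBit j (x c)
  · obtain ⟨c', hc⟩ := h1
    rw [ptn_spec j x c c' hc, hc]
  · exact absurd (ptn_none j x c h1) h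

variable {i j : ℕ} {σ : Equiv.Perm C} {z : C ↪ Pos d} {X0 : Finset C} {r : C → ℕ}

theorem mem_Sel1 (ω : Coins n d) {x : C} (hx : x ∈ X0) {k : ℕ} (hk : k < r x) :
    (altP i j σ z ω ^ k) x ∈ Sel i j σ z X0 r ω :=
  Finset.mem_biUnion.2 ⟨x, hx, Finset.mem_union_left _
    (Finset.mem_image.2 ⟨k, Finset.mem_range.2 hk, rfl⟩)⟩

theorem mem_Sel2 (ω : Coins n d) {x : C} (hx : x ∈ X0) {k : ℕ} (hk : k < r x) :
    σ ((altP i j σ z ω ^ k) x) ∈ Sel i j σ z X0 r ω :=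
  Finset.mem_biUnion.2 ⟨x, hx, Finset.mem_union_right _
    (Finset.mem_image.2 ⟨k, Finset.mem_range.2 hk, rfl⟩)⟩

/-- non-start selected cards keep their path -/
theorem keep_path {ω ω' : Coins n d}
    (hB : ∀ p : Fin n × Pos d, p ∉ FF i j σ z X0 r ω → ω' p.1 p.2 = ω p.1 p.2)
    {c : C} (hc : c ∈ Sel i j σ z X0 r ω) (hc0 : c ∉ X0) (s : ℕ) :
    wpos i ω' s (z c) = wpos i ω s (z c) := by
  refine wpos_congr_of_path i ω ω' (z c) (fun p hp => ?_) s
  apply hB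
  intro hF
  unfold FF at hF
  rw [Finset.mem_filter] at hF
  obtain ⟨_, x, hx, _, hx2⟩ := hF
  exact hx2 c hc (fun h => hc0 (h ▸ hx)) hp

omit [DecidableEq C] in
theorem pow_succ_alt (ω : Coins n d) (k : ℕ) (x : C) :
    (altP i j σ z ω ^ (k + 1)) x = ptnE j (wend i ω z) (σ ((altP i j σ z ω ^ k) x)) := by
  rw [pow_succ', Equiv.Perm.mul_apply]
  rfl

theorem explore {ω1 ω2 ω' : Coins n d} (h1 : Ev i j σ z X0 r ω1) (h2 : Ev i j σ z X0 r ω2)
    (hB1 : ∀ p : Fin n × Pos d, p ∉ FF i j σ z X0 r ω1 → ω' p.1 p.2 = ω1 p.1 p.2)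
    (hB2 : ∀ p : Fin n × Pos d, p ∉ FF i j σ z X0 r ω2 → ω' p.1 p.2 = ω2 p.1 p.2)
    {x : C} (hx : x ∈ X0) (k : ℕ) (hk : k < r x) :
    (altP i j σ z ω1 ^ k) x = (altP i j σ z ω2 ^ k) x := by
  induction k with
  | zero => rfl
  | succ k ih =>
    have hk' : k < r x := by omega
    have ih' := ih hk'
    rw [pow_succ_alt, pow_succ_alt, ← ih']
    set c := σ ((altP i j σ z ω1 ^ k) x) with hc
    obtain ⟨_, _, a3, a4, a5⟩ := h1 x hx
    obtain ⟨_, _, b3, b4, b5⟩ := h2 x hx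
    have hc2 : c = σ ((altP i j σ z ω2 ^ k) x) := by rw [hc, ih']
    have n1 : ptnE j (wend i ω1 z) c ≠ c := a5 k hk'
    have n2 : ptnE j (wend i ω2 z) c ≠ c := by rw [hc2]; exact b5 k hk'
    have e1 := ptnE_spec' n1
    have e2 := ptnE_spec' n2
    have c1 : wend i ω' z c = wend i ω1 z c :=
      keep_path hB1 (mem_Sel2 ω1 hx hk') (a4 k hk') n
    have c2 : wend i ω' z c = wend i ω2 z c := by
      have := keep_path hB2 (mem_Sel2 ω2 hx hk') (b4 k hk') n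
      rw [← hc2] at this
      exact this
    have t1 : wend i ω' z (ptnE j (wend i ω1 z) c) = wend i ω1 z (ptnE j (wend i ω1 z) c) := by
      have hm := mem_Sel1 (i := i) (j := j) (σ := σ) (z := z) ω1 hx hk
      have hn := a3 (k + 1) (by omega) hk
      rw [pow_succ_alt] at hm hn
      exact keep_path hB1 hm hn n
    have t2 : wend i ω' z (ptnE j (wend i ω2 z) c) = wend i ω2 z (ptnE j (wend i ω2 z) c) := by
      have hm := mem_Sel1 (i := i) (j := j) (σ := σ) (z := z) ω2 hx hk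
      have hn := b3 (k + 1) (by omega) hk
      rw [pow_succ_alt, ← hc2] at hm hn
      exact keep_path hB2 hm hn n
    apply (wend i ω' z).injective
    rw [t1, t2, e1, e2, ← c1, ← c2]

theorem end_eq {ω1 ω2 ω' : Coins n d} (h1 : Ev i j σ z X0 r ω1) (h2 : Ev i j σ z X0 r ω2)
    (hB1 : ∀ p : Fin n × Pos d, p ∉ FF i j σ z X0 r ω1 → ω' p.1 p.2 = ω1 p.1 p.2)
    (hB2 : ∀ p : Fin n × Pos d, p ∉ FF i j σ z X0 r ω2 → ω' p.1 p.2 = ω2 p.1 p.2)
    {x : C} (hx : x ∈ X0) : wend i ω1 z x = wend i ω2 z x := by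
  obtain ⟨a1, a2, _, a4, a5⟩ := h1 x hx
  obtain ⟨b1, b2, _, b4, b5⟩ := h2 x hx
  have hk : r x - 1 < r x := by omega
  have hs : r x = (r x - 1) + 1 := by omega
  have ex := explore h1 h2 hB1 hB2 hx (r x - 1) hk
  rw [hs, pow_succ_alt] at a2 b2
  rw [← ex] at b2
  set c := σ ((altP i j σ z ω1 ^ (r x - 1)) x) with hc
  have hc2 : c = σ ((altP i j σ z ω2 ^ (r x - 1)) x) := by rw [hc, ex]
  have n1 : ptnE j (wend i ω1 z) c ≠ c := a5 _ hk
  have n2 : ptnE j (wend i ω2 z) c ≠ c := by rw [hc2]; exact b5 _ hk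
  have e1 := ptnE_spec' n1
  have e2 := ptnE_spec' n2
  rw [a2] at e1
  rw [b2] at e2
  have c1 : wend i ω' z c = wend i ω1 z c := keep_path hB1 (mem_Sel2 ω1 hx hk) (a4 _ hk) n
  have c2 : wend i ω' z c = wend i ω2 z c := by
    have := keep_path hB2 (mem_Sel2 ω2 hx hk) (b4 _ hk) n
    rw [← hc2] at this
    exact this
  rw [e1, e2, ← c1, ← c2]

theorem Sel_eq {ω1 ω2 : Coins n d}
    (h : ∀ x ∈ X0, ∀ k, k < r x → (altP i j σ z ω1 ^ k) x = (altP i j σ z ω2 ^ k) x) :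
    Sel i j σ z X0 r ω1 = Sel i j σ z X0 r ω2 := by
  unfold Sel
  refine Finset.biUnion_congr rfl fun x hx => ?_
  have e1 : ∀ k ∈ Finset.range (r x), (altP i j σ z ω1 ^ k) x = (altP i j σ z ω2 ^ k) x :=
    fun k hk => h x hx k (Finset.mem_range.1 hk)
  congr 1
  · exact Finset.image_congr fun k hk => e1 k hk
  · exact Finset.image_congr fun k hk => congrArg σ (e1 k hk)

theorem w4_inj (w3 : W3Statement) (hi : i + n ≤ d) {ω1 ω2 ω' : Coins n d}
    (h1 : Ev i j σ z X0 r ω1) (h2 : Ev i j σ z X0 r ω2)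
    (hB1 : ∀ p : Fin n × Pos d, p ∉ FF i j σ z X0 r ω1 → ω' p.1 p.2 = ω1 p.1 p.2)
    (hB2 : ∀ p : Fin n × Pos d, p ∉ FF i j σ z X0 r ω2 → ω' p.1 p.2 = ω2 p.1 p.2) :
    ω1 = ω2 := by
  have hex : ∀ x ∈ X0, ∀ k, k < r x → (altP i j σ z ω1 ^ k) x = (altP i j σ z ω2 ^ k) x :=
    fun x hx k hk => explore h1 h2 hB1 hB2 hx k hk
  have hSel := Sel_eq hex
  have hst : ∀ x ∈ X0, (∀ s ≤ n, wpos i ω1 s (z x) = wpos i ω2 s (z x)) ∧
      (∀ s : Fin n, ω1 s (clr (i + (s : ℕ)) (wpos i ω1 (s : ℕ) (z x))) =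
        ω2 s (clr (i + (s : ℕ)) (wpos i ω2 (s : ℕ) (z x)))) := fun x hx =>
    w3 n d i hi ω1 ω2 (z x) (end_eq h1 h2 hB1 hB2 hx)
  have hstart : ∀ x ∈ X0, pathS i ω1 (z x) = pathS i ω2 (z x) := by
    intro x hx
    unfold pathS site
    refine Finset.image_congr fun s _ => ?_
    rw [(hst x hx).1 (s : ℕ) s.2.le]
  have hpath : ∀ c ∈ Sel i j σ z X0 r ω1, pathS i ω1 (z c) = pathS i ω2 (z c) := by
    intro c hc
    by_cases hc0 : c ∈ X0
    · exact hstart c hc0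
    · have k1 := keep_path hB1 hc hc0
      have k2 := keep_path hB2 (hSel ▸ hc) hc0
      rw [← pathS_congr i ω1 ω' (z c) k1, ← pathS_congr i ω2 ω' (z c) k2]
  have hFF : ∀ p, p ∈ FF i j σ z X0 r ω1 ↔ p ∈ FF i j σ z X0 r ω2 := by
    intro p
    unfold FF
    rw [Finset.mem_filter, Finset.mem_filter]
    simp only [Finset.mem_univ, true_and]
    constructor
    · rintro ⟨x, hx, hp, hq⟩
      refine ⟨x, hx, ?_, fun c hc hcx => ?_⟩
      · rw [← hstart x hx]; exact hp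
      · rw [← hSel] at hc
        rw [← hpath c hc]
        exact hq c hc hcx
    · rintro ⟨x, hx, hp, hq⟩
      refine ⟨x, hx, ?_, fun c hc hcx => ?_⟩
      · rw [hstart x hx]; exact hp
      · rw [hpath c hc]
        rw [hSel] at hc
        exact hq c hc hcx
  funext s p
  by_cases hp : (s, p) ∈ FF i j σ z X0 r ω1
  · have hp' := hp
    unfold FF at hp'
    rw [Finset.mem_filter] at hp'
    obtain ⟨_, x, hx, hpx, _⟩ := hp'
    unfold pathS site at hpx
    obtain ⟨s', _, hs'⟩ := Finset.mem_image.1 hpx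
    have e1 : s' = s := congrArg Prod.fst hs'
    subst e1
    have e2 : clr (i + (s' : ℕ)) (wpos i ω1 (s' : ℕ) (z x)) = p := congrArg Prod.snd hs'
    have e3 : clr (i + (s' : ℕ)) (wpos i ω2 (s' : ℕ) (z x)) = p := by
      rw [← (hst x hx).1 (s' : ℕ) s'.2.le]; exact e2
    have := (hst x hx).2 s'
    rw [e2, e3] at this
    exact this
  · have hp2 : (s, p) ∉ FF i j σ z X0 r ω2 := fun h => hp ((hFF _).2 h)
    exact (hB1 _ hp).symm.trans (hB2 _ hp2)

end

theorem w4a_main : W4AStatement := by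
  intro w3 n d C _ _ i j hi σ _ z X0 r E hE
  classical
  let B : Coins n d → Finset (Coins n d) := fun ω =>
    Finset.univ.filter fun ω' => ∀ p : Fin n × Pos d, p ∉ FF i j σ z X0 r ω →
      ω' p.1 p.2 = ω p.1 p.2
  have hcard : ∀ ω, 2 ^ (FF i j σ z X0 r ω).card ≤ (B ω).card := by
    intro ω
    have h1 : Fintype.card (↥(FF i j σ z X0 r ω) → Bool) = 2 ^ (FF i j σ z X0 r ω).card := by
      rw [Fintype.card_fun, Fintype.card_bool, Fintype.card_coe]
    rw [← h1, ← Finset.card_univ]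
    refine Finset.card_le_card_of_injOn (fun g : ↥(FF i j σ z X0 r ω) → Bool =>
      (fun s p => if h : (s, p) ∈ FF i j σ z X0 r ω then g ⟨(s, p), h⟩ else ω s p :
        Coins n d)) ?_ ?_
    · intro g _
      simp only [B, Finset.coe_filter, Finset.mem_univ, true_and, Set.mem_ofPred_eq]
      rintro ⟨s, p⟩ hp
      simp only
      rw [dif_neg hp]
    · intro g _ g' _ hgg
      funext ⟨⟨s, p⟩, hp⟩
      have := congrFun (congrFun hgg s) p
      simp only [dif_pos hp] at this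
      exact this
  have hdisj : ∀ ω1 ∈ E, ∀ ω2 ∈ E, ω1 ≠ ω2 → Disjoint (B ω1) (B ω2) := by
    intro ω1 h1 ω2 h2 hne
    rw [Finset.disjoint_left]
    intro ω' hw1 hw2
    simp only [B, Finset.mem_filter, Finset.mem_univ, true_and] at hw1 hw2
    exact hne (w4_inj w3 hi (hE ω1 h1) (hE ω2 h2) hw1 hw2)
  calc ∑ ω ∈ E, 2 ^ (FF i j σ z X0 r ω).card ≤ ∑ ω ∈ E, (B ω).card :=
        Finset.sum_le_sum fun ω _ => hcard ω
    _ = (E.biUnion B).card := (Finset.card_biUnion hdisj).symm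
    _ ≤ Fintype.card (Coins n d) := Finset.card_le_univ _

end P162L
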