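/-
P162 (Thorp shuffle), Theta(log n) project, module W5 (helper9): selection lemma.
-/
import Vale.Agent.P162.Log.Window

namespace P162L

open scoped BigOperators

section w5

variable {C S : Type} [Fintype C] [DecidableEq C] [Fintype S] [DecidableEq S]

omit [Fintype S] in
/-- the number of good subsets is at least a quarter of all of them -/
theorem w5_quarter (St : Finset C) (O : C → Finset C) (path : C → Finset S)
    (h1 : ∀ x ∈ St, ∀ y ∈ St, x ≠ y → Disjoint (O x) (O y))
    (h2 : ∀ s : S, (Finset.univ.filter fun c => s ∈ path c).card ≤ 2)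
    (x : C) (hx : x ∈ St) (s : S) (hs : s ∈ path x) (hs' : ∀ c ∈ O x, c ≠ x → s ∉ path c) :
    2 ^ St.card ≤ 4 * (St.powerset.filter fun X0 => x ∈ X0 ∧
      ∀ x' ∈ X0, ∀ c ∈ O x', c ≠ x → s ∉ path c).card := by
  classical
  have hbad : ∀ a ∈ St, ∀ b ∈ St, (∃ c ∈ O a, c ≠ x ∧ s ∈ path c) →
      (∃ c ∈ O b, c ≠ x ∧ s ∈ path c) → a = b := by
    intro a ha b hb hba hbb
    obtain ⟨c, hc, hcx, hcs⟩ := hba
    obtain ⟨c', hc', hcx', hcs'⟩ := hbb
    by_contra hab
    have hcc : c ≠ c' := by
      intro h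
      subst h
      exact Finset.disjoint_left.mp (h1 a ha b hb hab) hc hc'
    have h3 : ({x, c, c'} : Finset C).card = 3 :=
      Finset.card_eq_three.mpr ⟨x, c, c', Ne.symm hcx, Ne.symm hcx', hcc, rfl⟩
    have h4 : ({x, c, c'} : Finset C) ⊆ Finset.univ.filter fun c => s ∈ path c := by
      intro y hy
      rw [Finset.mem_filter]
      refine ⟨Finset.mem_univ y, ?_⟩
      rw [Finset.mem_insert, Finset.mem_insert, Finset.mem_singleton] at hy
      rcases hy with rfl | rfl | rfl
      · exact hs
      · exact hcs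
      · exact hcs'
    have h5 := Finset.card_le_card h4
    have h6 := h2 s
    omega
  have hcard : St.powerset.card ≤ ((St.powerset.filter fun X0 => x ∈ X0 ∧
      ∀ x' ∈ X0, ∀ c ∈ O x', c ≠ x → s ∉ path c) ×ˢ (Finset.univ : Finset (Bool × Bool))).card := by
    apply Finset.card_le_card_of_injOn (fun X => (insert x (X.filter fun x' =>
      ¬ ∃ c ∈ O x', c ≠ x ∧ s ∈ path c), (decide (x ∈ X), decide (∃ x' ∈ X,
      ∃ c ∈ O x', c ≠ x ∧ s ∈ path c))))
    · intro X hX
      have hXS : X ⊆ St := Finset.mem_powerset.mp hX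
      simp only [Finset.coe_product, Finset.coe_filter, Finset.coe_univ, Set.mem_prod,
        Set.mem_ofPred_eq, Set.mem_univ, and_true]
      refine ⟨?_, Finset.mem_insert_self _ _, ?_⟩
      · rw [Finset.mem_powerset]
        intro y hy
        rw [Finset.mem_insert, Finset.mem_filter] at hy
        rcases hy with rfl | hy
        · exact hx
        · exact hXS hy.1
      · intro x' hx' c hc hcx hcs
        rw [Finset.mem_insert, Finset.mem_filter] at hx'
        rcases hx' with rfl | hx'
        · exact hs' c hc hcx hcs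
        · exact hx'.2 ⟨c, hc, hcx, hcs⟩
    · have hkey : ∀ X Y : Finset C, X ⊆ St → Y ⊆ St →
          insert x (X.filter fun x' => ¬ ∃ c ∈ O x', c ≠ x ∧ s ∈ path c) =
          insert x (Y.filter fun x' => ¬ ∃ c ∈ O x', c ≠ x ∧ s ∈ path c) →
          (x ∈ X → x ∈ Y) → ((∃ x' ∈ X, ∃ c ∈ O x', c ≠ x ∧ s ∈ path c) →
            (∃ x' ∈ Y, ∃ c ∈ O x', c ≠ x ∧ s ∈ path c)) → X ⊆ Y := by
        intro X Y hX hY he hxX hb a ha
        by_cases hax : a = x
        · subst hax
          exact hxX ha
        by_cases hba : ∃ c ∈ O a, c ≠ x ∧ s ∈ path c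
        · obtain ⟨x', hx', hbx'⟩ := hb ⟨a, ha, hba⟩
          rw [hbad a (hX ha) x' (hY hx') hba hbx']
          exact hx'
        · have h7 : a ∈ insert x (X.filter fun x' => ¬ ∃ c ∈ O x', c ≠ x ∧ s ∈ path c) := by
            rw [Finset.mem_insert, Finset.mem_filter]
            exact Or.inr ⟨ha, hba⟩
          rw [he, Finset.mem_insert, Finset.mem_filter] at h7
          rcases h7 with h7 | h7
          · exact absurd h7 hax
          · exact h7.1
      intro X hX Y hY hXY
      have hXS : X ⊆ St := Finset.mem_powerset.mp hX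
      have hYS : Y ⊆ St := Finset.mem_powerset.mp hY
      simp only [Prod.mk.injEq, decide_eq_decide] at hXY
      obtain ⟨he, hxe, hbe⟩ := hXY
      apply Finset.Subset.antisymm
      · exact hkey X Y hXS hYS he hxe.mp hbe.mp
      · exact hkey Y X hYS hXS he.symm hxe.mpr hbe.mpr
  rw [Finset.card_powerset, Finset.card_product, Finset.card_univ] at hcard
  have h8 : Fintype.card (Bool × Bool) = 4 := by decide
  rw [h8] at hcard
  omega

end w5

theorem w5_main : W5Statement := by
  intro C S _ _ _ _ St O path u h1 h2 h3 h4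
  by_contra hcon
  push Not at hcon
  -- sum over all subsets
  have hlow : ∀ X0 ∈ St.powerset, ∑ x ∈ St, (((path x).filter fun s =>
      ∀ c ∈ O x, c ≠ x → s ∉ path c).filter fun s => x ∈ X0 ∧
        ∀ x' ∈ X0, ∀ c ∈ O x', c ≠ x → s ∉ path c).card ≤
      (Finset.univ.filter fun s : S => ∃ x ∈ X0, s ∈ path x ∧
        ∀ x' ∈ X0, ∀ c ∈ O x', c ≠ x → s ∉ path c).card := by
    intro X0 hX0
    have hX0S : X0 ⊆ St := Finset.mem_powerset.mp hX0
    rw [← Finset.card_biUnion]
    · apply Finset.card_le_card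
      intro s hs
      rw [Finset.mem_biUnion] at hs
      obtain ⟨x, hx, hs⟩ := hs
      rw [Finset.mem_filter, Finset.mem_filter] at hs
      rw [Finset.mem_filter]
      exact ⟨Finset.mem_univ s, x, hs.2.1, hs.1.1, hs.2.2⟩
    · intro x hx y hy hxy
      change Disjoint _ _
      rw [Finset.disjoint_left]
      intro s hs hs'
      rw [Finset.mem_filter, Finset.mem_filter] at hs hs'
      exact hs.2.2 y hs'.2.1 y (h3 y hy) (Ne.symm hxy) hs'.1.1
  have hsum : u * St.card * 2 ^ St.card ≤ 4 * ∑ X0 ∈ St.powerset,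
      (Finset.univ.filter fun s : S => ∃ x ∈ X0, s ∈ path x ∧
        ∀ x' ∈ X0, ∀ c ∈ O x', c ≠ x → s ∉ path c).card := by
    calc u * St.card * 2 ^ St.card = ∑ _x ∈ St, u * 2 ^ St.card := by
          rw [Finset.sum_const, smul_eq_mul]
          ring
      _ ≤ ∑ x ∈ St, ∑ s ∈ (path x).filter (fun s => ∀ c ∈ O x, c ≠ x → s ∉ path c),
            4 * (St.powerset.filter fun X0 => x ∈ X0 ∧
              ∀ x' ∈ X0, ∀ c ∈ O x', c ≠ x → s ∉ path c).card := by
          apply Finset.sum_le_sum
          intro x hx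
          calc u * 2 ^ St.card ≤ ((path x).filter
                (fun s => ∀ c ∈ O x, c ≠ x → s ∉ path c)).card * 2 ^ St.card :=
                Nat.mul_le_mul_right _ (h4 x hx)
            _ = ∑ _s ∈ (path x).filter (fun s => ∀ c ∈ O x, c ≠ x → s ∉ path c),
                2 ^ St.card := by
                rw [Finset.sum_const, smul_eq_mul]
            _ ≤ _ := by
                apply Finset.sum_le_sum
                intro s hs
                rw [Finset.mem_filter] at hs
                exact w5_quarter St O path h1 h2 x hx s hs.1 hs.2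
      _ = 4 * ∑ x ∈ St, ∑ s ∈ (path x).filter (fun s => ∀ c ∈ O x, c ≠ x → s ∉ path c),
            (St.powerset.filter fun X0 => x ∈ X0 ∧
              ∀ x' ∈ X0, ∀ c ∈ O x', c ≠ x → s ∉ path c).card := by
          simp only [Finset.mul_sum]
      _ = 4 * ∑ X0 ∈ St.powerset, ∑ x ∈ St, (((path x).filter fun s =>
            ∀ c ∈ O x, c ≠ x → s ∉ path c).filter fun s => x ∈ X0 ∧
            ∀ x' ∈ X0, ∀ c ∈ O x', c ≠ x → s ∉ path c).card := by
          congr 1
          rw [Finset.sum_comm (s := St.powerset)]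
          apply Finset.sum_congr rfl
          intro x _
          exact Finset.sum_card_bipartiteAbove_eq_sum_card_bipartiteBelow
            (fun (s : S) (X0 : Finset C) => x ∈ X0 ∧ ∀ x' ∈ X0, ∀ c ∈ O x', c ≠ x → s ∉ path c)
      _ ≤ _ := Nat.mul_le_mul_left 4 (Finset.sum_le_sum hlow)
  have hup : 4 * ∑ X0 ∈ St.powerset,
      (Finset.univ.filter fun s : S => ∃ x ∈ X0, s ∈ path x ∧
        ∀ x' ∈ X0, ∀ c ∈ O x', c ≠ x → s ∉ path c).card < u * St.card * 2 ^ St.card := by
    rw [Finset.mul_sum, ← Finset.card_powerset, mul_comm (u * St.card), ← smul_eq_mul,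
      ← Finset.sum_const]
    apply Finset.sum_lt_sum_of_nonempty
    · exact ⟨∅, Finset.empty_mem_powerset St⟩
    · intro X0 hX0
      exact hcon X0 (Finset.mem_powerset.mp hX0)
  omega

end P162L
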