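/-
P162 (Thorp shuffle), Theta(log n) project, module W6 (helper1): the window lemma.
-/
import Vale.Agent.P162.Log.Window

namespace P162L

open scoped BigOperators

section orbits

variable {C : Type*} [Fintype C] [DecidableEq C] {σ τ : Equiv.Perm C}

theorem mem_orbF {c c' : C} : c' ∈ orbF σ τ c ↔
    Relation.ReflTransGen (fun a b => b = σ a ∨ b = τ a) c c' := by
  unfold orbF
  simp

theorem self_mem_orbF (c : C) : c ∈ orbF σ τ c := mem_orbF.2 Relation.ReflTransGen.refl

theorem orbF_left {c c' : C} (h : c' ∈ orbF σ τ c) : σ c' ∈ orbF σ τ c :=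
  mem_orbF.2 ((mem_orbF.1 h).tail (Or.inl rfl))

theorem orbF_right {c c' : C} (h : c' ∈ orbF σ τ c) : τ c' ∈ orbF σ τ c :=
  mem_orbF.2 ((mem_orbF.1 h).tail (Or.inr rfl))

theorem orbF_symm (hσ : σ * σ = 1) (hτ : τ * τ = 1) {c c' : C} (h : c' ∈ orbF σ τ c) :
    c ∈ orbF σ τ c' := by
  rw [mem_orbF] at h ⊢
  induction h with
  | refl => exact Relation.ReflTransGen.refl
  | @tail b c' _ h2 ih =>
    refine Relation.ReflTransGen.head ?_ ih
    rcases h2 with rfl | rfl
    · left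
      have := congrArg (fun g : Equiv.Perm C => g b) hσ
      simpa using this.symm
    · right
      have := congrArg (fun g : Equiv.Perm C => g b) hτ
      simpa using this.symm

theorem orbF_sub {c c' : C} (h : c' ∈ orbF σ τ c) : orbF σ τ c' ⊆ orbF σ τ c := by
  intro e he
  rw [mem_orbF] at *
  exact h.trans he

theorem orbF_eq (hσ : σ * σ = 1) (hτ : τ * τ = 1) {c c' : C} (h : c' ∈ orbF σ τ c) :
    orbF σ τ c' = orbF σ τ c :=
  Finset.Subset.antisymm (orbF_sub h) (orbF_sub (orbF_symm hσ hτ h))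

theorem mem_freeOrb {O : Finset C} : O ∈ freeOrb σ τ ↔
    (∃ c, orbF σ τ c = O) ∧ ∀ c ∈ O, σ c ≠ c ∧ τ c ≠ c := by
  unfold freeOrb
  simp [Finset.mem_filter]

theorem freeOrb_eq (hσ : σ * σ = 1) (hτ : τ * τ = 1) {O : Finset C} (hO : O ∈ freeOrb σ τ) {c : C}
    (hc : c ∈ O) : orbF σ τ c = O := by
  obtain ⟨⟨e, rfl⟩, _⟩ := mem_freeOrb.1 hO
  exact orbF_eq hσ hτ hc

theorem freeOrb_disj (hσ : σ * σ = 1) (hτ : τ * τ = 1) {O O' : Finset C} (hO : O ∈ freeOrb σ τ)
    (hO' : O' ∈ freeOrb σ τ) (hne : O ≠ O') : Disjoint O O' := by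
  rw [Finset.disjoint_left]
  intro c hc hc'
  exact hne ((freeOrb_eq hσ hτ hO hc).symm.trans (freeOrb_eq hσ hτ hO' hc'))

theorem freeOrb_nonempty {O : Finset C} (hO : O ∈ freeOrb σ τ) : O.Nonempty := by
  obtain ⟨⟨e, rfl⟩, _⟩ := mem_freeOrb.1 hO
  exact ⟨e, self_mem_orbF e⟩

theorem pow_mem_orbF {c : C} (k : ℕ) {x : C} (hx : x ∈ orbF σ τ c) :
    ((τ * σ) ^ k) x ∈ orbF σ τ c := by
  induction k with
  | zero => simpa using hx
  | succ k ih =>
    rw [pow_succ']
    exact orbF_right (orbF_left ih)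

theorem refl_conj_even (m : ℕ) : σ * (τ * σ) ^ (2 * m) = (σ * τ) ^ m * (σ * (τ * σ) ^ m) := by
  induction m with
  | zero => simp
  | succ m ih =>
    have h1 : (τ * σ) ^ (2 * (m + 1)) = (τ * σ) * (τ * σ) ^ (2 * m) * (τ * σ) := by
      rw [show 2 * (m + 1) = (2 * m + 1) + 1 by ring, pow_succ, pow_succ']
    calc σ * (τ * σ) ^ (2 * (m + 1)) = (σ * τ) * (σ * (τ * σ) ^ (2 * m)) * (τ * σ) := by
          rw [h1]; simp only [mul_assoc]
      _ = (σ * τ) * ((σ * τ) ^ m * (σ * (τ * σ) ^ m)) * (τ * σ) := by rw [ih]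
      _ = (σ * τ) ^ (m + 1) * (σ * (τ * σ) ^ (m + 1)) := by
          rw [pow_succ' (σ * τ), pow_succ (τ * σ)]; simp only [mul_assoc]

theorem refl_fix (hσ : σ * σ = 1) (hτ : τ * τ = 1) {x : C} (k : ℕ)
    (h : σ (((τ * σ) ^ k) x) = x) : ∃ y ∈ orbF σ τ x, σ y = y ∨ τ y = y := by
  have hinv : ∀ m : ℕ, (σ * τ) ^ m * (τ * σ) ^ m = 1 := by
    intro m
    have h1 : σ * τ = (τ * σ)⁻¹ := by
      rw [mul_inv_rev]
      rw [inv_eq_of_mul_eq_one_right hσ, inv_eq_of_mul_eq_one_right hτ]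
    rw [h1, inv_pow, inv_mul_cancel]
  have hinv' : ∀ m : ℕ, (τ * σ) ^ m * (σ * τ) ^ m = 1 := by
    intro m
    have h1 : σ * τ = (τ * σ)⁻¹ := by
      rw [mul_inv_rev]
      rw [inv_eq_of_mul_eq_one_right hσ, inv_eq_of_mul_eq_one_right hτ]
    rw [h1, inv_pow, mul_inv_cancel]
  rcases Nat.even_or_odd' k with ⟨m, rfl | rfl⟩
  · refine ⟨((τ * σ) ^ m) x, pow_mem_orbF m (self_mem_orbF x), Or.inl ?_⟩
    have h1 : (σ * (τ * σ) ^ (2 * m)) x = x := h
    rw [refl_conj_even] at h1
    have h2 : ((τ * σ) ^ m) (((σ * τ) ^ m * (σ * (τ * σ) ^ m)) x) = ((τ * σ) ^ m) x :=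
      congrArg _ h1
    rw [← Equiv.Perm.mul_apply, ← mul_assoc, hinv', one_mul] at h2
    exact h2
  · refine ⟨σ (((τ * σ) ^ m) x), orbF_left (pow_mem_orbF m (self_mem_orbF x)), Or.inr ?_⟩
    have h1 : (σ * (τ * σ) ^ (2 * m + 1)) x = x := h
    have h3 : σ * (τ * σ) ^ (2 * m + 1) = (σ * τ) ^ m * (σ * (τ * σ) ^ (m + 1)) := by
      rw [pow_succ, ← mul_assoc, refl_conj_even, pow_succ (τ * σ)]
      simp only [mul_assoc]
    rw [h3] at h1
    have h2 : ((τ * σ) ^ m) (((σ * τ) ^ m * (σ * (τ * σ) ^ (m + 1))) x) = ((τ * σ) ^ m) x :=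
      congrArg _ h1
    rw [← Equiv.Perm.mul_apply, ← mul_assoc, hinv', one_mul] at h2
    -- σ ((τσ)^(m+1) x) = (τσ)^m x
    rw [pow_succ', Equiv.Perm.mul_apply, Equiv.Perm.mul_apply, Equiv.Perm.mul_apply] at h2
    -- σ (τ (σ w)) = w
    have h4 : σ (σ (τ (σ (((τ * σ) ^ m) x)))) = σ (((τ * σ) ^ m) x) := congrArg _ h2
    have h5 : ∀ y, σ (σ y) = y := fun y => by
      have := congrArg (fun g : Equiv.Perm C => g y) hσ
      simpa using this
    rw [h5] at h4
    exact h4

end orbits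

theorem ptnE_mul_self {d : ℕ} {C : Type*} (j : ℕ) (x : C ↪ Pos d) :
    ptnE j x * ptnE j x = 1 := by
  apply Equiv.ext
  intro c
  exact ptn_ptn j x c

theorem mem_pathS {n d : ℕ} (i : ℕ) (ω : Coins n d) (z : Pos d) (s : Fin n × Pos d) :
    s ∈ pathS i ω z ↔ clr (i + (s.1 : ℕ)) (wpos i ω (s.1 : ℕ) z) = s.2 := by
  unfold pathS site
  rw [Finset.mem_image]
  constructor
  · rintro ⟨t, _, rfl⟩
    rfl
  · intro h
    exact ⟨s.1, Finset.mem_univ _, by rw [h]⟩

theorem card_pathS {n d : ℕ} (i : ℕ) (ω : Coins n d) (z : Pos d) : (pathS i ω z).card = n := by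
  unfold pathS
  rw [Finset.card_image_of_injective, Finset.card_univ, Fintype.card_fin]
  intro s t h
  exact congrArg Prod.fst h

theorem clr_bit_eq {d : ℕ} (j : ℕ) (p p' : Pos d) (h : clr j p = clr j p')
    (h2 : ∀ k : Fin d, (k : ℕ) = j → p k = p' k) : p = p' := by
  funext k
  by_cases hk : (k : ℕ) = j
  · exact h2 k hk
  · have := congrFun h k
    simpa [clr, hk] using this

theorem users_le {n d : ℕ} {C : Type*} [Fintype C] [DecidableEq C] (i : ℕ) (ω : Coins n d)
    (z : C ↪ Pos d) (s : Fin n × Pos d) :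
    (Finset.univ.filter fun c => s ∈ pathS i ω (z c)).card ≤ 2 := by
  classical
  have h : (Finset.univ.filter fun c => s ∈ pathS i ω (z c)).card ≤
      (Finset.univ : Finset Bool).card := by
    apply Finset.card_le_card_of_injOn (fun c => decide (∃ k : Fin d, (k : ℕ) = i + (s.1 : ℕ) ∧
      wpos i ω (s.1 : ℕ) (z c) k = true)) (fun _ _ => Finset.mem_univ _)
    intro c hc c' hc' heq
    simp only [Finset.coe_filter, Finset.mem_univ, true_and, Set.mem_ofPred_eq, mem_pathS] at hc hc'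
    apply z.injective
    apply wpos_injective i ω (s.1 : ℕ)
    apply clr_bit_eq (i + (s.1 : ℕ)) _ _ (hc.trans hc'.symm)
    intro k hk
    simp only [decide_eq_decide] at heq
    by_cases h1 : wpos i ω (s.1 : ℕ) (z c) k = true
    · obtain ⟨k', hk', h2⟩ := heq.1 ⟨k, hk, h1⟩
      have : k' = k := Fin.ext (hk'.trans hk.symm)
      rw [this] at h2
      rw [h1, h2]
    · by_cases h3 : wpos i ω (s.1 : ℕ) (z c') k = true
      · obtain ⟨k', hk', h2⟩ := heq.2 ⟨k, hk, h3⟩
        have : k' = k := Fin.ext (hk'.trans hk.symm)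
        rw [this] at h2
        exact absurd h2 h1
      · rw [Bool.not_eq_true] at h1 h3
        rw [h1, h3]
  simpa using h

theorem mem_FF' {n d : ℕ} {C : Type*} [DecidableEq C] (i j : ℕ) (σ : Equiv.Perm C)
    (z : C ↪ Pos d) (X0 : Finset C) (r : C → ℕ) (ω : Coins n d) (s : Fin n × Pos d) :
    s ∈ FF i j σ z X0 r ω ↔ ∃ x ∈ X0, s ∈ pathS i ω (z x) ∧
      ∀ c ∈ Sel i j σ z X0 r ω, c ≠ x → s ∉ pathS i ω (z c) := by
  unfold FF
  simp

/-- selection of starts with many switches which are used by no other selected card -/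
theorem select (hW2 : W2Statement) (hW5 : W5Statement) {C : Type} [Fintype C] [DecidableEq C]
    {n d i j b : ℕ} (hn : n = 16 * b) (hi : i + n ≤ d) (hb : 1 ≤ b) (σ : Equiv.Perm C)
    (hσ : σ * σ = 1) (z : C ↪ Pos d) (ω : Coins n d) (Sh : Finset (Finset C))
    (hSh : Sh = (freeOrb σ (ptnE j (wend i ω z))).filter (fun O => O.card ≤ 2 ^ (b + 1))) :
    Sh.card = 0 ∨ ∃ (X0 : Finset C) (r : C → ℕ), X0.Nonempty ∧ X0.card ≤ Sh.card ∧
      (∀ x ∈ X0, 1 ≤ r x ∧ r x ≤ 2 ^ (b + 1)) ∧ (∀ x, x ∉ X0 → r x = 0) ∧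
      Ev i j σ z X0 r ω ∧ 3 * b * Sh.card ≤ (FF i j σ z X0 r ω).card := by
  classical
  set τ := ptnE j (wend i ω z) with hτdef
  have hτ : τ * τ = 1 := ptnE_mul_self j _
  by_cases h0 : Sh.card = 0
  · exact Or.inl h0
  right
  have hShne : Sh.Nonempty := Finset.card_pos.1 (Nat.pos_of_ne_zero h0)
  have hfree : ∀ O ∈ Sh, O ∈ freeOrb σ τ := fun O hO => by
    rw [hSh] at hO; exact (Finset.mem_filter.1 hO).1
  have hcard : ∀ O ∈ Sh, O.card ≤ 2 ^ (b + 1) := fun O hO => by
    rw [hSh] at hO; exact (Finset.mem_filter.1 hO).2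
  -- starts
  have hW : ∀ O ∈ Sh, ∃ c ∈ O, ((pathS i ω (z c)).filter
      (fun s => ∃ c' ∈ O, c' ≠ c ∧ s ∈ pathS i ω (z c'))).card ≤ b + 1 := by
    intro O hO
    obtain ⟨c, hc, h⟩ := hW2 n d C i hi ω z O (freeOrb_nonempty (hfree O hO))
    refine ⟨c, hc, ?_⟩
    have h1 := h.trans (hcard O hO)
    have h2 := (Nat.pow_le_pow_iff_right (by norm_num : 1 < 2)).1 h1
    convert h2
  obtain ⟨O1, hO1⟩ := hShne
  obtain ⟨c1, _⟩ := freeOrb_nonempty (hfree O1 hO1)
  have : Inhabited C := ⟨c1⟩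
  choose! st hst hst2 using hW
  have hstinj : Set.InjOn st (Sh : Set (Finset C)) := by
    intro O hO O' hO' h
    by_contra hne
    have := freeOrb_disj hσ hτ (hfree O hO) (hfree O' hO') hne
    rw [Finset.disjoint_left] at this
    exact this (hst O hO) (h ▸ hst O' hO')
  set St := Sh.image st with hSt
  have hStcard : St.card = Sh.card := Finset.card_image_of_injOn hstinj
  have horb : ∀ O ∈ Sh, orbF σ τ (st O) = O := fun O hO => freeOrb_eq hσ hτ (hfree O hO) (hst O hO)
  have hdisj : ∀ x ∈ St, ∀ y ∈ St, x ≠ y → Disjoint (orbF σ τ x) (orbF σ τ y) := by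
    intro x hx y hy hne
    obtain ⟨O, hO, rfl⟩ := Finset.mem_image.1 hx
    obtain ⟨O', hO', rfl⟩ := Finset.mem_image.1 hy
    rw [horb O hO, horb O' hO']
    exact freeOrb_disj hσ hτ (hfree O hO) (hfree O' hO') (fun h => hne (by rw [h]))
  have hu : ∀ x ∈ St, 14 * b ≤ ((pathS i ω (z x)).filter
      fun s => ∀ c ∈ orbF σ τ x, c ≠ x → s ∉ pathS i ω (z c)).card := by
    intro x hx
    obtain ⟨O, hO, rfl⟩ := Finset.mem_image.1 hx
    rw [horb O hO]
    have h1 := Finset.card_filter_add_card_filter_not (s := pathS i ω (z (st O)))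
      (fun s => ∃ c' ∈ O, c' ≠ st O ∧ s ∈ pathS i ω (z c'))
    rw [card_pathS] at h1
    have h2 := hst2 O hO
    have h3 : (pathS i ω (z (st O))).filter
        (fun s => ¬ ∃ c' ∈ O, c' ≠ st O ∧ s ∈ pathS i ω (z c')) =
        (pathS i ω (z (st O))).filter
        (fun s => ∀ c ∈ O, c ≠ st O → s ∉ pathS i ω (z c)) := by
      apply Finset.filter_congr
      intro s _
      push Not
      rfl
    rw [h3] at h1
    omega
  obtain ⟨X0, hX0, hF⟩ := hW5 C (Fin n × Pos d) St (orbF σ τ) (fun c => pathS i ω (z c)) (14 * b)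
    hdisj (fun s => users_le i ω z s) (fun x _ => self_mem_orbF x) hu
  have hfreex : ∀ x ∈ X0, ∀ c ∈ orbF σ τ x, σ c ≠ c ∧ τ c ≠ c := by
    intro x hx c hc
    obtain ⟨O, hO, rfl⟩ := Finset.mem_image.1 (hX0 hx)
    rw [horb O hO] at hc
    exact (mem_freeOrb.1 (hfree O hO)).2 c hc
  have hcardx : ∀ x ∈ X0, (orbF σ τ x).card ≤ 2 ^ (b + 1) := by
    intro x hx
    obtain ⟨O, hO, rfl⟩ := Finset.mem_image.1 (hX0 hx)
    rw [horb O hO]
    exact hcard O hO
  have huniq : ∀ x ∈ X0, ∀ y ∈ X0, ∀ c, c ∈ orbF σ τ x → c ∈ orbF σ τ y → x = y := by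
    intro x hx y hy c hcx hcy
    by_contra hne
    exact Finset.disjoint_left.1 (hdisj x (hX0 hx) y (hX0 hy) hne) hcx hcy
  set r : C → ℕ := fun x => if x ∈ X0 then Function.minimalPeriod (τ * σ) x else 0 with hr
  have hrx : ∀ x ∈ X0, r x = Function.minimalPeriod (τ * σ) x := fun x hx => by
    simp [hr, hx]
  have hper : ∀ x, x ∈ Function.periodicPts (τ * σ) := by
    intro x
    refine Function.mk_mem_periodicPts (orderOf_pos (τ * σ)) ?_
    rw [Function.IsPeriodicPt, Function.IsFixedPt, ← Equiv.Perm.coe_pow, pow_orderOf_eq_one]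
    rfl
  have hpow : ∀ (k : ℕ) x, (⇑(τ * σ))^[k] x = ((τ * σ) ^ k) x := by
    intro k x
    rw [Equiv.Perm.coe_pow]
  refine ⟨X0, r, ?_, ?_, ?_, ?_, ?_, ?_⟩
  · rw [Finset.nonempty_iff_ne_empty]
    rintro rfl
    have h1 : (Finset.univ.filter fun s : Fin n × Pos d => ∃ x ∈ (∅ : Finset C),
        s ∈ pathS i ω (z x) ∧ ∀ x' ∈ (∅ : Finset C), ∀ c ∈ orbF σ τ x', c ≠ x →
          s ∉ pathS i ω (z c)).card = 0 := by
      simp
    rw [hStcard] at hF
    have h2 : 0 < Sh.card := Nat.pos_of_ne_zero h0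
    have h3 : 0 < 14 * b * Sh.card := by positivity
    have h4 := lt_of_lt_of_le h3 hF
    simp at h4
  · rw [← hStcard]; exact Finset.card_le_card hX0
  · intro x hx
    rw [hrx x hx]
    refine ⟨Function.minimalPeriod_pos_of_mem_periodicPts (hper x), ?_⟩
    refine le_trans ?_ (hcardx x hx)
    have h1 : ((Finset.range (Function.minimalPeriod (τ * σ) x)).image
        (fun k => ((τ * σ) ^ k) x)).card = Function.minimalPeriod (τ * σ) x := by
      rw [Finset.card_image_of_injOn, Finset.card_range]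
      intro k hk l hl hkl
      simp only [Finset.coe_range, Set.mem_Iio] at hk hl
      simp only [← hpow] at hkl
      exact Function.iterate_injOn_Iio_minimalPeriod hk hl hkl
    rw [← h1]
    apply Finset.card_le_card
    intro y hy
    obtain ⟨k, _, rfl⟩ := Finset.mem_image.1 hy
    exact pow_mem_orbF k (self_mem_orbF x)
  · intro x hx
    simp [hr, hx]
  · intro x hx
    have hP : altP i j σ z ω = τ * σ := rfl
    rw [hP]
    refine ⟨?_, ?_, ?_, ?_, ?_⟩
    · rw [hrx x hx]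
      exact Function.minimalPeriod_pos_of_mem_periodicPts (hper x)
    · rw [hrx x hx, ← hpow]
      exact Function.iterate_minimalPeriod
    · intro k hk1 hk2 hmem
      rw [hrx x hx] at hk2
      have h1 := huniq x hx _ hmem _ (pow_mem_orbF k (self_mem_orbF x)) (self_mem_orbF _)
      have h2 : Function.IsPeriodicPt (⇑(τ * σ)) k x := by
        rw [Function.IsPeriodicPt, Function.IsFixedPt, hpow]
        exact h1.symm
      exact absurd (h2.minimalPeriod_le (by omega)) (by omega)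
    · intro k hk hmem
      have h1 := huniq x hx _ hmem _ (orbF_left (pow_mem_orbF k (self_mem_orbF x)))
        (self_mem_orbF _)
      obtain ⟨y, hy, h2⟩ := refl_fix hσ hτ k h1.symm
      have h3 := hfreex x hx y hy
      tauto
    · intro k hk
      exact (hfreex x hx _ (orbF_left (pow_mem_orbF k (self_mem_orbF x)))).2
  · have hsub : (Finset.univ.filter fun s : Fin n × Pos d => ∃ x ∈ X0, s ∈ pathS i ω (z x) ∧
        ∀ x' ∈ X0, ∀ c ∈ orbF σ τ x', c ≠ x → s ∉ pathS i ω (z c)) ⊆ FF i j σ z X0 r ω := by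
      intro s hs
      obtain ⟨x, hx, h1, h2⟩ := (Finset.mem_filter.1 hs).2
      rw [mem_FF']
      refine ⟨x, hx, h1, ?_⟩
      intro c hc hne
      unfold Sel at hc
      rw [Finset.mem_biUnion] at hc
      obtain ⟨x', hx', hc⟩ := hc
      refine h2 x' hx' c ?_ hne
      rcases Finset.mem_union.1 hc with hc | hc
      · obtain ⟨k, _, rfl⟩ := Finset.mem_image.1 hc
        exact pow_mem_orbF k (self_mem_orbF x')
      · obtain ⟨k, _, rfl⟩ := Finset.mem_image.1 hc
        exact orbF_left (pow_mem_orbF k (self_mem_orbF x'))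
    have h1 := Finset.card_le_card hsub
    rw [hStcard] at hF
    have h2 : 14 * b * Sh.card ≤ 4 * (FF i j σ z X0 r ω).card := by
      refine hF.trans ?_
      apply Nat.mul_le_mul_left
      convert h1
    have h3 : 4 * (3 * b * Sh.card) ≤ 14 * b * Sh.card := by
      nlinarith [Nat.zero_le (b * Sh.card)]
    omega

theorem long_card {C : Type} [Fintype C] [DecidableEq C] (σ τ : Equiv.Perm C) (hσ : σ * σ = 1)
    (hτ : τ * τ = 1) (K : ℕ) :
    ((freeOrb σ τ).filter (fun O => ¬ O.card ≤ K)).card * K ≤ Fintype.card C := by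
  classical
  set Lg := (freeOrb σ τ).filter (fun O => ¬ O.card ≤ K) with hLg
  have h1 : (Lg.biUnion id).card = ∑ O ∈ Lg, O.card := by
    apply Finset.card_biUnion
    intro O hO O' hO' hne
    exact freeOrb_disj hσ hτ (Finset.mem_filter.1 hO).1 (Finset.mem_filter.1 hO').1 hne
  calc Lg.card * K = ∑ _O ∈ Lg, K := by rw [Finset.sum_const, smul_eq_mul]
    _ ≤ ∑ O ∈ Lg, O.card := Finset.sum_le_sum fun O hO => by
        have := (Finset.mem_filter.1 hO).2
        omega
    _ = (Lg.biUnion id).card := h1.symm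
    _ ≤ Fintype.card C := Finset.card_le_univ _

theorem w6_main : W6Statement := by
  intro hW1 hW2 hW4 hW5 d C _ _ σ hσ b j hb hj hjd θ h1 h2 z
  classical
  rw [hW1 (16 * b) d C (j - 16 * b) _ z]
  obtain ⟨n, hn⟩ : ∃ n, n = 16 * b := ⟨_, rfl⟩
  obtain ⟨i, hi0⟩ : ∃ i, i = j - 16 * b := ⟨_, rfl⟩
  rw [← hi0, ← hn]
  have hi : i + n ≤ d := by omega
  set q := Fintype.card C with hq
  set N : ℝ := (Fintype.card (Coins n d) : ℝ) with hN
  have hNpos : 0 < N := by
    rw [hN]
    exact_mod_cast Fintype.card_pos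
  set Sh : Coins n d → Finset (Finset C) := fun ω =>
    (freeOrb σ (ptnE j (wend i ω z))).filter (fun O => O.card ≤ 2 ^ (b + 1)) with hSh
  set Lg : Coins n d → Finset (Finset C) := fun ω =>
    (freeOrb σ (ptnE j (wend i ω z))).filter (fun O => ¬ O.card ≤ 2 ^ (b + 1)) with hLg
  have hcyc : ∀ ω, cyc σ (ptnE j (wend i ω z)) = (Sh ω).card + (Lg ω).card := by
    intro ω
    unfold cyc
    rw [hSh, hLg]
    exact (Finset.card_filter_add_card_filter_not _).symm
  have hθ0 : 0 < θ := by linarith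
  -- long orbits
  have hlong : ∀ ω, θ ^ (Lg ω).card ≤ Real.exp ((q : ℝ) * b / 2 ^ b) := by
    intro ω
    have h3 : (Lg ω).card * 2 ^ (b + 1) ≤ q := long_card σ _ hσ (ptnE_mul_self j _) _
    have h4 : ((Lg ω).card : ℝ) * 2 ^ (b + 1) ≤ q := by exact_mod_cast h3
    have h5 : ((Lg ω).card : ℝ) ≤ q / 2 ^ b := by
      rw [le_div_iff₀ (by positivity)]
      refine le_trans ?_ h4
      apply mul_le_mul_of_nonneg_left _ (by positivity)
      exact pow_le_pow_right₀ (by norm_num) (by omega)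
    calc θ ^ (Lg ω).card ≤ ((2 : ℝ) ^ b) ^ (Lg ω).card := pow_le_pow_left₀ hθ0.le h2 _
      _ ≤ ((Real.exp 1) ^ b) ^ (Lg ω).card := by
          gcongr
          have := Real.exp_one_gt_d9
          linarith
      _ = Real.exp ((b : ℝ) * (Lg ω).card) := by
          rw [← Real.exp_nat_mul, ← Real.exp_nat_mul]
          congr 1
          ring
      _ ≤ Real.exp ((q : ℝ) * b / 2 ^ b) := by
          apply Real.exp_le_exp.2
          calc (b : ℝ) * (Lg ω).card ≤ b * (q / 2 ^ b) := by gcongr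
            _ = (q : ℝ) * b / 2 ^ b := by ring
  -- short orbits
  set θ' : ℝ := θ / 2 ^ (3 * b) with hθ'
  have hθ'0 : 0 < θ' := by positivity
  have hθ'1 : θ' ≤ 1 / 2 ^ (2 * b) := by
    rw [hθ', div_le_div_iff₀ (by positivity) (by positivity), one_mul]
    calc θ * 2 ^ (2 * b) ≤ 2 ^ b * 2 ^ (2 * b) := by gcongr
      _ = 2 ^ (3 * b) := by rw [← pow_add]; congr 1; ring
  have hθ'2 : θ' ≤ 1 := by
    refine hθ'1.trans ?_
    rw [div_le_one (by positivity)]
    exact one_le_pow₀ (by norm_num)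
  set R : Finset C → Finset (C → ℕ) := fun X0 =>
    Fintype.piFinset (fun x => if x ∈ X0 then Finset.Icc 1 (2 ^ (b + 1)) else {0}) with hR
  have hRcard : ∀ X0, (R X0).card = (2 ^ (b + 1)) ^ X0.card := by
    intro X0
    rw [hR]
    simp only [Fintype.card_piFinset]
    calc ∏ x, (if x ∈ X0 then Finset.Icc 1 (2 ^ (b + 1)) else {0}).card
        = ∏ x, (if x ∈ X0 then 2 ^ (b + 1) else 1) := by
          refine Finset.prod_congr rfl fun x _ => ?_
          split <;> simp
      _ = (2 ^ (b + 1)) ^ X0.card := by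
          rw [Finset.prod_ite_mem, Finset.univ_inter, Finset.prod_const]
  set A : Finset (Finset C) := Finset.univ.filter (fun X0 : Finset C => X0.Nonempty) with hA
  have hkey : ∀ ω : Coins n d, θ ^ (Sh ω).card ≤ 1 + ∑ X0 ∈ A, ∑ r ∈ R X0,
      (if Ev i j σ z X0 r ω then θ' ^ X0.card * 2 ^ (FF i j σ z X0 r ω).card else 0) := by
    intro ω
    have hnn : ∀ X0 ∈ A, ∀ r ∈ R X0, (0 : ℝ) ≤
        (if Ev i j σ z X0 r ω then θ' ^ X0.card * 2 ^ (FF i j σ z X0 r ω).card else 0) := by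
      intro X0 _ r _
      split
      · positivity
      · exact le_rfl
    rcases select hW2 hW5 hn hi hb σ hσ z ω (Sh ω) rfl with h0 | ⟨X0, r, hne, hle, hr1, hr2, hEv, hFF⟩
    · rw [h0, pow_zero]
      have : (0 : ℝ) ≤ ∑ X0 ∈ A, ∑ r ∈ R X0,
          (if Ev i j σ z X0 r ω then θ' ^ X0.card * 2 ^ (FF i j σ z X0 r ω).card else 0) :=
        Finset.sum_nonneg fun X0 hX0 => Finset.sum_nonneg fun r hr => hnn X0 hX0 r hr
      linarith
    · have hX0A : X0 ∈ A := Finset.mem_filter.2 ⟨Finset.mem_univ _, hne⟩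
      have hrR : r ∈ R X0 := by
        rw [hR, Fintype.mem_piFinset]
        intro x
        by_cases hx : x ∈ X0
        · rw [if_pos hx, Finset.mem_Icc]
          exact hr1 x hx
        · rw [if_neg hx, Finset.mem_singleton]
          exact hr2 x hx
      have h3 : θ ^ (Sh ω).card ≤ θ' ^ X0.card * 2 ^ (FF i j σ z X0 r ω).card := by
        calc θ ^ (Sh ω).card = (θ' * 2 ^ (3 * b)) ^ (Sh ω).card := by
              rw [hθ', div_mul_cancel₀ _ (by positivity)]
          _ = θ' ^ (Sh ω).card * 2 ^ (3 * b * (Sh ω).card) := by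
              rw [mul_pow, ← pow_mul]
          _ ≤ θ' ^ X0.card * 2 ^ (FF i j σ z X0 r ω).card := by
              apply mul_le_mul
              · exact pow_le_pow_of_le_one hθ'0.le hθ'2 hle
              · exact pow_le_pow_right₀ (by norm_num) hFF
              · positivity
              · positivity
      have h4 : θ' ^ X0.card * 2 ^ (FF i j σ z X0 r ω).card ≤ ∑ X0 ∈ A, ∑ r ∈ R X0,
          (if Ev i j σ z X0 r ω then θ' ^ X0.card * 2 ^ (FF i j σ z X0 r ω).card else 0) := by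
        calc θ' ^ X0.card * 2 ^ (FF i j σ z X0 r ω).card =
              (if Ev i j σ z X0 r ω then θ' ^ X0.card * 2 ^ (FF i j σ z X0 r ω).card else 0) := by
              rw [if_pos hEv]
          _ ≤ ∑ r ∈ R X0, (if Ev i j σ z X0 r ω then
                θ' ^ X0.card * 2 ^ (FF i j σ z X0 r ω).card else 0) :=
              Finset.single_le_sum (f := fun r => (if Ev i j σ z X0 r ω then
                θ' ^ X0.card * 2 ^ (FF i j σ z X0 r ω).card else (0 : ℝ)))
                (fun r hr => hnn X0 hX0A r hr) hrR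
          _ ≤ _ := Finset.single_le_sum (f := fun X0 => ∑ r ∈ R X0, (if Ev i j σ z X0 r ω then
                θ' ^ X0.card * 2 ^ (FF i j σ z X0 r ω).card else (0 : ℝ)))
                (fun X0 hX0 => Finset.sum_nonneg fun r hr => hnn X0 hX0 r hr) hX0A
      linarith
  set y : ℝ := 2 ^ (b + 1) * θ' with hy
  have hy0 : 0 ≤ y := by positivity
  have hy1 : y ≤ 2 / 2 ^ b := by
    rw [hy]
    calc (2 : ℝ) ^ (b + 1) * θ' ≤ 2 ^ (b + 1) * (1 / 2 ^ (2 * b)) := by gcongr
      _ = 2 / 2 ^ b := by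
          rw [pow_succ, two_mul, pow_add]
          field_simp
  have hsum : ∑ ω : Coins n d, θ ^ (Sh ω).card ≤ N * (1 + y) ^ q := by
    calc ∑ ω : Coins n d, θ ^ (Sh ω).card
        ≤ ∑ ω : Coins n d, (1 + ∑ X0 ∈ A, ∑ r ∈ R X0,
          (if Ev i j σ z X0 r ω then θ' ^ X0.card * 2 ^ (FF i j σ z X0 r ω).card else 0)) :=
          Finset.sum_le_sum fun ω _ => hkey ω
      _ = N + ∑ X0 ∈ A, ∑ r ∈ R X0, θ' ^ X0.card *
            (∑ ω ∈ Finset.univ.filter (fun ω => Ev i j σ z X0 r ω),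
              (2 : ℝ) ^ (FF i j σ z X0 r ω).card) := by
          rw [Finset.sum_add_distrib, Finset.sum_const, Finset.card_univ, nsmul_eq_mul, mul_one,
            Finset.sum_comm]
          congr 1
          refine Finset.sum_congr rfl fun X0 _ => ?_
          rw [Finset.sum_comm]
          refine Finset.sum_congr rfl fun r _ => ?_
          rw [Finset.mul_sum, Finset.sum_filter]
      _ ≤ N + ∑ X0 ∈ A, ∑ _r ∈ R X0, θ' ^ X0.card * N := by
          gcongr with X0 hX0 r hr
          have h3 := hW4 n d C i j hi σ hσ z X0 r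
            (Finset.univ.filter (fun ω => Ev i j σ z X0 r ω))
            (fun ω hω => (Finset.mem_filter.1 hω).2)
          rw [hN]
          exact_mod_cast h3
      _ = N + ∑ X0 ∈ A, y ^ X0.card * N := by
          congr 1
          refine Finset.sum_congr rfl fun X0 _ => ?_
          rw [Finset.sum_const, hRcard, nsmul_eq_mul, hy, mul_pow]
          push_cast
          ring
      _ = N * (1 + y) ^ q := by
          have h3 : (1 + y) ^ q = ∑ X0 : Finset C, y ^ X0.card := by
            have h4 := Finset.sum_pow_mul_eq_add_pow y 1 (Finset.univ : Finset C)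
            rw [Finset.card_univ] at h4
            rw [add_comm 1 y, hq, ← h4, Finset.powerset_univ]
            refine Finset.sum_congr rfl fun X0 _ => ?_
            rw [one_pow, mul_one]
          have h5 : ∑ X0 : Finset C, y ^ X0.card = 1 + ∑ X0 ∈ A, y ^ X0.card := by
            rw [hA]
            have h6 := Finset.sum_filter_add_sum_filter_not (Finset.univ : Finset (Finset C))
              (fun X0 : Finset C => X0.Nonempty) (fun X0 => y ^ X0.card)
            rw [← h6, add_comm]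
            congr 1
            have h7 : Finset.univ.filter (fun X0 : Finset C => ¬ X0.Nonempty) = {∅} := by
              ext X0
              simp [Finset.not_nonempty_iff_eq_empty]
            rw [h7]
            simp
          rw [h3, h5, mul_add, mul_one, Finset.mul_sum]
          congr 1
          refine Finset.sum_congr rfl fun X0 _ => by ring
  have hexp : (1 + y) ^ q ≤ Real.exp (2 * q / 2 ^ b) := by
    calc (1 + y) ^ q ≤ (Real.exp y) ^ q := by
          gcongr
          have := Real.add_one_le_exp y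
          linarith
      _ = Real.exp (q * y) := by rw [← Real.exp_nat_mul]
      _ ≤ Real.exp (2 * q / 2 ^ b) := by
          apply Real.exp_le_exp.2
          calc (q : ℝ) * y ≤ q * (2 / 2 ^ b) := by gcongr
            _ = 2 * q / 2 ^ b := by ring
  calc (1 / N) * ∑ ω : Coins n d, θ ^ (cyc σ (ptnE j (wend i ω z)))
      = (1 / N) * ∑ ω : Coins n d, θ ^ (Sh ω).card * θ ^ (Lg ω).card := by
        congr 1
        refine Finset.sum_congr rfl fun ω _ => ?_
        rw [hcyc, pow_add]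
    _ ≤ (1 / N) * ∑ ω : Coins n d, θ ^ (Sh ω).card * Real.exp ((q : ℝ) * b / 2 ^ b) := by
        gcongr with ω _
        exact hlong ω
    _ = (1 / N) * (∑ ω : Coins n d, θ ^ (Sh ω).card) * Real.exp ((q : ℝ) * b / 2 ^ b) := by
        rw [← Finset.sum_mul, mul_assoc]
    _ ≤ (1 / N) * (N * Real.exp (2 * q / 2 ^ b)) * Real.exp ((q : ℝ) * b / 2 ^ b) := by
        gcongr
        exact hsum.trans (by gcongr)
    _ = Real.exp ((q : ℝ) * ((b : ℝ) + 2) / 2 ^ b) := by
        rw [← mul_assoc, one_div, inv_mul_cancel₀ hNpos.ne', one_mul, ← Real.exp_add]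
        congr 1
        ring

end P162L
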