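/-
P162 (Thorp shuffle), Theta(log n) project, modules WC and WB (helper20): the weight of a layer
is at most `2 ^ (number of cycles)`, and the trivial bound.
-/
import Vale.Agent.P162.Log.Stmts

namespace P162L

namespace WC

open scoped BigOperators

variable {d : ℕ} {C : Type*}

/-! ### elementary facts on columns -/

theorem rel_refl (j : ℕ) (x : C ↪ Pos d) : rel j x x := fun _ _ _ => rfl

/-- two positions in the same column are equal or differ by a flip -/
theorem eq_or_flip {j : ℕ} {z w : Pos d} (h : ∀ i : Fin d, (i : ℕ) ≠ j → z i = w i) :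
    w = z ∨ w = flipBit j z := by
  by_cases hj : ∃ i : Fin d, (i : ℕ) = j ∧ z i ≠ w i
  · right
    obtain ⟨i, hi, hne⟩ := hj
    funext k
    unfold flipBit
    by_cases hk : (k : ℕ) = j
    · rw [if_pos hk]
      have : k = i := Fin.ext (hk.trans hi.symm)
      subst this
      revert hne
      cases z k <;> cases w k <;> simp
    · rw [if_neg hk]
      exact (h k hk).symm
  · left
    push Not at hj
    funext k
    by_cases hk : (k : ℕ) = j
    · exact (hj k hk).symm
    · exact (h k hk).symm

theorem clr_eq_iff {j : ℕ} {z w : Pos d} :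
    clr j z = clr j w ↔ ∀ i : Fin d, (i : ℕ) ≠ j → z i = w i := by
  constructor
  · intro h i hi
    have := congrFun h i
    unfold clr at this
    rwa [if_neg hi, if_neg hi] at this
  · intro h
    funext i
    unfold clr
    by_cases hi : (i : ℕ) = j
    · rw [if_pos hi, if_pos hi]
    · rw [if_neg hi, if_neg hi, h i hi]

theorem flipBit_ne {j : ℕ} (hj : j < d) (z : Pos d) : flipBit j z ≠ z := by
  intro h
  have := congrFun h ⟨j, hj⟩
  unfold flipBit at this
  simp at this

theorem ptn_eq_self_iff {j : ℕ} (hj : j < d) (x : C ↪ Pos d) (c : C) :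
    ptn j x c = c ↔ ∀ c', x c' ≠ flipBit j (x c) := by
  constructor
  · intro h c' hc'
    have h1 := ptn_spec j x c c' hc'
    rw [h] at h1
    rw [← h1] at hc'
    exact flipBit_ne hj _ hc'.symm
  · intro h
    exact ptn_none j x c (by push Not; exact h)

theorem x_ptn {j : ℕ} {x : C ↪ Pos d} {c : C} (h : ptn j x c ≠ c) :
    x (ptn j x c) = flipBit j (x c) := by
  by_cases h1 : ∃ c', x c' = flipBit j (x c)
  · obtain ⟨c', hc'⟩ := h1
    rw [ptn_spec j x c c' hc']
    exact hc'
  · exact absurd (ptn_none j x c h1) h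

variable [Fintype C]

theorem mem_cls {j : ℕ} {x y : C ↪ Pos d} : y ∈ cls j x ↔ rel j x y := by
  unfold cls
  simp

/-! ### the number of columns and the size of a class -/

/-- occupied columns -/
noncomputable def cols (j : ℕ) (x : C ↪ Pos d) : Finset (Pos d) :=
  open Classical in Finset.univ.image fun c => clr j (x c)

theorem two_pow_cols_le {j : ℕ} (hj : j < d) (x : C ↪ Pos d) :
    2 ^ (cols j x).card ≤ (cls j x).card := by
  classical
  rw [← Finset.card_powerset]
  refine Finset.card_le_card_of_injOn
    (fun S => (lay j (fun z => decide (z ∈ S))) • x) ?_ ?_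
  · intro S _
    rw [Finset.mem_coe, mem_cls]
    intro c i hi
    change x c i = (lay j (fun z => decide (z ∈ S)) (x c)) i
    rw [lay_apply]
    split
    · unfold flipBit
      rw [if_neg hi]
    · rfl
  · intro S hS S' hS' h
    rw [Finset.mem_coe, Finset.mem_powerset] at hS hS'
    have key : ∀ S S' : Finset (Pos d), S ⊆ cols j x →
        (lay j (fun z => decide (z ∈ S))) • x = (lay j (fun z => decide (z ∈ S'))) • x →
        S ⊆ S' := by
      intro S S' hS h κ hκ
      have h1 := hS hκ
      unfold cols at h1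
      obtain ⟨c, -, hc⟩ := Finset.mem_image.mp h1
      by_contra hκ'
      have h2 : (lay j (fun z => decide (z ∈ S))) (x c) =
          (lay j (fun z => decide (z ∈ S'))) (x c) :=
        congrArg (fun y : C ↪ Pos d => y c) h
      rw [lay_apply, lay_apply, hc] at h2
      simp only [hκ, hκ', decide_true, decide_false, if_true, Bool.false_eq_true, if_false] at h2
      exact flipBit_ne hj _ h2
    exact Finset.Subset.antisymm (key S S' hS h) (key S' S hS' h.symm)

theorem card_add_fix_le [DecidableEq C] {j : ℕ} (hj : j < d) (x : C ↪ Pos d) :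
    Fintype.card C + (Finset.univ.filter fun c => ptnE j x c = c).card ≤
      2 * (cols j x).card := by
  classical
  have h1 : (Finset.univ : Finset C).card = ∑ κ ∈ cols j x,
      ((Finset.univ : Finset C).filter fun c => clr j (x c) = κ).card :=
    Finset.card_eq_sum_card_fiberwise (fun c _ => by unfold cols; simp)
  have h2 : (Finset.univ.filter fun c => ptnE j x c = c).card = ∑ κ ∈ cols j x,
      ((Finset.univ.filter fun c => ptnE j x c = c).filter fun c => clr j (x c) = κ).card :=
    Finset.card_eq_sum_card_fiberwise (fun c _ => by unfold cols; simp)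
  rw [← Finset.card_univ, h1, h2, ← Finset.sum_add_distrib]
  calc _ ≤ ∑ κ ∈ cols j x, 2 := by
        refine Finset.sum_le_sum fun κ hκ => ?_
        unfold cols at hκ
        obtain ⟨c, -, hc⟩ := Finset.mem_image.mp hκ
        by_cases hf : ptn j x c = c
        · -- single card
          have h3 : ((Finset.univ : Finset C).filter fun c => clr j (x c) = κ) = {c} := by
            ext c'
            simp only [Finset.mem_filter, Finset.mem_univ, true_and, Finset.mem_singleton]
            constructor
            · intro h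
              rw [← hc] at h
              rcases eq_or_flip (clr_eq_iff.mp h.symm) with h4 | h4
              · exact x.injective h4
              · exact absurd h4 ((ptn_eq_self_iff hj x c).mp hf c')
            · intro h
              rw [h, hc]
          have h4 : ((Finset.univ.filter fun c => ptnE j x c = c).filter
              fun c => clr j (x c) = κ).card ≤ 1 := by
            rw [← Finset.card_singleton c, ← h3]
            exact Finset.card_le_card (Finset.filter_subset_filter _ (Finset.filter_subset _ _))
          rw [h3, Finset.card_singleton]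
          omega
        · -- two cards, no fixed point
          have hx := x_ptn hf
          have h3 : ((Finset.univ : Finset C).filter fun c => clr j (x c) = κ) ⊆
              {c, ptn j x c} := by
            intro c' h
            simp only [Finset.mem_filter, Finset.mem_univ, true_and] at h
            simp only [Finset.mem_insert, Finset.mem_singleton]
            rw [← hc] at h
            rcases eq_or_flip (clr_eq_iff.mp h.symm) with h4 | h4
            · left
              exact x.injective h4
            · right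
              exact x.injective (h4.trans hx.symm)
          have h4 : ((Finset.univ.filter fun c => ptnE j x c = c).filter
              fun c => clr j (x c) = κ) = ∅ := by
            rw [Finset.filter_eq_empty_iff]
            intro c' hc' h5
            have hc'' : ptn j x c' = c' := (Finset.mem_filter.mp hc').2
            have h6 : c' ∈ ({c, ptn j x c} : Finset C) :=
              h3 (by simp [h5])
            simp only [Finset.mem_insert, Finset.mem_singleton] at h6
            rcases h6 with h6 | h6
            · rw [h6] at hc''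
              exact hf hc''
            · rw [h6, ptn_ptn] at hc''
              exact hf hc''.symm
          rw [h4, Finset.card_empty]
          have := (Finset.card_le_card h3).trans Finset.card_le_two
          omega
    _ = 2 * (cols j x).card := by rw [Finset.sum_const, smul_eq_mul, mul_comm]

/-! ### the two-colouring -/

theorem mem_Kset {j : ℕ} {x y : C ↪ Pos d} {p : (C ↪ Pos d) × (C ↪ Pos d)} :
    p ∈ Kset j x y ↔ (rel j x p.1 ∧ rel j y p.2) ∧ agr j p.1 p.2 := by
  unfold Kset
  simp [mem_cls]

theorem card_Kset_le_aux {j : ℕ} (hj : j < d) (x y : C ↪ Pos d)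
    {p p' : (C ↪ Pos d) × (C ↪ Pos d)} (hp : p ∈ Kset j x y) (hp' : p' ∈ Kset j x y)
    (h : ∀ c, p.2 c ⟨j, hj⟩ = p'.2 c ⟨j, hj⟩) : p = p' := by
  rw [mem_Kset] at hp hp'
  obtain ⟨⟨h1, h2⟩, h3⟩ := hp
  obtain ⟨⟨h1', h2'⟩, h3'⟩ := hp'
  apply Prod.ext
  · ext c i
    by_cases hi : (i : ℕ) = j
    · have hi' : i = ⟨j, hj⟩ := Fin.ext hi
      have e1 := h3 c i hi.ge
      have e2 := h3' c i hi.ge
      rw [e1, e2, hi', h c]
    · rw [← h1 c i hi, ← h1' c i hi]
  · ext c i
    by_cases hi : (i : ℕ) = j
    · have hi' : i = ⟨j, hj⟩ := Fin.ext hi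
      rw [hi', h c]
    · rw [← h2 c i hi, ← h2' c i hi]

theorem card_Kset_le_cls {j : ℕ} (hj : j < d) (x y : C ↪ Pos d) :
    (Kset j x y).card ≤ (cls j y).card := by
  refine Finset.card_le_card_of_injOn Prod.snd ?_ ?_
  · intro p hp
    rw [Finset.mem_coe] at hp
    rw [mem_Kset] at hp
    exact mem_cls.mpr hp.1.2
  · intro p hp p' hp' h
    rw [Finset.mem_coe] at hp hp'
    exact card_Kset_le_aux hj x y hp hp' (fun c => by rw [h])

/-- colours along the first matching -/
theorem col_left {j : ℕ} (hj : j < d) (x y : C ↪ Pos d) {p : (C ↪ Pos d) × (C ↪ Pos d)}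
    (hp : p ∈ Kset j x y) (c : C) (hc : ptn j x c ≠ c) :
    p.2 (ptn j x c) ⟨j, hj⟩ = !(p.2 c ⟨j, hj⟩) := by
  rw [mem_Kset] at hp
  obtain ⟨⟨h1, h2⟩, h3⟩ := hp
  rw [← h3 _ ⟨j, hj⟩ le_rfl, ← h3 _ ⟨j, hj⟩ le_rfl]
  have hx := x_ptn hc
  have hr : ∀ i : Fin d, (i : ℕ) ≠ j → p.1 c i = p.1 (ptn j x c) i := by
    intro i hi
    rw [← h1 c i hi, ← h1 _ i hi, hx]
    unfold flipBit
    rw [if_neg hi]
  rcases eq_or_flip hr with h4 | h4
  · exact absurd (p.1.injective h4) hc
  · rw [h4]
    unfold flipBit
    simp

/-- colours along the second matching -/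
theorem col_right {j : ℕ} (hj : j < d) (x y : C ↪ Pos d) {p : (C ↪ Pos d) × (C ↪ Pos d)}
    (hp : p ∈ Kset j x y) (c : C) (hc : ptn j y c ≠ c) :
    p.2 (ptn j y c) ⟨j, hj⟩ = !(p.2 c ⟨j, hj⟩) := by
  rw [mem_Kset] at hp
  obtain ⟨⟨h1, h2⟩, h3⟩ := hp
  have hx := x_ptn hc
  have hr : ∀ i : Fin d, (i : ℕ) ≠ j → p.2 c i = p.2 (ptn j y c) i := by
    intro i hi
    rw [← h2 c i hi, ← h2 _ i hi, hx]
    unfold flipBit
    rw [if_neg hi]
  rcases eq_or_flip hr with h4 | h4
  · exact absurd (p.2.injective h4) hc
  · rw [h4]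
    unfold flipBit
    simp

/-! ### orbits of two involutions -/

section orb

variable [DecidableEq C] (σ τ : Equiv.Perm C)

omit [DecidableEq C] in
theorem mem_orbF {c c' : C} :
    c' ∈ orbF σ τ c ↔ Relation.ReflTransGen (fun a b => b = σ a ∨ b = τ a) c c' := by
  unfold orbF
  simp

omit [Fintype C] [DecidableEq C] in
theorem rel_symm (hσ : ∀ c, σ (σ c) = c) (hτ : ∀ c, τ (τ c) = c) {a b : C}
    (h : Relation.ReflTransGen (fun a b : C => b = σ a ∨ b = τ a) a b) :
    Relation.ReflTransGen (fun a b : C => b = σ a ∨ b = τ a) b a := by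
  induction h with
  | refl => exact Relation.ReflTransGen.refl
  | tail _ h2 ih =>
    refine Relation.ReflTransGen.head ?_ ih
    rcases h2 with h | h
    · left; rw [h, hσ]
    · right; rw [h, hτ]

omit [DecidableEq C] in
theorem orbF_eq_iff (hσ : ∀ c, σ (σ c) = c) (hτ : ∀ c, τ (τ c) = c) {c c' : C} :
    orbF σ τ c = orbF σ τ c' ↔ c' ∈ orbF σ τ c := by
  constructor
  · intro h
    rw [h, mem_orbF]
  · intro h
    rw [mem_orbF] at h
    ext e
    rw [mem_orbF, mem_orbF]
    exact ⟨fun h1 => (rel_symm σ τ hσ hτ h).trans h1, fun h1 => h.trans h1⟩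

/-- all orbits -/
noncomputable def allOrb : Finset (Finset C) :=
  open Classical in Finset.univ.image (orbF σ τ)

theorem filter_orbF (hσ : ∀ c, σ (σ c) = c) (hτ : ∀ c, τ (τ c) = c) {O : Finset C}
    (hO : O ∈ allOrb σ τ) : (Finset.univ.filter fun c => orbF σ τ c = O) = O := by
  unfold allOrb at hO
  obtain ⟨c0, -, rfl⟩ := Finset.mem_image.mp hO
  ext c
  simp only [Finset.mem_filter, Finset.mem_univ, true_and]
  rw [eq_comm, orbF_eq_iff σ τ hσ hτ]

theorem card_fix_eq (hσ : ∀ c, σ (σ c) = c) (hτ : ∀ c, τ (τ c) = c) (f : C → C) :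
    (Finset.univ.filter fun c => f c = c).card =
      ∑ O ∈ allOrb σ τ, (O.filter fun c => f c = c).card := by
  classical
  rw [Finset.card_eq_sum_card_fiberwise (f := orbF σ τ) (t := allOrb σ τ)
    (fun c _ => by unfold allOrb; simp)]
  refine Finset.sum_congr rfl fun O hO => ?_
  congr 1
  rw [Finset.filter_filter]
  conv_rhs => rw [← filter_orbF σ τ hσ hτ hO, Finset.filter_filter]
  refine Finset.filter_congr fun c _ => ?_
  rw [and_comm]

omit [Fintype C] in
/-- parity of fixed points on an invariant set -/
theorem even_nonfix (f : C → C) (hf : ∀ c, f (f c) = c) (O : Finset C) (hO : ∀ c ∈ O, f c ∈ O) :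
    Even (O.filter fun c => ¬ f c = c).card := by
  rw [← ZMod.natCast_eq_zero_iff_even]
  have h : ∑ c ∈ O.filter (fun c => ¬ f c = c), (1 : ZMod 2) = 0 := by
    refine Finset.sum_involution (fun c _ => f c) ?_ ?_ ?_ ?_
    · intro c _
      decide
    · intro c hc _
      exact (Finset.mem_filter.mp hc).2
    · intro c hc
      obtain ⟨h1, h2⟩ := Finset.mem_filter.mp hc
      rw [Finset.mem_filter, hf]
      exact ⟨hO c h1, fun h => h2 h.symm⟩
    · intro c _
      exact hf c
  simpa using h

theorem two_mul_orb_le (hσ : ∀ c, σ (σ c) = c) (hτ : ∀ c, τ (τ c) = c) :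
    2 * (allOrb σ τ).card ≤ 2 * cyc σ τ + (Finset.univ.filter fun c => σ c = c).card +
      (Finset.univ.filter fun c => τ c = c).card := by
  classical
  rw [card_fix_eq σ τ hσ hτ σ, card_fix_eq σ τ hσ hτ τ, add_assoc, ← Finset.sum_add_distrib]
  have hfree : cyc σ τ = ((allOrb σ τ).filter fun O => ∀ c ∈ O, σ c ≠ c ∧ τ c ≠ c).card := by
    unfold cyc freeOrb allOrb
    congr
  have hsplit := Finset.card_filter_add_card_filter_not (s := allOrb σ τ)
    (fun O => ∀ c ∈ O, σ c ≠ c ∧ τ c ≠ c)
  have hsum : 2 * ((allOrb σ τ).filter fun O => ¬ ∀ c ∈ O, σ c ≠ c ∧ τ c ≠ c).card ≤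
      ∑ O ∈ allOrb σ τ, ((O.filter fun c => σ c = c).card + (O.filter fun c => τ c = c).card) := by
    calc 2 * ((allOrb σ τ).filter fun O => ¬ ∀ c ∈ O, σ c ≠ c ∧ τ c ≠ c).card
        = ∑ O ∈ (allOrb σ τ).filter (fun O => ¬ ∀ c ∈ O, σ c ≠ c ∧ τ c ≠ c), 2 := by
          rw [Finset.sum_const, smul_eq_mul, mul_comm]
      _ ≤ ∑ O ∈ (allOrb σ τ).filter (fun O => ¬ ∀ c ∈ O, σ c ≠ c ∧ τ c ≠ c),
            ((O.filter fun c => σ c = c).card + (O.filter fun c => τ c = c).card) := by
          refine Finset.sum_le_sum fun O hO => ?_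
          obtain ⟨h1, h2⟩ := Finset.mem_filter.mp hO
          unfold allOrb at h1
          obtain ⟨c0, -, rfl⟩ := Finset.mem_image.mp h1
          have hinvσ : ∀ c ∈ orbF σ τ c0, σ c ∈ orbF σ τ c0 := by
            intro c hc
            rw [mem_orbF] at hc ⊢
            exact hc.tail (Or.inl rfl)
          have hinvτ : ∀ c ∈ orbF σ τ c0, τ c ∈ orbF σ τ c0 := by
            intro c hc
            rw [mem_orbF] at hc ⊢
            exact hc.tail (Or.inr rfl)
          obtain ⟨a, ha⟩ := even_nonfix σ hσ (orbF σ τ c0) hinvσ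
          obtain ⟨b, hb⟩ := even_nonfix τ hτ (orbF σ τ c0) hinvτ
          have h3 := Finset.card_filter_add_card_filter_not (s := orbF σ τ c0)
            (fun c => σ c = c)
          have h4 := Finset.card_filter_add_card_filter_not (s := orbF σ τ c0)
            (fun c => τ c = c)
          have h5 : 0 < ((orbF σ τ c0).filter fun c => σ c = c).card +
              ((orbF σ τ c0).filter fun c => τ c = c).card := by
            push Not at h2
            obtain ⟨c, hc, h6⟩ := h2
            by_cases h7 : σ c = c
            · have : 0 < ((orbF σ τ c0).filter fun c => σ c = c).card :=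
                Finset.card_pos.mpr ⟨c, Finset.mem_filter.mpr ⟨hc, h7⟩⟩
              omega
            · have : 0 < ((orbF σ τ c0).filter fun c => τ c = c).card :=
                Finset.card_pos.mpr ⟨c, Finset.mem_filter.mpr ⟨hc, h6 h7⟩⟩
              omega
          omega
      _ ≤ _ := Finset.sum_le_sum_of_subset (Finset.filter_subset _ _)
  omega

theorem card_Kset_le_orb {j : ℕ} (hj : j < d) (x y : C ↪ Pos d) :
    (Kset j x y).card ≤ 2 ^ (allOrb (ptnE j x) (ptnE j y)).card := by
  classical
  set O := allOrb (ptnE j x) (ptnE j y) with hO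
  have hne : ∀ o ∈ O, ∃ c, c ∈ o := by
    intro o ho
    rw [hO] at ho
    unfold allOrb at ho
    obtain ⟨c0, -, rfl⟩ := Finset.mem_image.mp ho
    exact ⟨c0, (mem_orbF _ _).mpr Relation.ReflTransGen.refl⟩
  rw [← Finset.card_powerset]
  refine Finset.card_le_card_of_injOn
    (fun p => O.filter fun o => ∃ c ∈ o, ∃ h : ∃ c, c ∈ o, c = h.choose ∧
      p.2 c ⟨j, hj⟩ = true) ?_ ?_
  · intro p _
    rw [Finset.mem_coe, Finset.mem_powerset]
    exact Finset.filter_subset _ _
  · intro p hp p' hp' h
    rw [Finset.mem_coe] at hp hp'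
    apply card_Kset_le_aux hj x y hp hp'
    intro c
    -- the orbit of c
    set o := orbF (ptnE j x) (ptnE j y) c with ho
    have hoO : o ∈ O := by
      rw [hO]
      unfold allOrb
      exact Finset.mem_image_of_mem _ (Finset.mem_univ c)
    have hex := hne o hoO
    have h0 : p.2 hex.choose ⟨j, hj⟩ = p'.2 hex.choose ⟨j, hj⟩ := by
      have h1 := Finset.ext_iff.mp h o
      simp only [Finset.mem_filter, hoO, true_and] at h1
      rw [Bool.eq_iff_iff]
      constructor
      · intro h2
        obtain ⟨c', -, h3, h4, h5⟩ := h1.mp ⟨hex.choose, hex.choose_spec, hex, rfl, h2⟩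
        rw [← h5, h4]
      · intro h2
        obtain ⟨c', -, h3, h4, h5⟩ := h1.mpr ⟨hex.choose, hex.choose_spec, hex, rfl, h2⟩
        rw [← h5, h4]
    have h1 : Relation.ReflTransGen (fun a b => b = ptnE j x a ∨ b = ptnE j y a) hex.choose c :=
      rel_symm _ _ (ptn_ptn j x) (ptn_ptn j y) ((mem_orbF _ _).mp hex.choose_spec)
    clear_value o
    clear ho
    induction h1 with
    | refl => exact h0
    | @tail a b _ hab ih =>
      rcases hab with hab | hab
      · by_cases hf : ptn j x a = a
        · rw [ptnE_apply, hf] at hab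
          rw [hab]; exact ih
        · rw [hab, ptnE_apply, col_left hj x y hp a hf, col_left hj x y hp' a hf, ih]
      · by_cases hf : ptn j y a = a
        · rw [ptnE_apply, hf] at hab
          rw [hab]; exact ih
        · rw [hab, ptnE_apply, col_right hj x y hp a hf, col_right hj x y hp' a hf, ih]

end orb

end WC

open WC in
theorem wc_main : WCStatement := by
  intro d C _ _ j hj x y
  set cx := (cols j x).card with hcx
  set cy := (cols j y).card with hcy
  have h1 := card_Kset_le_orb hj x y
  have h2 := two_mul_orb_le (ptnE j x) (ptnE j y) (ptn_ptn j x) (ptn_ptn j y)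
  have h3 := card_add_fix_le hj x
  have h4 := card_add_fix_le hj y
  have h5 := two_pow_cols_le hj x
  have h6 := two_pow_cols_le hj y
  have h7 : (allOrb (ptnE j x) (ptnE j y)).card + Fintype.card C ≤
      cyc (ptnE j x) (ptnE j y) + (cx + cy) := by omega
  have h8 : (Kset j x y).card * 2 ^ Fintype.card C ≤
      2 ^ cyc (ptnE j x) (ptnE j y) * ((cls j x).card * (cls j y).card) := by
    calc (Kset j x y).card * 2 ^ Fintype.card C
        ≤ 2 ^ (allOrb (ptnE j x) (ptnE j y)).card * 2 ^ Fintype.card C :=
          Nat.mul_le_mul_right _ h1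
      _ = 2 ^ ((allOrb (ptnE j x) (ptnE j y)).card + Fintype.card C) := (pow_add _ _ _).symm
      _ ≤ 2 ^ (cyc (ptnE j x) (ptnE j y) + (cx + cy)) := Nat.pow_le_pow_right (by norm_num) h7
      _ = 2 ^ cyc (ptnE j x) (ptnE j y) * (2 ^ cx * 2 ^ cy) := by rw [pow_add, pow_add]
      _ ≤ _ := Nat.mul_le_mul_left _ (Nat.mul_le_mul h5 h6)
  have h9 : (0 : ℝ) < (cls j x).card := by
    have : 0 < (cls j x).card := lt_of_lt_of_le (by positivity) h5
    exact_mod_cast this
  have h10 : (0 : ℝ) < (cls j y).card := by
    have : 0 < (cls j y).card := lt_of_lt_of_le (by positivity) h6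
    exact_mod_cast this
  unfold ww
  rw [div_le_iff₀ (by positivity)]
  exact_mod_cast h8

open WC in
theorem wb_main : WBStatement := by
  classical
  intro d C _ _ j j0 hj hjj x y
  have h1 := card_Kset_le_cls hj x y
  have h5 := two_pow_cols_le hj x
  have h6 := two_pow_cols_le hj y
  have h7 : nblk j0 x ≤ (cols j x).card := by
    have h8 : (Finset.univ.image fun c => high j0 (x c)) =
        (cols j x).image (high j0) := by
      unfold cols
      rw [Finset.image_image]
      refine Finset.image_congr fun c _ => ?_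
      funext i
      simp only [Function.comp, high, clr]
      by_cases hi : (i : ℕ) < j0
      · rw [if_pos hi, if_pos hi]
      · rw [if_neg hi, if_neg hi, if_neg (by omega)]
    have h9 : nblk j0 x = (Finset.univ.image fun c => high j0 (x c)).card := by
      unfold nblk
      congr
    rw [h9, h8]
    exact Finset.card_image_le
  have h8 : nblk j0 x ≤ Fintype.card C := by
    have h9 : nblk j0 x = (Finset.univ.image fun c => high j0 (x c)).card := by
      unfold nblk
      congr
    rw [h9]
    exact Finset.card_image_le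
  have h9 : (0 : ℝ) < (cls j x).card := by
    have : 0 < (cls j x).card := lt_of_lt_of_le (by positivity) h5
    exact_mod_cast this
  have h10 : (0 : ℝ) < (cls j y).card := by
    have : 0 < (cls j y).card := lt_of_lt_of_le (by positivity) h6
    exact_mod_cast this
  have h11 : (Kset j x y).card * 2 ^ Fintype.card C ≤
      2 ^ (Fintype.card C - nblk j0 x) * ((cls j x).card * (cls j y).card) := by
    calc (Kset j x y).card * 2 ^ Fintype.card C
        ≤ (cls j y).card * 2 ^ Fintype.card C := Nat.mul_le_mul_right _ h1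
      _ ≤ (cls j y).card * (2 ^ (Fintype.card C - nblk j0 x) * 2 ^ (cols j x).card) := by
          apply Nat.mul_le_mul_left
          rw [← pow_add]
          exact Nat.pow_le_pow_right (by norm_num) (by omega)
      _ ≤ (cls j y).card * (2 ^ (Fintype.card C - nblk j0 x) * (cls j x).card) :=
          Nat.mul_le_mul_left _ (Nat.mul_le_mul_left _ h5)
      _ = _ := by ring
  unfold ww
  rw [div_le_iff₀ (by positivity)]
  exact_mod_cast h11

end P162L
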