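/-
P162 (Thorp shuffle), Theta(log n) project, module WY (helper9): trace inequality for powers of 2.
-/
import Vale.Agent.P162.Log.Stmts

namespace P162L

open scoped BigOperators

section wy

variable {X : Type} [Fintype X] [DecidableEq X]

theorem wy_pow_succ (A B : Matrix X X ℝ) (m : ℕ) : (A * B) ^ (m + 1) = A * (B * A) ^ m * B := by
  induction m with
  | zero => rw [zero_add, pow_one, pow_zero, mul_one]
  | succ m ih =>
    rw [pow_succ, ih, pow_succ (B * A) m]
    simp only [mul_assoc]

theorem wy_cyc (A B : Matrix X X ℝ) (m : ℕ) :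
    Matrix.trace ((A * B) ^ m) = Matrix.trace ((B * A) ^ m) := by
  cases m with
  | zero => rw [pow_zero, pow_zero]
  | succ m =>
    rw [wy_pow_succ, Matrix.trace_mul_comm, ← mul_assoc, ← pow_succ']

theorem wy_nonneg (A : Matrix X X ℝ) : 0 ≤ Matrix.trace (A.transpose * A) := by
  unfold Matrix.trace
  apply Finset.sum_nonneg
  intro i _
  rw [Matrix.diag_apply, Matrix.mul_apply]
  apply Finset.sum_nonneg
  intro j _
  rw [Matrix.transpose_apply]
  exact mul_self_nonneg _

theorem wy_sq (A : Matrix X X ℝ) : Matrix.trace (A * A) ≤ Matrix.trace (A.transpose * A) := by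
  have h1 := wy_nonneg (A - A.transpose)
  rw [Matrix.transpose_sub, Matrix.transpose_transpose, sub_mul, mul_sub, mul_sub,
    Matrix.trace_sub, Matrix.trace_sub, Matrix.trace_sub] at h1
  have h2 : Matrix.trace (A.transpose * A.transpose) = Matrix.trace (A * A) := by
    rw [← Matrix.transpose_mul, Matrix.trace_transpose]
  have h3 : Matrix.trace (A * A.transpose) = Matrix.trace (A.transpose * A) :=
    Matrix.trace_mul_comm _ _
  rw [h2, h3] at h1
  linarith

theorem wy_prod (A B : Matrix X X ℝ) (hA : A.transpose = A) (hB : B.transpose = B) :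
    Matrix.trace (A * B) ≤ (Matrix.trace (A * A) + Matrix.trace (B * B)) / 2 := by
  have h1 := wy_nonneg (A - B)
  rw [Matrix.transpose_sub, hA, hB, sub_mul, mul_sub, mul_sub,
    Matrix.trace_sub, Matrix.trace_sub, Matrix.trace_sub] at h1
  have h3 : Matrix.trace (B * A) = Matrix.trace (A * B) := Matrix.trace_mul_comm _ _
  rw [h3] at h1
  linarith

theorem wy_both (k : ℕ) :
    (∀ A : Matrix X X ℝ, Matrix.trace ((A ^ (2 ^ k)).transpose * A ^ (2 ^ k)) ≤
      Matrix.trace ((A.transpose * A) ^ (2 ^ k))) ∧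
    (∀ P Q : Matrix X X ℝ, P.transpose = P → Q.transpose = Q →
      Matrix.trace ((P * Q) ^ (2 ^ k)) ≤ Matrix.trace (P ^ (2 ^ k) * Q ^ (2 ^ k))) := by
  induction k with
  | zero =>
    constructor
    · intro A
      simp only [pow_zero, pow_one]
      exact le_refl _
    · intro P Q _ _
      simp only [pow_zero, pow_one]
      exact le_refl _
  | succ k ih =>
    obtain ⟨ihW, ihA⟩ := ih
    have h2 : 2 ^ (k + 1) = 2 * 2 ^ k := by rw [pow_succ, mul_comm]
    have h2' : 2 ^ (k + 1) = 2 ^ k + 2 ^ k := by rw [pow_succ]; ring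
    constructor
    · intro A
      have hP : (A.transpose * A).transpose = A.transpose * A := by
        rw [Matrix.transpose_mul, Matrix.transpose_transpose]
      have hQ : (A * A.transpose).transpose = A * A.transpose := by
        rw [Matrix.transpose_mul, Matrix.transpose_transpose]
      calc Matrix.trace ((A ^ (2 ^ (k + 1))).transpose * A ^ (2 ^ (k + 1)))
          = Matrix.trace (((A ^ 2) ^ (2 ^ k)).transpose * (A ^ 2) ^ (2 ^ k)) := by
            rw [h2, pow_mul]
        _ ≤ Matrix.trace (((A ^ 2).transpose * A ^ 2) ^ (2 ^ k)) := ihW (A ^ 2)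
        _ = Matrix.trace ((A.transpose * (A.transpose * A * A)) ^ (2 ^ k)) := by
            rw [pow_two, Matrix.transpose_mul]
            simp only [mul_assoc]
        _ = Matrix.trace ((A.transpose * A * (A * A.transpose)) ^ (2 ^ k)) := by
            rw [wy_cyc]
            simp only [mul_assoc]
        _ ≤ Matrix.trace ((A.transpose * A) ^ (2 ^ k) * (A * A.transpose) ^ (2 ^ k)) :=
            ihA _ _ hP hQ
        _ ≤ (Matrix.trace ((A.transpose * A) ^ (2 ^ k) * (A.transpose * A) ^ (2 ^ k)) +
            Matrix.trace ((A * A.transpose) ^ (2 ^ k) * (A * A.transpose) ^ (2 ^ k))) / 2 := by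
            apply wy_prod
            · rw [Matrix.transpose_pow, hP]
            · rw [Matrix.transpose_pow, hQ]
        _ = Matrix.trace ((A.transpose * A) ^ (2 ^ (k + 1))) := by
            rw [← pow_add, ← pow_add, ← h2', wy_cyc A A.transpose]
            ring
    · intro P Q hP hQ
      have hP2 : (P ^ 2).transpose = P ^ 2 := by rw [Matrix.transpose_pow, hP]
      have hQ2 : (Q ^ 2).transpose = Q ^ 2 := by rw [Matrix.transpose_pow, hQ]
      calc Matrix.trace ((P * Q) ^ (2 ^ (k + 1)))
          = Matrix.trace ((P * Q) ^ (2 ^ k) * (P * Q) ^ (2 ^ k)) := by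
            rw [← pow_add, ← h2']
        _ ≤ Matrix.trace (((P * Q) ^ (2 ^ k)).transpose * (P * Q) ^ (2 ^ k)) := wy_sq _
        _ ≤ Matrix.trace (((P * Q).transpose * (P * Q)) ^ (2 ^ k)) := ihW (P * Q)
        _ = Matrix.trace ((Q * (P * P * Q)) ^ (2 ^ k)) := by
            rw [Matrix.transpose_mul, hP, hQ]
            simp only [mul_assoc]
        _ = Matrix.trace ((P ^ 2 * Q ^ 2) ^ (2 ^ k)) := by
            rw [wy_cyc, pow_two, pow_two]
            simp only [mul_assoc]
        _ ≤ Matrix.trace ((P ^ 2) ^ (2 ^ k) * (Q ^ 2) ^ (2 ^ k)) := ihA _ _ hP2 hQ2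
        _ = Matrix.trace (P ^ (2 ^ (k + 1)) * Q ^ (2 ^ (k + 1))) := by
            rw [h2, pow_mul, pow_mul]

end wy

theorem wy_main : WYStatement := by
  intro X _ _ A k
  exact (wy_both k).1 A

end P162L
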