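/-
P162 (Thorp shuffle), Theta(log n) project, module Final (helper22): all modules together.
-/
import Vale.Agent.P162.Log.Assembly
import Vale.Agent.P162.Log.QC
import Vale.Agent.P162.Log.KA
import Vale.Agent.P162.Log.UA
import Vale.Agent.P162.Log.WC
import Vale.Agent.P162.Log.SS
import Vale.Agent.P162.Log.CB
import Vale.Agent.P162.Log.W1
import Vale.Agent.P162.Log.W2
import Vale.Agent.P162.Log.W3
import Vale.Agent.P162.Log.W4A
import Vale.Agent.P162.Log.W5
import Vale.Agent.P162.Log.W6
import Vale.Agent.P162.Log.SB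
import Vale.Agent.P162.Log.TR
import Vale.Agent.P162.Log.PS
import Vale.Agent.P162.Log.TA
import Vale.Agent.P162.Log.G1
import Vale.Agent.P162.Log.G2
import Vale.Agent.P162.Log.LO
import Vale.Agent.P162.Log.FL
import Vale.Agent.P162.Log.TU
import Vale.Agent.P162.Log.LR
import Vale.Agent.P162.Log.LK
import Vale.Agent.P162.Log.HA
import Vale.Agent.P162.Log.WY
import Vale.Agent.P162.Log.NA
import Vale.Agent.P162.Log.BN
import Vale.Agent.P162.Log.TF
import Vale.Agent.P162.Log.FI
import Vale.Agent.P162.Log.LB

namespace P162L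

/-- **Upper bound**: `C d` Thorp shuffles mix a deck of `2^(d+1)` cards. -/
theorem thorp_log : ∃ C : ℕ, ∀ d t : ℕ, C * (d + 1) ≤ t →
    P162.tvUnif (P162.convPow (P162.thorpLaw (2 ^ d)) t) ≤ 1 / 4 :=
  assembly qc_main ka_main ua_main wc_main wb_main ss_main ev_main cb_main w1_main w2_main w3_main
    w4a_main w5_main w6_main sb_main tr_main ps_main ta_main g1_main g2_main lo_main fl_main
    tu_main lr_main lk_main ha_main wy_main na_main bn_main tf_main fi_main

end P162L
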