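/-
P162 (Thorp shuffle), Theta(log n) project, module SB (helper4): bound of the row sums of the
majorising kernel.
-/
import Vale.Agent.P162.Log.Stmts

namespace P162L

open scoped BigOperators

namespace SBm

section er

variable {X : Type*}

theorem ER_mono (P : ℕ → (X → ℝ) →ₗ[ℝ] (X → ℝ)) (hP : ∀ i, IsMk (P i)) (n : ℕ) :
    ∀ (i : ℕ) (F F' : (ℕ → X) → ℝ), (∀ μ, F μ ≤ F' μ) → ∀ z, ER P n i F z ≤ ER P n i F' z := by
  induction n with
  | zero => intro i F F' h z; exact h _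
  | succ n ih =>
    intro i F F' h z
    unfold ER
    apply (hP i).mono
    intro y
    apply ih
    intro μ
    exact h _

theorem ER_smul (P : ℕ → (X → ℝ) →ₗ[ℝ] (X → ℝ)) (c : ℝ) (n : ℕ) :
    ∀ (i : ℕ) (F : (ℕ → X) → ℝ) (z : X), ER P n i (fun μ => c * F μ) z = c * ER P n i F z := by
  induction n with
  | zero => intro i F z; rfl
  | succ n ih =>
    intro i F z
    have e1 : ER P (n + 1) i (fun μ => c * F μ) z =
      P i (fun y => ER P n (i + 1) (fun μ => c * F fun j => if j ≤ i then z else μ j) y) z := rfl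
    have e2 : ER P (n + 1) i F z =
      P i (fun y => ER P n (i + 1) (fun μ => F fun j => if j ≤ i then z else μ j) y) z := rfl
    rw [e1, e2]
    have e3 : (fun y => ER P n (i + 1) (fun μ => c * F fun j => if j ≤ i then z else μ j) y) =
      c • (fun y => ER P n (i + 1) (fun μ => F fun j => if j ≤ i then z else μ j) y) := by
      funext y
      rw [ih (i + 1) (fun μ => F fun j => if j ≤ i then z else μ j) y]
      rfl
    rw [e3, map_smul]
    rfl

theorem Dn_smul (P : ℕ → (X → ℝ) →ₗ[ℝ] (X → ℝ)) (i : ℕ) (c : ℝ) (n : ℕ) (Φ : X → ℝ) :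
    Dn P i n (fun y => Φ y * c) = fun y => Dn P i n Φ y * c := by
  induction n with
  | zero => rfl
  | succ n ih =>
    have e1 : Dn P i (n + 1) (fun y => Φ y * c) = P (i + n) (Dn P i n (fun y => Φ y * c)) := rfl
    rw [e1, ih]
    have e2 : (fun y => Dn P i n Φ y * c) = c • Dn P i n Φ := by
      funext y
      simp only [Pi.smul_apply, smul_eq_mul]
      ring
    rw [e2, map_smul]
    funext y
    have e3 : Dn P i (n + 1) Φ = P (i + n) (Dn P i n Φ) := rfl
    rw [e3]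
    simp only [Pi.smul_apply, smul_eq_mul]
    ring

end er

/-! ### numerics -/

theorem num1 (b : ℕ) (hb : 1 ≤ b) :
    ((b : ℝ) + 2) / 2 ^ b ≤ 60 / (b : ℝ) * (2 : ℝ) ^ (-(b : ℝ) / 2) := by
  have hb' : (1 : ℝ) ≤ (b : ℝ) := by exact_mod_cast hb
  have h2 : (0 : ℝ) < 2 := by norm_num
  have e1 : (2 : ℝ) ^ b = (2 : ℝ) ^ ((b : ℝ) / 2) * (2 : ℝ) ^ ((b : ℝ) / 2) := by
    rw [← Real.rpow_add h2, ← Real.rpow_natCast]
    congr 1
    ring
  have e2 : (2 : ℝ) ^ (-(b : ℝ) / 2) = ((2 : ℝ) ^ ((b : ℝ) / 2))⁻¹ := by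
    rw [← Real.rpow_neg h2.le]
    congr 1
    ring
  have e3 : ((b : ℝ) * Real.log 2 / 2) ^ 2 / 2 ≤ (2 : ℝ) ^ ((b : ℝ) / 2) := by
    rw [Real.rpow_def_of_pos h2]
    have h0 : 0 ≤ Real.log 2 * ((b : ℝ) / 2) := by
      have := Real.log_pos (by norm_num : (1 : ℝ) < 2)
      positivity
    have := Real.pow_div_factorial_le_exp _ h0 2
    have e4 : ((Nat.factorial 2 : ℕ) : ℝ) = 2 := by norm_num [Nat.factorial]
    rw [e4] at this
    have e5 : (b : ℝ) * Real.log 2 / 2 = Real.log 2 * ((b : ℝ) / 2) := by ring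
    rw [e5]
    exact this
  set r : ℝ := (2 : ℝ) ^ ((b : ℝ) / 2) with hr
  have hr0 : 0 < r := Real.rpow_pos_of_pos h2 _
  have hlog : 0.6931471803 < Real.log 2 := Real.log_two_gt_d9
  have e6 : (b : ℝ) * (b + 2) ≤ 60 * r := by
    have h3 : (0.48 : ℝ) ≤ Real.log 2 ^ 2 := by nlinarith
    have h4 : (b : ℝ) ^ 2 * 0.48 ≤ (b : ℝ) ^ 2 * Real.log 2 ^ 2 :=
      mul_le_mul_of_nonneg_left h3 (by positivity)
    have h5 : ((b : ℝ) * Real.log 2 / 2) ^ 2 / 2 = (b : ℝ) ^ 2 * Real.log 2 ^ 2 / 8 := by ring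
    rw [h5] at e3
    nlinarith
  rw [e1, e2, div_le_iff₀ (by positivity)]
  have e7 : 60 / (b : ℝ) * r⁻¹ * (r * r) = 60 * r / b := by
    field_simp
  rw [e7, le_div_iff₀ (by positivity)]
  linarith

theorem num2 (k0 d : ℕ) (hk : 5 ≤ k0) :
    ∑ k ∈ Finset.Ico k0 d, (((2 ^ (k - 5) : ℕ) : ℝ) + 2) / 2 ^ (2 ^ (k - 5)) ≤
      120 * (2 : ℝ) ^ (-((2 : ℝ) ^ k0) / 64) := by
  have h2 : (0 : ℝ) < 2 := by norm_num
  have hterm : ∀ k ∈ Finset.Ico k0 d, (((2 ^ (k - 5) : ℕ) : ℝ) + 2) / 2 ^ (2 ^ (k - 5)) ≤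
      60 * (2 : ℝ) ^ (-((2 : ℝ) ^ k0) / 64) * (1 / 2) ^ (k - k0) := by
    intro k hk'
    have hk1 : k0 ≤ k := (Finset.mem_Ico.mp hk').1
    have e1 := num1 (2 ^ (k - 5)) (Nat.one_le_two_pow)
    refine le_trans e1 ?_
    have e2 : (((2 ^ (k - 5) : ℕ) : ℝ)) = 2 ^ (k - k0) * 2 ^ (k0 - 5) := by
      push_cast
      rw [← pow_add]
      congr 1
      omega
    have e3 : (2 : ℝ) ^ k0 = 32 * 2 ^ (k0 - 5) := by
      have : (32 : ℝ) = 2 ^ 5 := by norm_num
      rw [this, ← pow_add]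
      congr 1
      omega
    have h4 : (1 : ℝ) ≤ 2 ^ (k0 - 5) := one_le_pow₀ (by norm_num)
    have h5 : (1 : ℝ) ≤ 2 ^ (k - k0) := one_le_pow₀ (by norm_num)
    have e4 : (2 : ℝ) ^ (-(((2 ^ (k - 5) : ℕ) : ℝ)) / 2) ≤ (2 : ℝ) ^ (-((2 : ℝ) ^ k0) / 64) := by
      apply Real.rpow_le_rpow_of_exponent_le (by norm_num)
      rw [e2, e3]
      nlinarith
    have e5 : 60 / (((2 ^ (k - 5) : ℕ) : ℝ)) ≤ 60 * (1 / 2) ^ (k - k0) := by
      rw [e2, one_div, inv_pow, div_le_iff₀ (by positivity)]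
      have : (60 : ℝ) * ((2 : ℝ) ^ (k - k0))⁻¹ * (2 ^ (k - k0) * 2 ^ (k0 - 5)) =
          60 * 2 ^ (k0 - 5) := by
        field_simp
      rw [this]
      linarith
    calc 60 / (((2 ^ (k - 5) : ℕ) : ℝ)) * (2 : ℝ) ^ (-(((2 ^ (k - 5) : ℕ) : ℝ)) / 2)
        ≤ (60 * (1 / 2) ^ (k - k0)) * (2 : ℝ) ^ (-((2 : ℝ) ^ k0) / 64) :=
          mul_le_mul e5 e4 (Real.rpow_nonneg h2.le _) (by positivity)
      _ = 60 * (2 : ℝ) ^ (-((2 : ℝ) ^ k0) / 64) * (1 / 2) ^ (k - k0) := by ring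
  refine le_trans (Finset.sum_le_sum hterm) ?_
  rw [← Finset.mul_sum]
  have hs : ∑ k ∈ Finset.Ico k0 d, ((1 : ℝ) / 2) ^ (k - k0) ≤ 2 := by
    rw [Finset.sum_Ico_eq_sum_range]
    have : ∀ i, k0 + i - k0 = i := fun i => by omega
    simp only [this]
    exact sum_geometric_two_le _
  have h3 : 0 ≤ 60 * (2 : ℝ) ^ (-((2 : ℝ) ^ k0) / 64) := by positivity
  nlinarith

theorem ww_nonneg {d : ℕ} {C : Type*} [Fintype C] [DecidableEq C] (i : ℕ) (x y : C ↪ Pos d) :
    0 ≤ ww i x y := by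
  unfold ww
  positivity

theorem rpow_ww {w ι : ℝ} (hw : 0 ≤ w) (hι : 0 ≤ ι) (n : ℕ) (h : w ≤ 2 ^ n) :
    w ^ ι ≤ ((2 : ℝ) ^ ι) ^ n := by
  have h1 : w ^ ι ≤ ((2 : ℝ) ^ n) ^ ι := Real.rpow_le_rpow hw h hι
  refine le_trans h1 (le_of_eq ?_)
  rw [← Real.rpow_natCast, ← Real.rpow_natCast, ← Real.rpow_mul (by norm_num),
    ← Real.rpow_mul (by norm_num), mul_comm]

/-- the part `j ≥ 2^k0` -/
theorem tail (wc : WCStatement) (cb : CBStatement) (wl : WLStatement)
    (d : ℕ) (C : Type) [Fintype C] [DecidableEq C] (k0 : ℕ) (hk : 5 ≤ k0)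
    (lam : ℕ → (C ↪ Pos d)) (A : ℝ) (hA : 0 ≤ A)
    (h : ∀ μ : ℕ → (C ↪ Pos d),
      ∏ j ∈ Finset.range (min (2 ^ k0) d), (ww j (lam j) (μ j)) ^ ((1 : ℝ) / 65) ≤ A)
    (z : C ↪ Pos d) :
    ER (Lay d (C ↪ Pos d)) d 0
      (fun μ => ∏ j ∈ Finset.range d, (ww j (lam j) (μ j)) ^ ((1 : ℝ) / 65)) z ≤
      A * Real.exp ((Fintype.card C : ℝ) * (120 * (2 : ℝ) ^ (-((2 : ℝ) ^ k0) / 64))) := by
  have h2 : (1 : ℝ) ≤ (2 : ℝ) ^ ((1 : ℝ) / 65) := Real.one_le_rpow (by norm_num) (by norm_num)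
  have h3 : (0 : ℝ) ≤ (Fintype.card C : ℝ) := by positivity
  -- pointwise bound
  have hpt : ∀ μ : ℕ → (C ↪ Pos d),
      ∏ j ∈ Finset.range d, (ww j (lam j) (μ j)) ^ ((1 : ℝ) / 65) ≤
      A * ∏ j ∈ Finset.Ico (2 ^ k0) d,
        ((2 : ℝ) ^ ((1 : ℝ) / 65)) ^ (cyc (ptnE j (lam j)) (ptnE j (μ j))) := by
    intro μ
    rw [← Finset.prod_range_mul_prod_Ico _ (Nat.min_le_right (2 ^ k0) d)]
    have e1 : Finset.Ico (min (2 ^ k0) d) d = Finset.Ico (2 ^ k0) d := by
      rcases Nat.le_total (2 ^ k0) d with h | h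
      · rw [min_eq_left h]
      · rw [min_eq_right h, Finset.Ico_self, Finset.Ico_eq_empty_of_le h]
    rw [e1]
    apply mul_le_mul (h μ) _ _ hA
    · apply Finset.prod_le_prod
      · intro j _
        exact Real.rpow_nonneg (ww_nonneg _ _ _) _
      · intro j hj
        exact rpow_ww (ww_nonneg _ _ _) (by norm_num) _ (wc d C j (Finset.mem_Ico.mp hj).2 _ _)
    · apply Finset.prod_nonneg
      intro j _
      exact Real.rpow_nonneg (ww_nonneg _ _ _) _
  refine le_trans (ER_mono _ (fun i => isMk_Lay d (C ↪ Pos d) i) d 0 _ _ hpt z) ?_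
  rw [ER_smul]
  apply mul_le_mul_of_nonneg_left _ hA
  -- combination
  have hB : ∀ k : ℕ, (1 : ℝ) ≤ Real.exp ((Fintype.card C : ℝ) *
      (((2 ^ (k - 5) : ℕ) : ℝ) + 2) / 2 ^ (2 ^ (k - 5))) := by
    intro k
    apply Real.one_le_exp
    positivity
  have hcb := cb (C ↪ Pos d) (Lay d (C ↪ Pos d)) (fun i => isMk_Lay d (C ↪ Pos d) i) d k0
    (by omega) (fun j y => ((2 : ℝ) ^ ((1 : ℝ) / 65)) ^ (cyc (ptnE j (lam j)) (ptnE j y)))
    (fun j y => one_le_pow₀ h2)
    (fun k => Real.exp ((Fintype.card C : ℝ) *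
      (((2 ^ (k - 5) : ℕ) : ℝ) + 2) / 2 ^ (2 ^ (k - 5)))) hB
    (by
      intro k hk0 j hj1 hj2 hjd z
      have hk5 : 5 ≤ k := le_trans hk hk0
      have e1 : 2 ^ (k - 1) = 16 * 2 ^ (k - 5) := by
        have : (16 : ℕ) = 2 ^ 4 := by norm_num
        rw [this, ← pow_add]
        congr 1
        omega
      have e2 : 2 ^ (k - 1) ≤ 2 ^ k := Nat.pow_le_pow_right (by norm_num) (by omega)
      have hσ : ptnE j (lam j) * ptnE j (lam j) = 1 := by
        apply Equiv.ext
        intro c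
        exact ptn_ptn j (lam j) c
      have hwl := wl d C (ptnE j (lam j)) hσ (2 ^ (k - 5)) j Nat.one_le_two_pow
        (by rw [← e1]; omega) hjd (((2 : ℝ) ^ ((1 : ℝ) / 65)) ^ (2 ^ (k + 1)))
        (one_le_pow₀ h2)
        (by
          rw [← Real.rpow_natCast ((2 : ℝ) ^ ((1 : ℝ) / 65)), ← Real.rpow_mul (by norm_num),
            ← Real.rpow_natCast (2 : ℝ) (2 ^ (k - 5))]
          apply Real.rpow_le_rpow_of_exponent_le (by norm_num)
          have e3 : (2 : ℕ) ^ (k + 1) = 64 * 2 ^ (k - 5) := by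
            have : (64 : ℕ) = 2 ^ 6 := by norm_num
            rw [this, ← pow_add]
            congr 1
            omega
          rw [e3]
          push_cast
          have : (0 : ℝ) ≤ 2 ^ (k - 5) := by positivity
          linarith) z
      rw [← e1] at hwl
      have e4 : (fun y : C ↪ Pos d => (((2 : ℝ) ^ ((1 : ℝ) / 65)) ^
          (cyc (ptnE j (lam j)) (ptnE j y))) ^ (2 ^ (k + 1))) =
        (fun y => (((2 : ℝ) ^ ((1 : ℝ) / 65)) ^ (2 ^ (k + 1))) ^
          (cyc (ptnE j (lam j)) (ptnE j y))) := by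
        funext y
        rw [← pow_mul, ← pow_mul, mul_comm]
      rw [e4]
      exact hwl) z
  refine le_trans hcb ?_
  rw [← Real.exp_sum]
  apply Real.exp_le_exp.mpr
  have e5 : ∑ k ∈ Finset.Ico k0 d, ((Fintype.card C : ℝ) *
      (((2 ^ (k - 5) : ℕ) : ℝ) + 2) / 2 ^ (2 ^ (k - 5))) =
      (Fintype.card C : ℝ) * ∑ k ∈ Finset.Ico k0 d,
        (((2 ^ (k - 5) : ℕ) : ℝ) + 2) / 2 ^ (2 ^ (k - 5)) := by
    rw [Finset.mul_sum]
    apply Finset.sum_congr rfl
    intro k _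
    rw [mul_div_assoc]
  rw [e5]
  exact mul_le_mul_of_nonneg_left (num2 k0 d hk) h3

/-- on valid paths the number of blocks does not change below `j0` -/
theorem nblk_path {d : ℕ} {C : Type} [Fintype C] [DecidableEq C] (j0 n : ℕ)
    (lam : ℕ → (C ↪ Pos d)) (h : ∀ j < n, rel j (lam (j + 1)) (lam j)) (m : ℕ) :
    ∀ j, j + m = j0 → j0 ≤ n → nblk j0 (lam j) = nblk j0 (lam j0) := by
  induction m with
  | zero => intro j hj _; rw [← hj]; rfl
  | succ m ih =>
    intro j hj hn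
    rw [← ih (j + 1) (by omega) hn]
    unfold nblk
    congr 1
    apply Finset.image_congr
    intro c _
    funext i
    show (if (i : ℕ) < j0 then false else (lam j) c i) =
      (if (i : ℕ) < j0 then false else (lam (j + 1)) c i)
    by_cases h1 : (i : ℕ) < j0
    · rw [if_pos h1, if_pos h1]
    · rw [if_neg h1, if_neg h1]
      exact (h j (by omega) c i (by omega)).symm

end SBm

open SBm in
theorem sb_main : SBStatement := by
  intro ur wc wb ss ev cb wl
  refine ⟨400, by norm_num, ?_⟩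
  intro d C _ _ hC x
  have h65 : (0 : ℝ) ≤ 1 / 65 := by norm_num
  have hq0 : (0 : ℝ) ≤ (Fintype.card C : ℝ) := by positivity
  have hn0 : (0 : ℝ) < 2 ^ d := by positivity
  rw [ur d C (1 / 65) d x]
  obtain ⟨ev1, ev2⟩ := ev d C d x
  rcases Nat.eq_zero_or_pos (Fintype.card C) with hq | hq
  · -- no cards
    have hcyc : ∀ σ τ : Equiv.Perm C, cyc σ τ = 0 := by
      intro σ τ
      unfold cyc freeOrb
      have : (Finset.univ : Finset C) = ∅ := by
        rw [Finset.univ_eq_empty_iff]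
        exact Fintype.card_eq_zero_iff.mp hq
      rw [this]
      simp
    have hle : EL (Lay d (C ↪ Pos d)) d (fun lam =>
        ER (Lay d (C ↪ Pos d)) d 0
          (fun μ => ∏ j ∈ Finset.range d, (ww j (lam j) (μ j)) ^ ((1 : ℝ) / 65)) (lam 0)) x ≤
        EL (Lay d (C ↪ Pos d)) d (fun lam => (fun _ : C ↪ Pos d => (1 : ℝ)) (lam d)) x := by
      apply ev1
      intro lam _ _
      have h1 : ∀ μ : ℕ → (C ↪ Pos d),
          ∏ j ∈ Finset.range d, (ww j (lam j) (μ j)) ^ ((1 : ℝ) / 65) ≤ 1 := by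
        intro μ
        apply Finset.prod_le_one
        · intro j _; exact Real.rpow_nonneg (ww_nonneg _ _ _) _
        · intro j hj
          have := rpow_ww (ww_nonneg j (lam j) (μ j)) h65 _
            (wc d C j (Finset.mem_range.mp hj) (lam j) (μ j))
          rw [hcyc, pow_zero] at this
          exact this
      refine le_trans (ER_mono _ (fun i => isMk_Lay d (C ↪ Pos d) i) d 0 _ (fun _ => 1) h1 _) ?_
      have hone : ∀ (n i : ℕ) (z : C ↪ Pos d),
          ER (Lay d (C ↪ Pos d)) n i (fun _ => (1 : ℝ)) z = 1 := by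
        intro n
        induction n with
        | zero => intro i z; rfl
        | succ n ih =>
          intro i z
          have e1 : ER (Lay d (C ↪ Pos d)) (n + 1) i (fun _ => (1 : ℝ)) z =
            Lay d (C ↪ Pos d) i
              (fun y => ER (Lay d (C ↪ Pos d)) n (i + 1) (fun _ => (1 : ℝ)) y) z := rfl
          rw [e1]
          have e2 : (fun y => ER (Lay d (C ↪ Pos d)) n (i + 1) (fun _ => (1 : ℝ)) y) =
            fun _ => 1 := by
            funext y; exact ih _ _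
          rw [e2, (isMk_Lay d (C ↪ Pos d) i).one]
      rw [hone]
    refine le_trans hle ?_
    rw [ev2 d (fun _ => 1) le_rfl, Nat.sub_self]
    have : Dn (Lay d (C ↪ Pos d)) d 0 (fun _ => (1 : ℝ)) x = 1 := rfl
    rw [this, hq]
    simp
  · have hq1 : (1 : ℝ) ≤ (Fintype.card C : ℝ) := by exact_mod_cast hq
    by_cases hsmall : Fintype.card C * 4 ^ (2 ^ 5) ≤ 2 ^ d
    · -- choose the scale
      have hd64 : 64 ≤ d := by
        have h1 : 2 ^ 64 ≤ 2 ^ d := by
          refine le_trans ?_ hsmall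
          have : (2 : ℕ) ^ 64 = 4 ^ (2 ^ 5) := by norm_num
          rw [this]
          exact Nat.le_mul_of_pos_left _ hq
        exact (Nat.pow_le_pow_iff_right (by norm_num)).mp h1
      set k0 := Nat.findGreatest (fun k => Fintype.card C * 4 ^ (2 ^ k) ≤ 2 ^ d) d with hk0
      have hk5 : 5 ≤ k0 := Nat.le_findGreatest (by omega) hsmall
      have hspec : Fintype.card C * 4 ^ (2 ^ k0) ≤ 2 ^ d := by
        have := Nat.findGreatest_spec (P := fun k => Fintype.card C * 4 ^ (2 ^ k) ≤ 2 ^ d)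
          (by omega : 5 ≤ d) hsmall
        exact this
      have hnext : 2 ^ d < Fintype.card C * 4 ^ (2 ^ (k0 + 1)) := by
        by_contra hcon
        push Not at hcon
        have h1 : k0 + 1 ≤ d := by
          have h2 : 2 ^ (2 ^ (k0 + 1)) ≤ 2 ^ d := by
            refine le_trans ?_ (le_trans (Nat.le_mul_of_pos_left _ hq) hcon)
            exact Nat.pow_le_pow_left (by norm_num) _
          have h3 : 2 ^ (k0 + 1) ≤ d := (Nat.pow_le_pow_iff_right (by norm_num)).mp h2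
          have h4 : k0 + 1 < 2 ^ (k0 + 1) := Nat.lt_two_pow_self
          omega
        have h5 := Nat.le_findGreatest (P := fun k => Fintype.card C * 4 ^ (2 ^ k) ≤ 2 ^ d)
          h1 hcon
        omega
      have hj0d : 2 ^ k0 ≤ d := by
        have h2 : 2 ^ (2 ^ k0) ≤ 2 ^ d := by
          refine le_trans ?_ (le_trans (Nat.le_mul_of_pos_left _ hq) hspec)
          exact Nat.pow_le_pow_left (by norm_num) _
        exact (Nat.pow_le_pow_iff_right (by norm_num)).mp h2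
      set θ1 : ℝ := ((2 : ℝ) ^ ((1 : ℝ) / 65)) ^ (2 ^ k0) with hθ1
      have h2 : (1 : ℝ) ≤ (2 : ℝ) ^ ((1 : ℝ) / 65) := Real.one_le_rpow (by norm_num) (by norm_num)
      have hθ1' : 1 ≤ θ1 := one_le_pow₀ h2
      set M : ℝ := Real.exp ((Fintype.card C : ℝ) * (120 * (2 : ℝ) ^ (-((2 : ℝ) ^ k0) / 64)))
        with hM
      have hle : EL (Lay d (C ↪ Pos d)) d (fun lam =>
          ER (Lay d (C ↪ Pos d)) d 0
            (fun μ => ∏ j ∈ Finset.range d, (ww j (lam j) (μ j)) ^ ((1 : ℝ) / 65)) (lam 0)) x ≤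
          EL (Lay d (C ↪ Pos d)) d (fun lam => (fun y : C ↪ Pos d =>
            θ1 ^ (Fintype.card C - nblk (2 ^ k0) y) * M) (lam (2 ^ k0))) x := by
        apply ev1
        intro lam _ hpath
        apply tail wc cb wl d C k0 hk5 lam _ (by positivity)
        intro μ
        rw [min_eq_left hj0d]
        have h3 : ∀ j ∈ Finset.range (2 ^ k0), (ww j (lam j) (μ j)) ^ ((1 : ℝ) / 65) ≤
            ((2 : ℝ) ^ ((1 : ℝ) / 65)) ^ (Fintype.card C - nblk (2 ^ k0) (lam (2 ^ k0))) := by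
          intro j hj
          have hj' := Finset.mem_range.mp hj
          have h4 := wb d C j (2 ^ k0) (by omega) hj' (lam j) (μ j)
          rw [nblk_path (2 ^ k0) d lam hpath (2 ^ k0 - j) j (by omega) hj0d] at h4
          exact rpow_ww (ww_nonneg _ _ _) h65 _ h4
        refine le_trans (Finset.prod_le_prod
          (fun j _ => Real.rpow_nonneg (ww_nonneg _ _ _) _) h3) ?_
        rw [Finset.prod_const, Finset.card_range, hθ1, ← pow_mul, ← pow_mul]
        apply le_of_eq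
        congr 1
        ring
      refine le_trans hle ?_
      rw [ev2 (2 ^ k0) (fun y : C ↪ Pos d =>
            θ1 ^ (Fintype.card C - nblk (2 ^ k0) y) * M) hj0d, Dn_smul]
      -- small scales
      have hθa : θ1 ≤ (2 : ℝ) ^ (2 ^ k0) := by
        rw [hθ1]
        apply pow_le_pow_left₀ (by positivity)
        calc (2 : ℝ) ^ ((1 : ℝ) / 65) ≤ (2 : ℝ) ^ (1 : ℝ) :=
              Real.rpow_le_rpow_of_exponent_le (by norm_num) (by norm_num)
          _ = 2 := Real.rpow_one 2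
      have haq : (2 : ℝ) ^ (2 ^ k0) * (Fintype.card C : ℝ) ≤ 2 ^ (d - 2 ^ k0) := by
        have h3 : (2 : ℕ) ^ (2 ^ k0) * Fintype.card C ≤ 2 ^ (d - 2 ^ k0) := by
          have h4 : (2 : ℕ) ^ d = 2 ^ (d - 2 ^ k0) * 2 ^ (2 ^ k0) := by
            rw [← pow_add]; congr 1; omega
          have h5 : (4 : ℕ) ^ (2 ^ k0) = 2 ^ (2 ^ k0) * 2 ^ (2 ^ k0) := by
            have h50 : (4 : ℕ) = 2 * 2 := by norm_num
            rw [h50, mul_pow]
          rw [h4, h5] at hspec
          have h6 : (2 ^ (2 ^ k0) * Fintype.card C) * 2 ^ (2 ^ k0) ≤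
              2 ^ (d - 2 ^ k0) * 2 ^ (2 ^ k0) := by
            calc (2 ^ (2 ^ k0) * Fintype.card C) * 2 ^ (2 ^ k0) =
                Fintype.card C * (2 ^ (2 ^ k0) * 2 ^ (2 ^ k0)) := by ring
              _ ≤ _ := hspec
          exact Nat.le_of_mul_le_mul_right h6 (by positivity)
        exact_mod_cast h3
      have hss := ss d C (2 ^ k0) hj0d θ1 ((2 : ℝ) ^ (2 ^ k0)) hθ1' hθa haq x
      have hM0 : 0 ≤ M := (Real.exp_pos _).le
      refine le_trans (mul_le_mul_of_nonneg_right hss hM0) ?_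
      rw [hM, ← Real.exp_add]
      apply Real.exp_le_exp.mpr
      -- final numerics
      have hkey : (2 : ℝ) ^ (-((2 : ℝ) ^ k0) / 64) ≤
          ((Fintype.card C : ℝ) / 2 ^ d) ^ ((1 : ℝ) / 256) := by
        have h3 : (2 : ℝ) ^ (-(4 * (2 : ℝ) ^ k0)) ≤ (Fintype.card C : ℝ) / 2 ^ d := by
          rw [le_div_iff₀ hn0, Real.rpow_neg (by norm_num), inv_mul_le_iff₀ (by positivity)]
          have h4 : (2 : ℝ) ^ (4 * (2 : ℝ) ^ k0) = (4 : ℝ) ^ (2 ^ (k0 + 1)) := by
            have h5 : (4 : ℝ) * (2 : ℝ) ^ k0 = ((4 * 2 ^ k0 : ℕ) : ℝ) := by push_cast; ring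
            rw [h5, Real.rpow_natCast]
            have h6 : (4 : ℝ) = 2 ^ 2 := by norm_num
            rw [h6, ← pow_mul]
            congr 1
            ring
          rw [h4]
          have h7 : ((2 ^ d : ℕ) : ℝ) ≤ ((Fintype.card C * 4 ^ (2 ^ (k0 + 1)) : ℕ) : ℝ) :=
            Nat.cast_le.mpr hnext.le
          push_cast at h7
          linarith
        have h8 := Real.rpow_le_rpow (by positivity) h3 (by norm_num : (0 : ℝ) ≤ 1 / 256)
        rw [← Real.rpow_mul (by norm_num)] at h8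
        have h9 : -(4 * (2 : ℝ) ^ k0) * (1 / 256) = -((2 : ℝ) ^ k0) / 64 := by ring
        rw [h9] at h8
        exact h8
      have hrat : θ1 / (2 : ℝ) ^ (2 ^ k0) ≤ (2 : ℝ) ^ (-((2 : ℝ) ^ k0) / 64) := by
        rw [hθ1, ← Real.rpow_natCast ((2 : ℝ) ^ ((1 : ℝ) / 65)), ← Real.rpow_natCast (2 : ℝ),
          ← Real.rpow_mul (by norm_num), ← Real.rpow_sub (by norm_num)]
        apply Real.rpow_le_rpow_of_exponent_le (by norm_num)
        push_cast
        have : (0 : ℝ) ≤ 2 ^ k0 := by positivity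
        linarith
      have h10 : 2 * θ1 * (Fintype.card C : ℝ) / (2 : ℝ) ^ (2 ^ k0) =
          2 * (Fintype.card C : ℝ) * (θ1 / (2 : ℝ) ^ (2 ^ k0)) := by ring
      rw [h10]
      have h11 := mul_le_mul_of_nonneg_left hrat (by positivity : 0 ≤ 2 * (Fintype.card C : ℝ))
      have h12 := mul_le_mul_of_nonneg_left hkey (by positivity : 0 ≤ 122 * (Fintype.card C : ℝ))
      have h13 : (0 : ℝ) ≤ ((Fintype.card C : ℝ) / 2 ^ d) ^ ((1 : ℝ) / 256) := by positivity
      nlinarith [mul_nonneg hq0 h13]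
    · -- many cards
      push Not at hsmall
      set M : ℝ := Real.exp ((Fintype.card C : ℝ) * (120 * (2 : ℝ) ^ (-((2 : ℝ) ^ 5) / 64)))
        with hM
      have h2 : (1 : ℝ) ≤ (2 : ℝ) ^ ((1 : ℝ) / 65) := Real.one_le_rpow (by norm_num) (by norm_num)
      have hle : EL (Lay d (C ↪ Pos d)) d (fun lam =>
          ER (Lay d (C ↪ Pos d)) d 0
            (fun μ => ∏ j ∈ Finset.range d, (ww j (lam j) (μ j)) ^ ((1 : ℝ) / 65)) (lam 0)) x ≤
          EL (Lay d (C ↪ Pos d)) d (fun lam => (fun _ : C ↪ Pos d =>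
            (2 : ℝ) ^ Fintype.card C * M) (lam d)) x := by
        apply ev1
        intro lam _ hpath
        apply tail wc cb wl d C 5 le_rfl lam _ (by positivity)
        intro μ
        have h3 : ∀ j ∈ Finset.range (min (2 ^ 5) d), (ww j (lam j) (μ j)) ^ ((1 : ℝ) / 65) ≤
            ((2 : ℝ) ^ ((1 : ℝ) / 65)) ^ (Fintype.card C) := by
          intro j hj
          have hj' := Finset.mem_range.mp hj
          have h4 := wb d C j (2 ^ 5) (by omega) (by omega) (lam j) (μ j)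
          refine rpow_ww (ww_nonneg _ _ _) h65 _ (le_trans h4 ?_)
          exact pow_le_pow_right₀ (by norm_num) (Nat.sub_le _ _)
        refine le_trans (Finset.prod_le_prod
          (fun j _ => Real.rpow_nonneg (ww_nonneg _ _ _) _) h3) ?_
        rw [Finset.prod_const, Finset.card_range, ← pow_mul, mul_comm, pow_mul]
        apply pow_le_pow_left₀ (by positivity)
        calc ((2 : ℝ) ^ ((1 : ℝ) / 65)) ^ (min (2 ^ 5) d) ≤ ((2 : ℝ) ^ ((1 : ℝ) / 65)) ^ 65 :=
              pow_le_pow_right₀ h2 (by omega)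
          _ = 2 := by
              rw [← Real.rpow_natCast, ← Real.rpow_mul (by norm_num)]
              norm_num
      refine le_trans hle ?_
      rw [ev2 d (fun _ : C ↪ Pos d => (2 : ℝ) ^ Fintype.card C * M) le_rfl, Nat.sub_self]
      have e0 : Dn (Lay d (C ↪ Pos d)) d 0 (fun _ : C ↪ Pos d => (2 : ℝ) ^ Fintype.card C * M) x =
        (2 : ℝ) ^ Fintype.card C * M := rfl
      rw [e0]
      have e1 : (2 : ℝ) ^ Fintype.card C ≤ Real.exp (Fintype.card C : ℝ) := by
        have : (2 : ℝ) ≤ Real.exp 1 := by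
          have := Real.add_one_le_exp (1 : ℝ)
          linarith
        calc (2 : ℝ) ^ Fintype.card C ≤ (Real.exp 1) ^ Fintype.card C :=
              pow_le_pow_left₀ (by norm_num) this _
          _ = Real.exp (Fintype.card C : ℝ) := by
              rw [← Real.exp_nat_mul, mul_one]
      have e2 : M ≤ Real.exp ((Fintype.card C : ℝ) * 120) := by
        rw [hM]
        apply Real.exp_le_exp.mpr
        apply mul_le_mul_of_nonneg_left _ hq0
        have : (2 : ℝ) ^ (-((2 : ℝ) ^ 5) / 64) ≤ 1 :=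
          Real.rpow_le_one_of_one_le_of_nonpos (by norm_num) (by norm_num)
        linarith
      refine le_trans (mul_le_mul e1 e2 (Real.exp_pos _).le (Real.exp_pos _).le) ?_
      rw [← Real.exp_add]
      apply Real.exp_le_exp.mpr
      have hkey : (1 : ℝ) / 2 ≤ ((Fintype.card C : ℝ) / 2 ^ d) ^ ((1 : ℝ) / 256) := by
        have h3 : (2 : ℝ) ^ (-(64 : ℝ)) ≤ (Fintype.card C : ℝ) / 2 ^ d := by
          rw [le_div_iff₀ hn0, Real.rpow_neg (by norm_num), inv_mul_le_iff₀ (by positivity)]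
          have h7 : ((2 ^ d : ℕ) : ℝ) ≤ ((Fintype.card C * 4 ^ (2 ^ 5) : ℕ) : ℝ) :=
            Nat.cast_le.mpr hsmall.le
          rw [Nat.cast_mul, Nat.cast_pow, Nat.cast_pow] at h7
          have h8 : (2 : ℝ) ^ (64 : ℝ) = ((4 : ℕ) : ℝ) ^ (2 ^ 5) := by
            have : (64 : ℝ) = ((64 : ℕ) : ℝ) := by norm_num
            rw [this, Real.rpow_natCast]
            norm_num
          rw [h8, mul_comm]
          exact h7
        have h8 := Real.rpow_le_rpow (by positivity) h3 (by norm_num : (0 : ℝ) ≤ 1 / 256)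
        rw [← Real.rpow_mul (by norm_num)] at h8
        refine le_trans ?_ h8
        have h9 : (1 : ℝ) / 2 = (2 : ℝ) ^ (-1 : ℝ) := by
          rw [Real.rpow_neg (by norm_num), Real.rpow_one]
          norm_num
        rw [h9]
        apply Real.rpow_le_rpow_of_exponent_le (by norm_num)
        norm_num
      nlinarith [mul_le_mul_of_nonneg_left hkey hq0]

end P162L
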