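/-
P162 (Thorp shuffle): geometric decay of the distance and the order of growth for every level
(helper13).
-/
import Vale.Agent.P162.Log.LB

namespace P162L

open scoped BigOperators Nat
open Filter Asymptotics

variable {G : Type*} [Group G] [Fintype G]

theorem conv_assoc' (a b c : G → ℝ) : P162.conv (P162.conv a b) c = P162.conv a (P162.conv b c) := by
  funext g
  unfold P162.conv
  calc ∑ h, (∑ k, a k * b (k⁻¹ * h)) * c (h⁻¹ * g)
      = ∑ h, ∑ k, a k * (b (k⁻¹ * h) * c (h⁻¹ * g)) := by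
        refine Finset.sum_congr rfl fun h _ => ?_
        rw [Finset.sum_mul]
        exact Finset.sum_congr rfl fun k _ => by ring
    _ = ∑ k, ∑ h, a k * (b (k⁻¹ * h) * c (h⁻¹ * g)) := Finset.sum_comm
    _ = ∑ k, a k * ∑ h, b h * c (h⁻¹ * (k⁻¹ * g)) := by
        refine Finset.sum_congr rfl fun k _ => ?_
        rw [← Finset.mul_sum]
        congr 1
        rw [← Equiv.sum_comp (Equiv.mulLeft k) (fun h => b (k⁻¹ * h) * c (h⁻¹ * g))]
        refine Finset.sum_congr rfl fun h _ => ?_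
        show b (k⁻¹ * (k * h)) * c ((k * h)⁻¹ * g) = b h * c (h⁻¹ * (k⁻¹ * g))
        rw [inv_mul_cancel_left, mul_inv_rev, mul_assoc]

theorem convPow_add [DecidableEq G] (a : G → ℝ) (s t : ℕ) :
    P162.convPow a (s + t) = P162.conv (P162.convPow a s) (P162.convPow a t) := by
  induction s with
  | zero =>
    rw [Nat.zero_add]
    funext g
    show _ = ∑ h, (if h = 1 then (1 : ℝ) else 0) * P162.convPow a t (h⁻¹ * g)
    simp
  | succ s ih =>
    have e : s + 1 + t = (s + t) + 1 := by omega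
    rw [e]
    show P162.conv a (P162.convPow a (s + t)) =
      P162.conv (P162.conv a (P162.convPow a s)) (P162.convPow a t)
    rw [ih, conv_assoc']

/-- the `l¹` norm is submultiplicative. -/
theorem l1_conv (a b : G → ℝ) :
    ∑ g, |P162.conv a b g| ≤ (∑ g, |a g|) * ∑ g, |b g| := by
  unfold P162.conv
  calc ∑ g, |∑ h, a h * b (h⁻¹ * g)| ≤ ∑ g, ∑ h, |a h| * |b (h⁻¹ * g)| := by
        refine Finset.sum_le_sum fun g _ => ?_
        refine (Finset.abs_sum_le_sum_abs _ _).trans (le_of_eq ?_)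
        exact Finset.sum_congr rfl fun h _ => abs_mul _ _
    _ = ∑ h, ∑ g, |a h| * |b (h⁻¹ * g)| := Finset.sum_comm
    _ = (∑ g, |a g|) * ∑ g, |b g| := by
        rw [Finset.sum_mul]
        refine Finset.sum_congr rfl fun h _ => ?_
        rw [← Finset.mul_sum]
        congr 1
        exact Equiv.sum_comp (Equiv.mulLeft h⁻¹) (fun g => |b g|)

/-- centred laws multiply. -/
theorem conv_centred (a b : G → ℝ) (ha : ∑ g, a g = 1) (hb : ∑ g, b g = 1) (u : ℝ)
    (hu : (Fintype.card G : ℝ) * u = 1) :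
    P162.conv (fun g => a g - u) (fun g => b g - u) = fun g => P162.conv a b g - u := by
  funext g
  unfold P162.conv
  have h1 : ∑ h, b (h⁻¹ * g) = 1 := by
    rw [← hb]
    have := Equiv.sum_comp ((Equiv.inv G).trans (Equiv.mulRight g)) b
    rw [← this]
    rfl
  have h2 : ∑ _h : G, u = 1 := by
    rw [Finset.sum_const, Finset.card_univ, nsmul_eq_mul]; exact hu
  calc ∑ h, (a h - u) * (b (h⁻¹ * g) - u)
      = ∑ h, (a h * b (h⁻¹ * g) - u * a h - u * b (h⁻¹ * g) + u * u) :=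
        Finset.sum_congr rfl fun h _ => by ring
    _ = ∑ h, a h * b (h⁻¹ * g) - u := by
        rw [Finset.sum_add_distrib, Finset.sum_sub_distrib, Finset.sum_sub_distrib,
          ← Finset.mul_sum, ← Finset.mul_sum, ← Finset.mul_sum, ha, h1, h2]
        ring

theorem tv_add (k s t : ℕ) :
    2 * P162.tvUnif (P162.convPow (P162.thorpLaw k) (s + t)) ≤
      (2 * P162.tvUnif (P162.convPow (P162.thorpLaw k) s)) *
        (2 * P162.tvUnif (P162.convPow (P162.thorpLaw k) t)) := by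
  have hpos : (0 : ℝ) < (Fintype.card (Equiv.Perm (Fin (2 * k))) : ℝ) := by
    exact_mod_cast Fintype.card_pos
  have hu : (Fintype.card (Equiv.Perm (Fin (2 * k))) : ℝ) *
      (1 / (Fintype.card (Equiv.Perm (Fin (2 * k))) : ℝ)) = 1 := by
    field_simp
  have h1 := conv_centred _ _ (sum_convPow k s) (sum_convPow k t) _ hu
  have h2 := l1_conv
    (fun g => P162.convPow (P162.thorpLaw k) s g -
      1 / (Fintype.card (Equiv.Perm (Fin (2 * k))) : ℝ))
    (fun g => P162.convPow (P162.thorpLaw k) t g -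
      1 / (Fintype.card (Equiv.Perm (Fin (2 * k))) : ℝ))
  rw [h1, ← convPow_add] at h2
  unfold P162.tvUnif
  have e : ∀ x : ℝ, 2 * (1 / 2 * x) = x := fun x => by ring
  rw [e, e, e]
  exact h2

theorem thorpLaw_nonneg (k : ℕ) (g : Equiv.Perm (Fin (2 * k))) : 0 ≤ P162.thorpLaw k g := by
  unfold P162.thorpLaw
  positivity

theorem convPow_nonneg (k t : ℕ) (g : Equiv.Perm (Fin (2 * k))) :
    0 ≤ P162.convPow (P162.thorpLaw k) t g := by
  induction t generalizing g with
  | zero =>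
    show 0 ≤ (if g = 1 then (1 : ℝ) else 0)
    split_ifs <;> norm_num
  | succ t ih =>
    show 0 ≤ P162.conv _ _ g
    unfold P162.conv
    exact Finset.sum_nonneg fun h _ => mul_nonneg (thorpLaw_nonneg k h) (ih _)

theorem tv_nonneg (k t : ℕ) : 0 ≤ P162.tvUnif (P162.convPow (P162.thorpLaw k) t) := by
  unfold P162.tvUnif
  have := Finset.sum_nonneg (s := (Finset.univ : Finset (Equiv.Perm (Fin (2 * k)))))
    (f := fun g => |P162.convPow (P162.thorpLaw k) t g -
      1 / (Fintype.card (Equiv.Perm (Fin (2 * k))) : ℝ)|) (fun g _ => abs_nonneg _)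
  linarith

theorem tv_le_one (k t : ℕ) : P162.tvUnif (P162.convPow (P162.thorpLaw k) t) ≤ 1 := by
  have hpos : (0 : ℝ) < (Fintype.card (Equiv.Perm (Fin (2 * k))) : ℝ) := by
    exact_mod_cast Fintype.card_pos
  unfold P162.tvUnif
  have h1 : ∑ g, |P162.convPow (P162.thorpLaw k) t g -
      1 / (Fintype.card (Equiv.Perm (Fin (2 * k))) : ℝ)| ≤
      ∑ g, (P162.convPow (P162.thorpLaw k) t g +
        1 / (Fintype.card (Equiv.Perm (Fin (2 * k))) : ℝ)) := by
    refine Finset.sum_le_sum fun g _ => ?_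
    have h2 := convPow_nonneg k t g
    have h3 : (0 : ℝ) < 1 / (Fintype.card (Equiv.Perm (Fin (2 * k))) : ℝ) := by positivity
    rw [abs_le]
    constructor <;> linarith
  rw [Finset.sum_add_distrib, sum_convPow, Finset.sum_const, Finset.card_univ, nsmul_eq_mul] at h1
  have h4 : (Fintype.card (Equiv.Perm (Fin (2 * k))) : ℝ) *
      (1 / (Fintype.card (Equiv.Perm (Fin (2 * k))) : ℝ)) = 1 := by
    field_simp
  rw [h4] at h1
  linarith

/-- geometric decay. -/
theorem tv_geom (C : ℕ) (hC : ∀ d t : ℕ, C * (d + 1) ≤ t →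
    P162.tvUnif (P162.convPow (P162.thorpLaw (2 ^ d)) t) ≤ 1 / 4) (d : ℕ) :
    ∀ j t : ℕ, C * (d + 1) * j ≤ t →
      P162.tvUnif (P162.convPow (P162.thorpLaw (2 ^ d)) t) ≤ (1 / 2) ^ j := by
  intro j
  induction j with
  | zero => intro t _; rw [pow_zero]; exact tv_le_one _ _
  | succ j ih =>
    intro t ht
    have h1 : C * (d + 1) + C * (d + 1) * j ≤ t := by
      calc C * (d + 1) + C * (d + 1) * j = C * (d + 1) * (j + 1) := by ring
        _ ≤ t := ht
    obtain ⟨r, hr⟩ := Nat.exists_eq_add_of_le (le_trans (Nat.le_add_right _ _) h1)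
    have h2 : C * (d + 1) * j ≤ r := by omega
    have h3 := tv_add (2 ^ d) (C * (d + 1)) r
    have h4 := hC d (C * (d + 1)) le_rfl
    have h5 := ih r h2
    have h6 := tv_nonneg (2 ^ d) (C * (d + 1))
    have h7 := tv_nonneg (2 ^ d) r
    rw [← hr] at h3
    have h8 : (2 * P162.tvUnif (P162.convPow (P162.thorpLaw (2 ^ d)) (C * (d + 1)))) *
        (2 * P162.tvUnif (P162.convPow (P162.thorpLaw (2 ^ d)) r)) ≤
        (1 / 2) * (2 * (1 / 2) ^ j) := by
      apply mul_le_mul <;> linarith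
    rw [pow_succ]
    linarith

/-- fewer than `d` shuffles leave the law far from uniform. -/
theorem tv_low (d t : ℕ) (hd : 1 ≤ d) (ht : t < d) :
    1 - 1 / (2 * ((2 ^ (d - 1))! : ℝ)) ≤
      P162.tvUnif (P162.convPow (P162.thorpLaw (2 ^ (d - 1))) t) := by
  refine le_trans ?_ (tv_lower (2 ^ (d - 1)) t)
  set k := 2 ^ (d - 1) with hk
  have hk1 : 1 ≤ k := Nat.one_le_two_pow
  have h1 : k.factorial * (k + 1) ^ k ≤ (2 * k).factorial := by
    rw [two_mul]
    exact Nat.factorial_mul_pow_le_factorial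
  have h2 : 2 ^ (k * t) ≤ k ^ k := by
    calc 2 ^ (k * t) ≤ 2 ^ ((d - 1) * k) := by
          apply Nat.pow_le_pow_right (by norm_num)
          rw [mul_comm]
          exact Nat.mul_le_mul_right _ (by omega)
      _ = k ^ k := by
          rw [pow_mul]
  have h3 : 2 * k ^ k ≤ (k + 1) ^ k := by
    have hb := one_add_mul_le_pow (R := ℝ) (a := 1 / (k : ℝ)) (by
      have : (0 : ℝ) < 1 / (k : ℝ) := by positivity
      linarith) k
    have hk0 : (0 : ℝ) < (k : ℝ) := by exact_mod_cast hk1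
    have h4 : (1 : ℝ) + k * (1 / k) = 2 := by
      field_simp
      norm_num
    rw [h4] at hb
    have h5 : (2 : ℝ) * k ^ k ≤ (k + 1) ^ k := by
      calc (2 : ℝ) * k ^ k ≤ (1 + 1 / k) ^ k * k ^ k := by gcongr
        _ = (k + 1) ^ k := by
          rw [← mul_pow]
          congr 1
          field_simp
    exact_mod_cast h5
  have h4 : (2 * k.factorial) * 2 ^ (k * t) ≤ (2 * k).factorial := by
    calc (2 * k.factorial) * 2 ^ (k * t) ≤ (2 * k.factorial) * k ^ k := Nat.mul_le_mul_left _ h2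
      _ = k.factorial * (2 * k ^ k) := by ring
      _ ≤ k.factorial * (k + 1) ^ k := Nat.mul_le_mul_left _ h3
      _ ≤ _ := h1
  have h5 : (2 * (k.factorial : ℝ)) * 2 ^ (k * t) ≤ ((2 * k).factorial : ℝ) := by
    exact_mod_cast h4
  have h6 : (0 : ℝ) < ((2 * k).factorial : ℝ) := by exact_mod_cast Nat.factorial_pos _
  have h8 : (0 : ℝ) < (k.factorial : ℝ) := by exact_mod_cast Nat.factorial_pos _
  have h7 : (2 : ℝ) ^ (k * t) / ((2 * k).factorial : ℝ) ≤ 1 / (2 * (k.factorial : ℝ)) := by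
    rw [div_le_div_iff₀ h6 (by positivity)]
    linarith
  linarith

/-- the order of growth of the first time below the level `ε`. -/
theorem theta_of (f : ℕ → ℕ → ℝ) (C : ℕ)
    (hup : ∀ d : ℕ, 1 ≤ d → ∀ j t : ℕ, C * d * j ≤ t → f d t ≤ (1 / 2) ^ j)
    (hlow : ∀ d t : ℕ, 1 ≤ d → t < d → 1 - 1 / (2 * ((2 ^ (d - 1))! : ℝ)) ≤ f d t)
    (ε : ℝ) (h0 : 0 < ε) (h1 : ε < 1) :
    (fun d : ℕ => ((sInf {t : ℕ | f d t ≤ ε} : ℕ) : ℝ)) =Θ[atTop]
      fun d : ℕ => Real.log ((2 : ℝ) ^ d) := by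
  have hlog : (0 : ℝ) < Real.log 2 := Real.log_pos (by norm_num)
  obtain ⟨j, hj⟩ := exists_pow_lt_of_lt_one h0 (show (1 / 2 : ℝ) < 1 by norm_num)
  have hmem : ∀ d : ℕ, 1 ≤ d → C * d * j ∈ {t : ℕ | f d t ≤ ε} := fun d hd =>
    (hup d hd j _ le_rfl).trans hj.le
  constructor
  · refine IsBigO.of_bound ((C * j : ℕ) / Real.log 2) ?_
    filter_upwards [eventually_ge_atTop 1] with d hd
    rw [Real.norm_of_nonneg (Nat.cast_nonneg _), Real.log_pow, Real.norm_of_nonneg (by positivity)]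
    have h2 : sInf {t : ℕ | f d t ≤ ε} ≤ C * d * j := Nat.sInf_le (hmem d hd)
    have h3 : ((sInf {t : ℕ | f d t ≤ ε} : ℕ) : ℝ) ≤ ((C * d * j : ℕ) : ℝ) := by exact_mod_cast h2
    refine h3.trans (le_of_eq ?_)
    push_cast
    field_simp
  · refine IsBigO.of_bound 1 ?_
    obtain ⟨N, hN⟩ := exists_nat_gt (1 / (1 - ε))
    filter_upwards [eventually_ge_atTop (N + 1)] with d hd
    rw [one_mul, Real.norm_of_nonneg (Nat.cast_nonneg _), Real.log_pow,
      Real.norm_of_nonneg (by positivity)]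
    have hd1 : 1 ≤ d := by omega
    have h3 : d ≤ sInf {t : ℕ | f d t ≤ ε} := by
      by_contra hcon
      have h4 : f d (sInf {t : ℕ | f d t ≤ ε}) ≤ ε := Nat.sInf_mem ⟨_, hmem d hd1⟩
      have h5 := hlow d _ hd1 (not_le.1 hcon)
      have h6 : (N : ℝ) ≤ ((2 ^ (d - 1))! : ℝ) := by
        have h7 : N ≤ (2 ^ (d - 1))! := by
          calc N ≤ d - 1 := by omega
            _ ≤ 2 ^ (d - 1) := Nat.lt_two_pow_self.le
            _ ≤ (2 ^ (d - 1))! := Nat.self_le_factorial _
        exact_mod_cast h7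
      have h8 : 0 < 1 - ε := by linarith
      have h9 : 0 < 1 / (1 - ε) := by positivity
      have h10 : (0 : ℝ) < N := h9.trans hN
      have h11 : 1 / (2 * ((2 ^ (d - 1))! : ℝ)) < 1 - ε := by
        have h12 : (0 : ℝ) < 2 * ((2 ^ (d - 1))! : ℝ) := by positivity
        rw [div_lt_iff₀ h12]
        have h13 : 1 < N * (1 - ε) := by
          rwa [div_lt_iff₀ h8] at hN
        nlinarith
      linarith
    have h14 : (d : ℝ) ≤ ((sInf {t : ℕ | f d t ≤ ε} : ℕ) : ℝ) := by exact_mod_cast h3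
    refine le_trans ?_ h14
    have h15 : Real.log 2 ≤ 1 := by
      have := Real.log_two_lt_d9
      linarith
    nlinarith [Nat.cast_nonneg (α := ℝ) d]

end P162L
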